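import Vale.Agent.Lib.P369.AlgPoly

/-!
# JOB E3b: coefficient-level identities for `F`, `G` (P369)

This job: lemmas of this file from the polynomial identities of `AlgPoly.lean`.

Uses only the recursions of `AmpRec`, `GRec`.  Write `α = alphaP η`, `α' = alphaQ η`, `x = X`, and set
`F_{m,l} = 0`, `G_{m,l} = 0` if `m` or `l` is negative.  Recursions:
  `F_{m,l} = α F_{m-1,l} + α' F_{m,l-1} - x F_{m-1,l-1} + [m=l=0]`,
  `G_{m,l} = α G_{m-1,l} + α' G_{m,l-1} - x G_{m-1,l-1} + F_{m,l}`.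

* (D) `F'_{m,l} = η G_{m-1,l} + (1-η) G_{m,l-1} - G_{m-1,l-1}`  (derivative in `x`).
  Strong induction on `m + l`: differentiate the `F` recursion (`α' ` has derivative `1-η`, `α` has `η`):
  `Q_{m,l} = η F_{m-1,l} + α Q_{m-1,l} + (1-η) F_{m,l-1} + α' Q_{m,l-1} - F_{m-1,l-1} - x Q_{m-1,l-1}`;
  `P_{m,l} := η G_{m-1,l} + (1-η) G_{m,l-1} - G_{m-1,l-1}` satisfies the same (use the `G` recursion at
  `(m-1,l),(m,l-1),(m-1,l-1)`).
* (Ex) `F_{m,l} + (x-1) F'_{m,l} = G_{m,l} - G_{m-1,l} - G_{m,l-1} + G_{m-1,l-1}`: substitute (D) and the `G` recursion;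
  both sides are `F_{m,l} + (x-1)(η G_{m-1,l} + (1-η) G_{m,l-1} - G_{m-1,l-1})` (as `α - 1 = η(x-1)`, `α' - 1 = (1-η)(x-1)`).
* (S') `(m+1) F_{m,l} = G_{m,l} - α' G_{m,l-1}`,  (S) `(m+1) F_{m+1,l} = α G_{m,l} - x G_{m,l-1}`;
  (T') `(l+1) F_{m,l} = G_{m,l} - α G_{m-1,l}`,  (T) `(l+1) F_{m,l+1} = α' G_{m,l} - x G_{m-1,l}`.
  Induction on `m + l`: e.g. (S'): `L_{m,l} = (m+1) F_{m,l}`, `R_{m,l} = G_{m,l} - α' G_{m,l-1}`;
  `L_{m,l} - α L_{m-1,l} - α' L_{m,l-1} + x L_{m-1,l-1} = α F_{m-1,l} - x F_{m-1,l-1} + [m=l=0]`,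
  `R_{m,l} - α R_{m-1,l} - α' R_{m,l-1} + x R_{m-1,l-1} = F_{m,l} - α' F_{m,l-1}`, and these agree by the `F` recursion.
  (S) then follows from the `F` recursion applied to `F_{m+1,l}` and the (S') at lower indices, or by the same induction.
* (Es) `(m+1)(F_{m,l} - F_{m+1,l}) = η (1-x) (G_{m,l} - G_{m,l-1})`: (S') - (S), using `1-α = η(1-x)`, `x-α' = -η(1-x)`.
  (Et) `(l+1)(F_{m,l} - F_{m,l+1}) = (1-η)(1-x) (G_{m,l} - G_{m-1,l})`.
* (A2) `d/dx[(x-1) F̄_{i,j}] = G_{i,j}` where `F̄_{i,j} = ∑_{m≤i,l≤j} F_{m,l}`: double telescoping of (Ex).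
  Coefficient of `x^k`: `(k+1)(B̄(k,i,j) - B̄(k+1,i,j)) = T̃(k,i,j)`.
* (A3) `F̄'_{i,j} = η ∑_{m<i} G_{m,j} + (1-η) ∑_{l<j} G_{i,l}`: double telescoping of (D).
  Coefficient of `x^k`: `(k+1) B̄(k+1,i,j) = η ∑_{m<i} T̃(k,m,j) + (1-η) ∑_{l<j} T̃(k,i,l)`.
* (A5) `G_{m,l}(1) = (m+1)(l+1)` as `F_{m,l}(1) = 1` (recursion at `x=1`, `α(1) = α'(1) = 1`), so `∑_k T̃(k,m,l) = (m+1)(l+1)`.
* Kernel covariance: `m(F_{m-1,l} - F_{m,l}) + l(F_{m,l-1} - F_{m,l}) = (1-x) F'_{m,l}` [(Es), (Et) and (D)];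
  `m(F_{m-1,l} - F_{m,l}) + (m+1)(F_{m+1,l} - F_{m,l}) = η(x-1)(F_{m,l} + (x-1) F'_{m,l})` [(Es) at `m`, `m-1` and (Ex)];
  `l(F_{m,l-1} - F_{m,l}) + (l+1)(F_{m,l+1} - F_{m,l}) = (1-η)(x-1)(F_{m,l} + (x-1) F'_{m,l})`.
  Taking the coefficient of `x^k` of `first + r·second + s·third` gives `kernel_cov`, where the coefficient of `x^k` in
  `(1-x) F'` is `(k+1) B(k+1) - k B(k)` and in `(x-1)(F + (x-1)F')` is `(k+1) B(k+1) - k B(k) + k B(k-1) - (k+1) B(k)`.
-/

namespace Vale.Agent.Lib.P369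

open Polynomial Finset

noncomputable section

variable {η : ℝ}

/-- `F_{m,l}(1) = 1`: total probability. -/
lemma Bp_sum (hη : 0 ≤ η) (hη1 : η ≤ 1) (m l : ℕ) :
    ∑ k ∈ range (m + l + 1), Bp η k m l = 1 := by
  have h := Fp_eval_one hη hη1 m l
  unfold Fp at h
  rw [eval_finsetSum] at h
  simpa using h

lemma Bp_le_one (hη : 0 ≤ η) (hη1 : η ≤ 1) (k m l : ℕ) : Bp η k m l ≤ 1 := by
  by_cases h : k ≤ m + l
  · rw [← Bp_sum hη hη1 m l]
    exact Finset.single_le_sum (f := fun k => Bp η k m l)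
      (fun i _ => Bp_nonneg i m l) (Finset.mem_range.mpr (by omega))
  · rw [Bp_eq_zero_of_lt (by omega)]
    norm_num

/-- `B(k,k,0) = η^k`. -/
lemma Bp_self (hη : 0 ≤ η) (hη1 : η ≤ 1) (k : ℕ) : Bp η k k 0 = η ^ k := by
  induction k with
  | zero =>
    rw [← coeff_Fp, Fp_zero_zero hη hη1]
    simp
  | succ k ih =>
    rw [← coeff_Fp, Fp_succ_zero hη hη1]
    unfold alphaP
    rw [add_mul, coeff_add, coeff_C_mul, mul_assoc, coeff_C_mul, coeff_X_mul, coeff_Fp, coeff_Fp,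
      ih, Bp_eq_zero_of_lt (by omega)]
    ring

/-- Value of `Gs` at `1`. -/
private lemma Gs_eval_one (hη : 0 ≤ η) (hη1 : η ≤ 1) (m l : ℕ) :
    (Gs η m l).eval 1 = (m : ℝ) * l := by
  cases m with
  | zero => cases l <;> simp [Gs]
  | succ m =>
    cases l with
    | zero => simp [Gs]
    | succ l =>
      show (Gp η m l).eval 1 = _
      rw [Gp_eval_one hη hη1]
      push_cast
      ring

/-- First moment: `∑_k k B(k,m,l) = η m + (1-η) l`. (From (D) at `x = 1` and (A5), or directly by induction.) -/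
lemma Bp_mean (hη : 0 ≤ η) (hη1 : η ≤ 1) (m l : ℕ) :
    ∑ k ∈ range (m + l + 1), (k : ℝ) * Bp η k m l = η * m + (1 - η) * l := by
  have h := congrArg (fun p => p.eval (1 : ℝ)) (Fp_derivative hη hη1 m l)
  simp only [eval_sub, eval_add, eval_mul, eval_C, Gs_eval_one hη hη1] at h
  unfold Fp at h
  rw [derivative_sum, eval_finsetSum] at h
  simp only [derivative_C_mul_X_pow, eval_mul, eval_C, eval_pow, eval_X, one_pow, mul_one] at h
  have h2 : ∑ k ∈ range (m + l + 1), (k : ℝ) * Bp η k m l =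
      ∑ k ∈ range (m + l + 1), Bp η k m l * (k : ℝ) :=
    Finset.sum_congr rfl (fun _ _ => mul_comm _ _)
  rw [h2, h]
  push_cast
  ring

/-! ### Coefficient forms -/

/-- Coefficient of `Gs`. -/
private def tauC (η : ℝ) (k m l : ℕ) : ℝ := (Gs η m l).coeff k

private lemma tauC_zero_l (k l : ℕ) : tauC η k 0 l = 0 := by
  unfold tauC
  cases l <;> simp [Gs]

private lemma tauC_zero_r (k m : ℕ) : tauC η k m 0 = 0 := by
  unfold tauC
  cases m <;> simp [Gs]

private lemma tauC_succ (k m l : ℕ) : tauC η k (m + 1) (l + 1) = Tk η k m l := rfl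

private lemma coeff_D (hη : 0 ≤ η) (hη1 : η ≤ 1) (k m l : ℕ) :
    ((k : ℝ) + 1) * Bp η (k + 1) m l =
      η * tauC η k m (l + 1) + (1 - η) * tauC η k (m + 1) l - tauC η k m l := by
  have h := congrArg (fun p => p.coeff k) (Fp_derivative hη hη1 m l)
  simp only [coeff_derivative, coeff_sub, coeff_add, coeff_C_mul, coeff_Fp] at h
  unfold tauC
  linarith

private lemma coeff_Ex (hη : 0 ≤ η) (hη1 : η ≤ 1) (k m l : ℕ) :
    ((k : ℝ) + 1) * (Bp η k m l - Bp η (k + 1) m l) =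
      tauC η k (m + 1) (l + 1) - tauC η k m (l + 1) - tauC η k (m + 1) l + tauC η k m l := by
  have h := congrArg (fun p => p.coeff k) (Fp_Ex hη hη1 m l)
  have hX : ((X - 1) * derivative (Fp η m l)).coeff k =
      (k : ℝ) * Bp η k m l - ((k : ℝ) + 1) * Bp η (k + 1) m l := by
    rw [sub_mul, one_mul, coeff_sub, coeff_derivative, coeff_Fp]
    cases k with
    | zero =>
      rw [coeff_X_mul_zero]
      simp
    | succ k =>
      rw [coeff_X_mul, coeff_derivative, coeff_Fp]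
      push_cast
      ring
  simp only [coeff_sub, coeff_add, hX, coeff_Fp] at h
  have e : tauC η k (m + 1) (l + 1) = (Gp η m l).coeff k := rfl
  rw [e]
  unfold tauC
  linarith

/-- Double telescoping. -/
private lemma double_tel (τ : ℕ → ℕ → ℝ) (h0 : ∀ l, τ 0 l = 0) (h1 : ∀ m, τ m 0 = 0) (i j : ℕ) :
    ∑ m ∈ range (i + 1), ∑ l ∈ range (j + 1),
      (τ (m + 1) (l + 1) - τ m (l + 1) - τ (m + 1) l + τ m l) = τ (i + 1) (j + 1) := by
  have inner : ∀ m, ∑ l ∈ range (j + 1),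
      (τ (m + 1) (l + 1) - τ m (l + 1) - τ (m + 1) l + τ m l) =
        τ (m + 1) (j + 1) - τ m (j + 1) := by
    intro m
    have e : ∀ l, τ (m + 1) (l + 1) - τ m (l + 1) - τ (m + 1) l + τ m l =
        (τ (m + 1) (l + 1) - τ (m + 1) l) - (τ m (l + 1) - τ m l) := fun l => by ring
    simp only [e]
    rw [Finset.sum_sub_distrib, Finset.sum_range_sub (fun l => τ (m + 1) l),
      Finset.sum_range_sub (fun l => τ m l), h1, h1]
    ring
  simp only [inner]
  rw [Finset.sum_range_sub (fun m => τ m (j + 1)), h0]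
  ring

/-- The second telescoping sum. -/
private lemma double_tel2 (τ : ℕ → ℕ → ℝ) (h0 : ∀ l, τ 0 l = 0) (h1 : ∀ m, τ m 0 = 0) (a : ℝ)
    (i j : ℕ) :
    ∑ m ∈ range (i + 1), ∑ l ∈ range (j + 1), (a * τ m (l + 1) + (1 - a) * τ (m + 1) l - τ m l) =
      a * ∑ m ∈ range i, τ (m + 1) (j + 1) + (1 - a) * ∑ l ∈ range j, τ (i + 1) (l + 1) := by
  have Ha : ∀ m, ∑ l ∈ range (j + 1), τ m (l + 1) =
      ∑ l ∈ range (j + 1), τ m l + τ m (j + 1) := by
    intro m
    have h2 := Finset.sum_range_succ (fun l => τ m l) (j + 1)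
    have h3 := Finset.sum_range_succ' (fun l => τ m l) (j + 1)
    rw [h1, add_zero] at h3
    linarith
  have Hb : ∀ l, ∑ m ∈ range (i + 1), τ (m + 1) l =
      ∑ m ∈ range (i + 1), τ m l + τ (i + 1) l := by
    intro l
    have h2 := Finset.sum_range_succ (fun m => τ m l) (i + 1)
    have h3 := Finset.sum_range_succ' (fun m => τ m l) (i + 1)
    rw [h0, add_zero] at h3
    linarith
  have H1 : ∑ m ∈ range (i + 1), τ m (j + 1) = ∑ m ∈ range i, τ (m + 1) (j + 1) := by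
    rw [Finset.sum_range_succ', h0, add_zero]
  have H2 : ∑ l ∈ range (j + 1), τ (i + 1) l = ∑ l ∈ range j, τ (i + 1) (l + 1) := by
    rw [Finset.sum_range_succ', h1, add_zero]
  have S0 : ∑ m ∈ range (i + 1), ∑ l ∈ range (j + 1), τ m l =
      ∑ l ∈ range (j + 1), ∑ m ∈ range (i + 1), τ m l := Finset.sum_comm
  have S1 : ∑ m ∈ range (i + 1), ∑ l ∈ range (j + 1), τ (m + 1) l =
      ∑ l ∈ range (j + 1), ∑ m ∈ range (i + 1), τ (m + 1) l := Finset.sum_comm
  simp only [Finset.sum_sub_distrib, Finset.sum_add_distrib, ← Finset.mul_sum]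
  rw [S1]
  simp only [Ha, Hb, Finset.sum_add_distrib]
  rw [H1, H2, ← S0]
  ring

/-- (A2). -/
lemma Bbar_diff (hη : 0 ≤ η) (hη1 : η ≤ 1) (k i j : ℕ) :
    ((k : ℝ) + 1) * (Bbar η k i j - Bbar η (k + 1) i j) = Tk η k i j := by
  have h := double_tel (tauC η k) (tauC_zero_l k) (tauC_zero_r k) i j
  rw [tauC_succ] at h
  rw [← h]
  unfold Bbar
  rw [← Finset.sum_sub_distrib, Finset.mul_sum]
  apply Finset.sum_congr rfl
  intro m _
  rw [← Finset.sum_sub_distrib, Finset.mul_sum]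
  apply Finset.sum_congr rfl
  intro l _
  exact coeff_Ex hη hη1 k m l

/-- (A3). -/
lemma Bbar_succ (hη : 0 ≤ η) (hη1 : η ≤ 1) (k i j : ℕ) :
    ((k : ℝ) + 1) * Bbar η (k + 1) i j =
      η * ∑ m ∈ range i, Tk η k m j + (1 - η) * ∑ l ∈ range j, Tk η k i l := by
  have h := double_tel2 (tauC η k) (tauC_zero_l k) (tauC_zero_r k) η i j
  simp only [tauC_succ] at h
  rw [← h]
  unfold Bbar
  rw [Finset.mul_sum]
  apply Finset.sum_congr rfl
  intro m _
  rw [Finset.mul_sum]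
  apply Finset.sum_congr rfl
  intro l _
  exact coeff_D hη hη1 k m l

/-- (A5). -/
lemma Tk_sum (hη : 0 ≤ η) (hη1 : η ≤ 1) (m l : ℕ) :
    ∑ k ∈ range (m + l + 1), Tk η k m l = ((m : ℝ) + 1) * (l + 1) := by
  have hd : (Gp η m l).natDegree < m + l + 1 := by
    rw [Nat.lt_succ_iff, Polynomial.natDegree_le_iff_coeff_eq_zero]
    intro N hN
    exact Tk_eq_zero_of_lt hN
  have h := Polynomial.eval_eq_sum_range' hd (1 : ℝ)
  rw [Gp_eval_one hη hη1] at h
  rw [h]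
  simp [Tk]

lemma Tk_le (hη : 0 ≤ η) (hη1 : η ≤ 1) (k m l : ℕ) :
    Tk η k m l ≤ ((m : ℝ) + 1) * (l + 1) := by
  by_cases h : k ≤ m + l
  · rw [← Tk_sum hη hη1 m l]
    exact Finset.single_le_sum (f := fun k => Tk η k m l)
      (fun i _ => Tk_nonneg i m l) (Finset.mem_range.mpr (by omega))
  · rw [Tk_eq_zero_of_lt (by omega)]
    positivity

/-! ### Kernel covariance -/

private lemma alphaP_one_sub : 1 - alphaP η = C η * (1 - X) := by
  simp only [alphaP, map_sub, map_one]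
  ring

private lemma alphaQ_one_sub : 1 - alphaQ η = C (1 - η) * (1 - X) := by
  simp only [alphaQ, map_sub, map_one]
  ring

/-- (Es) -/
private lemma Fp_Es (hη : 0 ≤ η) (hη1 : η ≤ 1) (m l : ℕ) :
    C ((m : ℝ) + 1) * (Fp η m l - Fp η (m + 1) l) =
      C η * (1 - X) * (Gp η m l - Gs η (m + 1) l) := by
  rw [mul_sub, Fp_Sp hη hη1 m l, Fp_S hη hη1 m l]
  simp only [alphaP, alphaQ, map_sub, map_one]
  ring

/-- (Et) -/
private lemma Fp_Et (hη : 0 ≤ η) (hη1 : η ≤ 1) (m l : ℕ) :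
    C ((l : ℝ) + 1) * (Fp η m l - Fp η m (l + 1)) =
      C (1 - η) * (1 - X) * (Gp η m l - Gs η m (l + 1)) := by
  rw [mul_sub, Fp_Tp hη hη1 m l, Fp_T hη hη1 m l]
  simp only [alphaP, alphaQ, map_sub, map_one]
  ring

/-- `m (F_{m-1,l} - F_{m,l}) = η (1-x) (G_{m-1,l} - G_{m-1,l-1})`, all `m`. -/
private lemma Fp_Ua (hη : 0 ≤ η) (hη1 : η ≤ 1) (m l : ℕ) :
    C (m : ℝ) * (Fp η (m - 1) l - Fp η m l) =
      C η * (1 - X) * (Gs η m (l + 1) - Gs η m l) := by
  cases m with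
  | zero =>
    simp [Gs]
  | succ m =>
    have h := Fp_Es hη hη1 m l
    simp only [Nat.add_sub_cancel]
    have e : Gs η (m + 1) (l + 1) = Gp η m l := rfl
    rw [e, ← h]
    push_cast
    simp

/-- `l (F_{m,l-1} - F_{m,l}) = (1-η) (1-x) (G_{m,l-1} - G_{m-1,l-1})`, all `l`. -/
private lemma Fp_Ub (hη : 0 ≤ η) (hη1 : η ≤ 1) (m l : ℕ) :
    C (l : ℝ) * (Fp η m (l - 1) - Fp η m l) =
      C (1 - η) * (1 - X) * (Gs η (m + 1) l - Gs η m l) := by
  cases l with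
  | zero =>
    cases m <;> simp [Gs]
  | succ l =>
    have h := Fp_Et hη hη1 m l
    simp only [Nat.add_sub_cancel]
    have e : Gs η (m + 1) (l + 1) = Gp η m l := rfl
    rw [e, ← h]
    push_cast
    simp

/-- The master polynomial identity. -/
private lemma Fp_master (hη : 0 ≤ η) (hη1 : η ≤ 1) (r s : ℝ) (m l : ℕ) :
    C (r + 1) * (C (m : ℝ) * (Fp η (m - 1) l - Fp η m l)) +
        C r * (C ((m : ℝ) + 1) * (Fp η (m + 1) l - Fp η m l)) +
      (C (s + 1) * (C (l : ℝ) * (Fp η m (l - 1) - Fp η m l)) +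
        C s * (C ((l : ℝ) + 1) * (Fp η m (l + 1) - Fp η m l))) =
    (1 - X) * derivative (Fp η m l) +
      C (η * r + (1 - η) * s) * ((X - 1) * (Fp η m l + (X - 1) * derivative (Fp η m l))) := by
  have ha := Fp_Ua hη hη1 m l
  have hb := Fp_Ub hη hη1 m l
  have hs : C ((m : ℝ) + 1) * (Fp η (m + 1) l - Fp η m l) =
      -(C η * (1 - X) * (Gp η m l - Gs η (m + 1) l)) := by
    rw [← Fp_Es hη hη1 m l]
    ring
  have ht : C ((l : ℝ) + 1) * (Fp η m (l + 1) - Fp η m l) =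
      -(C (1 - η) * (1 - X) * (Gp η m l - Gs η m (l + 1))) := by
    rw [← Fp_Et hη hη1 m l]
    ring
  have hx := Fp_Ex hη hη1 m l
  have hd := Fp_derivative hη hη1 m l
  rw [ha, hb, hs, ht, hx, hd]
  simp only [map_add, map_mul, map_sub, map_one]
  ring

private lemma coeff_X_mul_derivative (p : ℝ[X]) (k : ℕ) :
    (X * derivative p).coeff k = (k : ℝ) * p.coeff k := by
  cases k with
  | zero => simp
  | succ k =>
    rw [coeff_X_mul, coeff_derivative]
    push_cast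
    ring

private lemma coeff_rhs (F : ℝ[X]) (k : ℕ) :
    ((X - 1) * (F + (X - 1) * derivative F)).coeff k =
      (k : ℝ) * F.coeff (k - 1) - (2 * (k : ℝ) + 1) * F.coeff k +
        ((k : ℝ) + 1) * F.coeff (k + 1) := by
  have e : (X - 1) * (F + (X - 1) * derivative F) =
      X * F - F + X * (X * derivative F) - (X * derivative F + X * derivative F) +
        derivative F := by ring
  rw [e, coeff_add, coeff_sub, coeff_add, coeff_sub, coeff_add, coeff_X_mul_derivative,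
    coeff_derivative]
  cases k with
  | zero =>
    simp
  | succ k =>
    rw [coeff_X_mul, coeff_X_mul, coeff_X_mul_derivative]
    simp only [Nat.add_sub_cancel]
    push_cast
    ring

private lemma coeff_lin (F : ℝ[X]) (k : ℕ) :
    ((1 - X) * derivative F).coeff k = ((k : ℝ) + 1) * F.coeff (k + 1) - (k : ℝ) * F.coeff k := by
  have e : (1 - X) * derivative F = derivative F - X * derivative F := by ring
  rw [e, coeff_sub, coeff_X_mul_derivative, coeff_derivative]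
  ring

/-- The kernel covariance identity `L_r^*⊗1 + 1⊗L_s^* = L_t` on `B(k,m,l)`, `t = η r + (1-η) s`. -/
lemma kernel_cov (hη : 0 ≤ η) (hη1 : η ≤ 1) (r s : ℝ) (k m l : ℕ) :
    Ladj r (fun m' => Bp η k m' l) m + Ladj s (fun l' => Bp η k m l') l =
      Lgen (η * r + (1 - η) * s) (fun k' => Bp η k' m l) k := by
  have h := congrArg (fun p => p.coeff k) (Fp_master hη hη1 r s m l)
  simp only [coeff_add, coeff_C_mul, coeff_sub, coeff_lin, coeff_rhs, coeff_Fp] at h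
  unfold Ladj Lgen
  linear_combination h

end

end Vale.Agent.Lib.P369
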