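import Vale.Agent.Lib.P369.GRec

/-!
# JOB E3a: polynomial identities for `F`, `G` (P369)

This job: the polynomial lemmas in this file; coefficient forms are job E3b (`Alg.lean`).

Uses only the recursions of `AmpRec`, `GRec`.  Write `α = alphaP η`, `α' = alphaQ η`, `x = X`, and set
`F_{m,l} = 0`, `G_{m,l} = 0` if `m` or `l` is negative.  Recursions:
  `F_{m,l} = α F_{m-1,l} + α' F_{m,l-1} - x F_{m-1,l-1} + [m=l=0]`,
  `G_{m,l} = α G_{m-1,l} + α' G_{m,l-1} - x G_{m-1,l-1} + F_{m,l}`.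

* (D) `F'_{m,l} = η G_{m-1,l} + (1-η) G_{m,l-1} - G_{m-1,l-1}`  (derivative in `x`).
  Strong induction on `m + l`: differentiate the `F` recursion (`α' ` has derivative `1-η`, `α` has `η`):
  `Q_{m,l} = η F_{m-1,l} + α Q_{m-1,l} + (1-η) F_{m,l-1} + α' Q_{m,l-1} - F_{m-1,l-1} - x Q_{m-1,l-1}`;
  `P_{m,l} := η G_{m-1,l} + (1-η) G_{m,l-1} - G_{m-1,l-1}` satisfies the same (use the `G` recursion at
  `(m-1,l),(m,l-1),(m-1,l-1)`).
* (Ex) `F_{m,l} + (x-1) F'_{m,l} = G_{m,l} - G_{m-1,l} - G_{m,l-1} + G_{m-1,l-1}`: substitute (D) and the `G` recursion;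
  both sides are `F_{m,l} + (x-1)(η G_{m-1,l} + (1-η) G_{m,l-1} - G_{m-1,l-1})` (as `α - 1 = η(x-1)`, `α' - 1 = (1-η)(x-1)`).
* (S') `(m+1) F_{m,l} = G_{m,l} - α' G_{m,l-1}`,  (S) `(m+1) F_{m+1,l} = α G_{m,l} - x G_{m,l-1}`;
  (T') `(l+1) F_{m,l} = G_{m,l} - α G_{m-1,l}`,  (T) `(l+1) F_{m,l+1} = α' G_{m,l} - x G_{m-1,l}`.
  Induction on `m + l`: e.g. (S'): `L_{m,l} = (m+1) F_{m,l}`, `R_{m,l} = G_{m,l} - α' G_{m,l-1}`;
  `L_{m,l} - α L_{m-1,l} - α' L_{m,l-1} + x L_{m-1,l-1} = α F_{m-1,l} - x F_{m-1,l-1} + [m=l=0]`,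
  `R_{m,l} - α R_{m-1,l} - α' R_{m,l-1} + x R_{m-1,l-1} = F_{m,l} - α' F_{m,l-1}`, and these agree by the `F` recursion.
  (S) then follows from the `F` recursion applied to `F_{m+1,l}` and the (S') at lower indices, or by the same induction.
* (Es) `(m+1)(F_{m,l} - F_{m+1,l}) = η (1-x) (G_{m,l} - G_{m,l-1})`: (S') - (S), using `1-α = η(1-x)`, `x-α' = -η(1-x)`.
  (Et) `(l+1)(F_{m,l} - F_{m,l+1}) = (1-η)(1-x) (G_{m,l} - G_{m-1,l})`.
* (A2) `d/dx[(x-1) F̄_{i,j}] = G_{i,j}` where `F̄_{i,j} = ∑_{m≤i,l≤j} F_{m,l}`: double telescoping of (Ex).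
  Coefficient of `x^k`: `(k+1)(B̄(k,i,j) - B̄(k+1,i,j)) = T̃(k,i,j)`.
* (A3) `F̄'_{i,j} = η ∑_{m<i} G_{m,j} + (1-η) ∑_{l<j} G_{i,l}`: double telescoping of (D).
  Coefficient of `x^k`: `(k+1) B̄(k+1,i,j) = η ∑_{m<i} T̃(k,m,j) + (1-η) ∑_{l<j} T̃(k,i,l)`.
* (A5) `G_{m,l}(1) = (m+1)(l+1)` as `F_{m,l}(1) = 1` (recursion at `x=1`, `α(1) = α'(1) = 1`), so `∑_k T̃(k,m,l) = (m+1)(l+1)`.
* Kernel covariance: `m(F_{m-1,l} - F_{m,l}) + l(F_{m,l-1} - F_{m,l}) = (1-x) F'_{m,l}` [(Es), (Et) and (D)];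
  `m(F_{m-1,l} - F_{m,l}) + (m+1)(F_{m+1,l} - F_{m,l}) = η(x-1)(F_{m,l} + (x-1) F'_{m,l})` [(Es) at `m`, `m-1` and (Ex)];
  `l(F_{m,l-1} - F_{m,l}) + (l+1)(F_{m,l+1} - F_{m,l}) = (1-η)(x-1)(F_{m,l} + (x-1) F'_{m,l})`.
  Taking the coefficient of `x^k` of `first + r·second + s·third` gives `kernel_cov`, where the coefficient of `x^k` in
  `(1-x) F'` is `(k+1) B(k+1) - k B(k)` and in `(x-1)(F + (x-1)F')` is `(k+1) B(k+1) - k B(k) + k B(k-1) - (k+1) B(k)`.
-/

namespace Vale.Agent.Lib.P369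

open Polynomial Finset

noncomputable section

variable {η : ℝ}

private lemma Gs_zero_l (l : ℕ) : Gs η 0 l = 0 := by
  cases l <;> rfl

private lemma Gs_zero_r (m : ℕ) : Gs η m 0 = 0 := by
  cases m <;> rfl

private lemma Gs_succ (m l : ℕ) : Gs η (m + 1) (l + 1) = Gp η m l := rfl

private lemma deriv_alphaP : derivative (alphaP η) = C η := by
  simp [alphaP]

private lemma deriv_alphaQ : derivative (alphaQ η) = C (1 - η) := by
  simp [alphaQ]

private lemma alphaP_sub : alphaP η - 1 = C η * (X - 1) := by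
  simp only [alphaP, map_sub, map_one]
  ring

private lemma alphaQ_sub : alphaQ η - 1 = C (1 - η) * (X - 1) := by
  simp only [alphaQ, map_sub, map_one]
  ring

/-- Unified form of the `G` recursion, valid at all `m, l`. -/
lemma Gp_rec (hη : 0 ≤ η) (hη1 : η ≤ 1) (m l : ℕ) :
    Gp η m l = alphaP η * Gs η m (l + 1) + alphaQ η * Gs η (m + 1) l - X * Gs η m l + Fp η m l := by
  cases m with
  | zero =>
      cases l with
      | zero =>
          rw [Gp_zero_zero hη hη1, Fp_zero_zero hη hη1]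
          simp only [Gs_zero_l, Gs_zero_r, mul_zero, add_zero, sub_zero, zero_add]
      | succ l =>
          rw [Gp_zero_succ hη hη1]
          simp only [Gs_zero_l, Gs_succ, mul_zero, zero_add, sub_zero]
  | succ m =>
      cases l with
      | zero =>
          rw [Gp_succ_zero hη hη1]
          simp only [Gs_zero_r, Gs_succ, mul_zero, add_zero, sub_zero]
      | succ l =>
          rw [Gp_succ_succ hη hη1]
          simp only [Gs_succ]

/-- (D) -/
lemma Fp_derivative (hη : 0 ≤ η) (hη1 : η ≤ 1) (m l : ℕ) :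
    derivative (Fp η m l) =
      C η * Gs η m (l + 1) + C (1 - η) * Gs η (m + 1) l - Gs η m l := by
  induction m generalizing l with
  | zero =>
      induction l with
      | zero =>
          rw [Fp_zero_zero hη hη1]
          simp only [Gs_zero_l, Gs_zero_r, derivative_one, mul_zero, add_zero, sub_zero]
      | succ l ihl =>
          have h := Gp_rec hη hη1 0 l
          rw [Fp_zero_succ hη hη1, derivative_mul, ihl, deriv_alphaQ]
          simp only [Gs_zero_l, Gs_succ, mul_zero, zero_add, sub_zero] at h ⊢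
          linear_combination (-C (1 - η)) * h
  | succ m ihm =>
      induction l with
      | zero =>
          have h := Gp_rec hη hη1 m 0
          rw [Fp_succ_zero hη hη1, derivative_mul, ihm 0, deriv_alphaP]
          simp only [Gs_zero_r, Gs_succ, mul_zero, add_zero, sub_zero] at h ⊢
          linear_combination (-C η) * h
      | succ l ihl =>
          have h1 : Gs η (m + 1) (l + 1 + 1) = _ := Gp_rec hη hη1 m (l + 1)
          have h2 : Gs η (m + 1 + 1) (l + 1) = _ := Gp_rec hη hη1 (m + 1) l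
          have h3 : Gs η (m + 1) (l + 1) = _ := Gp_rec hη hη1 m l
          rw [Fp_succ_succ hη hη1, derivative_sub, derivative_add, derivative_mul, derivative_mul,
            derivative_mul, ihm (l + 1), ihm l, ihl, deriv_alphaP, deriv_alphaQ, derivative_X]
          linear_combination (-C η) * h1 + (-C (1 - η)) * h2 + h3

/-- (Ex) -/
lemma Fp_Ex (hη : 0 ≤ η) (hη1 : η ≤ 1) (m l : ℕ) :
    Fp η m l + (X - 1) * derivative (Fp η m l) =
      Gp η m l - Gs η m (l + 1) - Gs η (m + 1) l + Gs η m l := by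
  rw [Fp_derivative hη hη1, Gp_rec hη hη1 m l]
  linear_combination (-Gs η m (l + 1)) * (alphaP_sub (η := η)) +
    (-Gs η (m + 1) l) * (alphaQ_sub (η := η))

private lemma S_aux (hη : 0 ≤ η) (hη1 : η ≤ 1) (m : ℕ) :
    (∀ l, C ((m : ℝ) + 1) * Fp η m l = Gp η m l - alphaQ η * Gs η (m + 1) l) ∧
    (∀ l, C ((m : ℝ) + 1) * Fp η (m + 1) l = alphaP η * Gp η m l - X * Gs η (m + 1) l) := by
  have hS : ∀ m : ℕ, (∀ l, C ((m : ℝ) + 1) * Fp η m l = Gp η m l - alphaQ η * Gs η (m + 1) l) →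
      (∀ l, C ((m : ℝ) + 1) * Fp η (m + 1) l = alphaP η * Gp η m l - X * Gs η (m + 1) l) := by
    intro m hp l
    induction l with
    | zero =>
        have h := hp 0
        rw [Fp_succ_zero hη hη1]
        simp only [Gs_zero_r, mul_zero, sub_zero] at h ⊢
        linear_combination (alphaP η) * h
    | succ l ihl =>
        have h1 := hp (l + 1)
        have h2 := hp l
        rw [Gs_succ] at h1 ⊢
        rw [Fp_succ_succ hη hη1]
        linear_combination (alphaP η) * h1 + (alphaQ η) * ihl - X * h2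
  induction m with
  | zero =>
      have hp : ∀ l, C (((0 : ℕ) : ℝ) + 1) * Fp η 0 l = Gp η 0 l - alphaQ η * Gs η (0 + 1) l := by
        intro l
        have h := Gp_rec hη hη1 0 l
        simp only [Gs_zero_l, mul_zero, zero_add, sub_zero] at h
        simp only [Nat.cast_zero, zero_add, map_one, one_mul]
        linear_combination (-1 : ℝ[X]) * h
      exact ⟨hp, hS _ hp⟩
  | succ m ihm =>
      have hp : ∀ l, C ((((m + 1 : ℕ)) : ℝ) + 1) * Fp η (m + 1) l =
          Gp η (m + 1) l - alphaQ η * Gs η (m + 1 + 1) l := by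
        intro l
        have h := Gp_rec hη hη1 (m + 1) l
        have h2 := ihm.2 l
        rw [Gs_succ] at h
        have e : C (((m + 1 : ℕ) : ℝ) + 1) = C ((m : ℝ) + 1) + 1 := by
          push_cast
          simp
        rw [e]
        linear_combination h2 - h
      exact ⟨hp, hS _ hp⟩

/-- (S') -/
lemma Fp_Sp (hη : 0 ≤ η) (hη1 : η ≤ 1) (m l : ℕ) :
    C ((m : ℝ) + 1) * Fp η m l = Gp η m l - alphaQ η * Gs η (m + 1) l :=
  (S_aux hη hη1 m).1 l

/-- (S) -/
lemma Fp_S (hη : 0 ≤ η) (hη1 : η ≤ 1) (m l : ℕ) :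
    C ((m : ℝ) + 1) * Fp η (m + 1) l = alphaP η * Gp η m l - X * Gs η (m + 1) l :=
  (S_aux hη hη1 m).2 l

private lemma T_aux (hη : 0 ≤ η) (hη1 : η ≤ 1) (l : ℕ) :
    (∀ m, C ((l : ℝ) + 1) * Fp η m l = Gp η m l - alphaP η * Gs η m (l + 1)) ∧
    (∀ m, C ((l : ℝ) + 1) * Fp η m (l + 1) = alphaQ η * Gp η m l - X * Gs η m (l + 1)) := by
  have hT : ∀ l : ℕ, (∀ m, C ((l : ℝ) + 1) * Fp η m l = Gp η m l - alphaP η * Gs η m (l + 1)) →
      (∀ m, C ((l : ℝ) + 1) * Fp η m (l + 1) = alphaQ η * Gp η m l - X * Gs η m (l + 1)) := by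
    intro l hp m
    induction m with
    | zero =>
        have h := hp 0
        rw [Fp_zero_succ hη hη1]
        simp only [Gs_zero_l, mul_zero, sub_zero] at h ⊢
        linear_combination (alphaQ η) * h
    | succ m ihm =>
        have h1 := hp (m + 1)
        have h2 := hp m
        rw [Gs_succ] at h1 ⊢
        rw [Fp_succ_succ hη hη1]
        linear_combination (alphaQ η) * h1 + (alphaP η) * ihm - X * h2
  induction l with
  | zero =>
      have hp : ∀ m, C (((0 : ℕ) : ℝ) + 1) * Fp η m 0 = Gp η m 0 - alphaP η * Gs η m (0 + 1) := by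
        intro m
        have h := Gp_rec hη hη1 m 0
        simp only [Gs_zero_r, mul_zero, add_zero, sub_zero] at h
        simp only [Nat.cast_zero, zero_add, map_one, one_mul]
        linear_combination (-1 : ℝ[X]) * h
      exact ⟨hp, hT _ hp⟩
  | succ l ihl =>
      have hp : ∀ m, C (((l + 1 : ℕ) : ℝ) + 1) * Fp η m (l + 1) =
          Gp η m (l + 1) - alphaP η * Gs η m (l + 1 + 1) := by
        intro m
        have h := Gp_rec hη hη1 m (l + 1)
        have h2 := ihl.2 m
        rw [Gs_succ] at h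
        have e : C (((l + 1 : ℕ) : ℝ) + 1) = C ((l : ℝ) + 1) + 1 := by
          push_cast
          simp
        rw [e]
        linear_combination h2 - h
      exact ⟨hp, hT _ hp⟩

/-- (T') -/
lemma Fp_Tp (hη : 0 ≤ η) (hη1 : η ≤ 1) (m l : ℕ) :
    C ((l : ℝ) + 1) * Fp η m l = Gp η m l - alphaP η * Gs η m (l + 1) :=
  (T_aux hη hη1 l).1 m

/-- (T) -/
lemma Fp_T (hη : 0 ≤ η) (hη1 : η ≤ 1) (m l : ℕ) :
    C ((l : ℝ) + 1) * Fp η m (l + 1) = alphaQ η * Gp η m l - X * Gs η m (l + 1) :=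
  (T_aux hη hη1 l).2 m

private lemma eval_alphaP : (alphaP η).eval 1 = 1 := by
  simp [alphaP]

private lemma eval_alphaQ : (alphaQ η).eval 1 = 1 := by
  simp [alphaQ]

/-- `F_{m,l}(1) = 1`. -/
lemma Fp_eval_one (hη : 0 ≤ η) (hη1 : η ≤ 1) (m l : ℕ) : (Fp η m l).eval 1 = 1 := by
  induction m generalizing l with
  | zero =>
      induction l with
      | zero => rw [Fp_zero_zero hη hη1, eval_one]
      | succ l ihl => rw [Fp_zero_succ hη hη1, eval_mul, ihl, eval_alphaQ, mul_one]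
  | succ m ihm =>
      induction l with
      | zero => rw [Fp_succ_zero hη hη1, eval_mul, ihm, eval_alphaP, mul_one]
      | succ l ihl =>
          rw [Fp_succ_succ hη hη1, eval_sub, eval_add, eval_mul, eval_mul, eval_mul, ihm, ihm, ihl,
            eval_alphaP, eval_alphaQ, eval_X]
          norm_num

/-- `G_{m,l}(1) = (m+1)(l+1)`. -/
lemma Gp_eval_one (hη : 0 ≤ η) (hη1 : η ≤ 1) (m l : ℕ) :
    (Gp η m l).eval 1 = ((m : ℝ) + 1) * ((l : ℝ) + 1) := by
  induction m generalizing l with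
  | zero =>
      induction l with
      | zero =>
          rw [Gp_zero_zero hη hη1, eval_one]
          norm_num
      | succ l ihl =>
          rw [Gp_zero_succ hη hη1, eval_add, eval_mul, ihl, eval_alphaQ, Fp_eval_one hη hη1]
          push_cast
          ring
  | succ m ihm =>
      induction l with
      | zero =>
          rw [Gp_succ_zero hη hη1, eval_add, eval_mul, ihm, eval_alphaP, Fp_eval_one hη hη1]
          push_cast
          ring
      | succ l ihl =>
          rw [Gp_succ_succ hη hη1, eval_add, eval_sub, eval_add, eval_mul, eval_mul, eval_mul, ihm,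
            ihm, ihl, eval_alphaP, eval_alphaQ, eval_X, Fp_eval_one hη hη1]
          push_cast
          ring

end

end Vale.Agent.Lib.P369
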