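import Vale.Agent.Lib.P369.Defs

/-!
# JOB E1a: basic amplitude facts and intertwining relations (P369)

The job of this file is the lemmas below only (recursion `Fp_*` is job E1b in `AmpRec.lean`).

Everything here is a finite algebraic statement about `P_{m,l} = ampPoly η m l`.  Let `a=√η, b=√(1-η)`,
so `a²+b²=1` for `0 ≤ η ≤ 1`.  Write `c(k,m,l) = P_{m,l}.coeff k`.

Polynomial identities:
* `P_{m+1,l} = (aX - b) P_{m,l}`, `P_{m,l+1} = (bX + a) P_{m,l}`;
* `P'_{m,l} = a m P_{m-1,l} + b l P_{m,l-1}`  (so `(k+1) c(k+1,m,l) = a m c(k,m-1,l) + b l c(k,m,l-1)`);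
* `(m+l) P_{m,l} - X P'_{m,l} = -b m P_{m-1,l} + a l P_{m,l-1}`
  (so `(m+l-k) c(k,m,l) = -b m c(k,m-1,l) + a l c(k,m,l-1)`).
The last two give the intertwining relations `bsAmp_relA`, `bsAmp_relB` at once (the square roots
combine: `√m √(k!j!/((m-1)! l!)) = m √(k!j!/(m! l!))`, etc).

Recursion.  Fix `k+j = m+l` with `m,l ≥ 1`, `k,j ≥ 1` and put
  `c₀ = c(k,m,l)`, `x₁ = c(k-1,m-1,l)`, `x₂ = c(k,m-1,l)`, `x₃ = c(k-1,m,l-1)`, `x₄ = c(k,m,l-1)`,
  `c₅ = c(k-1,m-1,l-1)`, `W = k! j!/(m! l!)`.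
Then  `c₀ = a x₁ - b x₂ = b x₃ + a x₄`,  `l c₅ = a j x₁ + b k x₂`,  `m c₅ = a k x₄ - b j x₃`
(apply the operators `b∂_X + a∂_Y`, `a∂_X - b∂_Y` to the homogeneous form; on the dehomogenised form these
follow from the two derivative identities above applied to `P_{m-1,l-1}`-level polynomials).
Hence the squares identities
  `k j c₀² + (l c₅)² = (k+j)(a² j x₁² + b² k x₂²)`,  `k j c₀² + (m c₅)² = (k+j)(b² j x₃² + a² k x₄²)`;
multiply the first by `m`, the second by `l`, add, divide by `k+j = m+l`: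
  `k j c₀² + m l c₅² = b² m k x₂² + a² m j x₁² + a² l k x₄² + b² l j x₃²`.
Multiplying by `W/(kj)` this is the coefficient form of the recursion
  `Bp(k,m,l) = b² Bp(k,m-1,l) + a² Bp(k-1,m-1,l) + a² Bp(k,m,l-1) + b² Bp(k-1,m,l-1) - Bp(k-1,m-1,l-1)`,
as `Bp(k,m-1,l) = (m/j) W x₂²`, `Bp(k-1,m-1,l) = (m/k) W x₁²`, `Bp(k,m,l-1) = (l/j) W x₄²`,
`Bp(k-1,m,l-1) = (l/k) W x₃²`, `Bp(k-1,m-1,l-1) = (m l/(k j)) W c₅²`.
Edge cases: `k = 0`: `c(0,m,l) = (-b)^m a^l`, `Bp(0,m,l) = C(m+l,m) b^{2m} a^{2l}`, Pascal;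
`j = 0` (i.e. `k = m+l`): `c(k,m,l) = a^m b^l`, `Bp = C(m+l,m) a^{2m} b^{2l}`, Pascal; `l = 0`: `P_{m,0} = (aX-b)^m`,
`Bp(k,m,0) = C(m,k) η^k (1-η)^{m-k}`, similarly `m = 0`: `Bp(k,0,l) = C(l,k) (1-η)^k η^{l-k}`.
(The recursion statement below is at the polynomial level; coefficientwise it is the display above.)
-/

namespace Vale.Agent.Lib.P369

open Polynomial Finset

noncomputable section

variable {η : ℝ}

lemma Bp_nonneg (k m l : ℕ) : 0 ≤ Bp η k m l := sq_nonneg _

lemma Bp_eq_zero_of_lt {k m l : ℕ} (h : m + l < k) : Bp η k m l = 0 := by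
  unfold Bp bsAmp
  rw [if_neg (by omega)]
  simp

lemma coeff_Fp (k m l : ℕ) : (Fp η m l).coeff k = Bp η k m l := by
  unfold Fp
  rw [finsetSum_coeff]
  simp only [coeff_C_mul_X_pow]
  rw [Finset.sum_ite_eq]
  split_ifs with h
  · rfl
  · rw [Bp_eq_zero_of_lt]
    simp only [Finset.mem_range, not_lt] at h
    omega

/-- The vacuum is fixed. -/
lemma bsAmp_vacuum (η : ℝ) : bsAmp η 0 0 0 0 = 1 := by
  simp [bsAmp, ampPoly]

/-- The two linear factors. -/
lemma ampPoly_succ_left (η : ℝ) (m l : ℕ) :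
    ampPoly η (m + 1) l = (C (Real.sqrt η) * X - C (Real.sqrt (1 - η))) * ampPoly η m l := by
  unfold ampPoly; ring

lemma ampPoly_succ_right (η : ℝ) (m l : ℕ) :
    ampPoly η m (l + 1) = (C (Real.sqrt (1 - η)) * X + C (Real.sqrt η)) * ampPoly η m l := by
  unfold ampPoly; ring

/-- `P' = a m P_{m-1,l} + b l P_{m,l-1}`. -/
lemma ampPoly_derivative (η : ℝ) (m l : ℕ) :
    derivative (ampPoly η m l) =
      C (Real.sqrt η * m) * ampPoly η (m - 1) l + C (Real.sqrt (1 - η) * l) * ampPoly η m (l - 1) := by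
  unfold ampPoly
  rw [derivative_mul, derivative_pow, derivative_pow]
  simp only [derivative_sub, derivative_add, derivative_mul, derivative_C, derivative_X, zero_mul,
    zero_add, mul_one, sub_zero, add_zero, C_mul]
  ring

lemma mul_ampPoly_left (η : ℝ) (m l : ℕ) :
    C (m : ℝ) * ampPoly η m l =
      C (m : ℝ) * ((C (Real.sqrt η) * X - C (Real.sqrt (1 - η))) * ampPoly η (m - 1) l) := by
  cases m with
  | zero => simp
  | succ m => rw [ampPoly_succ_left]; simp

lemma mul_ampPoly_right (η : ℝ) (m l : ℕ) :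
    C (l : ℝ) * ampPoly η m l =
      C (l : ℝ) * ((C (Real.sqrt (1 - η)) * X + C (Real.sqrt η)) * ampPoly η m (l - 1)) := by
  cases l with
  | zero => simp
  | succ l => rw [ampPoly_succ_right]; simp

/-- `(m+l) P - X P' = -b m P_{m-1,l} + a l P_{m,l-1}`. -/
lemma ampPoly_euler (η : ℝ) (m l : ℕ) :
    C ((m : ℝ) + l) * ampPoly η m l - X * derivative (ampPoly η m l) =
      C (-(Real.sqrt (1 - η) * m)) * ampPoly η (m - 1) l +
        C (Real.sqrt η * l) * ampPoly η m (l - 1) := by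
  rw [ampPoly_derivative, C_add, add_mul, mul_ampPoly_left, mul_ampPoly_right]
  simp only [C_neg, C_mul]
  ring

/-- Coefficient of the amplitude polynomial. -/
def cf (η : ℝ) (k m l : ℕ) : ℝ := (ampPoly η m l).coeff k

lemma cf_succ_left (η : ℝ) (k m l : ℕ) :
    cf η (k + 1) (m + 1) l = Real.sqrt η * cf η k m l - Real.sqrt (1 - η) * cf η (k + 1) m l := by
  unfold cf
  rw [ampPoly_succ_left, sub_mul, mul_assoc, coeff_sub, coeff_C_mul, coeff_X_mul, coeff_C_mul]

lemma cf_zero_left (η : ℝ) (m l : ℕ) :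
    cf η 0 (m + 1) l = - (Real.sqrt (1 - η) * cf η 0 m l) := by
  unfold cf
  rw [ampPoly_succ_left, sub_mul, mul_assoc, coeff_sub, coeff_C_mul, coeff_X_mul_zero, coeff_C_mul]
  ring

lemma cf_succ_right (η : ℝ) (k m l : ℕ) :
    cf η (k + 1) m (l + 1) = Real.sqrt (1 - η) * cf η k m l + Real.sqrt η * cf η (k + 1) m l := by
  unfold cf
  rw [ampPoly_succ_right, add_mul, mul_assoc, coeff_add, coeff_C_mul, coeff_X_mul, coeff_C_mul]

lemma cf_zero_right (η : ℝ) (m l : ℕ) :
    cf η 0 m (l + 1) = Real.sqrt η * cf η 0 m l := by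
  unfold cf
  rw [ampPoly_succ_right, add_mul, mul_assoc, coeff_add, coeff_C_mul, coeff_X_mul_zero, coeff_C_mul]
  ring

lemma cf_eq_zero_of_lt (η : ℝ) {k m l : ℕ} (h : m + l < k) : cf η k m l = 0 := by
  unfold cf
  apply coeff_eq_zero_of_natDegree_lt
  have hd : (ampPoly η m l).natDegree ≤ m + l := by
    unfold ampPoly
    refine natDegree_mul_le.trans ?_
    have h1 : ((C (Real.sqrt η) * X - C (Real.sqrt (1 - η))) ^ m).natDegree ≤ m := by
      refine (natDegree_pow_le).trans ?_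
      have : (C (Real.sqrt η) * X - C (Real.sqrt (1 - η))).natDegree ≤ 1 := by compute_degree
      nlinarith
    have h2 : ((C (Real.sqrt (1 - η)) * X + C (Real.sqrt η)) ^ l).natDegree ≤ l := by
      refine (natDegree_pow_le).trans ?_
      have : (C (Real.sqrt (1 - η)) * X + C (Real.sqrt η)).natDegree ≤ 1 := by compute_degree
      nlinarith
    omega
  omega

/-- (D1) `(k+1) c(k+1,m,l) = a m c(k,m-1,l) + b l c(k,m,l-1)`. -/
lemma cf_D1 (η : ℝ) (k m l : ℕ) :
    ((k : ℝ) + 1) * cf η (k + 1) m l =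
      Real.sqrt η * m * cf η k (m - 1) l + Real.sqrt (1 - η) * l * cf η k m (l - 1) := by
  have h := congrArg (fun p => p.coeff k) (ampPoly_derivative η m l)
  simp only [coeff_derivative, coeff_add, coeff_C_mul] at h
  unfold cf
  linarith

/-- (D2) `(m+l-k) c(k,m,l) = -b m c(k,m-1,l) + a l c(k,m,l-1)`. -/
lemma cf_D2 (η : ℝ) (k m l : ℕ) :
    ((m : ℝ) + l - k) * cf η k m l =
      -(Real.sqrt (1 - η) * m * cf η k (m - 1) l) + Real.sqrt η * l * cf η k m (l - 1) := by
  have h := congrArg (fun p => p.coeff k) (ampPoly_euler η m l)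
  simp only [coeff_sub, coeff_add, coeff_C_mul] at h
  unfold cf
  cases k with
  | zero =>
    simp only [coeff_X_mul_zero] at h
    push_cast
    linarith
  | succ k =>
    simp only [coeff_X_mul, coeff_derivative] at h
    push_cast
    linarith

private lemma fact_pos (n : ℕ) : (0 : ℝ) < (n.factorial : ℝ) := by
  exact_mod_cast Nat.factorial_pos n

/-- The common square root. -/
private def Sq (k j m l : ℕ) : ℝ :=
  Real.sqrt ((k.factorial * j.factorial : ℝ) / (m.factorial * l.factorial))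

private lemma sq_step_k (k j m l : ℕ) :
    Real.sqrt ((k : ℝ) + 1) * Sq (k + 1) j m l = ((k : ℝ) + 1) * Sq k j m l := by
  unfold Sq
  have h0 : (0 : ℝ) ≤ (k : ℝ) + 1 := by positivity
  have : (((k + 1).factorial : ℝ) * j.factorial) / (m.factorial * l.factorial) =
      ((k : ℝ) + 1) * ((k.factorial * j.factorial : ℝ) / (m.factorial * l.factorial)) := by
    rw [Nat.factorial_succ]; push_cast; ring
  rw [this, Real.sqrt_mul h0, ← mul_assoc, Real.mul_self_sqrt h0]

private lemma sq_step_j (k j m l : ℕ) :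
    Real.sqrt ((j : ℝ) + 1) * Sq k (j + 1) m l = ((j : ℝ) + 1) * Sq k j m l := by
  unfold Sq
  have h0 : (0 : ℝ) ≤ (j : ℝ) + 1 := by positivity
  have : ((k.factorial : ℝ) * (j + 1).factorial) / (m.factorial * l.factorial) =
      ((j : ℝ) + 1) * ((k.factorial * j.factorial : ℝ) / (m.factorial * l.factorial)) := by
    rw [Nat.factorial_succ]; push_cast; ring
  rw [this, Real.sqrt_mul h0, ← mul_assoc, Real.mul_self_sqrt h0]

private lemma sq_step_m (k j m l : ℕ) :
    Real.sqrt ((m : ℝ) + 1) * Sq k j m l = ((m : ℝ) + 1) * Sq k j (m + 1) l := by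
  unfold Sq
  have h0 : (0 : ℝ) ≤ (m : ℝ) + 1 := by positivity
  have h1 : (0 : ℝ) < (m : ℝ) + 1 := by positivity
  have hm := fact_pos m
  have hl := fact_pos l
  have : ((k.factorial : ℝ) * j.factorial) / (m.factorial * l.factorial) =
      ((m : ℝ) + 1) * ((k.factorial * j.factorial : ℝ) / ((m + 1).factorial * l.factorial)) := by
    rw [Nat.factorial_succ]; push_cast; field_simp
  rw [this, Real.sqrt_mul h0, ← mul_assoc, Real.mul_self_sqrt h0]

private lemma sq_step_l (k j m l : ℕ) :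
    Real.sqrt ((l : ℝ) + 1) * Sq k j m l = ((l : ℝ) + 1) * Sq k j m (l + 1) := by
  unfold Sq
  have h0 : (0 : ℝ) ≤ (l : ℝ) + 1 := by positivity
  have h1 : (0 : ℝ) < (l : ℝ) + 1 := by positivity
  have hm := fact_pos m
  have hl := fact_pos l
  have : ((k.factorial : ℝ) * j.factorial) / (m.factorial * l.factorial) =
      ((l : ℝ) + 1) * ((k.factorial * j.factorial : ℝ) / (m.factorial * (l + 1).factorial)) := by
    rw [Nat.factorial_succ]; push_cast; field_simp
  rw [this, Real.sqrt_mul h0, ← mul_assoc, Real.mul_self_sqrt h0]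

private lemma bsAmp_eq_of (k j m l : ℕ) (h : k + j = m + l) :
    bsAmp η k j m l = Sq k j m l * cf η k m l := by
  unfold bsAmp Sq cf
  rw [if_pos h]

private lemma bsAmp_eq_zero_of (k j m l : ℕ) (h : k + j ≠ m + l) :
    bsAmp η k j m l = 0 := by
  unfold bsAmp
  rw [if_neg h]

private lemma sqrt_m_bsAmp_pos (k j m l : ℕ) (h : k + j + 1 = m + l) :
    Real.sqrt m * bsAmp η k j (m - 1) l = m * (Sq k j m l * cf η k (m - 1) l) := by
  cases m with
  | zero => simp
  | succ m =>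
    rw [bsAmp_eq_of k j (m + 1 - 1) l (by omega)]
    simp only [Nat.add_sub_cancel]
    push_cast
    rw [← mul_assoc, sq_step_m]
    ring

private lemma sqrt_l_bsAmp_pos (k j m l : ℕ) (h : k + j + 1 = m + l) :
    Real.sqrt l * bsAmp η k j m (l - 1) = l * (Sq k j m l * cf η k m (l - 1)) := by
  cases l with
  | zero => simp
  | succ l =>
    rw [bsAmp_eq_of k j m (l + 1 - 1) (by omega)]
    simp only [Nat.add_sub_cancel]
    push_cast
    rw [← mul_assoc, sq_step_l]
    ring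

private lemma sqrt_m_bsAmp_neg (k j m l : ℕ) (h : k + j + 1 ≠ m + l) :
    Real.sqrt m * bsAmp η k j (m - 1) l = 0 := by
  cases m with
  | zero => simp
  | succ m =>
    rw [bsAmp_eq_zero_of k j (m + 1 - 1) l (by omega)]
    simp

private lemma sqrt_l_bsAmp_neg (k j m l : ℕ) (h : k + j + 1 ≠ m + l) :
    Real.sqrt l * bsAmp η k j m (l - 1) = 0 := by
  cases l with
  | zero => simp
  | succ l =>
    rw [bsAmp_eq_zero_of k j m (l + 1 - 1) (by omega)]
    simp

/-- `U^† a U = √η a + √(1-η) b` in matrix elements (`⟨k,j| a U |m,l⟩ = ⟨k,j| U (√η a + √(1-η) b) |m,l⟩`). -/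
lemma bsAmp_relA (hη : 0 ≤ η) (hη1 : η ≤ 1) (k j m l : ℕ) :
    Real.sqrt (k + 1) * bsAmp η (k + 1) j m l =
      Real.sqrt η * Real.sqrt m * bsAmp η k j (m - 1) l +
        Real.sqrt (1 - η) * Real.sqrt l * bsAmp η k j m (l - 1) := by
  by_cases h : k + j + 1 = m + l
  · rw [bsAmp_eq_of (k + 1) j m l (by omega), mul_assoc (Real.sqrt η), mul_assoc (Real.sqrt (1 - η)),
      sqrt_m_bsAmp_pos k j m l h, sqrt_l_bsAmp_pos k j m l h, ← mul_assoc, sq_step_k]
    have := cf_D1 η k m l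
    linear_combination (Sq k j m l) * this
  · rw [bsAmp_eq_zero_of (k + 1) j m l (by omega), mul_assoc (Real.sqrt η),
      mul_assoc (Real.sqrt (1 - η)), sqrt_m_bsAmp_neg k j m l h, sqrt_l_bsAmp_neg k j m l h]
    simp

/-- `U^† b U = -√(1-η) a + √η b` in matrix elements. -/
lemma bsAmp_relB (hη : 0 ≤ η) (hη1 : η ≤ 1) (k j m l : ℕ) :
    Real.sqrt (j + 1) * bsAmp η k (j + 1) m l =
      -(Real.sqrt (1 - η) * Real.sqrt m * bsAmp η k j (m - 1) l) +
        Real.sqrt η * Real.sqrt l * bsAmp η k j m (l - 1) := by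
  by_cases h : k + j + 1 = m + l
  · rw [bsAmp_eq_of k (j + 1) m l (by omega), mul_assoc (Real.sqrt η), mul_assoc (Real.sqrt (1 - η)),
      sqrt_m_bsAmp_pos k j m l h, sqrt_l_bsAmp_pos k j m l h, ← mul_assoc, sq_step_j]
    have := cf_D2 η k m l
    have hj : ((m : ℝ) + l - k) = (j : ℝ) + 1 := by
      have : ((m + l : ℕ) : ℝ) = ((k + j + 1 : ℕ) : ℝ) := by rw [h]
      push_cast at this
      linarith
    rw [hj] at this
    linear_combination (Sq k j m l) * this
  · rw [bsAmp_eq_zero_of k (j + 1) m l (by omega), mul_assoc (Real.sqrt η),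
      mul_assoc (Real.sqrt (1 - η)), sqrt_m_bsAmp_neg k j m l h, sqrt_l_bsAmp_neg k j m l h]
    simp

/-- Weight. -/
def Wt (k j m l : ℕ) : ℝ := (k.factorial * j.factorial : ℝ) / (m.factorial * l.factorial)

lemma Wt_nonneg (k j m l : ℕ) : 0 ≤ Wt k j m l := by
  unfold Wt; positivity

/-- `Bp = W c²`, for all `k`. -/
lemma Bp_eq (η : ℝ) (k m l : ℕ) : Bp η k m l = Wt k (m + l - k) m l * cf η k m l ^ 2 := by
  by_cases h : k ≤ m + l
  · unfold Bp
    rw [bsAmp_eq_of k (m + l - k) m l (by omega), mul_pow]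
    have h2 := Wt_nonneg k (m + l - k) m l
    unfold Sq
    unfold Wt at h2 ⊢
    rw [Real.sq_sqrt h2]
  · rw [Bp_eq_zero_of_lt (by omega), cf_eq_zero_of_lt η (by omega)]
    simp

end

end Vale.Agent.Lib.P369
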