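import Vale.Agent.Lib.P369.AmpBasic

/-!
# JOB E1b: the recursion for `F_{m,l}` (P369)

Everything here is a finite algebraic statement about `P_{m,l} = ampPoly η m l`.  Let `a=√η, b=√(1-η)`,
so `a²+b²=1` for `0 ≤ η ≤ 1`.  Write `c(k,m,l) = P_{m,l}.coeff k`.

Polynomial identities:
* `P_{m+1,l} = (aX - b) P_{m,l}`, `P_{m,l+1} = (bX + a) P_{m,l}`;
* `P'_{m,l} = a m P_{m-1,l} + b l P_{m,l-1}`  (so `(k+1) c(k+1,m,l) = a m c(k,m-1,l) + b l c(k,m,l-1)`);
* `(m+l) P_{m,l} - X P'_{m,l} = -b m P_{m-1,l} + a l P_{m,l-1}`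
  (so `(m+l-k) c(k,m,l) = -b m c(k,m-1,l) + a l c(k,m,l-1)`).
The last two give the intertwining relations `bsAmp_relA`, `bsAmp_relB` at once (the square roots
combine: `√m √(k!j!/((m-1)! l!)) = m √(k!j!/(m! l!))`, etc).

Recursion.  Fix `k+j = m+l` with `m,l ≥ 1`, `k,j ≥ 1` and put
  `c₀ = c(k,m,l)`, `x₁ = c(k-1,m-1,l)`, `x₂ = c(k,m-1,l)`, `x₃ = c(k-1,m,l-1)`, `x₄ = c(k,m,l-1)`,
  `c₅ = c(k-1,m-1,l-1)`, `W = k! j!/(m! l!)`.
Then  `c₀ = a x₁ - b x₂ = b x₃ + a x₄`,  `l c₅ = a j x₁ + b k x₂`,  `m c₅ = a k x₄ - b j x₃`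
(apply the operators `b∂_X + a∂_Y`, `a∂_X - b∂_Y` to the homogeneous form; on the dehomogenised form these
follow from the two derivative identities above applied to `P_{m-1,l-1}`-level polynomials).
Hence the squares identities
  `k j c₀² + (l c₅)² = (k+j)(a² j x₁² + b² k x₂²)`,  `k j c₀² + (m c₅)² = (k+j)(b² j x₃² + a² k x₄²)`;
multiply the first by `m`, the second by `l`, add, divide by `k+j = m+l`:
  `k j c₀² + m l c₅² = b² m k x₂² + a² m j x₁² + a² l k x₄² + b² l j x₃²`.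
Multiplying by `W/(kj)` this is the coefficient form of the recursion
  `Bp(k,m,l) = b² Bp(k,m-1,l) + a² Bp(k-1,m-1,l) + a² Bp(k,m,l-1) + b² Bp(k-1,m,l-1) - Bp(k-1,m-1,l-1)`,
as `Bp(k,m-1,l) = (m/j) W x₂²`, `Bp(k-1,m-1,l) = (m/k) W x₁²`, `Bp(k,m,l-1) = (l/j) W x₄²`,
`Bp(k-1,m,l-1) = (l/k) W x₃²`, `Bp(k-1,m-1,l-1) = (m l/(k j)) W c₅²`.
Edge cases: `k = 0`: `c(0,m,l) = (-b)^m a^l`, `Bp(0,m,l) = C(m+l,m) b^{2m} a^{2l}`, Pascal;
`j = 0` (i.e. `k = m+l`): `c(k,m,l) = a^m b^l`, `Bp = C(m+l,m) a^{2m} b^{2l}`, Pascal; `l = 0`: `P_{m,0} = (aX-b)^m`,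
`Bp(k,m,0) = C(m,k) η^k (1-η)^{m-k}`, similarly `m = 0`: `Bp(k,0,l) = C(l,k) (1-η)^k η^{l-k}`.
(The recursion statement below is at the polynomial level; coefficientwise it is the display above.)
-/

namespace Vale.Agent.Lib.P369

open Polynomial Finset

noncomputable section

variable {η : ℝ}

private lemma fpos (n : ℕ) : (0 : ℝ) < (n.factorial : ℝ) := by
  exact_mod_cast Nat.factorial_pos n

private lemma sq_a (hη : 0 ≤ η) : Real.sqrt η ^ 2 = η := Real.sq_sqrt hη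

private lemma sq_b (hη1 : η ≤ 1) : Real.sqrt (1 - η) ^ 2 = 1 - η :=
  Real.sq_sqrt (by linarith)

/-- Generic case of the recursion. -/
private lemma rec_gen (hη : 0 ≤ η) (hη1 : η ≤ 1) (m l k j : ℕ) (h : k + j = m + l) :
    Bp η (k + 1) (m + 1) (l + 1) =
      (1 - η) * Bp η (k + 1) m (l + 1) + η * Bp η k m (l + 1) + η * Bp η (k + 1) (m + 1) l +
        (1 - η) * Bp η k (m + 1) l - Bp η k m l := by
  have ha := sq_a hη
  have hb := sq_b hη1
  set a := Real.sqrt η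
  set b := Real.sqrt (1 - η)
  simp only [Bp_eq]
  rw [show m + 1 + (l + 1) - (k + 1) = j + 1 by omega, show m + (l + 1) - (k + 1) = j by omega,
    show m + (l + 1) - k = j + 1 by omega, show m + 1 + l - (k + 1) = j by omega,
    show m + 1 + l - k = j + 1 by omega, show m + l - k = j by omega]
  have hKJ : ((k : ℝ) + 1) + ((j : ℝ) + 1) = ((m : ℝ) + 1) + ((l : ℝ) + 1) := by
    have : ((k + j : ℕ) : ℝ) = ((m + l : ℕ) : ℝ) := by rw [h]
    push_cast at this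
    linarith
  -- the coefficients
  set c₀ := cf η (k + 1) (m + 1) (l + 1) with hc₀
  set x₁ := cf η k m (l + 1) with hx₁
  set x₂ := cf η (k + 1) m (l + 1) with hx₂
  set x₃ := cf η k (m + 1) l with hx₃
  set x₄ := cf η (k + 1) (m + 1) l with hx₄
  set c₅ := cf η k m l with hc₅
  have h1 : c₀ = a * x₁ - b * x₂ := cf_succ_left η k m (l + 1)
  have h2 : c₀ = b * x₃ + a * x₄ := cf_succ_right η k (m + 1) l
  have d1 := cf_D1 η k m (l + 1)
  have d2 := cf_D2 η k m (l + 1)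
  have d3 := cf_D1 η k (m + 1) l
  have d4 := cf_D2 η k (m + 1) l
  simp only [Nat.add_sub_cancel] at d1 d2 d3 d4
  rw [← hx₂, ← hc₅] at d1
  rw [← hx₁, ← hc₅] at d2
  rw [← hx₄, ← hc₅] at d3
  rw [← hx₃, ← hc₅] at d4
  push_cast at d1 d2 d3 d4
  have e2 : ((m : ℝ) + ((l : ℝ) + 1) - k) = (j : ℝ) + 1 := by linarith
  have e4 : ((m : ℝ) + 1 + (l : ℝ) - k) = (j : ℝ) + 1 := by linarith
  rw [e2] at d2
  rw [e4] at d4
  set K : ℝ := (k : ℝ) + 1 with hK
  set J : ℝ := (j : ℝ) + 1 with hJ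
  set M : ℝ := (m : ℝ) + 1 with hM
  set L : ℝ := (l : ℝ) + 1 with hL
  have hK0 : 0 < K := by positivity
  have hJ0 : 0 < J := by positivity
  have hM0 : 0 < M := by positivity
  have hL0 : 0 < L := by positivity
  have h3 : L * c₅ = a * (J * x₁) + b * (K * x₂) := by
    rw [d2, d1]
    have : a ^ 2 + b ^ 2 = 1 := by rw [ha, hb]; ring
    linear_combination (-L * c₅) * this
  have h4 : M * c₅ = a * (K * x₄) - b * (J * x₃) := by
    rw [d3, d4]
    have : a ^ 2 + b ^ 2 = 1 := by rw [ha, hb]; ring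
    linear_combination (-M * c₅) * this
  have s1 : K * J * c₀ ^ 2 + (L * c₅) ^ 2 = (K + J) * (a ^ 2 * J * x₁ ^ 2 + b ^ 2 * K * x₂ ^ 2) := by
    rw [h1, h3]; ring
  have s2 : K * J * c₀ ^ 2 + (M * c₅) ^ 2 = (K + J) * (b ^ 2 * J * x₃ ^ 2 + a ^ 2 * K * x₄ ^ 2) := by
    rw [h2, h4]; ring
  have key : K * J * c₀ ^ 2 + M * L * c₅ ^ 2 =
      b ^ 2 * M * K * x₂ ^ 2 + a ^ 2 * M * J * x₁ ^ 2 + a ^ 2 * L * K * x₄ ^ 2 +
        b ^ 2 * L * J * x₃ ^ 2 := by
    have hne : K + J ≠ 0 := by positivity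
    apply mul_left_cancel₀ hne
    linear_combination M * s1 + L * s2 + (K * J * c₀ ^ 2 + M * L * c₅ ^ 2) * hKJ
  unfold Wt
  simp only [Nat.factorial_succ]
  push_cast
  rw [← hK, ← hJ, ← hM, ← hL]
  rw [ha, hb] at key
  have hfk := fpos k
  have hfj := fpos j
  have hfm := fpos m
  have hfl := fpos l
  set fk : ℝ := (k.factorial : ℝ)
  set fj : ℝ := (j.factorial : ℝ)
  set fm : ℝ := (m.factorial : ℝ)
  set fl : ℝ := (l.factorial : ℝ)
  field_simp
  linear_combination key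

/-- The case `k = 0`. -/
private lemma rec_k0 (hη : 0 ≤ η) (hη1 : η ≤ 1) (m l : ℕ) :
    Bp η 0 (m + 1) (l + 1) = (1 - η) * Bp η 0 m (l + 1) + η * Bp η 0 (m + 1) l := by
  have ha := sq_a hη
  have hb := sq_b hη1
  simp only [Bp_eq, Nat.sub_zero]
  have h1 := cf_zero_left η m (l + 1)
  have h2 := cf_zero_right η (m + 1) l
  set a := Real.sqrt η
  set b := Real.sqrt (1 - η)
  rw [show m + 1 + (l + 1) = (m + l + 1) + 1 by omega, show m + (l + 1) = m + l + 1 by omega,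
    show m + 1 + l = m + l + 1 by omega]
  set c₀ := cf η 0 (m + 1) (l + 1)
  set x₂ := cf η 0 m (l + 1)
  set x₄ := cf η 0 (m + 1) l
  have e1 : c₀ ^ 2 = b ^ 2 * x₂ ^ 2 := by rw [h1]; ring
  have e2 : c₀ ^ 2 = a ^ 2 * x₄ ^ 2 := by rw [h2]; ring
  rw [ha] at e2
  rw [hb] at e1
  unfold Wt
  simp only [Nat.factorial_succ, Nat.factorial_zero]
  push_cast
  have hfm := fpos m
  have hfl := fpos l
  have hn := fpos (m + l)
  have hm1 : (0 : ℝ) < (m : ℝ) + 1 := by positivity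
  have hl1 : (0 : ℝ) < (l : ℝ) + 1 := by positivity
  have hs : (0 : ℝ) < (m : ℝ) + l + 1 := by positivity
  have hs2 : (0 : ℝ) < (m : ℝ) + l + 1 + 1 := by positivity
  field_simp
  linear_combination ((m : ℝ) + 1) * e1 + ((l : ℝ) + 1) * e2

/-- The case `j = 0`. -/
private lemma rec_j0 (hη : 0 ≤ η) (hη1 : η ≤ 1) (m l : ℕ) :
    Bp η (m + l + 1 + 1) (m + 1) (l + 1) =
      η * Bp η (m + l + 1) m (l + 1) + (1 - η) * Bp η (m + l + 1) (m + 1) l := by
  have ha := sq_a hη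
  have hb := sq_b hη1
  simp only [Bp_eq]
  have h1 := cf_succ_left η (m + l + 1) m (l + 1)
  have h2 := cf_succ_right η (m + l + 1) (m + 1) l
  rw [cf_eq_zero_of_lt η (show m + (l + 1) < m + l + 1 + 1 by omega)] at h1
  rw [cf_eq_zero_of_lt η (show m + 1 + l < m + l + 1 + 1 by omega)] at h2
  set a := Real.sqrt η
  set b := Real.sqrt (1 - η)
  rw [show m + 1 + (l + 1) - (m + l + 1 + 1) = 0 by omega, show m + (l + 1) - (m + l + 1) = 0 by omega,
    show m + 1 + l - (m + l + 1) = 0 by omega]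
  set c₀ := cf η (m + l + 1 + 1) (m + 1) (l + 1)
  set x₁ := cf η (m + l + 1) m (l + 1)
  set x₃ := cf η (m + l + 1) (m + 1) l
  have e1 : c₀ ^ 2 = η * x₁ ^ 2 := by rw [h1, ← ha]; ring
  have e2 : c₀ ^ 2 = (1 - η) * x₃ ^ 2 := by rw [h2, ← hb]; ring
  unfold Wt
  simp only [Nat.factorial_succ, Nat.factorial_zero]
  push_cast
  have hfm := fpos m
  have hfl := fpos l
  have hn := fpos (m + l)
  have hm1 : (0 : ℝ) < (m : ℝ) + 1 := by positivity
  have hl1 : (0 : ℝ) < (l : ℝ) + 1 := by positivity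
  have hs : (0 : ℝ) < (m : ℝ) + l + 1 := by positivity
  have hs2 : (0 : ℝ) < (m : ℝ) + l + 1 + 1 := by positivity
  field_simp
  linear_combination ((m : ℝ) + 1) * e1 + ((l : ℝ) + 1) * e2

/-- Generic case with `l = 0`. -/
private lemma rec_l0_gen (hη : 0 ≤ η) (hη1 : η ≤ 1) (m k j : ℕ) (h : k + j + 1 = m) :
    Bp η (k + 1) (m + 1) 0 = (1 - η) * Bp η (k + 1) m 0 + η * Bp η k m 0 := by
  have ha := sq_a hη
  have hb := sq_b hη1
  simp only [Bp_eq]
  have h1 := cf_succ_left η k m 0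
  have d1 := cf_D1 η k m 0
  have d2 := cf_D2 η k m 0
  set a := Real.sqrt η
  set b := Real.sqrt (1 - η)
  rw [show m + 1 + 0 - (k + 1) = j + 1 by omega, show m + 0 - (k + 1) = j by omega,
    show m + 0 - k = j + 1 by omega]
  set c₀ := cf η (k + 1) (m + 1) 0
  set x₁ := cf η k m 0
  set x₂ := cf η (k + 1) m 0
  have hm : (m : ℝ) = (k : ℝ) + j + 1 := by
    have : ((k + j + 1 : ℕ) : ℝ) = (m : ℝ) := by rw [h]
    push_cast at this
    linarith
  have hKJ : ((k : ℝ) + 1) + ((j : ℝ) + 1) = (m : ℝ) + 1 := by linarith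
  push_cast at d1 d2
  have e2 : ((m : ℝ) + 0 - k) = (j : ℝ) + 1 := by linarith
  rw [e2] at d2
  set K : ℝ := (k : ℝ) + 1 with hK
  set J : ℝ := (j : ℝ) + 1 with hJ
  set M : ℝ := (m : ℝ) + 1 with hM
  have hK0 : 0 < K := by positivity
  have hJ0 : 0 < J := by positivity
  have hM0 : 0 < M := by positivity
  have h3 : 0 = a * (J * x₁) + b * (K * x₂) := by
    rw [d2, d1]; ring
  have s1 : K * J * c₀ ^ 2 = (K + J) * (a ^ 2 * J * x₁ ^ 2 + b ^ 2 * K * x₂ ^ 2) := by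
    have h4 : K * J * c₀ ^ 2 + (a * (J * x₁) + b * (K * x₂)) ^ 2 =
        (K + J) * (a ^ 2 * J * x₁ ^ 2 + b ^ 2 * K * x₂ ^ 2) := by
      rw [h1]; ring
    rw [← h3] at h4
    linarith
  rw [hKJ, ha, hb] at s1
  unfold Wt
  simp only [Nat.factorial_succ, Nat.factorial_zero]
  push_cast
  rw [← hK, ← hJ, ← hM]
  have hfk := fpos k
  have hfj := fpos j
  have hfm := fpos m
  field_simp
  linear_combination s1

private lemma rec_l0_k0 (hη1 : η ≤ 1) (m : ℕ) :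
    Bp η 0 (m + 1) 0 = (1 - η) * Bp η 0 m 0 := by
  have hb := sq_b hη1
  simp only [Bp_eq]
  rw [cf_zero_left]
  set b := Real.sqrt (1 - η)
  unfold Wt
  simp only [Nat.sub_zero, Nat.add_zero, Nat.factorial_zero]
  have hfm := fpos m
  have hfm' := fpos (m + 1)
  rw [← hb]
  field_simp

private lemma rec_l0_j0 (hη : 0 ≤ η) (m : ℕ) :
    Bp η (m + 1) (m + 1) 0 = η * Bp η m m 0 := by
  have ha := sq_a hη
  simp only [Bp_eq]
  rw [cf_succ_left, cf_eq_zero_of_lt η (show m + 0 < m + 1 by omega)]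
  set a := Real.sqrt η
  unfold Wt
  simp only [Nat.sub_self, Nat.add_zero, Nat.factorial_zero]
  have hfm := fpos m
  have hfm' := fpos (m + 1)
  rw [← ha]
  field_simp
  ring

/-- Generic case with `m = 0`. -/
private lemma rec_m0_gen (hη : 0 ≤ η) (hη1 : η ≤ 1) (l k j : ℕ) (h : k + j + 1 = l) :
    Bp η (k + 1) 0 (l + 1) = η * Bp η (k + 1) 0 l + (1 - η) * Bp η k 0 l := by
  have ha := sq_a hη
  have hb := sq_b hη1
  simp only [Bp_eq]
  have h1 := cf_succ_right η k 0 l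
  have d1 := cf_D1 η k 0 l
  have d2 := cf_D2 η k 0 l
  set a := Real.sqrt η
  set b := Real.sqrt (1 - η)
  rw [show 0 + (l + 1) - (k + 1) = j + 1 by omega, show 0 + l - (k + 1) = j by omega,
    show 0 + l - k = j + 1 by omega]
  set c₀ := cf η (k + 1) 0 (l + 1)
  set x₃ := cf η k 0 l
  set x₄ := cf η (k + 1) 0 l
  have hm : (l : ℝ) = (k : ℝ) + j + 1 := by
    have : ((k + j + 1 : ℕ) : ℝ) = (l : ℝ) := by rw [h]
    push_cast at this
    linarith
  have hKJ : ((k : ℝ) + 1) + ((j : ℝ) + 1) = (l : ℝ) + 1 := by linarith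
  push_cast at d1 d2
  have e2 : ((0 : ℝ) + l - k) = (j : ℝ) + 1 := by linarith
  rw [e2] at d2
  set K : ℝ := (k : ℝ) + 1 with hK
  set J : ℝ := (j : ℝ) + 1 with hJ
  set L : ℝ := (l : ℝ) + 1 with hL
  have hK0 : 0 < K := by positivity
  have hJ0 : 0 < J := by positivity
  have hL0 : 0 < L := by positivity
  have h3 : 0 = a * (K * x₄) - b * (J * x₃) := by
    rw [d2, d1]; ring
  have s1 : K * J * c₀ ^ 2 = (K + J) * (b ^ 2 * J * x₃ ^ 2 + a ^ 2 * K * x₄ ^ 2) := by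
    have h4 : K * J * c₀ ^ 2 + (a * (K * x₄) - b * (J * x₃)) ^ 2 =
        (K + J) * (b ^ 2 * J * x₃ ^ 2 + a ^ 2 * K * x₄ ^ 2) := by
      rw [h1]; ring
    rw [← h3] at h4
    linarith
  rw [hKJ, ha, hb] at s1
  unfold Wt
  simp only [Nat.factorial_succ, Nat.factorial_zero]
  push_cast
  rw [← hK, ← hJ, ← hL]
  have hfk := fpos k
  have hfj := fpos j
  have hfm := fpos l
  field_simp
  linear_combination s1

private lemma rec_m0_k0 (hη : 0 ≤ η) (l : ℕ) :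
    Bp η 0 0 (l + 1) = η * Bp η 0 0 l := by
  have ha := sq_a hη
  simp only [Bp_eq]
  rw [cf_zero_right]
  set a := Real.sqrt η
  unfold Wt
  simp only [Nat.sub_zero, Nat.zero_add, Nat.factorial_zero]
  have hfm := fpos l
  have hfm' := fpos (l + 1)
  rw [← ha]
  field_simp

private lemma rec_m0_j0 (hη1 : η ≤ 1) (l : ℕ) :
    Bp η (l + 1) 0 (l + 1) = (1 - η) * Bp η l 0 l := by
  have hb := sq_b hη1
  simp only [Bp_eq]
  rw [cf_succ_right, cf_eq_zero_of_lt η (show 0 + l < l + 1 by omega)]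
  set b := Real.sqrt (1 - η)
  unfold Wt
  simp only [Nat.zero_add, Nat.sub_self, Nat.factorial_zero]
  have hfm := fpos l
  have hfm' := fpos (l + 1)
  rw [← hb]
  field_simp
  ring

private lemma coeff_alphaP_zero (p : ℝ[X]) : (alphaP η * p).coeff 0 = (1 - η) * p.coeff 0 := by
  unfold alphaP
  rw [add_mul, mul_assoc, coeff_add, coeff_C_mul, coeff_C_mul, coeff_X_mul_zero]
  ring

private lemma coeff_alphaP_succ (p : ℝ[X]) (k : ℕ) :
    (alphaP η * p).coeff (k + 1) = (1 - η) * p.coeff (k + 1) + η * p.coeff k := by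
  unfold alphaP
  rw [add_mul, mul_assoc, coeff_add, coeff_C_mul, coeff_C_mul, coeff_X_mul]

private lemma coeff_alphaQ_zero (p : ℝ[X]) : (alphaQ η * p).coeff 0 = η * p.coeff 0 := by
  unfold alphaQ
  rw [add_mul, mul_assoc, coeff_add, coeff_C_mul, coeff_C_mul, coeff_X_mul_zero]
  ring

private lemma coeff_alphaQ_succ (p : ℝ[X]) (k : ℕ) :
    (alphaQ η * p).coeff (k + 1) = η * p.coeff (k + 1) + (1 - η) * p.coeff k := by
  unfold alphaQ
  rw [add_mul, mul_assoc, coeff_add, coeff_C_mul, coeff_C_mul, coeff_X_mul]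

lemma Fp_zero_zero (hη : 0 ≤ η) (hη1 : η ≤ 1) : Fp η 0 0 = 1 := by
  ext n
  rw [coeff_Fp]
  cases n with
  | zero =>
    simp only [Bp, coeff_one_zero]
    simp [bsAmp_vacuum]
  | succ n =>
    rw [Bp_eq_zero_of_lt (by omega), coeff_one]
    simp

lemma Fp_succ_zero (hη : 0 ≤ η) (hη1 : η ≤ 1) (m : ℕ) :
    Fp η (m + 1) 0 = alphaP η * Fp η m 0 := by
  ext n
  cases n with
  | zero =>
    rw [coeff_alphaP_zero, coeff_Fp, coeff_Fp]
    exact rec_l0_k0 hη1 m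
  | succ k =>
    rw [coeff_alphaP_succ, coeff_Fp, coeff_Fp, coeff_Fp]
    rcases lt_trichotomy k m with h | h | h
    · exact rec_l0_gen hη hη1 m k (m - k - 1) (by omega)
    · subst h
      rw [rec_l0_j0 hη, Bp_eq_zero_of_lt (show k + 0 < k + 1 by omega)]
      ring
    · rw [Bp_eq_zero_of_lt (by omega), Bp_eq_zero_of_lt (by omega), Bp_eq_zero_of_lt (by omega)]
      ring

lemma Fp_zero_succ (hη : 0 ≤ η) (hη1 : η ≤ 1) (l : ℕ) :
    Fp η 0 (l + 1) = alphaQ η * Fp η 0 l := by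
  ext n
  cases n with
  | zero =>
    rw [coeff_alphaQ_zero, coeff_Fp, coeff_Fp]
    exact rec_m0_k0 hη l
  | succ k =>
    rw [coeff_alphaQ_succ, coeff_Fp, coeff_Fp, coeff_Fp]
    rcases lt_trichotomy k l with h | h | h
    · exact rec_m0_gen hη hη1 l k (l - k - 1) (by omega)
    · subst h
      rw [rec_m0_j0 hη1, Bp_eq_zero_of_lt (show 0 + k < k + 1 by omega)]
      ring
    · rw [Bp_eq_zero_of_lt (by omega), Bp_eq_zero_of_lt (by omega), Bp_eq_zero_of_lt (by omega)]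
      ring

/-- The key recursion (`D · 𝔉 = 1`). -/
lemma Fp_succ_succ (hη : 0 ≤ η) (hη1 : η ≤ 1) (m l : ℕ) :
    Fp η (m + 1) (l + 1) =
      alphaP η * Fp η m (l + 1) + alphaQ η * Fp η (m + 1) l - X * Fp η m l := by
  ext n
  rw [coeff_sub, coeff_add]
  cases n with
  | zero =>
    rw [coeff_alphaP_zero, coeff_alphaQ_zero, coeff_X_mul_zero, coeff_Fp, coeff_Fp, coeff_Fp]
    rw [rec_k0 hη hη1]
    ring
  | succ k =>
    rw [coeff_alphaP_succ, coeff_alphaQ_succ, coeff_X_mul]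
    simp only [coeff_Fp]
    rcases lt_trichotomy k (m + l + 1) with h | h | h
    · rw [rec_gen hη hη1 m l k (m + l - k) (by omega)]
      ring
    · subst h
      rw [rec_j0 hη hη1, Bp_eq_zero_of_lt (show m + (l + 1) < m + l + 1 + 1 by omega),
        Bp_eq_zero_of_lt (show m + 1 + l < m + l + 1 + 1 by omega),
        Bp_eq_zero_of_lt (show m + l < m + l + 1 by omega)]
      ring
    · rw [Bp_eq_zero_of_lt (by omega), Bp_eq_zero_of_lt (by omega), Bp_eq_zero_of_lt (by omega),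
        Bp_eq_zero_of_lt (by omega), Bp_eq_zero_of_lt (by omega), Bp_eq_zero_of_lt (by omega)]
      ring

end

end Vale.Agent.Lib.P369
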