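import Vale.Agent.Lib.P369.BsBasic

/-!
# JOB M2: bond identities for single-mode sequences (P369)

`u,v : ℕ → ℝ` nonnegative, antitone, `u k ≤ c w^k`, `w<1` (no normalisation, may vanish).  `o = bsOut η u v`.  `δu = dl u`, `δv = dl v` `≥ 0`, `u_m = ∑_{i≥m} δu_i` (telescoping, `u → 0`).

(Abel) `o_k = ∑_{m,l} u_m v_l B(k,m,l) = ∑_{m,l} ∑_{i≥m} ∑_{j≥l} δu_i δv_j B(k,m,l) = ∑_{i,j} δu_i δv_j B̄(k,i,j)`  (Tonelli, all terms `≥ 0`; `B̄ = Bbar`, `0 ≤ B̄(k,i,j) ≤ (i+1)(j+1)`).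

By (A2) `Bbar_diff`: `(k+1)(o_k - o_{k+1}) = ∑_{i,j} δu_i δv_j T̃(k,i,j)`.

By (A3) `Bbar_succ`: `(k+1) o_{k+1} = ∑_{i,j} δu_i δv_j [η ∑_{m<i} T̃(k,m,j) + (1-η) ∑_{l<j} T̃(k,i,l)]
  = ∑_{m,j} η δv_j T̃(k,m,j) u_{m+1} + ∑_{i,l} (1-η) δu_i T̃(k,i,l) v_{l+1}`   (using `∑_{i>m} δu_i = u_{m+1}`).

`seq_mass`: `∑_l (l+1) δv_l = ∑_l v_l` (Abel).
-/

namespace Vale.Agent.Lib.P369

open Finset Filter Topology

noncomputable section

variable {η : ℝ} {u v : ℕ → ℝ}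

/-- Standing hypotheses on a sequence. -/
structure SeqOK (u : ℕ → ℝ) : Prop where
  nonneg : ∀ k, 0 ≤ u k
  anti : Antitone u
  upper : ∃ c w : ℝ, 0 ≤ c ∧ 0 ≤ w ∧ w < 1 ∧ ∀ k, u k ≤ c * w ^ k

lemma dl_nonneg' {f : ℕ → ℝ} (hf : Antitone f) (k : ℕ) : 0 ≤ dl f k :=
  sub_nonneg.mpr (hf (Nat.le_succ k))

/-- Tonelli, in fibred form. -/
lemma hasSum_prod_nn {F : ℕ × ℕ → ℝ} (hF : ∀ x, 0 ≤ F x) {g : ℕ → ℝ} {s : ℝ}
    (h1 : ∀ j, HasSum (fun y => F (j, y)) (g j)) (h2 : HasSum g s) : HasSum F s := by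
  have hs : Summable F := by
    refine (summable_prod_of_nonneg (fun x => hF x)).2 ⟨fun j => (h1 j).summable, ?_⟩
    have : (fun x => ∑' y, F (x, y)) = g := funext fun j => (h1 j).tsum_eq
    rw [this]
    exact h2.summable
  have h3 := hs.hasSum.prod_fiberwise h1
  have h4 := h3.unique h2
  rw [← h4]
  exact hs.hasSum

/-- Transport of a nonnegative double sum along a fibrewise implication. -/
lemma hasSum_fib {F G : ℕ × ℕ → ℝ} (hG : ∀ x, 0 ≤ G x) {s : ℝ}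
    (hFG : ∀ j t, HasSum (fun y => F (j, y)) t → HasSum (fun y => G (j, y)) t)
    (h : HasSum F s) : HasSum G s := by
  have hs := h.summable
  have h1 : ∀ j, HasSum (fun y => F (j, y)) (∑' y, F (j, y)) := fun j =>
    (hs.prod_factor j).hasSum
  exact hasSum_prod_nn hG (fun j => hFG j _ (h1 j)) (h.prod_fiberwise h1)

/-- Swap of the two coordinates. -/
lemma hasSum_swap {F : ℕ × ℕ → ℝ} {s : ℝ} (h : HasSum F s) :
    HasSum (fun x : ℕ × ℕ => F (x.2, x.1)) s :=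
  ((Equiv.prodComm ℕ ℕ).hasSum_iff).2 h

/-- One variable Abel summation for nonnegative terms. -/
lemma abel1 {δ g f : ℕ → ℝ} {t : ℝ} (hδ : ∀ i, 0 ≤ δ i) (hg : ∀ m, 0 ≤ g m)
    (hf : ∀ M, HasSum (fun p => δ (M + p)) (f M)) (h : HasSum (fun m => f m * g m) t) :
    HasSum (fun i => δ i * ∑ m ∈ range (i + 1), g m) t := by
  have hF : HasSum (fun x : ℕ × ℕ => δ (x.1 + x.2) * g x.1) t :=
    hasSum_prod_nn (fun x => mul_nonneg (hδ _) (hg _)) (fun m => (hf m).mul_right (g m)) h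
  have h2 := ((Finset.HasAntidiagonal.sigmaAntidiagonalEquivProd (A := ℕ)).hasSum_iff).2 hF
  have h3 := h2.sigma (fun i => hasSum_fintype _)
  have h4 : ∀ i : ℕ, (∑ c : antidiagonal i,
      ((fun x : ℕ × ℕ => δ (x.1 + x.2) * g x.1) ∘
        (Finset.HasAntidiagonal.sigmaAntidiagonalEquivProd (A := ℕ))) ⟨i, c⟩) =
      δ i * ∑ m ∈ range (i + 1), g m := by
    intro i
    have e : ∀ c : antidiagonal i,
        ((fun x : ℕ × ℕ => δ (x.1 + x.2) * g x.1) ∘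
          (Finset.HasAntidiagonal.sigmaAntidiagonalEquivProd (A := ℕ))) ⟨i, c⟩ =
        (fun x : ℕ × ℕ => δ (x.1 + x.2) * g x.1) c.1 := fun c => rfl
    simp only [e]
    rw [Finset.sum_coe_sort (antidiagonal i) (fun x : ℕ × ℕ => δ (x.1 + x.2) * g x.1)]
    have e2 : ∀ x ∈ antidiagonal i, δ (x.1 + x.2) * g x.1 = δ i * g x.1 := by
      intro x hx
      rw [Finset.HasAntidiagonal.mem_antidiagonal.1 hx]
    rw [Finset.sum_congr rfl e2, Finset.Nat.sum_antidiagonal_eq_sum_range_succ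
      (fun a _ => δ i * g a) i, Finset.mul_sum]
  simp only [h4] at h3
  exact h3

/-- Same, strict inner range. -/
lemma abel1' {δ g f : ℕ → ℝ} {t : ℝ} (hδ : ∀ i, 0 ≤ δ i) (hg : ∀ m, 0 ≤ g m)
    (hf : ∀ M, HasSum (fun p => δ (M + 1 + p)) (f M)) (h : HasSum (fun m => f m * g m) t) :
    HasSum (fun i => δ i * ∑ m ∈ range i, g m) t := by
  have h1 : HasSum (fun i => δ (i + 1) * ∑ m ∈ range (i + 1), g m) t := by
    refine abel1 (δ := fun i => δ (i + 1)) (f := f) (fun i => hδ _) hg (fun M => ?_) h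
    have e : (fun p => δ (M + p + 1)) = fun p => δ (M + 1 + p) := by
      funext p
      congr 1
      omega
    simpa only [e] using hf M
  have h2 := (hasSum_nat_add_iff' (f := fun i => δ i * ∑ m ∈ range i, g m) (g := t) 1).1
  apply h2
  simpa using h1

/-- Two variable Abel summation for nonnegative terms. -/
lemma abel2 {δa δb fa fb : ℕ → ℝ} {G : ℕ → ℕ → ℝ} {s : ℝ} (hδa : ∀ i, 0 ≤ δa i)
    (hδb : ∀ i, 0 ≤ δb i) (hfb : ∀ i, 0 ≤ fb i) (hG : ∀ m l, 0 ≤ G m l)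
    (hfa : ∀ M, HasSum (fun p => δa (M + p)) (fa M))
    (hfb' : ∀ M, HasSum (fun p => δb (M + p)) (fb M))
    (h : HasSum (fun x : ℕ × ℕ => fa x.1 * fb x.2 * G x.1 x.2) s) :
    HasSum (fun x : ℕ × ℕ => δa x.1 * δb x.2 *
      ∑ m ∈ range (x.1 + 1), ∑ l ∈ range (x.2 + 1), G m l) s := by
  have h1 := hasSum_swap h
  simp only at h1
  have h2 : HasSum (fun x : ℕ × ℕ => δa x.2 * ∑ m ∈ range (x.2 + 1), (fb x.1 * G m x.1)) s := by
    refine hasSum_fib (fun x => mul_nonneg (hδa _) (Finset.sum_nonneg fun m _ =>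
      mul_nonneg (hfb _) (hG _ _))) ?_ h1
    intro L t ht
    simp only at ht ⊢
    refine abel1 hδa (fun m => mul_nonneg (hfb L) (hG m L)) hfa ?_
    have e : (fun m => fa m * (fb L * G m L)) = fun y => fa y * fb L * G y L := by
      funext m
      ring
    rw [e]
    exact ht
  have h3 := hasSum_swap h2
  simp only at h3
  have h4 : HasSum (fun x : ℕ × ℕ => δb x.2 * ∑ l ∈ range (x.2 + 1),
      (δa x.1 * ∑ m ∈ range (x.1 + 1), G m l)) s := by
    refine hasSum_fib (fun x => mul_nonneg (hδb _) (Finset.sum_nonneg fun l _ =>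
      mul_nonneg (hδa _) (Finset.sum_nonneg fun m _ => hG _ _))) ?_ h3
    intro i t ht
    simp only at ht ⊢
    refine abel1 hδb (fun l => mul_nonneg (hδa i) (Finset.sum_nonneg fun m _ => hG _ _)) hfb' ?_
    have e : (fun l => fb l * (δa i * ∑ m ∈ range (i + 1), G m l)) =
        fun y => δa i * ∑ m ∈ range (i + 1), fb y * G m y := by
      funext l
      rw [← Finset.mul_sum]
      ring
    rw [e]
    exact ht
  have e : (fun x : ℕ × ℕ => δa x.1 * δb x.2 *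
      ∑ m ∈ range (x.1 + 1), ∑ l ∈ range (x.2 + 1), G m l) =
      fun x : ℕ × ℕ => δb x.2 * ∑ l ∈ range (x.2 + 1),
      (δa x.1 * ∑ m ∈ range (x.1 + 1), G m l) := by
    funext x
    simp only [← Finset.mul_sum]
    rw [Finset.sum_comm]
    ring
  rw [e]
  exact h4

/-- Telescoping tail sums. -/
lemma tail_dl {f : ℕ → ℝ} (hf : Antitone f) (h0 : Tendsto f atTop (𝓝 0)) (M : ℕ) :
    HasSum (fun p => dl f (M + p)) (f M) := by
  refine (hasSum_iff_tendsto_nat_of_nonneg (fun p => dl_nonneg' hf _) _).2 ?_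
  have e : ∀ N, ∑ p ∈ range N, dl f (M + p) = f M - f (M + N) := by
    intro N
    have := Finset.sum_range_sub' (fun p => f (M + p)) N
    simpa [dl, add_assoc] using this
  simp only [e]
  have h1 : Tendsto (fun N => f (M + N)) atTop (𝓝 0) :=
    h0.comp (tendsto_add_atTop_nat M |>.congr fun N => by omega)
  simpa using tendsto_const_nhds.sub h1

namespace SeqOK

lemma tendsto_zero (hf : SeqOK u) : Tendsto u atTop (𝓝 0) := by
  obtain ⟨c, w, hc, hw, hw1, hup⟩ := hf.upper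
  have h1 : Tendsto (fun k => c * w ^ k) atTop (𝓝 0) := by
    simpa using (tendsto_pow_atTop_nhds_zero_of_lt_one hw hw1).const_mul c
  exact squeeze_zero hf.nonneg hup h1

lemma dl_nn (hf : SeqOK u) (k : ℕ) : 0 ≤ dl u k := dl_nonneg' hf.anti k

lemma tail (hf : SeqOK u) (M : ℕ) : HasSum (fun p => dl u (M + p)) (u M) :=
  tail_dl hf.anti hf.tendsto_zero M

lemma tail' (hf : SeqOK u) (M : ℕ) : HasSum (fun p => dl u (M + 1 + p)) (u (M + 1)) :=
  hf.tail (M + 1)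

lemma abs_le (hf : SeqOK u) {c w : ℝ} (h : ∀ k, u k ≤ c * w ^ k) (k : ℕ) :
    |u k| ≤ c * w ^ k := by
  rw [abs_of_nonneg (hf.nonneg k)]
  exact h k

lemma abs_dl_le (hf : SeqOK u) {c w : ℝ} (h : ∀ k, u k ≤ c * w ^ k) (k : ℕ) :
    |dl u k| ≤ c * w ^ k := by
  rw [abs_of_nonneg (hf.dl_nn k)]
  have : 0 ≤ u (k + 1) := hf.nonneg _
  unfold dl
  linarith [h k]

lemma summable (hf : SeqOK u) : Summable u := by
  obtain ⟨c, w, hc, hw, hw1, hup⟩ := hf.upper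
  exact Summable.of_nonneg_of_le hf.nonneg hup
    ((summable_geometric_of_lt_one hw hw1).mul_left c)

end SeqOK

lemma seq_abel (hη : 0 ≤ η) (hη1 : η ≤ 1) (hu : SeqOK u) (hv : SeqOK v) (k : ℕ) :
    HasSum (fun x : ℕ × ℕ => dl u x.1 * dl v x.2 * Bbar η k x.1 x.2) (bsOut η u v k) := by
  obtain ⟨c, w, hc, hw, hw1, hup⟩ := hu.upper
  obtain ⟨c', w', hc', hw', hw1', hup'⟩ := hv.upper
  have hs := summable_bsTerm (A := u) (B := v) (K := fun m l => Bp η k m l) (K₀ := 1) hw hw1 hw'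
    hw1' (hu.abs_le hup) (hv.abs_le hup') (fun m l => by
      rw [abs_of_nonneg (Bp_nonneg k m l)]
      have h1 := Bp_le_one hη hη1 k m l
      have h2 : (1 : ℝ) ≤ (m : ℝ) + 1 := by
        have := Nat.cast_nonneg (α := ℝ) m
        linarith
      have h3 : (1 : ℝ) ≤ (l : ℝ) + 1 := by
        have := Nat.cast_nonneg (α := ℝ) l
        linarith
      nlinarith)
  exact abel2 hu.dl_nn hv.dl_nn hv.nonneg (fun m l => Bp_nonneg k m l) hu.tail hv.tail hs.hasSum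

lemma seq_dl (hη : 0 ≤ η) (hη1 : η ≤ 1) (hu : SeqOK u) (hv : SeqOK v) (k : ℕ) :
    HasSum (fun x : ℕ × ℕ => dl u x.1 * dl v x.2 * Tk η k x.1 x.2)
      (((k : ℝ) + 1) * (bsOut η u v k - bsOut η u v (k + 1))) := by
  have h1 := seq_abel hη hη1 hu hv k
  have h2 := seq_abel hη hη1 hu hv (k + 1)
  have h3 := (h1.sub h2).mul_left ((k : ℝ) + 1)
  have e : (fun x : ℕ × ℕ => dl u x.1 * dl v x.2 * Tk η k x.1 x.2) =
      fun x : ℕ × ℕ => ((k : ℝ) + 1) * (dl u x.1 * dl v x.2 * Bbar η k x.1 x.2 -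
        dl u x.1 * dl v x.2 * Bbar η (k + 1) x.1 x.2) := by
    funext x
    rw [← Bbar_diff hη hη1]
    ring
  rw [e]
  exact h3

/-- Polynomial bound for `T`. -/
lemma Tk_abs_le (hη : 0 ≤ η) (hη1 : η ≤ 1) (k m l : ℕ) :
    |Tk η k m l| ≤ 1 * ((m : ℝ) + 1) * ((l : ℝ) + 1) := by
  rw [abs_of_nonneg (Tk_nonneg k m l), one_mul]
  exact Tk_le hη hη1 k m l

private lemma succ_alpha (hη : 0 ≤ η) (hu : SeqOK u) (hv : SeqOK v) (k : ℕ) {x : ℝ}
    (hx' : HasSum (fun z : ℕ × ℕ => η * (u (z.1 + 1) * dl v z.2 * Tk η k z.1 z.2)) x) :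
    HasSum (fun z : ℕ × ℕ => dl u z.1 * (dl v z.2 * (η *
        ∑ m ∈ range z.1, Tk η k m z.2))) x := by
  have hT := fun k m l => Tk_nonneg (η := η) k m l
  have h1 := hasSum_swap hx'
  simp only at h1
  have h2 : HasSum (fun z : ℕ × ℕ => dl u z.2 * ∑ m ∈ range z.2,
      (dl v z.1 * (η * Tk η k m z.1))) x := by
    refine hasSum_fib (fun z => mul_nonneg (hu.dl_nn _) (Finset.sum_nonneg fun m _ =>
      mul_nonneg (hv.dl_nn _) (mul_nonneg hη (hT _ _ _)))) ?_ h1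
    intro L t ht
    simp only at ht ⊢
    refine abel1' hu.dl_nn (fun m => mul_nonneg (hv.dl_nn L) (mul_nonneg hη (hT _ _ _))) hu.tail' ?_
    have e : (fun m => u (m + 1) * (dl v L * (η * Tk η k m L))) =
        fun y => η * (u (y + 1) * dl v L * Tk η k y L) := by
      funext m
      ring
    rw [e]
    exact ht
  have h3 := hasSum_swap h2
  simp only at h3
  have e : (fun z : ℕ × ℕ => dl u z.1 * (dl v z.2 * (η *
      ∑ m ∈ range z.1, Tk η k m z.2))) =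
      fun z : ℕ × ℕ => dl u z.1 * ∑ m ∈ range z.1,
        (dl v z.2 * (η * Tk η k m z.2)) := by
    funext z
    simp only [← Finset.mul_sum]
  rw [e]
  exact h3

private lemma succ_beta (hη1 : η ≤ 1) (hu : SeqOK u) (hv : SeqOK v) (k : ℕ) {y : ℝ}
    (hy' : HasSum (fun z : ℕ × ℕ => (1 - η) * (dl u z.1 * v (z.2 + 1) * Tk η k z.1 z.2)) y) :
    HasSum (fun z : ℕ × ℕ => dl v z.2 * (dl u z.1 * ((1 - η) *
        ∑ l ∈ range z.2, Tk η k z.1 l))) y := by
  have h0η : 0 ≤ 1 - η := by linarith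
  have hT := fun k m l => Tk_nonneg (η := η) k m l
  have h2 : HasSum (fun z : ℕ × ℕ => dl v z.2 * ∑ l ∈ range z.2,
      (dl u z.1 * ((1 - η) * Tk η k z.1 l))) y := by
    refine hasSum_fib (fun z => mul_nonneg (hv.dl_nn _) (Finset.sum_nonneg fun m _ =>
      mul_nonneg (hu.dl_nn _) (mul_nonneg h0η (hT _ _ _)))) ?_ hy'
    intro i t ht
    simp only at ht ⊢
    refine abel1' hv.dl_nn (fun m => mul_nonneg (hu.dl_nn i) (mul_nonneg h0η (hT _ _ _))) hv.tail' ?_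
    have e : (fun l => v (l + 1) * (dl u i * ((1 - η) * Tk η k i l))) =
        fun y => (1 - η) * (dl u i * v (y + 1) * Tk η k i y) := by
      funext m
      ring
    rw [e]
    exact ht
  have e : (fun z : ℕ × ℕ => dl v z.2 * (dl u z.1 * ((1 - η) *
      ∑ l ∈ range z.2, Tk η k z.1 l))) =
      fun z : ℕ × ℕ => dl v z.2 * ∑ l ∈ range z.2,
        (dl u z.1 * ((1 - η) * Tk η k z.1 l)) := by
    funext z
    simp only [← Finset.mul_sum]
  rw [e]
  exact h2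

private lemma succ_summable (hη : 0 ≤ η) (hη1 : η ≤ 1) (hu : SeqOK u) (hv : SeqOK v) (k : ℕ) :
    Summable (fun x : ℕ × ℕ => u (x.1 + 1) * dl v x.2 * Tk η k x.1 x.2) ∧
    Summable (fun x : ℕ × ℕ => dl u x.1 * v (x.2 + 1) * Tk η k x.1 x.2) := by
  obtain ⟨c, w, hc, hw, hw1, hup⟩ := hu.upper
  obtain ⟨c', w', hc', hw', hw1', hup'⟩ := hv.upper
  constructor
  · exact summable_bsTerm (A := fun m => u (m + 1)) (B := dl v) (K := fun m l => Tk η k m l)
      (K₀ := 1) (c := c * w) (w := w) hw hw1 hw' hw1'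
      (fun m => by
        rw [abs_of_nonneg (hu.nonneg _)]
        have := hup (m + 1)
        rw [pow_succ] at this
        linarith)
      (hv.abs_dl_le hup') (fun m l => Tk_abs_le hη hη1 k m l)
  · exact summable_bsTerm (A := dl u) (B := fun m => v (m + 1)) (K := fun m l => Tk η k m l)
      (K₀ := 1) (c' := c' * w') (w' := w') hw hw1 hw' hw1'
      (hu.abs_dl_le hup)
      (fun m => by
        rw [abs_of_nonneg (hv.nonneg _)]
        have := hup' (m + 1)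
        rw [pow_succ] at this
        linarith)
      (fun m l => Tk_abs_le hη hη1 k m l)

private lemma succ_term (hη : 0 ≤ η) (hη1 : η ≤ 1) (u v : ℕ → ℝ) (k : ℕ) (z : ℕ × ℕ) :
    ((k : ℝ) + 1) * (dl u z.1 * dl v z.2 * Bbar η (k + 1) z.1 z.2) =
      dl u z.1 * (dl v z.2 * (η * ∑ m ∈ range z.1, Tk η k m z.2)) +
        dl v z.2 * (dl u z.1 * ((1 - η) * ∑ l ∈ range z.2, Tk η k z.1 l)) := by
  have := Bbar_succ hη hη1 k z.1 z.2
  calc _ = dl u z.1 * dl v z.2 * (((k : ℝ) + 1) * Bbar η (k + 1) z.1 z.2) := by ring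
    _ = _ := by rw [this]; ring

lemma seq_succ (hη : 0 ≤ η) (hη1 : η ≤ 1) (hu : SeqOK u) (hv : SeqOK v) (k : ℕ) :
    HasSum (fun x : ℕ × ℕ => η * (dl v x.2 * Tk η k x.1 x.2 * u (x.1 + 1)) +
        (1 - η) * (dl u x.1 * Tk η k x.1 x.2 * v (x.2 + 1)))
      (((k : ℝ) + 1) * bsOut η u v (k + 1)) := by
  obtain ⟨s1, s2⟩ := succ_summable hη hη1 hu hv k
  have hx' := s1.hasSum.mul_left η
  have hy' := s2.hasSum.mul_left (1 - η)
  have hα := succ_alpha hη hu hv k hx'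
  have hβ := succ_beta hη1 hu hv k hy'
  have hsum := (seq_abel hη hη1 hu hv (k + 1)).mul_left ((k : ℝ) + 1)
  have hadd := hα.add hβ
  simp only [succ_term hη hη1] at hsum
  have h := hadd.unique hsum
  rw [← h]
  have e : (fun x : ℕ × ℕ => η * (dl v x.2 * Tk η k x.1 x.2 * u (x.1 + 1)) +
        (1 - η) * (dl u x.1 * Tk η k x.1 x.2 * v (x.2 + 1))) =
      fun x : ℕ × ℕ => η * (u (x.1 + 1) * dl v x.2 * Tk η k x.1 x.2) +
        (1 - η) * (dl u x.1 * v (x.2 + 1) * Tk η k x.1 x.2) := by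
    funext x
    ring
  rw [e]
  exact hx'.add hy'

lemma seq_mass (hv : SeqOK v) : HasSum (fun l : ℕ => ((l : ℝ) + 1) * dl v l) (∑' l, v l) := by
  have h := abel1 (δ := dl v) (g := fun _ => 1) (f := v) hv.dl_nn (fun _ => zero_le_one) hv.tail
    (by simpa using hv.summable.hasSum)
  have e : (fun l : ℕ => ((l : ℝ) + 1) * dl v l) =
      fun i => dl v i * ∑ m ∈ range (i + 1), (fun _ => (1 : ℝ)) m := by
    funext l
    simp
    ring
  rw [e]
  exact h

end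

end Vale.Agent.Lib.P369
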