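import Vale.Agent.Lib.P369.Defs

/-!
# JOB M3: summation over multi-indices `ι → ℕ` (P369)

* `hasSum_pi_prod`: `HasSum (f j) (y j)` for all `j` implies `HasSum (fun x : ι → α => ∏ j, f j (x j)) (∏ j, y j)`.
  (Real series: absolutely convergent.  Induct on the Fintype, e.g. `Fintype.induction_empty_option` or via `Fin`, with `HasSum.mul_of_nonneg`/`HasSum.mul` for products, `Equiv.piOptionEquivProd`; `Summable.mul_of_nonneg` on `|f|` first.)
* `summable_pow_tot`: `Summable (fun m : ι → ℕ => ((tot m : ℝ) + 1)^q * w^(tot m))` for `0 ≤ w < 1`.  For `q`: `(tot m + 1)^q w^(tot m) ≤ K W^(tot m)` with `W = (1+w)/2` (poly vs geometric bounded), and `W^(tot m) = ∏_j W^(m j)` is summable by `hasSum_pi_prod`.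
* Antitone by directions: `f` is antitone for the product order iff `f (bump i m) ≤ f m` for all `i, m` (induct on `tot (m' - m)`).
* Shifts: `bump i` is injective with range `{k | k i ≠ 0}`; `unbump`.
  `hasSum_bump_shift`: from `HasSum G x` obtain `HasSum (fun k => if k i = 0 then 0 else G (update k i (k i - 1))) x` [reindexing by the injective `bump i`, function vanishes off the range: `Function.Injective.hasSum_iff`].
* `bump_apply`, `bump_ne`, `update_bump`, etc: simp lemmas.
* `tot_bump : tot (bump i m) = tot m + 1`.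
* `le_tot : m j ≤ tot m`.
-/

namespace Vale.Agent.Lib.P369

open Finset

noncomputable section

variable {ι : Type*} [Fintype ι] [DecidableEq ι]

@[simp] lemma bump_same (i : ι) (m : ι → ℕ) : bump i m i = m i + 1 := by
  simp [bump]

lemma bump_ne (i : ι) (m : ι → ℕ) {j : ι} (h : j ≠ i) : bump i m j = m j := by
  simp [bump, Function.update_of_ne h]

lemma tot_bump (i : ι) (m : ι → ℕ) : tot (bump i m) = tot m + 1 := by
  unfold tot
  rw [← Finset.add_sum_erase _ _ (Finset.mem_univ i), ← Finset.add_sum_erase (a := i) (f := m) _ (Finset.mem_univ i)]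
  have : ∑ x ∈ univ.erase i, bump i m x = ∑ x ∈ univ.erase i, m x :=
    Finset.sum_congr rfl (fun j hj => bump_ne i m (Finset.ne_of_mem_erase hj))
  rw [this, bump_same]; ring

lemma le_tot (m : ι → ℕ) (j : ι) : m j ≤ tot m :=
  Finset.single_le_sum (f := m) (fun _ _ => Nat.zero_le _) (Finset.mem_univ j)

private lemma step_equiv {α : Type*} (ι₁ ι₂ : Type*) [Fintype ι₁] [Fintype ι₂] (e : ι₁ ≃ ι₂)
    (ih : ∀ (f : ι₁ → α → ℝ) (y : ι₁ → ℝ), (∀ j, HasSum (f j) (y j)) →
      HasSum (fun x : ι₁ → α => ∏ j, f j (x j)) (∏ j, y j))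
    (f : ι₂ → α → ℝ) (y : ι₂ → ℝ) (h : ∀ j, HasSum (f j) (y j)) :
      HasSum (fun x : ι₂ → α => ∏ j, f j (x j)) (∏ j, y j) := by
  have h1 := ih (fun j => f (e j)) (fun j => y (e j)) (fun j => h (e j))
  have hy : ∏ j, y (e j) = ∏ j, y j := Equiv.prod_comp e y
  rw [hy] at h1
  let E : (ι₁ → α) ≃ (ι₂ → α) := Equiv.arrowCongr e (Equiv.refl α)
  refine (E.hasSum_iff).1 ?_
  convert h1 using 1
  funext x
  simp only [Function.comp, E, Equiv.arrowCongr, Equiv.coe_fn_mk, Equiv.coe_refl, id]
  have := (Equiv.prod_comp e (fun j => f j (x (e.symm j))))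
  simpa using this.symm

private lemma step_option {α : Type*} (β : Type*) [Fintype β]
    (ih : ∀ (f : β → α → ℝ) (y : β → ℝ), (∀ j, HasSum (f j) (y j)) →
      HasSum (fun x : β → α => ∏ j, f j (x j)) (∏ j, y j))
    (f : Option β → α → ℝ) (y : Option β → ℝ) (h : ∀ j, HasSum (f j) (y j)) :
    HasSum (fun x : Option β → α => ∏ j, f j (x j)) (∏ j, y j) := by
  have h0 := h none
  have h1 := ih (fun j => f (some j)) (fun j => y (some j)) (fun j => h (some j))
  have hs : Summable (fun p : α × (β → α) => f none p.1 * ∏ j, f (some j) (p.2 j)) :=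
    summable_mul_of_summable_norm (f := f none) (g := fun x : β → α => ∏ j, f (some j) (x j))
      h0.summable.norm h1.summable.norm
  have hm := h0.mul h1 hs
  let E : (Option β → α) ≃ α × (β → α) := Equiv.piOptionEquivProd (β := fun _ => α)
  have h2 := (E.hasSum_iff).2 hm
  rw [Fintype.prod_option]
  have heq : (fun x : Option β → α => ∏ j, f j (x j)) =
      (fun p : α × (β → α) => f none p.1 * ∏ j, f (some j) (p.2 j)) ∘ E := by
    funext x
    simp only [Function.comp_apply, Fintype.prod_option]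
    rfl
  rw [heq]
  exact h2

private lemma hasSum_pi_prod_fin {α : Type*} (n : ℕ) :
    ∀ (f : Fin n → α → ℝ) (y : Fin n → ℝ), (∀ j, HasSum (f j) (y j)) →
      HasSum (fun x : Fin n → α => ∏ j, f j (x j)) (∏ j, y j) := by
  induction n with
  | zero =>
    intro f y _
    simp only [Finset.univ_eq_empty, Finset.prod_empty]
    exact hasSum_unique (fun _ : Fin 0 → α => (1 : ℝ))
  | succ n ih =>
    have h2 := step_option (α := α) (Fin n) ih
    exact step_equiv (Option (Fin n)) (Fin (n + 1)) (finSuccEquiv n).symm h2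

private lemma hasSum_pi_prod_aux {α : Type*} (κ : Type*) [Fintype κ]
    (f : κ → α → ℝ) (y : κ → ℝ) (h : ∀ j, HasSum (f j) (y j)) :
      HasSum (fun x : κ → α => ∏ j, f j (x j)) (∏ j, y j) :=
  step_equiv (Fin (Fintype.card κ)) κ (Fintype.equivFin κ).symm
    (hasSum_pi_prod_fin (Fintype.card κ)) f y h

lemma hasSum_pi_prod {α : Type*} {f : ι → α → ℝ} {y : ι → ℝ} (h : ∀ j, HasSum (f j) (y j)) :
    HasSum (fun x : ι → α => ∏ j, f j (x j)) (∏ j, y j) :=
  hasSum_pi_prod_aux ι f y h

private lemma exists_pow_bound (q : ℕ) {W : ℝ} (h0 : 0 < W) (h1 : W < 1) :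
    ∃ K : ℝ, 0 ≤ K ∧ ∀ n : ℕ, ((n : ℝ) + 1) ^ q * W ^ n ≤ K := by
  have ht : Filter.Tendsto (fun n : ℕ => (n : ℝ) ^ q * W ^ n) Filter.atTop (nhds 0) :=
    tendsto_pow_const_mul_const_pow_of_abs_lt_one q (by rw [abs_of_pos h0]; exact h1)
  have ht2 : Filter.Tendsto (fun n : ℕ => ((n + 1 : ℕ) : ℝ) ^ q * W ^ (n + 1)) Filter.atTop (nhds 0) :=
    ht.comp (Filter.tendsto_add_atTop_nat 1)
  obtain ⟨B, hB⟩ := ht2.bddAbove_range
  have hB' : ∀ n : ℕ, ((n : ℝ) + 1) ^ q * W ^ (n + 1) ≤ B := by
    intro n
    have := hB (Set.mem_range_self n)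
    simpa using this
  refine ⟨|B| / W, by positivity, fun n => ?_⟩
  rw [le_div_iff₀ h0]
  calc ((n : ℝ) + 1) ^ q * W ^ n * W = ((n : ℝ) + 1) ^ q * W ^ (n + 1) := by ring
    _ ≤ B := hB' n
    _ ≤ |B| := le_abs_self B

lemma summable_pow_tot (q : ℕ) {w : ℝ} (h0 : 0 ≤ w) (h1 : w < 1) :
    Summable (fun m : ι → ℕ => ((tot m : ℝ) + 1) ^ q * w ^ tot m) := by
  set W : ℝ := (3 + w) / 4 with hW
  have hW0 : 0 < W := by rw [hW]; positivity
  have hW1 : W < 1 := by rw [hW]; linarith
  have hwW : w ≤ W * W := by rw [hW]; nlinarith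
  obtain ⟨K, hK0, hK⟩ := exists_pow_bound q hW0 hW1
  have hgeo : Summable (fun m : ι → ℕ => W ^ tot m) := by
    have := hasSum_pi_prod (ι := ι) (α := ℕ) (f := fun _ n => W ^ n) (y := fun _ => (1 - W)⁻¹)
      (fun _ => hasSum_geometric_of_lt_one hW0.le hW1)
    refine this.summable.congr (fun m => ?_)
    unfold tot
    rw [Finset.prod_pow_eq_pow_sum]
  refine Summable.of_nonneg_of_le (fun m => by positivity) (fun m => ?_) (hgeo.mul_left K)
  have hp : w ^ tot m ≤ W ^ tot m * W ^ tot m := by
    rw [← mul_pow]; exact pow_le_pow_left₀ h0 hwW _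
  calc ((tot m : ℝ) + 1) ^ q * w ^ tot m
      ≤ ((tot m : ℝ) + 1) ^ q * (W ^ tot m * W ^ tot m) :=
        mul_le_mul_of_nonneg_left hp (by positivity)
    _ = (((tot m : ℝ) + 1) ^ q * W ^ tot m) * W ^ tot m := by ring
    _ ≤ K * W ^ tot m := mul_le_mul_of_nonneg_right (hK _) (by positivity)

private lemma antitone_aux {f : (ι → ℕ) → ℝ} (h : ∀ i m, f (bump i m) ≤ f m) :
    ∀ (n : ℕ) (m m' : ι → ℕ), m ≤ m' → tot m' = tot m + n → f m' ≤ f m := by
  intro n
  induction n with
  | zero =>
    intro m m' hle ht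
    have : m = m' := by
      funext j
      have hs : ∑ i, m i = ∑ i, m' i := by simpa [tot] using ht.symm
      exact (Finset.sum_eq_sum_iff_of_le (fun i _ => hle i)).1 hs j (Finset.mem_univ j)
    rw [this]
  | succ n ih =>
    intro m m' hle ht
    have hex : ∃ i, m i < m' i := by
      by_contra hcon
      push Not at hcon
      have : m = m' := funext fun j => le_antisymm (hle j) (hcon j)
      rw [this] at ht; omega
    obtain ⟨i, hi⟩ := hex
    set m'' : ι → ℕ := Function.update m' i (m' i - 1) with hm''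
    have hb : bump i m'' = m' := by
      funext j
      by_cases hj : j = i
      · subst hj; rw [bump_same]; simp only [hm'', Function.update_self]; omega
      · rw [bump_ne i m'' hj]; simp only [hm'', Function.update_of_ne hj]
    have ht' : tot m' = tot m'' + 1 := by rw [← hb, tot_bump]
    have hle' : m ≤ m'' := by
      intro j
      by_cases hj : j = i
      · subst hj; simp only [hm'', Function.update_self]; omega
      · simp only [hm'', Function.update_of_ne hj]; exact hle j
    have h1 := ih m m'' hle' (by omega)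
    have h2 := h i m''
    rw [hb] at h2
    exact h2.trans h1

lemma antitone_of_bump {f : (ι → ℕ) → ℝ} (h : ∀ i m, f (bump i m) ≤ f m) : Antitone f := by
  intro m m' hle
  have ht : tot m ≤ tot m' := Finset.sum_le_sum (fun i _ => hle i)
  exact antitone_aux h (tot m' - tot m) m m' hle (by omega)

lemma bump_injective (i : ι) : Function.Injective (bump (ι := ι) i) := by
  intro m n h
  funext j
  by_cases hj : j = i
  · subst hj
    have := congrFun h j
    simp only [bump_same] at this
    omega
  · have := congrFun h j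
    rwa [bump_ne i m hj, bump_ne i n hj] at this

/-- Shift in direction `i`. -/
lemma hasSum_bump_shift (i : ι) {G : (ι → ℕ) → ℝ} {x : ℝ} (h : HasSum G x) :
    HasSum (fun k : ι → ℕ => if k i = 0 then 0 else G (Function.update k i (k i - 1))) x := by
  have hinj := bump_injective (ι := ι) i
  refine (hinj.hasSum_iff ?_).1 ?_
  · intro k hk
    by_cases h0 : k i = 0
    · simp [h0]
    · exfalso
      apply hk
      refine ⟨Function.update k i (k i - 1), ?_⟩
      funext j
      by_cases hj : j = i
      · subst hj; rw [bump_same]; simp only [Function.update_self]; omega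
      · rw [bump_ne i _ hj]; simp only [Function.update_of_ne hj]
  · convert h using 1
    funext m
    simp only [Function.comp, bump_same, Nat.add_sub_cancel]
    have h1 : Function.update (bump i m) i (m i) = m := by
      funext j
      by_cases hj : j = i
      · subst hj; simp
      · simp only [Function.update_of_ne hj, bump_ne i m hj]
    rw [h1]
    simp

/-- Splitting off coordinate `i` (reindexing through `Equiv.piSplitAt`). -/
lemma hasSum_split (i : ι) {G : (ι → ℕ) → ℝ} {x : ℝ} :
    HasSum G x ↔ HasSum (fun y : ℕ × ({j // j ≠ i} → ℕ) =>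
      G ((Equiv.piSplitAt i (fun _ => ℕ)).symm y)) x :=
  ((Equiv.piSplitAt i (fun _ => ℕ)).symm.hasSum_iff (f := G)).symm

end

end Vale.Agent.Lib.P369
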