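import Vale.Agent.Lib.P369.BondSeq
import Vale.Agent.Lib.P369.MultiSum

/-!
# JOB M4: bond identities in direction `i` for multi-mode inputs (P369)

`a,b` nonnegative, antitone on `ι → ℕ`, `a m ≤ c w^(tot m)`, `w<1`.  `C = bsOutM η a b`.  `δ = dlD i`.  `T = TT η i k m l = Tk η (k i) (m i) (l i) * kerRest η i k m l`.

Split coordinate `i`: `𝐦 = (m, 𝐦')`, `𝐥 = (l, 𝐥')`, `a[𝐦'](m) = a(m,𝐦')`, `b[𝐥'](l) = b(l,𝐥')` (these are `SeqOK`).  Then
 `C(𝐤) = ∑_{𝐦',𝐥'} kerRest η i 𝐤 𝐦' 𝐥' * bsOut η a[𝐦'] b[𝐥'] (k i)`   [Fubini, all terms `≥ 0`]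
 and `C(bump i 𝐤)` is the same with `k i + 1` (`kerRest` does not see coordinate `i`).
Apply `seq_dl`, `seq_succ` to the inner sums and uncurry:
 `mul_dlD`: `(k_i+1) δC(𝐤) = ∑_{𝐦,𝐥} δa(𝐦) δb(𝐥) T(𝐤,𝐦,𝐥)`;
 `mul_succ`: `(k_i+1) C(bump i 𝐤) = ∑_{𝐦,𝐥} [η δb(𝐥) T(𝐤,𝐦,𝐥) a(bump i 𝐦) + (1-η) δa(𝐦) T(𝐤,𝐦,𝐥) b(bump i 𝐥)]`.

`sum_TT`:  `∑_𝐤 T(𝐤,𝐦,𝐥) = (m_i+1)(l_i+1)`: (by `hasSum_pi_prod` with `f i = Tk η · (m i) (l i)`, finite support, `Tk_sum`; `f j = Bp η · (m j) (l j)`, `Bp_sum`).  `sum_kerM`: `∑_𝐤 kerM η 𝐤 𝐦 𝐥 = 1`.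

Bounds `0 ≤ T(𝐤,𝐦,𝐥) ≤ (m_i+1)(l_i+1)` (`Tk_le`, `Bp_le_one`), `δa ≤ a ≤ c w^(tot m)`, `m_i + 1 ≤ tot m + 1`.  Summability from `summable_pow_tot` (product of two such sequences over `(ι→ℕ)×(ι→ℕ)`).

With `PA = PAi η b i`, `PB = PBi η a i`:
 (L1) `∑_𝐦 PA 𝐤 𝐦 δa(𝐦) = η (k_i+1) δC(𝐤)`; (L2) `∑_𝐥 PB 𝐤 𝐥 δb(𝐥) = (1-η) (k_i+1) δC(𝐤)`;
 (L3) `∑_𝐦 PA 𝐤 𝐦 a(bump i 𝐦) + ∑_𝐥 PB 𝐤 𝐥 b(bump i 𝐥) = (k_i+1) C(bump i 𝐤)`;
 (L4) `∑_𝐤 PA 𝐤 𝐦 = η (m_i+1)`: `= η ∑_𝐥 δb(𝐥) (m_i+1) (l_i+1)` and `∑_𝐥 (l_i+1) δb(𝐥) = ∑_𝐥 b(𝐥) = 1` (`seq_mass` in the split coordinate); uses `HasSum b 1`;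
 (L5) similarly, uses `HasSum a 1`.

`Multi` hypotheses are packaged in `MOK`.
-/

namespace Vale.Agent.Lib.P369

open Finset

noncomputable section

variable {ι : Type*} [Fintype ι] [DecidableEq ι] {η : ℝ} {a b : (ι → ℕ) → ℝ}

/-- Standing hypotheses on a multi-mode eigenvalue function. -/
structure MOK (a : (ι → ℕ) → ℝ) : Prop where
  nonneg : ∀ k, 0 ≤ a k
  anti : Antitone a
  upper : ∃ c w : ℝ, 0 ≤ c ∧ 0 ≤ w ∧ w < 1 ∧ ∀ k, a k ≤ c * w ^ tot k

/-! ### Elementary facts on the kernels -/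

lemma kerM_nonneg (k m l : ι → ℕ) : 0 ≤ kerM η k m l :=
  Finset.prod_nonneg fun _ _ => Bp_nonneg _ _ _

lemma kerRest_nonneg (i : ι) (k m l : ι → ℕ) : 0 ≤ kerRest η i k m l :=
  Finset.prod_nonneg fun _ _ => Bp_nonneg _ _ _

lemma kerM_le_one (hη : 0 ≤ η) (hη1 : η ≤ 1) (k m l : ι → ℕ) : kerM η k m l ≤ 1 :=
  Finset.prod_le_one (fun _ _ => Bp_nonneg _ _ _) fun _ _ => Bp_le_one hη hη1 _ _ _

lemma kerRest_le_one (hη : 0 ≤ η) (hη1 : η ≤ 1) (i : ι) (k m l : ι → ℕ) :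
    kerRest η i k m l ≤ 1 :=
  Finset.prod_le_one (fun _ _ => Bp_nonneg _ _ _) fun _ _ => Bp_le_one hη hη1 _ _ _

lemma kerM_eq_zero (j : ι) {k m l : ι → ℕ} (h : m j + l j < k j) : kerM η k m l = 0 := by
  unfold kerM
  exact Finset.prod_eq_zero (Finset.mem_univ j) (Bp_eq_zero_of_lt h)

lemma kerM_split (i : ι) (k m l : ι → ℕ) :
    kerM η k m l = Bp η (k i) (m i) (l i) * kerRest η i k m l := by
  unfold kerM kerRest
  rw [Finset.mul_prod_erase Finset.univ (fun j => Bp η (k j) (m j) (l j)) (Finset.mem_univ i)]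

private lemma Bp_hasSum (hη : 0 ≤ η) (hη1 : η ≤ 1) (m l : ℕ) :
    HasSum (fun q => Bp η q m l) 1 := by
  rw [← Bp_sum hη hη1 m l]
  refine hasSum_sum_of_ne_finset_zero fun q hq => ?_
  simp only [Finset.mem_range, not_lt] at hq
  exact Bp_eq_zero_of_lt (by omega)

private lemma Tk_hasSum (hη : 0 ≤ η) (hη1 : η ≤ 1) (m l : ℕ) :
    HasSum (fun q => Tk η q m l) (((m : ℝ) + 1) * ((l : ℝ) + 1)) := by
  rw [← Tk_sum hη hη1 m l]
  refine hasSum_sum_of_ne_finset_zero fun q hq => ?_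
  simp only [Finset.mem_range, not_lt] at hq
  exact Tk_eq_zero_of_lt (by omega)

lemma sum_kerM (hη : 0 ≤ η) (hη1 : η ≤ 1) (m l : ι → ℕ) : HasSum (fun k => kerM η k m l) 1 := by
  have h := hasSum_pi_prod (f := fun j q => Bp η q (m j) (l j)) (y := fun _ => (1 : ℝ))
    fun j => Bp_hasSum hη hη1 (m j) (l j)
  simpa [kerM] using h

lemma TT_nonneg (hη : 0 ≤ η) (hη1 : η ≤ 1) (i : ι) (k m l : ι → ℕ) : 0 ≤ TT η i k m l :=
  mul_nonneg (Tk_nonneg _ _ _) (kerRest_nonneg _ _ _ _)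

lemma TT_le (hη : 0 ≤ η) (hη1 : η ≤ 1) (i : ι) (k m l : ι → ℕ) :
    TT η i k m l ≤ ((m i : ℝ) + 1) * ((l i : ℝ) + 1) := by
  unfold TT
  have h1 := Tk_le hη hη1 (k i) (m i) (l i)
  have h2 := kerRest_le_one hη hη1 i k m l
  have h3 := kerRest_nonneg (η := η) i k m l
  have h4 := Tk_nonneg (η := η) (k i) (m i) (l i)
  calc _ ≤ ((m i : ℝ) + 1) * ((l i : ℝ) + 1) * 1 := by gcongr
    _ = _ := mul_one _

lemma sum_TT (hη : 0 ≤ η) (hη1 : η ≤ 1) (i : ι) (m l : ι → ℕ) :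
    HasSum (fun k => TT η i k m l) (((m i : ℝ) + 1) * ((l i : ℝ) + 1)) := by
  classical
  have h := hasSum_pi_prod
    (f := fun j => if j = i then (fun q => Tk η q (m i) (l i)) else (fun q => Bp η q (m j) (l j)))
    (y := fun j => if j = i then ((m i : ℝ) + 1) * ((l i : ℝ) + 1) else 1)
    (fun j => by
      by_cases hj : j = i
      · simp only [hj, if_true]
        exact Tk_hasSum hη hη1 _ _
      · simp only [hj, if_false]
        exact Bp_hasSum hη hη1 _ _)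
  have e1 : ∀ x : ι → ℕ, (∏ j, (if j = i then (fun q => Tk η q (m i) (l i))
      else (fun q => Bp η q (m j) (l j))) (x j)) = TT η i x m l := by
    intro x
    rw [← Finset.mul_prod_erase _ _ (Finset.mem_univ i)]
    simp only [if_true]
    unfold TT kerRest
    congr 1
    refine Finset.prod_congr rfl fun j hj => ?_
    simp [(Finset.mem_erase.1 hj).1]
  have e2 : (∏ j, (if j = i then ((m i : ℝ) + 1) * ((l i : ℝ) + 1) else 1)) =
      ((m i : ℝ) + 1) * ((l i : ℝ) + 1) := by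
    rw [← Finset.mul_prod_erase _ _ (Finset.mem_univ i)]
    simp only [if_true]
    rw [Finset.prod_eq_one, mul_one]
    intro j hj
    simp [(Finset.mem_erase.1 hj).1]
  simp only [e1] at h
  rw [e2] at h
  exact h

/-! ### Facts on `MOK` -/

lemma le_bump (i : ι) (m : ι → ℕ) : m ≤ bump i m := by
  intro j
  by_cases h : j = i
  · subst h
    simp
  · rw [bump_ne i m h]

lemma dlD_nonneg (ha : MOK a) (i : ι) (m : ι → ℕ) : 0 ≤ dlD i a m :=
  sub_nonneg.2 (ha.anti (le_bump i m))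

lemma dlD_le (ha : MOK a) (i : ι) (m : ι → ℕ) : dlD i a m ≤ a m := by
  unfold dlD
  linarith [ha.nonneg (bump i m)]

lemma cast_le_tot (m : ι → ℕ) (j : ι) : ((m j : ℝ) + 1) ≤ (tot m : ℝ) + 1 := by
  have := le_tot m j
  have h : ((m j : ℝ)) ≤ (tot m : ℝ) := by exact_mod_cast this
  linarith

/-- Summability for double series in two Fock indices. -/
lemma summable_pair {A B : (ι → ℕ) → ℝ} {G : (ι → ℕ) → (ι → ℕ) → ℝ} {c c' w w' : ℝ}
    (hw : 0 ≤ w) (hw1 : w < 1) (hw' : 0 ≤ w') (hw1' : w' < 1) (hc : 0 ≤ c) (hc' : 0 ≤ c')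
    (hA : ∀ m, |A m| ≤ c * w ^ tot m) (hB : ∀ l, |B l| ≤ c' * w' ^ tot l)
    (hG : ∀ m l, |G m l| ≤ ((tot m : ℝ) + 1) * ((tot l : ℝ) + 1)) :
    Summable (fun x : (ι → ℕ) × (ι → ℕ) => A x.1 * B x.2 * G x.1 x.2) := by
  have h1 : Summable (fun m : ι → ℕ => c * (((tot m : ℝ) + 1) ^ 1 * w ^ tot m)) :=
    (summable_pow_tot 1 hw hw1).mul_left c
  have h2 : Summable (fun m : ι → ℕ => c' * (((tot m : ℝ) + 1) ^ 1 * w' ^ tot m)) :=
    (summable_pow_tot 1 hw' hw1').mul_left c'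
  have h3 := h1.mul_of_nonneg h2 (fun m => by positivity) (fun m => by positivity)
  refine Summable.of_norm_bounded h3 fun x => ?_
  rw [Real.norm_eq_abs, abs_mul, abs_mul]
  have e := hA x.1
  have e' := hB x.2
  have e'' := hG x.1 x.2
  have t1 : (0 : ℝ) ≤ (tot x.1 : ℝ) + 1 := by positivity
  have t2 : (0 : ℝ) ≤ (tot x.2 : ℝ) + 1 := by positivity
  calc |A x.1| * |B x.2| * |G x.1 x.2|
      ≤ (c * w ^ tot x.1) * (c' * w' ^ tot x.2) * (((tot x.1 : ℝ) + 1) * ((tot x.2 : ℝ) + 1)) := by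
        gcongr
    _ = _ := by ring

lemma abs_kerM_le (hη : 0 ≤ η) (hη1 : η ≤ 1) (k m l : ι → ℕ) :
    |kerM η k m l| ≤ ((tot m : ℝ) + 1) * ((tot l : ℝ) + 1) := by
  rw [abs_of_nonneg (kerM_nonneg k m l)]
  have h := kerM_le_one hη hη1 k m l
  have t1 : (0 : ℝ) ≤ (tot m : ℝ) := by positivity
  have t2 : (0 : ℝ) ≤ (tot l : ℝ) := by positivity
  nlinarith

lemma abs_TT_le (hη : 0 ≤ η) (hη1 : η ≤ 1) (i : ι) (k m l : ι → ℕ) :
    |TT η i k m l| ≤ ((tot m : ℝ) + 1) * ((tot l : ℝ) + 1) := by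
  rw [abs_of_nonneg (TT_nonneg hη hη1 i k m l)]
  refine (TT_le hη hη1 i k m l).trans ?_
  have h1 := cast_le_tot m i
  have h2 := cast_le_tot l i
  have t1 : (0 : ℝ) ≤ (m i : ℝ) + 1 := by positivity
  have t2 : (0 : ℝ) ≤ (l i : ℝ) + 1 := by positivity
  gcongr

lemma MOK.abs_le (ha : MOK a) {c w : ℝ} (h : ∀ k, a k ≤ c * w ^ tot k) (m : ι → ℕ) :
    |a m| ≤ c * w ^ tot m := by
  rw [abs_of_nonneg (ha.nonneg m)]
  exact h m

lemma MOK.abs_dlD_le (ha : MOK a) (i : ι) {c w : ℝ} (h : ∀ k, a k ≤ c * w ^ tot k) (m : ι → ℕ) :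
    |dlD i a m| ≤ c * w ^ tot m := by
  rw [abs_of_nonneg (dlD_nonneg ha i m)]
  exact (dlD_le ha i m).trans (h m)

lemma MOK.abs_bump_le (ha : MOK a) (i : ι) {c w : ℝ} (h : ∀ k, a k ≤ c * w ^ tot k) (m : ι → ℕ) :
    |a (bump i m)| ≤ c * w ^ tot m := by
  rw [abs_of_nonneg (ha.nonneg _)]
  exact (ha.anti (le_bump i m)).trans (h m)

lemma summable_bsOutM (hη : 0 ≤ η) (hη1 : η ≤ 1) (ha : MOK a) (hb : MOK b) (k : ι → ℕ) :
    Summable (fun x : (ι → ℕ) × (ι → ℕ) => a x.1 * b x.2 * kerM η k x.1 x.2) := by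
  obtain ⟨c, w, hc, hw, hw1, hup⟩ := ha.upper
  obtain ⟨c', w', hc', hw', hw1', hup'⟩ := hb.upper
  exact summable_pair (A := a) (B := b) (G := fun m l => kerM η k m l) hw hw1 hw' hw1' hc hc'
    (ha.abs_le hup) (hb.abs_le hup') (abs_kerM_le hη hη1 k)

/-! ### Splitting off a coordinate -/

/-- The other coordinates. -/
abbrev RR (i : ι) := {j // j ≠ i} → ℕ

/-- A Fock index from its coordinate `i` and the others. -/
def Jn (i : ι) (r : RR i) (q : ℕ) : ι → ℕ := (Equiv.piSplitAt i (fun _ => ℕ)).symm (q, r)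

lemma Jn_same (i : ι) (r : RR i) (q : ℕ) : Jn i r q i = q := by
  simp [Jn, Equiv.piSplitAt]

lemma Jn_ne {i j : ι} (h : j ≠ i) (r : RR i) (q : ℕ) : Jn i r q j = r ⟨j, h⟩ := by
  simp [Jn, Equiv.piSplitAt, h]

lemma bump_Jn (i : ι) (r : RR i) (q : ℕ) : bump i (Jn i r q) = Jn i r (q + 1) := by
  funext j
  by_cases h : j = i
  · subst h
    simp [Jn_same]
  · rw [bump_ne i _ h, Jn_ne h, Jn_ne h]

lemma Jn_mono (i : ι) (r : RR i) {q q' : ℕ} (h : q ≤ q') : Jn i r q ≤ Jn i r q' := by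
  intro j
  by_cases hj : j = i
  · subst hj
    simpa [Jn_same] using h
  · rw [Jn_ne hj, Jn_ne hj]

/-- Tonelli on a general product. -/
lemma hasSum_prod_gen {α β : Type*} {F : α × β → ℝ} (hF : ∀ x, 0 ≤ F x) {g : α → ℝ} {s : ℝ}
    (h1 : ∀ j, HasSum (fun y => F (j, y)) (g j)) (h2 : HasSum g s) : HasSum F s := by
  have hs : Summable F := by
    refine (summable_prod_of_nonneg (fun x => hF x)).2 ⟨fun j => (h1 j).summable, ?_⟩
    have : (fun x => ∑' y, F (x, y)) = g := funext fun j => (h1 j).tsum_eq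
    rw [this]
    exact h2.summable
  have h3 := hs.hasSum.prod_fiberwise h1
  have h4 := h3.unique h2
  rw [← h4]
  exact hs.hasSum

/-- Swap of a general product. -/
lemma hasSum_swap_gen {α β : Type*} {F : α × β → ℝ} {s : ℝ} (h : HasSum F s) :
    HasSum (fun x : β × α => F (x.2, x.1)) s :=
  ((Equiv.prodComm β α).hasSum_iff).2 h

/-- Reindexing of pairs of Fock indices. -/
def EE (i : ι) : (RR i × RR i) × (ℕ × ℕ) ≃ (ι → ℕ) × (ι → ℕ) :=
  (Equiv.prodProdProdComm _ _ _ _).trans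
    (Equiv.prodCongr ((Equiv.prodComm _ _).trans (Equiv.piSplitAt i (fun _ => ℕ)).symm)
      ((Equiv.prodComm _ _).trans (Equiv.piSplitAt i (fun _ => ℕ)).symm))

lemma split_out (i : ι) {F : (ι → ℕ) × (ι → ℕ) → ℝ} {g : RR i × RR i → ℝ} {s : ℝ}
    (hF : ∀ x, 0 ≤ F x)
    (h1 : ∀ r : RR i × RR i, HasSum (fun p : ℕ × ℕ => F (Jn i r.1 p.1, Jn i r.2 p.2)) (g r))
    (h2 : HasSum g s) : HasSum F s := by
  have h3 : HasSum (F ∘ EE i) s := hasSum_prod_gen (fun x => hF _) h1 h2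
  exact (EE i).hasSum_iff.1 h3

lemma split_in (i : ι) {F : (ι → ℕ) × (ι → ℕ) → ℝ} {g : RR i × RR i → ℝ} {s : ℝ}
    (h : HasSum F s)
    (h1 : ∀ r : RR i × RR i, HasSum (fun p : ℕ × ℕ => F (Jn i r.1 p.1, Jn i r.2 p.2)) (g r)) :
    HasSum g s := by
  have h3 : HasSum (F ∘ EE i) s := (EE i).hasSum_iff.2 h
  exact h3.prod_fiberwise h1

/-- The profile in coordinate `i`. -/
def sq (a : (ι → ℕ) → ℝ) (i : ι) (r : RR i) (q : ℕ) : ℝ := a (Jn i r q)

lemma sq_OK (ha : MOK a) (i : ι) (r : RR i) : SeqOK (sq a i r) := by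
  obtain ⟨c, w, hc, hw, hw1, hup⟩ := ha.upper
  refine ⟨fun k => ha.nonneg _, fun q q' h => ha.anti (Jn_mono i r h), c, w, hc, hw, hw1, fun q => ?_⟩
  refine (hup _).trans ?_
  have h1 : q ≤ tot (Jn i r q) := by
    have := le_tot (Jn i r q) i
    rwa [Jn_same] at this
  have h2 : w ^ tot (Jn i r q) ≤ w ^ q := pow_le_pow_of_le_one hw hw1.le h1
  exact mul_le_mul_of_nonneg_left h2 hc

lemma dl_sq (i : ι) (r : RR i) (q : ℕ) : dl (sq a i r) q = dlD i a (Jn i r q) := by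
  unfold dl dlD sq
  rw [bump_Jn]

/-- The kernel in the other modes, as a function of `r`. -/
def kap (η : ℝ) (i : ι) (k : ι → ℕ) (r : RR i × RR i) : ℝ :=
  kerRest η i k (Jn i r.1 0) (Jn i r.2 0)

lemma kap_nonneg (i : ι) (k : ι → ℕ) (r : RR i × RR i) : 0 ≤ kap η i k r :=
  kerRest_nonneg _ _ _ _

lemma kerRest_Jn (i : ι) (k : ι → ℕ) (r : RR i × RR i) (q q' : ℕ) :
    kerRest η i k (Jn i r.1 q) (Jn i r.2 q') = kap η i k r := by
  unfold kap kerRest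
  refine Finset.prod_congr rfl fun j hj => ?_
  have hj' := (Finset.mem_erase.1 hj).1
  rw [Jn_ne hj', Jn_ne hj', Jn_ne hj', Jn_ne hj']

lemma kap_bump (i : ι) (k : ι → ℕ) (r : RR i × RR i) : kap η i (bump i k) r = kap η i k r := by
  unfold kap kerRest
  refine Finset.prod_congr rfl fun j hj => ?_
  rw [bump_ne i k (Finset.mem_erase.1 hj).1]

lemma kerM_Jn (i : ι) (k : ι → ℕ) (r : RR i × RR i) (q q' : ℕ) :
    kerM η k (Jn i r.1 q) (Jn i r.2 q') = Bp η (k i) q q' * kap η i k r := by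
  rw [kerM_split i, kerRest_Jn, Jn_same, Jn_same]

lemma TT_Jn (i : ι) (k : ι → ℕ) (r : RR i × RR i) (q q' : ℕ) :
    TT η i k (Jn i r.1 q) (Jn i r.2 q') = Tk η (k i) q q' * kap η i k r := by
  unfold TT
  rw [kerRest_Jn, Jn_same, Jn_same]

lemma summable_seq_term (hη : 0 ≤ η) (hη1 : η ≤ 1) {u v : ℕ → ℝ} (hu : SeqOK u) (hv : SeqOK v)
    (k : ℕ) : Summable (fun x : ℕ × ℕ => u x.1 * v x.2 * Bp η k x.1 x.2) := by
  obtain ⟨c, w, hc, hw, hw1, hup⟩ := hu.upper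
  obtain ⟨c', w', hc', hw', hw1', hup'⟩ := hv.upper
  exact summable_bsTerm (A := u) (B := v) (K := fun m l => Bp η k m l) (K₀ := 1) hw hw1 hw'
    hw1' (hu.abs_le hup) (hv.abs_le hup') (fun m l => by
      rw [abs_of_nonneg (Bp_nonneg k m l)]
      have h1 := Bp_le_one hη hη1 k m l
      have h2 : (1 : ℝ) ≤ (m : ℝ) + 1 := by
        have := Nat.cast_nonneg (α := ℝ) m
        linarith
      have h3 : (1 : ℝ) ≤ (l : ℝ) + 1 := by
        have := Nat.cast_nonneg (α := ℝ) l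
        linarith
      nlinarith)

/-- `C(k) = ∑_{r} κ(r) bsOut (k i)`. -/
lemma bsOutM_split (hη : 0 ≤ η) (hη1 : η ≤ 1) (ha : MOK a) (hb : MOK b) (i : ι) (k : ι → ℕ) :
    HasSum (fun r : RR i × RR i => kap η i k r * bsOut η (sq a i r.1) (sq b i r.2) (k i))
      (bsOutM η a b k) := by
  refine split_in i (summable_bsOutM hη hη1 ha hb k).hasSum fun r => ?_
  have h := (summable_seq_term hη hη1 (sq_OK ha i r.1) (sq_OK hb i r.2) (k i)).hasSum.mul_left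
    (kap η i k r)
  have e : (fun p : ℕ × ℕ => a (Jn i r.1 p.1) * b (Jn i r.2 p.2) *
      kerM η k (Jn i r.1 p.1) (Jn i r.2 p.2)) =
      fun p : ℕ × ℕ => kap η i k r * (sq a i r.1 p.1 * sq b i r.2 p.2 * Bp η (k i) p.1 p.2) := by
    funext p
    rw [kerM_Jn]
    unfold sq
    ring
  simp only at *
  rw [e]
  exact h

lemma bsOutM_split_bump (hη : 0 ≤ η) (hη1 : η ≤ 1) (ha : MOK a) (hb : MOK b) (i : ι) (k : ι → ℕ) :
    HasSum (fun r : RR i × RR i => kap η i k r * bsOut η (sq a i r.1) (sq b i r.2) (k i + 1))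
      (bsOutM η a b (bump i k)) := by
  have h := bsOutM_split hη hη1 ha hb i (bump i k)
  simpa only [kap_bump, bump_same] using h

lemma mul_dlD (hη : 0 ≤ η) (hη1 : η ≤ 1) (ha : MOK a) (hb : MOK b) (i : ι) (k : ι → ℕ) :
    HasSum (fun x : (ι → ℕ) × (ι → ℕ) => dlD i a x.1 * dlD i b x.2 * TT η i k x.1 x.2)
      (((k i : ℝ) + 1) * dlD i (bsOutM η a b) k) := by
  refine split_out i (g := fun r => kap η i k r * (((k i : ℝ) + 1) *
      (bsOut η (sq a i r.1) (sq b i r.2) (k i) - bsOut η (sq a i r.1) (sq b i r.2) (k i + 1))))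
    (fun x => mul_nonneg (mul_nonneg (dlD_nonneg ha i _) (dlD_nonneg hb i _))
      (TT_nonneg hη hη1 i _ _ _)) (fun r => ?_) ?_
  · have h := (seq_dl hη hη1 (sq_OK ha i r.1) (sq_OK hb i r.2) (k i)).mul_left (kap η i k r)
    have e : (fun p : ℕ × ℕ => dlD i a (Jn i r.1 p.1) * dlD i b (Jn i r.2 p.2) *
        TT η i k (Jn i r.1 p.1) (Jn i r.2 p.2)) =
        fun p : ℕ × ℕ => kap η i k r *
          (dl (sq a i r.1) p.1 * dl (sq b i r.2) p.2 * Tk η (k i) p.1 p.2) := by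
      funext p
      rw [TT_Jn, dl_sq, dl_sq]
      ring
    simp only at *
    rw [e]
    exact h
  · have h := ((bsOutM_split hη hη1 ha hb i k).sub
      (bsOutM_split_bump hη hη1 ha hb i k)).mul_left ((k i : ℝ) + 1)
    have e : (fun r : RR i × RR i => kap η i k r * (((k i : ℝ) + 1) *
        (bsOut η (sq a i r.1) (sq b i r.2) (k i) - bsOut η (sq a i r.1) (sq b i r.2) (k i + 1)))) =
        fun r : RR i × RR i => ((k i : ℝ) + 1) *
          (kap η i k r * bsOut η (sq a i r.1) (sq b i r.2) (k i) -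
            kap η i k r * bsOut η (sq a i r.1) (sq b i r.2) (k i + 1)) := by
      funext r
      ring
    rw [e]
    exact h

lemma mul_succ (hη : 0 ≤ η) (hη1 : η ≤ 1) (ha : MOK a) (hb : MOK b) (i : ι) (k : ι → ℕ) :
    HasSum (fun x : (ι → ℕ) × (ι → ℕ) =>
        η * (dlD i b x.2 * TT η i k x.1 x.2 * a (bump i x.1)) +
        (1 - η) * (dlD i a x.1 * TT η i k x.1 x.2 * b (bump i x.2)))
      (((k i : ℝ) + 1) * bsOutM η a b (bump i k)) := by
  have h0η : 0 ≤ 1 - η := by linarith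
  refine split_out i (g := fun r => kap η i k r * (((k i : ℝ) + 1) *
      bsOut η (sq a i r.1) (sq b i r.2) (k i + 1)))
    (fun x => add_nonneg (mul_nonneg hη (mul_nonneg (mul_nonneg (dlD_nonneg hb i _)
      (TT_nonneg hη hη1 i _ _ _)) (ha.nonneg _)))
      (mul_nonneg h0η (mul_nonneg (mul_nonneg (dlD_nonneg ha i _)
      (TT_nonneg hη hη1 i _ _ _)) (hb.nonneg _)))) (fun r => ?_) ?_
  · have h := (seq_succ hη hη1 (sq_OK ha i r.1) (sq_OK hb i r.2) (k i)).mul_left (kap η i k r)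
    have e : (fun p : ℕ × ℕ =>
        η * (dlD i b (Jn i r.2 p.2) * TT η i k (Jn i r.1 p.1) (Jn i r.2 p.2) *
          a (bump i (Jn i r.1 p.1))) +
        (1 - η) * (dlD i a (Jn i r.1 p.1) * TT η i k (Jn i r.1 p.1) (Jn i r.2 p.2) *
          b (bump i (Jn i r.2 p.2)))) =
        fun p : ℕ × ℕ => kap η i k r *
          (η * (dl (sq b i r.2) p.2 * Tk η (k i) p.1 p.2 * sq a i r.1 (p.1 + 1)) +
        (1 - η) * (dl (sq a i r.1) p.1 * Tk η (k i) p.1 p.2 * sq b i r.2 (p.2 + 1))) := by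
      funext p
      rw [TT_Jn, dl_sq, dl_sq, bump_Jn, bump_Jn]
      unfold sq
      ring
    simp only at *
    rw [e]
    exact h
  · have h := (bsOutM_split_bump hη hη1 ha hb i k).mul_left ((k i : ℝ) + 1)
    have e : (fun r : RR i × RR i => kap η i k r * (((k i : ℝ) + 1) *
        bsOut η (sq a i r.1) (sq b i r.2) (k i + 1))) =
        fun r : RR i × RR i => ((k i : ℝ) + 1) *
          (kap η i k r * bsOut η (sq a i r.1) (sq b i r.2) (k i + 1)) := by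
      funext r
      ring
    rw [e]
    exact h

/-! ### The bond weights -/

lemma summable_dlb_TT (hη : 0 ≤ η) (hη1 : η ≤ 1) (hb : MOK b) (i : ι) (k m : ι → ℕ) :
    Summable (fun l => dlD i b l * TT η i k m l) := by
  obtain ⟨c', w', hc', hw', hw1', hup'⟩ := hb.upper
  have h1 : Summable (fun l : ι → ℕ => c' * ((tot m : ℝ) + 1) *
      (((tot l : ℝ) + 1) ^ 1 * w' ^ tot l)) :=
    (summable_pow_tot 1 hw' hw1').mul_left _
  refine Summable.of_norm_bounded h1 fun l => ?_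
  rw [Real.norm_eq_abs, abs_mul]
  have e1 := hb.abs_dlD_le i hup' l
  have e2 := abs_TT_le hη hη1 i k m l
  have t1 : (0 : ℝ) ≤ (tot m : ℝ) + 1 := by positivity
  have t2 : (0 : ℝ) ≤ (tot l : ℝ) + 1 := by positivity
  calc _ ≤ (c' * w' ^ tot l) * (((tot m : ℝ) + 1) * ((tot l : ℝ) + 1)) := by gcongr
    _ = _ := by ring

lemma summable_dla_TT (hη : 0 ≤ η) (hη1 : η ≤ 1) (ha : MOK a) (i : ι) (k l : ι → ℕ) :
    Summable (fun m => dlD i a m * TT η i k m l) := by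
  obtain ⟨c, w, hc, hw, hw1, hup⟩ := ha.upper
  have h1 : Summable (fun m : ι → ℕ => c * ((tot l : ℝ) + 1) *
      (((tot m : ℝ) + 1) ^ 1 * w ^ tot m)) :=
    (summable_pow_tot 1 hw hw1).mul_left _
  refine Summable.of_norm_bounded h1 fun m => ?_
  rw [Real.norm_eq_abs, abs_mul]
  have e1 := ha.abs_dlD_le i hup m
  have e2 := abs_TT_le hη hη1 i k m l
  have t1 : (0 : ℝ) ≤ (tot m : ℝ) + 1 := by positivity
  have t2 : (0 : ℝ) ≤ (tot l : ℝ) + 1 := by positivity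
  calc _ ≤ (c * w ^ tot m) * (((tot m : ℝ) + 1) * ((tot l : ℝ) + 1)) := by gcongr
    _ = _ := by ring

lemma PAi_hasSum (hη : 0 ≤ η) (hη1 : η ≤ 1) (hb : MOK b) (i : ι) (k m : ι → ℕ) :
    HasSum (fun l => η * (dlD i b l * TT η i k m l)) (PAi η b i k m) :=
  (summable_dlb_TT hη hη1 hb i k m).hasSum.mul_left η

lemma PBi_hasSum (hη : 0 ≤ η) (hη1 : η ≤ 1) (ha : MOK a) (i : ι) (k l : ι → ℕ) :
    HasSum (fun m => (1 - η) * (dlD i a m * TT η i k m l)) (PBi η a i k l) :=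
  (summable_dla_TT hη hη1 ha i k l).hasSum.mul_left (1 - η)

lemma PAi_nonneg (hη : 0 ≤ η) (hη1 : η ≤ 1) (hb : MOK b) (i : ι) (k m : ι → ℕ) :
    0 ≤ PAi η b i k m := by
  refine (PAi_hasSum hη hη1 hb i k m).nonneg fun l => ?_
  exact mul_nonneg hη (mul_nonneg (dlD_nonneg hb i _) (TT_nonneg hη hη1 i _ _ _))

lemma PBi_nonneg (hη : 0 ≤ η) (hη1 : η ≤ 1) (ha : MOK a) (i : ι) (k l : ι → ℕ) :
    0 ≤ PBi η a i k l := by
  refine (PBi_hasSum hη hη1 ha i k l).nonneg fun m => ?_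
  exact mul_nonneg (by linarith) (mul_nonneg (dlD_nonneg ha i _) (TT_nonneg hη hη1 i _ _ _))

theorem bondM_L1 (hη : 0 ≤ η) (hη1 : η ≤ 1) (ha : MOK a) (hb : MOK b) (i : ι) (k : ι → ℕ) :
    HasSum (fun m => PAi η b i k m * dlD i a m)
      (η * ((k i : ℝ) + 1) * dlD i (bsOutM η a b) k) := by
  have h1 := (mul_dlD hη hη1 ha hb i k).mul_left η
  rw [← mul_assoc] at h1
  refine h1.prod_fiberwise fun m => ?_
  have h2 := (PAi_hasSum hη hη1 hb i k m).mul_right (dlD i a m)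
  have e : (fun l => η * (dlD i b l * TT η i k m l) * dlD i a m) =
      fun l => η * (dlD i a m * dlD i b l * TT η i k m l) := by
    funext l
    ring
  rw [e] at h2
  exact h2

theorem bondM_L2 (hη : 0 ≤ η) (hη1 : η ≤ 1) (ha : MOK a) (hb : MOK b) (i : ι) (k : ι → ℕ) :
    HasSum (fun l => PBi η a i k l * dlD i b l)
      ((1 - η) * ((k i : ℝ) + 1) * dlD i (bsOutM η a b) k) := by
  have h1 := (hasSum_swap_gen (mul_dlD hη hη1 ha hb i k)).mul_left (1 - η)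
  rw [← mul_assoc] at h1
  refine h1.prod_fiberwise fun l => ?_
  have h2 := (PBi_hasSum hη hη1 ha i k l).mul_right (dlD i b l)
  have e : (fun m => (1 - η) * (dlD i a m * TT η i k m l) * dlD i b l) =
      fun m => (1 - η) * (dlD i a m * dlD i b l * TT η i k m l) := by
    funext m
    ring
  rw [e] at h2
  exact h2

private lemma L3_summable (hη : 0 ≤ η) (hη1 : η ≤ 1) (ha : MOK a) (hb : MOK b) (i : ι)
    (k : ι → ℕ) :
    Summable (fun x : (ι → ℕ) × (ι → ℕ) => a (bump i x.1) * dlD i b x.2 * TT η i k x.1 x.2) ∧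
    Summable (fun x : (ι → ℕ) × (ι → ℕ) => dlD i a x.1 * b (bump i x.2) * TT η i k x.1 x.2) := by
  obtain ⟨c, w, hc, hw, hw1, hup⟩ := ha.upper
  obtain ⟨c', w', hc', hw', hw1', hup'⟩ := hb.upper
  constructor
  · exact summable_pair (A := fun m => a (bump i m)) (B := dlD i b)
      (G := fun m l => TT η i k m l) hw hw1 hw' hw1' hc hc'
      (ha.abs_bump_le i hup) (hb.abs_dlD_le i hup') (abs_TT_le hη hη1 i k)
  · exact summable_pair (A := dlD i a) (B := fun m => b (bump i m))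
      (G := fun m l => TT η i k m l) hw hw1 hw' hw1' hc hc'
      (ha.abs_dlD_le i hup) (hb.abs_bump_le i hup') (abs_TT_le hη hη1 i k)

theorem bondM_L3 (hη : 0 ≤ η) (hη1 : η ≤ 1) (ha : MOK a) (hb : MOK b) (i : ι) (k : ι → ℕ) :
    ∃ x y : ℝ, HasSum (fun m => PAi η b i k m * a (bump i m)) x ∧
      HasSum (fun l => PBi η a i k l * b (bump i l)) y ∧
      x + y = ((k i : ℝ) + 1) * bsOutM η a b (bump i k) := by
  obtain ⟨s1, s2⟩ := L3_summable hη hη1 ha hb i k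
  have hx' := s1.hasSum.mul_left η
  have hy' := s2.hasSum.mul_left (1 - η)
  refine ⟨η * ∑' z : (ι → ℕ) × (ι → ℕ), a (bump i z.1) * dlD i b z.2 * TT η i k z.1 z.2,
    (1 - η) * ∑' z : (ι → ℕ) × (ι → ℕ), dlD i a z.1 * b (bump i z.2) * TT η i k z.1 z.2,
    ?_, ?_, ?_⟩
  · refine hx'.prod_fiberwise fun m => ?_
    have h2 := (PAi_hasSum hη hη1 hb i k m).mul_right (a (bump i m))
    have e : (fun l => η * (dlD i b l * TT η i k m l) * a (bump i m)) =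
        fun l => η * (a (bump i m) * dlD i b l * TT η i k m l) := by
      funext l
      ring
    rw [e] at h2
    exact h2
  · have hy2 := hasSum_swap_gen hy'
    refine hy2.prod_fiberwise fun l => ?_
    have h2 := (PBi_hasSum hη hη1 ha i k l).mul_right (b (bump i l))
    have e : (fun m => (1 - η) * (dlD i a m * TT η i k m l) * b (bump i l)) =
        fun m => (1 - η) * (dlD i a m * b (bump i l) * TT η i k m l) := by
      funext m
      ring
    rw [e] at h2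
    exact h2
  · have hadd := hx'.add hy'
    have h := mul_succ hη hη1 ha hb i k
    have e : (fun x : (ι → ℕ) × (ι → ℕ) =>
        η * (dlD i b x.2 * TT η i k x.1 x.2 * a (bump i x.1)) +
        (1 - η) * (dlD i a x.1 * TT η i k x.1 x.2 * b (bump i x.2))) =
        fun x : (ι → ℕ) × (ι → ℕ) => η * (a (bump i x.1) * dlD i b x.2 * TT η i k x.1 x.2) +
          (1 - η) * (dlD i a x.1 * b (bump i x.2) * TT η i k x.1 x.2) := by
      funext x
      ring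
    rw [e] at h
    exact hadd.unique h

/-- Direction `i` mass: `∑_l (l_i+1) δb(l) = ∑_l b(l)`. -/
lemma mass_dir (hb : MOK b) {s : ℝ} (hsb : HasSum b s) (i : ι) :
    HasSum (fun l : ι → ℕ => ((l i : ℝ) + 1) * dlD i b l) s := by
  let ES : RR i × ℕ ≃ (ι → ℕ) :=
    (Equiv.prodComm _ _).trans (Equiv.piSplitAt i (fun _ => ℕ)).symm
  have h0 : HasSum (b ∘ ES) s := ES.hasSum_iff.2 hsb
  have h1 : HasSum (fun r : RR i => ∑' q, sq b i r q) s :=
    h0.prod_fiberwise fun r => (sq_OK hb i r).summable.hasSum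
  have h2 : HasSum ((fun l : ι → ℕ => ((l i : ℝ) + 1) * dlD i b l) ∘ ES) s := by
    refine hasSum_prod_gen (fun x => mul_nonneg (by positivity) (dlD_nonneg hb i _))
      (fun r => ?_) h1
    have h3 := seq_mass (sq_OK hb i r)
    have e : (fun y : ℕ => ((fun l : ι → ℕ => ((l i : ℝ) + 1) * dlD i b l) ∘ ES) (r, y)) =
        fun q : ℕ => ((q : ℝ) + 1) * dl (sq b i r) q := by
      funext q
      have e1 : ES (r, q) = Jn i r q := rfl
      simp only [Function.comp, e1, Jn_same, dl_sq]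
    show HasSum (fun y : ℕ => ((fun l : ι → ℕ => ((l i : ℝ) + 1) * dlD i b l) ∘ ES) (r, y)) _
    rw [e]
    exact h3
  exact ES.hasSum_iff.1 h2

theorem bondM_L4 (hη : 0 ≤ η) (hη1 : η ≤ 1) (ha : MOK a) (hb : MOK b) (hsb : HasSum b 1) (i : ι)
    (m : ι → ℕ) : HasSum (fun k => PAi η b i k m) (η * ((m i : ℝ) + 1)) := by
  have hF : HasSum (fun z : (ι → ℕ) × (ι → ℕ) => η * (dlD i b z.1 * TT η i z.2 m z.1))
      (η * ((m i : ℝ) + 1)) := by
    refine hasSum_prod_gen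
      (g := fun l => η * (dlD i b l * (((m i : ℝ) + 1) * ((l i : ℝ) + 1)))) (fun z => ?_)
      (fun l => ?_) ?_
    · exact mul_nonneg hη (mul_nonneg (dlD_nonneg hb i _) (TT_nonneg hη hη1 i _ _ _))
    · exact ((sum_TT hη hη1 i m l).mul_left _).mul_left _
    · have h := (mass_dir hb hsb i).mul_left (η * ((m i : ℝ) + 1))
      rw [mul_one] at h
      have e : (fun l : ι → ℕ => η * (dlD i b l * (((m i : ℝ) + 1) * ((l i : ℝ) + 1)))) =
          fun l => η * ((m i : ℝ) + 1) * (((l i : ℝ) + 1) * dlD i b l) := by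
        funext l
        ring
      rw [e]
      exact h
  have h2 := hasSum_swap_gen hF
  simp only at h2
  exact h2.prod_fiberwise fun k => PAi_hasSum hη hη1 hb i k m

theorem bondM_L5 (hη : 0 ≤ η) (hη1 : η ≤ 1) (ha : MOK a) (hb : MOK b) (hsa : HasSum a 1) (i : ι)
    (l : ι → ℕ) : HasSum (fun k => PBi η a i k l) ((1 - η) * ((l i : ℝ) + 1)) := by
  have h0η : 0 ≤ 1 - η := by linarith
  have hF : HasSum (fun z : (ι → ℕ) × (ι → ℕ) => (1 - η) * (dlD i a z.1 * TT η i z.2 z.1 l))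
      ((1 - η) * ((l i : ℝ) + 1)) := by
    refine hasSum_prod_gen
      (g := fun m => (1 - η) * (dlD i a m * (((m i : ℝ) + 1) * ((l i : ℝ) + 1)))) (fun z => ?_)
      (fun m => ?_) ?_
    · exact mul_nonneg h0η (mul_nonneg (dlD_nonneg ha i _) (TT_nonneg hη hη1 i _ _ _))
    · exact ((sum_TT hη hη1 i m l).mul_left _).mul_left _
    · have h := (mass_dir ha hsa i).mul_left ((1 - η) * ((l i : ℝ) + 1))
      rw [mul_one] at h
      have e : (fun m : ι → ℕ => (1 - η) * (dlD i a m * (((m i : ℝ) + 1) * ((l i : ℝ) + 1)))) =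
          fun m => (1 - η) * ((l i : ℝ) + 1) * (((m i : ℝ) + 1) * dlD i a m) := by
        funext m
        ring
      rw [e]
      exact h
  have h2 := hasSum_swap_gen hF
  simp only at h2
  exact h2.prod_fiberwise fun k => PBi_hasSum hη hη1 ha i k l

end

end Vale.Agent.Lib.P369
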