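import Vale.Agent.Lib.P369.Alg

/-!
# JOB E4a: basics of `bsOut` (P369)

This job: lemmas of this file (closure is E4b in `Closure.lean`).

All the double sums are over `ℕ × ℕ` and absolutely convergent by geometric bounds; `0 ≤ Bp ≤ 1`,
`Bp η k m l = 0` for `k > m + l`.

`bsOut_upper`: `C_k ≤ ∑_{m+l ≥ k} c c' w^m w'^l ≤ c c' ∑_{n ≥ k} (n+1) W^n` where `W = max w w'`; then
`(n+1) W^n ≤ K W₁^n` with `W₁ = (1+W)/2`, and the geometric tail is `≤ K' W₁^k`. The constants only depend on `c,c',w,w'`,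
which is why the statement is written with `∃ K W₁, ∀ A B`.

`bsOut_lower`: keep the single term `(m,l) = (k,0)`: `C_k ≥ A_k B_0 B(k,k,0) = A_k B_0 η^k`.

`bsOut_hasSum`: `∑_k C_k = ∑_{m,l} A_m B_l ∑_k B(k,m,l) = 1` (Fubini, nonneg terms).

Thermal closure.  Let `u = r/(1+r)`, `v = s/(1+s)`, `H_k = ∑_{m,l} u^m v^l B(k,m,l)`.  Taking the coefficient of `x^k` in the `F`
recursion, multiplying by `u^m v^l` and summing:
  `H_k (1 - (1-η) u - η v) = H_{k-1} (η u + (1-η) v - u v) + [k=0]`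
(with `α = (1-η) + η x`, `α' = η + (1-η) x`).  So `H_k = H_0 ρ^k` with `H_0 = 1/(1 - (1-η) u - η v)` and
`ρ = (η u + (1-η) v - u v)/(1 - (1-η) u - η v)`.  Clearing denominators with `t = η r + (1-η) s`:
`1 - (1-η) u - η v = (1+t)/((1+r)(1+s))`, `η u + (1-η) v - u v = t/((1+r)(1+s))`, so `ρ = t/(1+t)` and
`(1-u)(1-v) H_0 ρ^k = t^k/(1+t)^(k+1) = τ_t(k)`.

`entropy_tauTh`: `-τ log τ` summed: `∑_k τ_r(k) (-(k log r) + (k+1) log(r+1)) = -r log r + (r+1) log(r+1)`, with `∑ τ_r = 1`, `∑ k τ_r(k) = r`.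
-/

namespace Vale.Agent.Lib.P369

open Polynomial Finset

noncomputable section

variable {η : ℝ}

private lemma summable_succ_pow_geom {w : ℝ} (hw : 0 ≤ w) (hw1 : w < 1) (q : ℕ) :
    Summable (fun m : ℕ => ((m : ℝ) + 1) ^ q * w ^ m) := by
  rcases hw.eq_or_lt with rfl | hpos
  · apply summable_of_ne_finset_zero (s := {0})
    intro m hm
    have hm0 : m ≠ 0 := by simpa using hm
    simp [hm0]
  · have h1 : Summable (fun m : ℕ => ((m : ℝ)) ^ q * w ^ m) :=
      summable_pow_mul_geometric_of_norm_lt_one q (by rw [Real.norm_of_nonneg hw]; exact hw1)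
    have h2 := (summable_nat_add_iff 1).2 h1
    have h3 := h2.mul_left (w⁻¹)
    refine h3.congr ?_
    intro m
    push_cast
    rw [pow_succ w m]
    field_simp

/-- Absolute summability of the defining double series of `bsOut`, for bounded kernels. -/
lemma summable_bsTerm {A B : ℕ → ℝ} {c c' w w' : ℝ} (hw : 0 ≤ w) (hw1 : w < 1) (hw' : 0 ≤ w')
    (hw1' : w' < 1) (hA : ∀ m, |A m| ≤ c * w ^ m) (hB : ∀ l, |B l| ≤ c' * w' ^ l)
    {K : ℕ → ℕ → ℝ} {K₀ : ℝ} (hK : ∀ m l, |K m l| ≤ K₀ * ((m : ℝ) + 1) * ((l : ℝ) + 1)) :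
    Summable (fun x : ℕ × ℕ => A x.1 * B x.2 * K x.1 x.2) := by
  have hc : 0 ≤ c := by simpa using (abs_nonneg _).trans (hA 0)
  have hc' : 0 ≤ c' := by simpa using (abs_nonneg _).trans (hB 0)
  have hK0 : 0 ≤ K₀ := by simpa using (abs_nonneg _).trans (hK 0 0)
  have hs := Summable.mul_of_nonneg (summable_succ_pow_geom hw hw1 1)
    (summable_succ_pow_geom hw' hw1' 1)
    (fun m => by positivity) (fun m => by positivity)
  refine Summable.of_norm_bounded (hs.mul_left (c * c' * K₀)) ?_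
  rintro ⟨m, l⟩
  simp only [Real.norm_eq_abs, abs_mul]
  have h1 := hA m
  have h2 := hB l
  have h3 := hK m l
  calc |A m| * |B l| * |K m l| ≤ (c * w ^ m) * (c' * w' ^ l) *
        (K₀ * ((m : ℝ) + 1) * ((l : ℝ) + 1)) := by
        gcongr
    _ = _ := by ring

private lemma abs_Bp_le (hη : 0 ≤ η) (hη1 : η ≤ 1) (k m l : ℕ) :
    |Bp η k m l| ≤ 1 * ((m : ℝ) + 1) * ((l : ℝ) + 1) := by
  rw [abs_of_nonneg (Bp_nonneg k m l), one_mul]
  have h := Bp_le_one hη hη1 k m l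
  have hm : (1 : ℝ) ≤ (m : ℝ) + 1 := by
    have : (0 : ℝ) ≤ (m : ℝ) := Nat.cast_nonneg m
    linarith
  have hl : (1 : ℝ) ≤ (l : ℝ) + 1 := by
    have : (0 : ℝ) ≤ (l : ℝ) := Nat.cast_nonneg l
    linarith
  nlinarith

/-- Summability of the output series. -/
lemma summable_bsOut (hη : 0 ≤ η) (hη1 : η ≤ 1) (k : ℕ) {A B : ℕ → ℝ} {c c' w w' : ℝ}
    (hw : 0 ≤ w) (hw1 : w < 1) (hw' : 0 ≤ w') (hw1' : w' < 1)
    (hA : ∀ m, |A m| ≤ c * w ^ m) (hB : ∀ l, |B l| ≤ c' * w' ^ l) :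
    Summable (fun x : ℕ × ℕ => A x.1 * B x.2 * Bp η k x.1 x.2) :=
  summable_bsTerm hw hw1 hw' hw1' hA hB (fun m l => abs_Bp_le hη hη1 k m l)

lemma bsOut_nonneg (hη : 0 ≤ η) {A B : ℕ → ℝ} (hA : ∀ k, 0 ≤ A k) (hB : ∀ k, 0 ≤ B k) (k : ℕ) :
    0 ≤ bsOut η A B k :=
  tsum_nonneg fun x => mul_nonneg (mul_nonneg (hA _) (hB _)) (Bp_nonneg _ _ _)

/-- Uniform geometric upper bound for the output. -/
lemma bsOut_upper (hη : 0 ≤ η) (hη1 : η ≤ 1) {c c' w w' : ℝ} (hc : 0 < c) (hc' : 0 < c')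
    (hw : 0 < w) (hw1 : w < 1) (hw' : 0 < w') (hw1' : w' < 1) :
    ∃ K W : ℝ, 0 < K ∧ 0 < W ∧ W < 1 ∧ ∀ A B : ℕ → ℝ,
      (∀ m, 0 ≤ A m ∧ A m ≤ c * w ^ m) → (∀ l, 0 ≤ B l ∧ B l ≤ c' * w' ^ l) →
        ∀ k, bsOut η A B k ≤ K * W ^ k := by
  set u : ℝ := max w w' with hu
  have hu0 : 0 < u := lt_max_of_lt_left hw
  have hu1 : u < 1 := max_lt hw1 hw1'
  set W : ℝ := Real.sqrt u with hW
  have hW0 : 0 < W := Real.sqrt_pos.2 hu0
  have hW1 : W < 1 := by
    rw [hW, Real.sqrt_lt' (by norm_num)]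
    simpa using hu1
  have hWW : W * W = u := Real.mul_self_sqrt hu0.le
  set S : ℝ := ∑' m : ℕ, W ^ m with hS
  have hSs : Summable (fun m : ℕ => W ^ m) := summable_geometric_of_lt_one hW0.le hW1
  have hS0 : 0 ≤ S := tsum_nonneg fun m => by positivity
  refine ⟨c * c' * (S * S) + 1, W, by positivity, hW0, hW1, ?_⟩
  intro A B hA hB k
  have habsa : ∀ m, |A m| ≤ c * w ^ m := fun m => by
    rw [abs_of_nonneg (hA m).1]; exact (hA m).2
  have habsb : ∀ l, |B l| ≤ c' * w' ^ l := fun l => by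
    rw [abs_of_nonneg (hB l).1]; exact (hB l).2
  have hsum := summable_bsOut hη hη1 k hw.le hw1 hw'.le hw1' habsa habsb
  have hprod := Summable.mul_of_nonneg hSs hSs
    (fun m => by positivity) (fun m => by positivity)
  have hbound : ∀ x : ℕ × ℕ, A x.1 * B x.2 * Bp η k x.1 x.2 ≤
      (W ^ k * (c * c')) * ((W ^ x.1) * (W ^ x.2)) := by
    rintro ⟨m, l⟩
    simp only
    by_cases hK : m + l < k
    · rw [Bp_eq_zero_of_lt hK, mul_zero]
      positivity
    · push Not at hK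
      have h1 : A m * B l * Bp η k m l ≤ (c * w ^ m) * (c' * w' ^ l) * 1 := by
        refine mul_le_mul (mul_le_mul (hA m).2 (hB l).2 (hB l).1 ?_) (Bp_le_one hη hη1 k m l)
          (Bp_nonneg _ _ _) ?_
        · positivity
        · positivity
      have h2 : w ^ m * w' ^ l ≤ u ^ (m + l) := by
        rw [pow_add]
        exact mul_le_mul (pow_le_pow_left₀ hw.le (le_max_left _ _) _)
          (pow_le_pow_left₀ hw'.le (le_max_right _ _) _) (by positivity) (by positivity)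
      have h3 : u ^ (m + l) ≤ W ^ k * W ^ (m + l) := by
        rw [← hWW, mul_pow]
        exact mul_le_mul_of_nonneg_right (pow_le_pow_of_le_one hW0.le hW1.le hK) (by positivity)
      calc A m * B l * Bp η k m l
          ≤ (c * c') * (w ^ m * w' ^ l) := by
            refine h1.trans (le_of_eq ?_); ring
        _ ≤ (c * c') * (W ^ k * W ^ (m + l)) := by
            have h4 := h2.trans h3
            have h5 : 0 ≤ c * c' := by positivity
            exact mul_le_mul_of_nonneg_left h4 h5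
        _ = _ := by rw [pow_add]; ring
  have hle : bsOut η A B k ≤
      ∑' x : ℕ × ℕ, (W ^ k * (c * c')) * ((W ^ x.1) * (W ^ x.2)) :=
    hsum.tsum_le_tsum hbound (hprod.mul_left _)
  have hval : ∑' x : ℕ × ℕ, ((W ^ x.1) * (W ^ x.2)) = S * S := by
    rw [hS]
    exact (hSs.tsum_mul_tsum hSs hprod).symm
  rw [tsum_mul_left, hval] at hle
  refine hle.trans ?_
  have hWK : 0 < W ^ k := by positivity
  nlinarith [mul_nonneg (mul_pos hc hc').le (mul_nonneg hS0 hS0)]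

lemma bsOut_lower (hη : 0 ≤ η) (hη1 : η ≤ 1) {A B : ℕ → ℝ} {c c' w w' : ℝ}
    (hw : 0 ≤ w) (hw1 : w < 1) (hw' : 0 ≤ w') (hw1' : w' < 1)
    (hA : ∀ m, 0 ≤ A m ∧ A m ≤ c * w ^ m) (hB : ∀ l, 0 ≤ B l ∧ B l ≤ c' * w' ^ l) (k : ℕ) :
    A k * B 0 * η ^ k ≤ bsOut η A B k := by
  have habsa : ∀ m, |A m| ≤ c * w ^ m := fun m => by
    rw [abs_of_nonneg (hA m).1]; exact (hA m).2
  have habsb : ∀ l, |B l| ≤ c' * w' ^ l := fun l => by
    rw [abs_of_nonneg (hB l).1]; exact (hB l).2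
  have hsum := summable_bsOut hη hη1 k hw hw1 hw' hw1' habsa habsb
  have h := hsum.le_tsum (k, 0) (fun j _ =>
    mul_nonneg (mul_nonneg (hA _).1 (hB _).1) (Bp_nonneg _ _ _))
  simpa [bsOut, Bp_self hη hη1] using h

/-- Normalisation. -/
lemma bsOut_hasSum (hη : 0 ≤ η) (hη1 : η ≤ 1) {A B : ℕ → ℝ} (hA : ∀ k, 0 ≤ A k)
    (hB : ∀ k, 0 ≤ B k) (hsA : HasSum A 1) (hsB : HasSum B 1) :
    HasSum (bsOut η A B) 1 := by
  set F : (ℕ × ℕ) × ℕ → ℝ := fun y => A y.1.1 * B y.1.2 * Bp η y.2 y.1.1 y.1.2 with hF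
  have hF0 : 0 ≤ F := fun y =>
    mul_nonneg (mul_nonneg (hA _) (hB _)) (Bp_nonneg _ _ _)
  have hinner : ∀ x : ℕ × ℕ, HasSum (fun k => F (x, k)) (A x.1 * B x.2) := by
    rintro ⟨M, L⟩
    have h0 : ∀ K ∉ range (M + L + 1), F ((M, L), K) = 0 := by
      intro K hK
      have : M + L < K := by
        simp only [mem_range, not_lt] at hK
        omega
      simp [hF, Bp_eq_zero_of_lt this]
    have h1 : HasSum (fun K => F ((M, L), K)) (∑ K ∈ range (M + L + 1), F ((M, L), K)) :=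
      hasSum_sum_of_ne_finset_zero h0
    have h2 : ∑ K ∈ range (M + L + 1), F ((M, L), K) = A M * B L := by
      have hm := Bp_sum hη hη1 M L
      calc ∑ K ∈ range (M + L + 1), F ((M, L), K)
          = A M * B L * ∑ K ∈ range (M + L + 1), Bp η K M L := by
            rw [mul_sum]
        _ = _ := by rw [hm]; ring
    simpa [h2] using h1
  have hprod : Summable (fun x : ℕ × ℕ => A x.1 * B x.2) :=
    Summable.mul_of_nonneg hsA.summable hsB.summable hA hB
  have hout : HasSum (fun x : ℕ × ℕ => A x.1 * B x.2) 1 := by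
    simpa using hsA.mul hsB hprod
  have hFs : Summable F := by
    refine (summable_prod_of_nonneg hF0).2 ⟨fun x => (hinner x).summable, ?_⟩
    refine hprod.congr fun x => ?_
    exact (hinner x).tsum_eq.symm
  have hFsum : HasSum F 1 := by
    have h : ∑' y, F y = ∑' x, ∑' K, F (x, K) := hFs.tsum_prod
    have h' : ∑' x, ∑' K, F (x, K) = 1 := by
      rw [← hout.tsum_eq]
      exact tsum_congr fun x => (hinner x).tsum_eq
    rw [h'] at h
    have := hFs.hasSum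
    rwa [h] at this
  have hswap : HasSum (fun y : ℕ × (ℕ × ℕ) => F (y.2, y.1)) 1 :=
    (Equiv.prodComm ℕ (ℕ × ℕ)).hasSum_iff.2 hFsum
  refine hswap.prod_fiberwise ?_
  intro K
  have hsK : Summable (fun x : ℕ × ℕ => F (x, K)) := hswap.summable.prod_factor K
  exact hsK.hasSum

end

end Vale.Agent.Lib.P369
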