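import Vale.Agent.Lib.P369.GoodM

/-!
# JOB M10: covariance on several modes (P369)

`LgenDir_abel`: in direction `i`, for `f` with `|f m| ≤ c w^(tot m)`, `w<1`, and `h` polynomially bounded (`|h m| ≤ K₀ (tot m+1)^q`):
 `HasSum (m ↦ LgenDir i r f m * h m) (∑'_m f m * Ladj r (q ↦ h (update m i q)) (m i))`.  (Index shift `hasSum_bump_shift`, absolute convergence `summable_pow_tot`.)

`bsOutM_cov`: for `a,b` with geometric bounds, `C = bsOutM η a b`:
 `∑'_{(m,l)} (LgenM r a m * b l + a m * LgenM s b l) * kerM η k m l = LgenM t C k`,  `t = η r + (1-η) s`.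
 Proof: fix direction `i`.  `∑_m LgenDir i r a m * (b l * kerM η k m l) = ∑_m a m * b l * Ladj r (q ↦ kerM η k (update m i q) l) (m i)`; same for `l`.  And `kerM η k m l = Bp η (k i) (m i) (l i) * kerRest η i k m l`, `kerRest` not depending on coordinate `i` of `k,m,l`, so by the single-mode `kernel_cov` (`Alg.lean`):
 `Ladj r (q ↦ kerM η k (update m i q) l) (m i) + Ladj s (q ↦ kerM η k m (update l i q)) (l i) = Lgen t (q ↦ kerM η (update k i q) m l) (k i) = LgenDir i t (k' ↦ kerM η k' m l) k`.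
 Summing `∑_{m,l} a m b l LgenDir i t (kerM η · m l) k = LgenDir i t C k` by linearity (finite combination of `bsOutM` at three points).  Sum over `i`.
-/

namespace Vale.Agent.Lib.P369

noncomputable section

variable {ι : Type*} [Fintype ι] [DecidableEq ι] {η : ℝ}

private lemma cv_tot_zero : tot (0 : ι → ℕ) = 0 := by simp [tot]

private lemma cv_LgenDir_expand (i : ι) (r : ℝ) (f : (ι → ℕ) → ℝ) (m : ι → ℕ) :
    LgenDir i r f m = (r + 1) * (((m i : ℝ) + 1) * f (bump i m) - (m i : ℝ) * f m)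
      - r * (((m i : ℝ) + 1) * f m - (m i : ℝ) * f (Function.update m i (m i - 1))) := by
  simp only [LgenDir, Lgen, bump, Function.update_eq_self]

private lemma cv_bump_unbump (i : ι) {k : ι → ℕ} (hk : k i ≠ 0) :
    bump i (Function.update k i (k i - 1)) = k := by
  funext j
  by_cases hj : j = i
  · subst hj; rw [bump_same]; simp only [Function.update_self]; omega
  · rw [bump_ne i _ hj]; simp only [Function.update_of_ne hj]

private lemma cv_summable_tot {A : (ι → ℕ) → ℝ} {C w : ℝ} {q : ℕ} (hw : 0 ≤ w) (hw1 : w < 1)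
    (h : ∀ m, |A m| ≤ C * (((tot m : ℝ) + 1) ^ q * w ^ tot m)) : Summable A :=
  Summable.of_norm_bounded ((summable_pow_tot q hw hw1).mul_left C)
    (fun m => by rw [Real.norm_eq_abs]; exact h m)

private lemma cv_abs_add_one (r : ℝ) : |r + 1| ≤ |r| + 1 := by
  refine (abs_add_le r 1).trans ?_
  simp

lemma LgenDir_abel (i : ι) {f h : (ι → ℕ) → ℝ} {c w K₀ : ℝ} {q : ℕ} (hw : 0 ≤ w) (hw1 : w < 1)
    (hf : ∀ m, |f m| ≤ c * w ^ tot m) (hh : ∀ m, |h m| ≤ K₀ * ((tot m : ℝ) + 1) ^ q) (r : ℝ) :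
    HasSum (fun m => LgenDir i r f m * h m)
      (∑' m, f m * Ladj r (fun q' => h (Function.update m i q')) (m i)) := by
  have hc : 0 ≤ c := by
    have := hf 0
    rw [cv_tot_zero, pow_zero, mul_one] at this
    exact (abs_nonneg _).trans this
  have hK : 0 ≤ K₀ := by
    have := hh 0
    rw [cv_tot_zero] at this
    simp only [Nat.cast_zero, zero_add, one_pow, mul_one] at this
    exact (abs_nonneg _).trans this
  have hr0 := cv_abs_add_one r
  have hm0 : ∀ m : ι → ℕ, (0 : ℝ) ≤ (tot m : ℝ) + 1 := fun m => by positivity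
  have hm1 : ∀ m : ι → ℕ, (1 : ℝ) ≤ (tot m : ℝ) + 1 := fun m => by
    have : (0 : ℝ) ≤ tot m := Nat.cast_nonneg _
    linarith
  have hmi : ∀ m : ι → ℕ, |(m i : ℝ) + 1| ≤ (tot m : ℝ) + 1 := fun m => by
    rw [abs_of_nonneg (by positivity)]
    exact cast_le_tot m i
  have hmi0 : ∀ m : ι → ℕ, |(m i : ℝ)| ≤ (tot m : ℝ) + 1 := fun m => by
    rw [Nat.abs_cast]
    have := cast_le_tot m i
    linarith
  have hfb : ∀ m : ι → ℕ, |f (bump i m)| ≤ c * w ^ tot m := fun m => by
    refine (hf _).trans ?_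
    rw [tot_bump]
    exact mul_le_mul_of_nonneg_left (pow_le_pow_of_le_one hw hw1.le (Nat.le_succ _)) hc
  have hhb : ∀ m : ι → ℕ, |h (bump i m)| ≤ K₀ * 2 ^ q * ((tot m : ℝ) + 1) ^ q := fun m => by
    refine (hh _).trans ?_
    rw [tot_bump]
    push_cast
    rw [mul_assoc]
    refine mul_le_mul_of_nonneg_left ?_ hK
    rw [← mul_pow]
    apply pow_le_pow_left₀ (by positivity)
    nlinarith [hm1 m]
  -- the pieces
  set A1 : (ι → ℕ) → ℝ := fun m => (r + 1) * ((m i : ℝ) + 1) * f (bump i m) * h m with hA1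
  set Am : (ι → ℕ) → ℝ := fun m =>
    -((r + 1) * (m i : ℝ) * f m * h m) - r * ((m i : ℝ) + 1) * f m * h m with hAm
  set B4 : (ι → ℕ) → ℝ := fun m => r * ((m i : ℝ) + 1) * h (bump i m) * f m with hB4
  have hpow : ∀ m : ι → ℕ, ((tot m : ℝ) + 1) ^ (q + 1) = ((tot m : ℝ) + 1) * ((tot m : ℝ) + 1) ^ q :=
    fun m => by rw [pow_succ]; ring
  have sA1 : Summable A1 := by
    refine cv_summable_tot (C := (|r| + 1) * c * K₀) (q := q + 1) hw hw1 ?_
    intro m
    simp only [hA1, abs_mul]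
    calc |r + 1| * |(m i : ℝ) + 1| * |f (bump i m)| * |h m|
        ≤ (|r| + 1) * ((tot m : ℝ) + 1) * (c * w ^ tot m) * (K₀ * ((tot m : ℝ) + 1) ^ q) := by
          gcongr
          · exact hmi m
          · exact hfb m
          · exact hh m
      _ = _ := by rw [hpow]; ring
  have sAm : Summable Am := by
    refine cv_summable_tot (C := ((|r| + 1) + |r|) * c * K₀) (q := q + 1) hw hw1 ?_
    intro m
    simp only [hAm]
    have e1 : |(r + 1) * (m i : ℝ) * f m * h m| ≤
        (|r| + 1) * ((tot m : ℝ) + 1) * (c * w ^ tot m) * (K₀ * ((tot m : ℝ) + 1) ^ q) := by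
      simp only [abs_mul]
      gcongr
      · exact hmi0 m
      · exact hf m
      · exact hh m
    have e2 : |r * ((m i : ℝ) + 1) * f m * h m| ≤
        |r| * ((tot m : ℝ) + 1) * (c * w ^ tot m) * (K₀ * ((tot m : ℝ) + 1) ^ q) := by
      simp only [abs_mul]
      gcongr
      · exact hmi m
      · exact hf m
      · exact hh m
    calc |-((r + 1) * (m i : ℝ) * f m * h m) - r * ((m i : ℝ) + 1) * f m * h m|
        ≤ |(r + 1) * (m i : ℝ) * f m * h m| + |r * ((m i : ℝ) + 1) * f m * h m| := by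
          refine (abs_sub _ _).trans ?_
          rw [abs_neg]
      _ ≤ _ := add_le_add e1 e2
      _ = _ := by rw [hpow]; ring
  have sB4 : Summable B4 := by
    refine cv_summable_tot (C := |r| * (K₀ * 2 ^ q) * c) (q := q + 1) hw hw1 ?_
    intro m
    simp only [hB4, abs_mul]
    calc |r| * |(m i : ℝ) + 1| * |h (bump i m)| * |f m|
        ≤ |r| * ((tot m : ℝ) + 1) * (K₀ * 2 ^ q * ((tot m : ℝ) + 1) ^ q) * (c * w ^ tot m) := by
          gcongr
          · exact hmi m
          · exact hhb m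
          · exact hf m
      _ = _ := by rw [hpow]; ring
  -- shifted versions
  set B1 : (ι → ℕ) → ℝ := fun m =>
    (r + 1) * (m i : ℝ) * h (Function.update m i (m i - 1)) * f m with hB1
  set A4 : (ι → ℕ) → ℝ := fun m =>
    r * (m i : ℝ) * f (Function.update m i (m i - 1)) * h m with hA4
  have hcast : ∀ k : ι → ℕ, k i ≠ 0 → ((k i - 1 : ℕ) : ℝ) + 1 = (k i : ℝ) := by
    intro k hk
    have : k i - 1 + 1 = k i := Nat.sub_add_cancel (Nat.one_le_iff_ne_zero.mpr hk)
    exact_mod_cast this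
  have hS1 : HasSum B1 (∑' m, A1 m) := by
    have := hasSum_bump_shift i sA1.hasSum
    convert this using 1
    funext k
    by_cases h0 : k i = 0
    · simp [hB1, h0]
    · simp only [if_neg h0, hA1, hB1, Function.update_self, cv_bump_unbump i h0, hcast k h0]
      ring
  have hS4 : HasSum A4 (∑' m, B4 m) := by
    have := hasSum_bump_shift i sB4.hasSum
    convert this using 1
    funext k
    by_cases h0 : k i = 0
    · simp [hA4, h0]
    · simp only [if_neg h0, hA4, hB4, Function.update_self, cv_bump_unbump i h0, hcast k h0]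
      ring
  have hL : (fun m => LgenDir i r f m * h m) = fun m => A1 m + Am m + A4 m := by
    funext m
    rw [cv_LgenDir_expand]
    simp only [hA1, hAm, hA4]
    ring
  have hR : (fun m => f m * Ladj r (fun q' => h (Function.update m i q')) (m i)) =
      fun m => B1 m + Am m + B4 m := by
    funext m
    simp only [Ladj, Function.update_eq_self, hB1, hAm, hB4]
    have : Function.update m i (m i + 1) = bump i m := rfl
    rw [this]
    ring
  have hsum1 : HasSum (fun m => A1 m + Am m + A4 m) (∑' m, A1 m + ∑' m, Am m + ∑' m, B4 m) :=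
    (sA1.hasSum.add sAm.hasSum).add hS4
  have hsum2 : HasSum (fun m => B1 m + Am m + B4 m) (∑' m, A1 m + ∑' m, Am m + ∑' m, B4 m) :=
    (hS1.add sAm.hasSum).add sB4.hasSum
  rw [hL, hR, hsum2.tsum_eq]
  exact hsum1

/-! ### Bounds -/

/-- The generator of a geometrically bounded function is polynomial times geometric. -/
private lemma cv_LgenDir_bound (i : ι) {f : (ι → ℕ) → ℝ} {c w : ℝ} (hw : 0 ≤ w) (hw1 : w < 1)
    (hf : ∀ m, |f m| ≤ c * w ^ tot m) (r : ℝ) :
    ∃ C W : ℝ, 0 ≤ W ∧ W < 1 ∧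
      ∀ m, |LgenDir i r f m| ≤ C * (((tot m : ℝ) + 1) ^ 1 * W ^ tot m) := by
  have hc : 0 ≤ c := by
    have := hf 0
    rw [cv_tot_zero, pow_zero, mul_one] at this
    exact (abs_nonneg _).trans this
  obtain ⟨w0, hw0, hw01, hww0⟩ : ∃ w0 : ℝ, 0 < w0 ∧ w0 < 1 ∧ w ≤ w0 :=
    ⟨(1 + w) / 2, by linarith, by linarith, by linarith⟩
  have hf0 : ∀ m, |f m| ≤ c * w0 ^ tot m := fun m =>
    (hf m).trans (mul_le_mul_of_nonneg_left (pow_le_pow_left₀ hw hww0 _) hc)
  have hm0 : ∀ m : ι → ℕ, (0 : ℝ) ≤ (tot m : ℝ) + 1 := fun m => by positivity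
  have hmi : ∀ m : ι → ℕ, |(m i : ℝ) + 1| ≤ (tot m : ℝ) + 1 := fun m => by
    rw [abs_of_nonneg (by positivity)]
    exact cast_le_tot m i
  have hmi0 : ∀ m : ι → ℕ, |(m i : ℝ)| ≤ (tot m : ℝ) + 1 := fun m => by
    rw [Nat.abs_cast]
    have := cast_le_tot m i
    linarith
  have hfb : ∀ m : ι → ℕ, |f (bump i m)| ≤ c * w0 ^ tot m := fun m => by
    refine (hf0 _).trans ?_
    rw [tot_bump]
    exact mul_le_mul_of_nonneg_left (pow_le_pow_of_le_one hw0.le hw01.le (Nat.le_succ _)) hc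
  have hfu : ∀ m : ι → ℕ, |(m i : ℝ)| * |f (Function.update m i (m i - 1))| ≤
      ((tot m : ℝ) + 1) * (w0⁻¹ * c * w0 ^ tot m) := fun m => by
    by_cases h0 : m i = 0
    · rw [h0]
      simp only [Nat.cast_zero, abs_zero, zero_mul]
      have := hm0 m
      positivity
    · have h1 := hf0 (Function.update m i (m i - 1))
      have h2 : tot m = tot (Function.update m i (m i - 1)) + 1 := by
        rw [← tot_bump, cv_bump_unbump i h0]
      have h3 : w0⁻¹ * c * w0 ^ tot m = c * w0 ^ tot (Function.update m i (m i - 1)) := by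
        rw [h2, pow_succ]
        field_simp
      rw [h3]
      exact mul_le_mul (hmi0 m) h1 (abs_nonneg _) (hm0 m)
  have hr0 := cv_abs_add_one r
  refine ⟨(|r| + 1) * (c + c) + |r| * (c + w0⁻¹ * c), w0, hw0.le, hw01, fun m => ?_⟩
  rw [cv_LgenDir_expand, pow_one]
  have t1 : |((m i : ℝ) + 1) * f (bump i m) - (m i : ℝ) * f m| ≤
      (c + c) * (((tot m : ℝ) + 1) * w0 ^ tot m) := by
    refine (abs_sub _ _).trans ?_
    rw [abs_mul, abs_mul]
    calc |(m i : ℝ) + 1| * |f (bump i m)| + |(m i : ℝ)| * |f m|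
        ≤ ((tot m : ℝ) + 1) * (c * w0 ^ tot m) + ((tot m : ℝ) + 1) * (c * w0 ^ tot m) := by
          gcongr
          · exact hmi m
          · exact hfb m
          · exact hmi0 m
          · exact hf0 m
      _ = _ := by ring
  have t2 : |((m i : ℝ) + 1) * f m - (m i : ℝ) * f (Function.update m i (m i - 1))| ≤
      (c + w0⁻¹ * c) * (((tot m : ℝ) + 1) * w0 ^ tot m) := by
    refine (abs_sub _ _).trans ?_
    rw [abs_mul, abs_mul]
    calc |(m i : ℝ) + 1| * |f m| + |(m i : ℝ)| * |f (Function.update m i (m i - 1))|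
        ≤ ((tot m : ℝ) + 1) * (c * w0 ^ tot m) + ((tot m : ℝ) + 1) * (w0⁻¹ * c * w0 ^ tot m) := by
          refine add_le_add ?_ (hfu m)
          gcongr
          · exact hmi m
          · exact hf0 m
      _ = _ := by ring
  calc |(r + 1) * (((m i : ℝ) + 1) * f (bump i m) - (m i : ℝ) * f m) -
        r * (((m i : ℝ) + 1) * f m - (m i : ℝ) * f (Function.update m i (m i - 1)))|
      ≤ |r + 1| * |((m i : ℝ) + 1) * f (bump i m) - (m i : ℝ) * f m| +
          |r| * |((m i : ℝ) + 1) * f m - (m i : ℝ) * f (Function.update m i (m i - 1))| := by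
        refine (abs_sub _ _).trans ?_
        rw [abs_mul, abs_mul]
    _ ≤ (|r| + 1) * ((c + c) * (((tot m : ℝ) + 1) * w0 ^ tot m)) +
          |r| * ((c + w0⁻¹ * c) * (((tot m : ℝ) + 1) * w0 ^ tot m)) := by
        gcongr
    _ = _ := by ring

/-- The adjoint on a function bounded by one. -/
private lemma cv_Ladj_bound {h : ℕ → ℝ} (hh : ∀ q, |h q| ≤ 1) (r : ℝ) (M : ℕ) :
    |Ladj r h M| ≤ (2 * (|r| + 1) + 2 * |r|) * ((M : ℝ) + 1) := by
  have hr0 := cv_abs_add_one r
  have hM : (0 : ℝ) ≤ (M : ℝ) := Nat.cast_nonneg _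
  have h1 : ∀ p p', |h p - h p'| ≤ 2 := fun p p' => by
    refine (abs_sub _ _).trans ?_
    have := hh p
    have := hh p'
    linarith
  unfold Ladj
  refine (abs_add_le _ _).trans ?_
  rw [abs_mul, abs_mul, abs_mul, abs_mul, Nat.abs_cast, abs_of_nonneg (by positivity : (0:ℝ) ≤ (M:ℝ) + 1)]
  have e1 : |r + 1| * (M : ℝ) * |h (M - 1) - h M| ≤ (|r| + 1) * ((M : ℝ) + 1) * 2 := by
    gcongr
    · linarith
    · exact h1 _ _
  have e2 : |r| * ((M : ℝ) + 1) * |h (M + 1) - h M| ≤ |r| * ((M : ℝ) + 1) * 2 := by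
    gcongr
    exact h1 _ _
  calc _ ≤ (|r| + 1) * ((M : ℝ) + 1) * 2 + |r| * ((M : ℝ) + 1) * 2 := add_le_add e1 e2
    _ = _ := by ring

/-- Summability for a double series with polynomial-geometric factors. -/
private lemma cv_summable_pair {A B : (ι → ℕ) → ℝ} {G : (ι → ℕ) → (ι → ℕ) → ℝ} {C C' K w w' : ℝ}
    {p p' d : ℕ} (hw : 0 ≤ w) (hw1 : w < 1) (hw' : 0 ≤ w') (hw1' : w' < 1)
    (hA : ∀ m, |A m| ≤ C * (((tot m : ℝ) + 1) ^ p * w ^ tot m))
    (hB : ∀ l, |B l| ≤ C' * (((tot l : ℝ) + 1) ^ p' * w' ^ tot l))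
    (hG : ∀ m l, |G m l| ≤ K * (((tot m : ℝ) + 1) ^ d * ((tot l : ℝ) + 1) ^ d)) :
    Summable (fun x : (ι → ℕ) × (ι → ℕ) => A x.1 * B x.2 * G x.1 x.2) := by
  have h1 := summable_pow_tot (ι := ι) (p + d) hw hw1
  have h2 := summable_pow_tot (ι := ι) (p' + d) hw' hw1'
  have h3 := h1.mul_of_nonneg h2 (fun m => by positivity) (fun m => by positivity)
  have hC : 0 ≤ C := by
    have := hA 0
    rw [cv_tot_zero] at this
    simp only [Nat.cast_zero, zero_add, one_pow, pow_zero, mul_one] at this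
    exact (abs_nonneg _).trans this
  have hC' : 0 ≤ C' := by
    have := hB 0
    rw [cv_tot_zero] at this
    simp only [Nat.cast_zero, zero_add, one_pow, pow_zero, mul_one] at this
    exact (abs_nonneg _).trans this
  have hK : 0 ≤ K := by
    have := hG 0 0
    rw [cv_tot_zero] at this
    simp only [Nat.cast_zero, zero_add, one_pow, mul_one] at this
    exact (abs_nonneg _).trans this
  refine Summable.of_norm_bounded (h3.mul_left (C * C' * K)) fun x => ?_
  rw [Real.norm_eq_abs, abs_mul, abs_mul]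
  have e := hA x.1
  have e' := hB x.2
  have e'' := hG x.1 x.2
  calc |A x.1| * |B x.2| * |G x.1 x.2|
      ≤ (C * (((tot x.1 : ℝ) + 1) ^ p * w ^ tot x.1)) *
          (C' * (((tot x.2 : ℝ) + 1) ^ p' * w' ^ tot x.2)) *
          (K * (((tot x.1 : ℝ) + 1) ^ d * ((tot x.2 : ℝ) + 1) ^ d)) := by
        gcongr
    _ = _ := by rw [pow_add, pow_add]; ring

/-- From a geometric bound to a polynomial-geometric bound with exponent zero. -/
private lemma cv_pow_zero {f : (ι → ℕ) → ℝ} {c w : ℝ} (hf : ∀ m, |f m| ≤ c * w ^ tot m) (m : ι → ℕ) :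
    |f m| ≤ c * (((tot m : ℝ) + 1) ^ 0 * w ^ tot m) := by
  simpa using hf m

/-! ### Splitting off coordinate `i` in the kernel -/

private lemma cv_kerRest_update_k (i : ι) (k m l : ι → ℕ) (q : ℕ) :
    kerRest η i (Function.update k i q) m l = kerRest η i k m l :=
  Finset.prod_congr rfl fun j hj => by
    rw [Function.update_of_ne (Finset.ne_of_mem_erase hj)]

private lemma cv_kerRest_update_m (i : ι) (k m l : ι → ℕ) (q : ℕ) :
    kerRest η i k (Function.update m i q) l = kerRest η i k m l :=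
  Finset.prod_congr rfl fun j hj => by
    rw [Function.update_of_ne (Finset.ne_of_mem_erase hj)]

private lemma cv_kerRest_update_l (i : ι) (k m l : ι → ℕ) (q : ℕ) :
    kerRest η i k m (Function.update l i q) = kerRest η i k m l :=
  Finset.prod_congr rfl fun j hj => by
    rw [Function.update_of_ne (Finset.ne_of_mem_erase hj)]

private lemma cv_Ladj_mul (r R : ℝ) (g : ℕ → ℝ) (M : ℕ) :
    Ladj r (fun q => g q * R) M = Ladj r g M * R := by
  simp only [Ladj]; ring

private lemma cv_Lgen_mul (r R : ℝ) (g : ℕ → ℝ) (M : ℕ) :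
    Lgen r (fun q => g q * R) M = Lgen r g M * R := by
  simp only [Lgen]; ring

private lemma cv_key (hη : 0 ≤ η) (hη1 : η ≤ 1) (i : ι) (r s : ℝ) (k m l : ι → ℕ) :
    Ladj r (fun q' => kerM η k (Function.update m i q') l) (m i) +
        Ladj s (fun q' => kerM η k m (Function.update l i q')) (l i) =
      LgenDir i (η * r + (1 - η) * s) (fun k' => kerM η k' m l) k := by
  have e1 : (fun q' => kerM η k (Function.update m i q') l) =
      fun q' => Bp η (k i) q' (l i) * kerRest η i k m l := by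
    funext q'
    rw [kerM_split i, Function.update_self, cv_kerRest_update_m]
  have e2 : (fun q' => kerM η k m (Function.update l i q')) =
      fun q' => Bp η (k i) (m i) q' * kerRest η i k m l := by
    funext q'
    rw [kerM_split i, Function.update_self, cv_kerRest_update_l]
  have e3 : LgenDir i (η * r + (1 - η) * s) (fun k' => kerM η k' m l) k =
      Lgen (η * r + (1 - η) * s) (fun q => Bp η q (m i) (l i) * kerRest η i k m l) (k i) := by
    unfold LgenDir
    congr 1
    funext q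
    show kerM η (Function.update k i q) m l = _
    rw [kerM_split i, Function.update_self, cv_kerRest_update_k]
  rw [e1, e2, e3, cv_Ladj_mul, cv_Ladj_mul, cv_Lgen_mul, ← add_mul, kernel_cov hη hη1]

private lemma cv_double_swap {α β : Type*} {F1 F2 : α × β → ℝ} (h1 : Summable F1)
    (h2 : Summable F2) (h : ∀ L, HasSum (fun M => F1 (M, L)) (∑' M, F2 (M, L))) :
    ∑' x, F1 x = ∑' x, F2 x := by
  have e1 : ∑' x, F1 x = ∑' x : β × α, F1 x.swap :=
    ((Equiv.prodComm β α).tsum_eq F1).symm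
  have e2 : ∑' x, F2 x = ∑' x : β × α, F2 x.swap :=
    ((Equiv.prodComm β α).tsum_eq F2).symm
  have s1 : Summable (fun x : β × α => F1 x.swap) :=
    (Equiv.prodComm β α).summable_iff.mpr h1
  have s2 : Summable (fun x : β × α => F2 x.swap) :=
    (Equiv.prodComm β α).summable_iff.mpr h2
  rw [e1, e2, s1.tsum_prod, s2.tsum_prod]
  apply tsum_congr
  intro L
  exact (h L).tsum_eq

private lemma cv_double {α β : Type*} {F1 F2 : α × β → ℝ} (h1 : Summable F1) (h2 : Summable F2)
    (h : ∀ M, HasSum (fun L => F1 (M, L)) (∑' L, F2 (M, L))) :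
    ∑' x, F1 x = ∑' x, F2 x := by
  rw [h1.tsum_prod, h2.tsum_prod]
  apply tsum_congr
  intro M
  exact (h M).tsum_eq

private lemma cv_dir (hη : 0 ≤ η) (hη1 : η ≤ 1) {a b : (ι → ℕ) → ℝ} {c c' w w' : ℝ}
    (hw : 0 ≤ w) (hw1 : w < 1) (hw' : 0 ≤ w') (hw1' : w' < 1)
    (ha : ∀ m, |a m| ≤ c * w ^ tot m) (hb : ∀ l, |b l| ≤ c' * w' ^ tot l) (r s : ℝ) (k : ι → ℕ)
    (i : ι) :
    HasSum (fun x : (ι → ℕ) × (ι → ℕ) =>
        (LgenDir i r a x.1 * b x.2 + a x.1 * LgenDir i s b x.2) * kerM η k x.1 x.2)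
      (LgenDir i (η * r + (1 - η) * s) (bsOutM η a b) k) := by
  have hker : ∀ k' m l : ι → ℕ, |kerM η k' m l| ≤ 1 := fun k' m l => by
    rw [abs_of_nonneg (kerM_nonneg k' m l)]
    exact kerM_le_one hη hη1 k' m l
  have hker' : ∀ k' m l : ι → ℕ,
      |kerM η k' m l| ≤ 1 * (((tot m : ℝ) + 1) ^ 1 * ((tot l : ℝ) + 1) ^ 1) := fun k' m l => by
    refine (hker k' m l).trans ?_
    have h1 : (1 : ℝ) ≤ (tot m : ℝ) + 1 := by
      have : (0 : ℝ) ≤ tot m := Nat.cast_nonneg _
      linarith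
    have h2 : (1 : ℝ) ≤ (tot l : ℝ) + 1 := by
      have : (0 : ℝ) ≤ tot l := Nat.cast_nonneg _
      linarith
    rw [one_mul, pow_one, pow_one]
    nlinarith
  obtain ⟨c₁, w₁, hw₁, hw₁1, hLa⟩ := cv_LgenDir_bound i hw hw1 ha r
  obtain ⟨c₂, w₂, hw₂, hw₂1, hLb⟩ := cv_LgenDir_bound i hw' hw1' hb s
  -- adjoint kernels
  set G1 : (ι → ℕ) → (ι → ℕ) → ℝ := fun m l =>
    Ladj r (fun q' => kerM η k (Function.update m i q') l) (m i) with hG1
  set G2 : (ι → ℕ) → (ι → ℕ) → ℝ := fun m l =>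
    Ladj s (fun q' => kerM η k m (Function.update l i q')) (l i) with hG2
  have hmi : ∀ m : ι → ℕ, (m i : ℝ) + 1 ≤ (tot m : ℝ) + 1 := fun m => cast_le_tot m i
  have hone : ∀ l : ι → ℕ, (1 : ℝ) ≤ (tot l : ℝ) + 1 := fun l => by
    have : (0 : ℝ) ≤ tot l := Nat.cast_nonneg _
    linarith
  have hG1bd : ∀ m l, |G1 m l| ≤
      (2 * (|r| + 1) + 2 * |r|) * (((tot m : ℝ) + 1) ^ 1 * ((tot l : ℝ) + 1) ^ 1) := by
    intro m l
    have h := cv_Ladj_bound (h := fun q' => kerM η k (Function.update m i q') l)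
      (fun q' => hker _ _ _) r (m i)
    refine h.trans ?_
    rw [pow_one, pow_one]
    have h1 := hmi m
    have h2 := hone l
    have h3 : (0 : ℝ) ≤ 2 * (|r| + 1) + 2 * |r| := by positivity
    refine mul_le_mul_of_nonneg_left ?_ h3
    nlinarith
  have hG2bd : ∀ m l, |G2 m l| ≤
      (2 * (|s| + 1) + 2 * |s|) * (((tot m : ℝ) + 1) ^ 1 * ((tot l : ℝ) + 1) ^ 1) := by
    intro m l
    have h := cv_Ladj_bound (h := fun q' => kerM η k m (Function.update l i q'))
      (fun q' => hker _ _ _) s (l i)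
    refine h.trans ?_
    rw [pow_one, pow_one]
    have h1 := hmi l
    have h2 := hone m
    have h3 : (0 : ℝ) ≤ 2 * (|s| + 1) + 2 * |s| := by positivity
    refine mul_le_mul_of_nonneg_left ?_ h3
    nlinarith
  -- summability of all double series
  have S1 : Summable (fun x : (ι → ℕ) × (ι → ℕ) => LgenDir i r a x.1 * b x.2 * kerM η k x.1 x.2) :=
    cv_summable_pair (G := fun m l => kerM η k m l) hw₁ hw₁1 hw' hw1' hLa (cv_pow_zero hb)
      (hker' k)
  have S2 : Summable (fun x : (ι → ℕ) × (ι → ℕ) => a x.1 * LgenDir i s b x.2 * kerM η k x.1 x.2) :=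
    cv_summable_pair (G := fun m l => kerM η k m l) hw hw1 hw₂ hw₂1 (cv_pow_zero ha) hLb
      (hker' k)
  have S3 : Summable (fun x : (ι → ℕ) × (ι → ℕ) => a x.1 * b x.2 * G1 x.1 x.2) :=
    cv_summable_pair hw hw1 hw' hw1' (cv_pow_zero ha) (cv_pow_zero hb) hG1bd
  have S4 : Summable (fun x : (ι → ℕ) × (ι → ℕ) => a x.1 * b x.2 * G2 x.1 x.2) :=
    cv_summable_pair hw hw1 hw' hw1' (cv_pow_zero ha) (cv_pow_zero hb) hG2bd
  -- Abel in each variable
  have E1 : ∑' x : (ι → ℕ) × (ι → ℕ), LgenDir i r a x.1 * b x.2 * kerM η k x.1 x.2 =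
      ∑' x : (ι → ℕ) × (ι → ℕ), a x.1 * b x.2 * G1 x.1 x.2 := by
    apply cv_double_swap S1 S3
    intro L
    have hbound : ∀ m : ι → ℕ, |kerM η k m L| ≤ 1 * ((tot m : ℝ) + 1) ^ 0 := fun m => by
      simpa using hker k m L
    have h := (LgenDir_abel i (h := fun m => kerM η k m L) hw hw1 ha hbound r).mul_left (b L)
    have e : (∑' M : ι → ℕ, a M * b L * G1 M L) =
        b L * ∑' m, a m * Ladj r (fun q' => kerM η k (Function.update m i q') L) (m i) := by
      rw [← tsum_mul_left]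
      apply tsum_congr
      intro M
      simp only [hG1]
      ring
    have e2 : (fun M : ι → ℕ => LgenDir i r a M * b L * kerM η k M L) =
        fun M => b L * (LgenDir i r a M * kerM η k M L) := by
      funext M
      ring
    show HasSum (fun M : ι → ℕ => LgenDir i r a M * b L * kerM η k M L)
      (∑' M : ι → ℕ, a M * b L * G1 M L)
    rw [e, e2]
    exact h
  have E2 : ∑' x : (ι → ℕ) × (ι → ℕ), a x.1 * LgenDir i s b x.2 * kerM η k x.1 x.2 =
      ∑' x : (ι → ℕ) × (ι → ℕ), a x.1 * b x.2 * G2 x.1 x.2 := by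
    apply cv_double S2 S4
    intro M
    have hbound : ∀ l : ι → ℕ, |kerM η k M l| ≤ 1 * ((tot l : ℝ) + 1) ^ 0 := fun l => by
      simpa using hker k M l
    have h := (LgenDir_abel i (h := fun l => kerM η k M l) hw' hw1' hb hbound s).mul_left (a M)
    have e : (∑' L : ι → ℕ, a M * b L * G2 M L) =
        a M * ∑' l, b l * Ladj s (fun q' => kerM η k M (Function.update l i q')) (l i) := by
      rw [← tsum_mul_left]
      apply tsum_congr
      intro L
      simp only [hG2]
      ring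
    have e2 : (fun L : ι → ℕ => a M * LgenDir i s b L * kerM η k M L) =
        fun L => a M * (LgenDir i s b L * kerM η k M L) := by
      funext L
      ring
    show HasSum (fun L : ι → ℕ => a M * LgenDir i s b L * kerM η k M L)
      (∑' L : ι → ℕ, a M * b L * G2 M L)
    rw [e, e2]
    exact h
  -- the right-hand side, by linearity
  set t : ℝ := η * r + (1 - η) * s with ht
  have hS : ∀ k' : ι → ℕ, HasSum (fun x : (ι → ℕ) × (ι → ℕ) => a x.1 * b x.2 * kerM η k' x.1 x.2)
      (bsOutM η a b k') := fun k' =>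
    (cv_summable_pair (G := fun m l => kerM η k' m l) hw hw1 hw' hw1'
      (cv_pow_zero ha) (cv_pow_zero hb) (hker' k')).hasSum
  have hR : HasSum
      (fun x : (ι → ℕ) × (ι → ℕ) => a x.1 * b x.2 * LgenDir i t (fun k' => kerM η k' x.1 x.2) k)
      (LgenDir i t (bsOutM η a b) k) := by
    have h := (((hS (bump i k)).mul_left ((t + 1) * ((k i : ℝ) + 1))).sub
      ((hS k).mul_left ((t + 1) * (k i : ℝ)))).sub
      (((hS k).mul_left (t * ((k i : ℝ) + 1))).sub
        ((hS (Function.update k i (k i - 1))).mul_left (t * (k i : ℝ))))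
    have e1 : (fun x : (ι → ℕ) × (ι → ℕ) =>
        a x.1 * b x.2 * LgenDir i t (fun k' => kerM η k' x.1 x.2) k) =
        fun x : (ι → ℕ) × (ι → ℕ) =>
          (t + 1) * ((k i : ℝ) + 1) * (a x.1 * b x.2 * kerM η (bump i k) x.1 x.2) -
          (t + 1) * (k i : ℝ) * (a x.1 * b x.2 * kerM η k x.1 x.2) -
          (t * ((k i : ℝ) + 1) * (a x.1 * b x.2 * kerM η k x.1 x.2) -
            t * (k i : ℝ) * (a x.1 * b x.2 * kerM η (Function.update k i (k i - 1)) x.1 x.2)) := by
      funext x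
      rw [cv_LgenDir_expand]
      ring
    have e2 : LgenDir i t (bsOutM η a b) k =
        (t + 1) * ((k i : ℝ) + 1) * bsOutM η a b (bump i k) -
          (t + 1) * (k i : ℝ) * bsOutM η a b k -
          (t * ((k i : ℝ) + 1) * bsOutM η a b k -
            t * (k i : ℝ) * bsOutM η a b (Function.update k i (k i - 1))) := by
      rw [cv_LgenDir_expand]
      ring
    rw [e1, e2]
    exact h
  -- conclusion
  have hS12 := S1.hasSum.add S2.hasSum
  have e : (fun x : (ι → ℕ) × (ι → ℕ) =>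
        (LgenDir i r a x.1 * b x.2 + a x.1 * LgenDir i s b x.2) * kerM η k x.1 x.2) =
      fun x => LgenDir i r a x.1 * b x.2 * kerM η k x.1 x.2 +
        a x.1 * LgenDir i s b x.2 * kerM η k x.1 x.2 := by
    funext x
    ring
  rw [e]
  convert hS12 using 1
  rw [E1, E2, ← hR.tsum_eq, ← S3.tsum_add S4]
  apply tsum_congr
  intro x
  simp only [hG1, hG2]
  rw [← cv_key hη hη1 i r s k x.1 x.2]
  ring

theorem bsOutM_cov (hη : 0 ≤ η) (hη1 : η ≤ 1) {a b : (ι → ℕ) → ℝ} {c c' w w' : ℝ}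
    (hw : 0 ≤ w) (hw1 : w < 1) (hw' : 0 ≤ w') (hw1' : w' < 1)
    (ha : ∀ m, |a m| ≤ c * w ^ tot m) (hb : ∀ l, |b l| ≤ c' * w' ^ tot l) (r s : ℝ) (k : ι → ℕ) :
    HasSum (fun x : (ι → ℕ) × (ι → ℕ) =>
        (LgenM r a x.1 * b x.2 + a x.1 * LgenM s b x.2) * kerM η k x.1 x.2)
      (LgenM (η * r + (1 - η) * s) (bsOutM η a b) k) := by
  have h := hasSum_sum (s := Finset.univ) (fun i _ => cv_dir hη hη1 hw hw1 hw' hw1' ha hb r s k i)
  have e : (fun x : (ι → ℕ) × (ι → ℕ) =>
        (LgenM r a x.1 * b x.2 + a x.1 * LgenM s b x.2) * kerM η k x.1 x.2) =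
      fun x => ∑ i, (LgenDir i r a x.1 * b x.2 + a x.1 * LgenDir i s b x.2) * kerM η k x.1 x.2 := by
    funext x
    simp only [LgenM]
    rw [Finset.sum_mul, Finset.mul_sum, ← Finset.sum_add_distrib, Finset.sum_mul]
  rw [e]
  exact h

end

end Vale.Agent.Lib.P369
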