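import Vale.Agent.Lib.P369.FlowM
import Vale.Agent.Lib.P369.CovM

/-!
# JOB M11: ODE and bounds for the output flow `C_λ = bsOutM η A_λ B_λ` (P369)

Derivative: for `x ∈ (x₀,x₁) ⊂ (0,1)`, by `hasDerivAt_tsum_of_isPreconnected` on index `(ι→ℕ)×(ι→ℕ)`, summable bound `K (tot m+1) (tot l+1) W^(tot m) W^(tot l)` [`kerM ≤ 1`; `|flowM| ≤ c w^(tot)` (`flowM_upper`); `|∂ flowM| = (1/x)|LgenM r …| ≤ (1/x₀) K₁ (tot m + 1) w^(tot m - 1)`]:
 `∂_x C_x(k) = ∑'_{(m,l)} (∂A(m) B(l) + A(m) ∂B(l)) kerM η k m l = -(1/x) ∑' (LgenM r A m B l + A m LgenM s B l) kerM = -(1/x) LgenM t C_x k`   (`bsOutM_cov`).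

Continuity `cFlowM_continuousOn`: `continuousOn_tsum`, from `flowM_continuousOn`, the uniform bound and `0 ≤ kerM ≤ 1`.

Bounds: from `bsOutM_upper`, `bsOutM_lower`, `flowM_upper`, `flowM_lower`.  For lower: `A_y(k) B_y(0) η^(tot k) ≥ c₁ w₁^(tot k) c₁' η^(tot k)` for `y ∈ [0,λ₁]`.
-/

namespace Vale.Agent.Lib.P369

open Set

noncomputable section

variable {ι : Type*} [Fintype ι] [DecidableEq ι] {η r s : ℝ} {a b : (ι → ℕ) → ℝ} {L L' : ℕ}

/-- Geometric bound for the generator in one direction. -/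
private lemma LgenDir_bound {f : (ι → ℕ) → ℝ} {c w r : ℝ} (hc : 0 < c) (hw : 0 < w) (hw1 : w < 1)
    (hr : 0 < r) (hf : ∀ m, |f m| ≤ c * w ^ tot m) (i : ι) (k : ι → ℕ) :
    |LgenDir i r f k| ≤ (c * ((r + 1) * 2 + r * (1 + 1 / w))) * (((tot k : ℝ) + 1) * w ^ tot k) := by
  have hE : 0 < c * w ^ tot k := by positivity
  set E : ℝ := c * w ^ tot k with hEdef
  set X : ℝ := (tot k : ℝ) + 1 with hX
  have hXpos : 0 < X := by positivity
  have hki : ((k i : ℕ) : ℝ) ≤ X := by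
    rw [hX]
    have : ((k i : ℕ) : ℝ) ≤ (tot k : ℝ) := by exact_mod_cast le_tot k i
    linarith
  have hki1 : ((k i : ℝ) + 1) ≤ X := by
    rw [hX]
    have : ((k i : ℕ) : ℝ) ≤ (tot k : ℝ) := by exact_mod_cast le_tot k i
    linarith
  have hM0 : (0:ℝ) ≤ (k i : ℝ) := by positivity
  have hM1 : (0:ℝ) ≤ (k i : ℝ) + 1 := by positivity
  -- the three values of `f`
  have e0 : Function.update k i (k i) = k := Function.update_eq_self i k
  have h1 : |f (Function.update k i (k i + 1))| ≤ E := by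
    have := hf (bump i k)
    rw [tot_bump] at this
    refine (le_trans this ?_)
    rw [hEdef, pow_succ]
    have : w ^ tot k * w ≤ w ^ tot k * 1 := mul_le_mul_of_nonneg_left hw1.le (by positivity)
    nlinarith
  have h2 : |f (Function.update k i (k i))| ≤ E := by rw [e0]; exact hf k
  have h3 : |(k i : ℝ) * f (Function.update k i (k i - 1))| ≤ X * (E * (1 / w)) := by
    rcases Nat.eq_zero_or_pos (k i) with h | h
    · rw [h]
      simp only [Nat.cast_zero, zero_mul, abs_zero]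
      positivity
    · rw [abs_mul, abs_of_nonneg hM0]
      have h4 : |f (Function.update k i (k i - 1))| ≤ E * (1 / w) := by
        refine (hf _).trans (le_of_eq ?_)
        -- `k = bump i k'`, where `k' = update k i (k i - 1)`
        set k' := Function.update k i (k i - 1) with hk'
        have hb : bump i k' = k := by
          funext j
          by_cases hj : j = i
          · subst hj
            simp [hk', bump]
            omega
          · simp [hk', bump, Function.update_of_ne hj]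
        have ht : tot k = tot k' + 1 := by rw [← hb, tot_bump]
        rw [hEdef, ht, pow_succ]
        field_simp
      exact mul_le_mul hki h4 (abs_nonneg _) hXpos.le
  have hA1 : |((k i : ℝ) + 1) * f (Function.update k i (k i + 1))| ≤ X * E := by
    rw [abs_mul, abs_of_nonneg hM1]
    exact mul_le_mul hki1 h1 (abs_nonneg _) hXpos.le
  have hA2 : |(k i : ℝ) * f (Function.update k i (k i))| ≤ X * E := by
    rw [abs_mul, abs_of_nonneg hM0]
    exact mul_le_mul hki h2 (abs_nonneg _) hXpos.le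
  have hA3 : |((k i : ℝ) + 1) * f (Function.update k i (k i))| ≤ X * E := by
    rw [abs_mul, abs_of_nonneg hM1]
    exact mul_le_mul hki1 h2 (abs_nonneg _) hXpos.le
  have hsum : |LgenDir i r f k| ≤ (r + 1) * (X * E + X * E) + r * (X * E + X * (E * (1 / w))) := by
    unfold LgenDir Lgen
    have e1 := abs_sub ((r + 1) * (((k i : ℝ) + 1) * f (Function.update k i (k i + 1))
        - (k i : ℝ) * f (Function.update k i (k i))))
      (r * (((k i : ℝ) + 1) * f (Function.update k i (k i))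
        - (k i : ℝ) * f (Function.update k i (k i - 1))))
    have e2 : |(r + 1) * (((k i : ℝ) + 1) * f (Function.update k i (k i + 1))
        - (k i : ℝ) * f (Function.update k i (k i)))| ≤ (r + 1) * (X * E + X * E) := by
      rw [abs_mul, abs_of_pos (by positivity : 0 < r + 1)]
      apply mul_le_mul_of_nonneg_left _ (by positivity)
      exact (abs_sub _ _).trans (add_le_add hA1 hA2)
    have e3 : |r * (((k i : ℝ) + 1) * f (Function.update k i (k i))
        - (k i : ℝ) * f (Function.update k i (k i - 1)))| ≤ r * (X * E + X * (E * (1 / w))) := by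
      rw [abs_mul, abs_of_pos hr]
      apply mul_le_mul_of_nonneg_left _ hr.le
      exact (abs_sub _ _).trans (add_le_add hA3 h3)
    linarith
  refine hsum.trans (le_of_eq ?_)
  rw [hEdef]
  ring

/-- Geometric bound for the generator. -/
private lemma LgenM_bound {f : (ι → ℕ) → ℝ} {c w r : ℝ} (hc : 0 < c) (hw : 0 < w) (hw1 : w < 1)
    (hr : 0 < r) (hf : ∀ m, |f m| ≤ c * w ^ tot m) (k : ι → ℕ) :
    |LgenM r f k| ≤ ((Fintype.card ι : ℝ) * (c * ((r + 1) * 2 + r * (1 + 1 / w)))) *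
      (((tot k : ℝ) + 1) * w ^ tot k) := by
  unfold LgenM
  refine (Finset.abs_sum_le_sum_abs _ _).trans ?_
  refine (Finset.sum_le_sum fun i _ => LgenDir_bound hc hw hw1 hr hf i k).trans (le_of_eq ?_)
  rw [Finset.sum_const, Finset.card_univ, nsmul_eq_mul]
  ring

/-- `|flowM| ≤ c w^tot` with uniform constants. -/
private lemma flowM_abs_bound (hr : 0 < r) (ha : FinPassiveM a L) :
    ∃ c w : ℝ, 0 < c ∧ 0 < w ∧ w < 1 ∧ ∀ lam ∈ Icc (0 : ℝ) 1, ∀ k,
      |flowM a L r lam k| ≤ c * w ^ tot k := by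
  obtain ⟨c, w, hc, hw, hw1, h⟩ := flowM_upper hr ha
  refine ⟨c, w, hc, hw, hw1, ?_⟩
  intro lam hl k
  rw [abs_of_nonneg (flowM_nonneg hr ha hl k)]
  exact h lam hl k

/-- Summability of the product weight on pairs of multi-indices. -/
private lemma summable_weight {w w' : ℝ} (hw : 0 ≤ w) (hw1 : w < 1) (hw' : 0 ≤ w') (hw1' : w' < 1) :
    Summable (fun z : (ι → ℕ) × (ι → ℕ) =>
      (((tot z.1 : ℝ) + 1) * w ^ tot z.1) * (((tot z.2 : ℝ) + 1) * w' ^ tot z.2)) := by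
  have h1 : Summable (fun m : ι → ℕ => ((tot m : ℝ) + 1) * w ^ tot m) := by
    simpa using summable_pow_tot (ι := ι) 1 hw hw1
  have h2 : Summable (fun m : ι → ℕ => ((tot m : ℝ) + 1) * w' ^ tot m) := by
    simpa using summable_pow_tot (ι := ι) 1 hw' hw1'
  exact h1.mul_of_nonneg h2 (fun m => by positivity) (fun m => by positivity)

/-- Pure real estimate for the differentiated summand. -/
private lemma deriv_term_bound {A B LA LB ker invy invα Kg Kg' c c' P Q X Y : ℝ}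
    (hinv0 : 0 ≤ invy) (hinv : invy ≤ invα) (hKg : 0 ≤ Kg) (hKg' : 0 ≤ Kg') (hc : 0 ≤ c) (hc' : 0 ≤ c')
    (hP : 0 ≤ P) (hQ : 0 ≤ Q) (hX : 1 ≤ X) (hY : 1 ≤ Y)
    (hLA : |LA| ≤ Kg * (X * P)) (hLB : |LB| ≤ Kg' * (Y * Q))
    (hA : |A| ≤ c * P) (hB : |B| ≤ c' * Q) (hk0 : 0 ≤ ker) (hk1 : ker ≤ 1) :
    |(-invy * LA * B + A * (-invy * LB)) * ker| ≤
      invα * (Kg * c' + c * Kg') * ((X * P) * (Y * Q)) := by
  have hα0 : 0 ≤ invα := hinv0.trans hinv
  have t1 : |-invy * LA * B| ≤ invα * (Kg * (X * P)) * (c' * Q) := by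
    rw [abs_mul, abs_mul, abs_neg, abs_of_nonneg hinv0]
    exact mul_le_mul (mul_le_mul hinv hLA (abs_nonneg _) hα0) hB (abs_nonneg _) (by positivity)
  have t2 : |A * (-invy * LB)| ≤ (c * P) * (invα * (Kg' * (Y * Q))) := by
    rw [abs_mul, abs_mul, abs_neg, abs_of_nonneg hinv0]
    refine mul_le_mul hA (mul_le_mul hinv hLB (abs_nonneg _) hα0) (by positivity) (by positivity)
  have t3 := (abs_add_le _ _).trans (add_le_add t1 t2)
  have t4 : invα * (Kg * (X * P)) * (c' * Q) + (c * P) * (invα * (Kg' * (Y * Q))) ≤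
      invα * (Kg * c' + c * Kg') * ((X * P) * (Y * Q)) := by
    have hPQ : 0 ≤ invα * (P * Q) := by positivity
    have e1 : invα * (Kg * (X * P)) * (c' * Q) + (c * P) * (invα * (Kg' * (Y * Q))) =
        invα * (P * Q) * (Kg * c' * X + c * Kg' * Y) := by ring
    have e2 : invα * (Kg * c' + c * Kg') * ((X * P) * (Y * Q)) =
        invα * (P * Q) * ((Kg * c' + c * Kg') * (X * Y)) := by ring
    rw [e1, e2]
    apply mul_le_mul_of_nonneg_left _ hPQ
    have p1 : 0 ≤ Kg * c' := by positivity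
    have p2 : 0 ≤ c * Kg' := by positivity
    rw [add_mul]
    exact add_le_add (mul_le_mul_of_nonneg_left (by nlinarith) p1)
      (mul_le_mul_of_nonneg_left (by nlinarith) p2)
  rw [abs_mul, abs_of_nonneg hk0]
  have hu0 : 0 ≤ invα * (Kg * c' + c * Kg') * ((X * P) * (Y * Q)) := by positivity
  calc _ ≤ (invα * (Kg * c' + c * Kg') * ((X * P) * (Y * Q))) * ker :=
        mul_le_mul_of_nonneg_right (t3.trans t4) hk0
    _ ≤ (invα * (Kg * c' + c * Kg') * ((X * P) * (Y * Q))) * 1 :=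
        mul_le_mul_of_nonneg_left hk1 hu0
    _ = _ := mul_one _

/-- Pure real estimate for the summand. -/
private lemma term_bound {A B ker c c' P Q X Y : ℝ} (hc : 0 ≤ c) (hc' : 0 ≤ c')
    (hP : 0 ≤ P) (hQ : 0 ≤ Q) (hX : 1 ≤ X) (hY : 1 ≤ Y) (hA : |A| ≤ c * P) (hB : |B| ≤ c' * Q)
    (hk0 : 0 ≤ ker) (hk1 : ker ≤ 1) :
    |A * B * ker| ≤ (c * c') * ((X * P) * (Y * Q)) := by
  rw [abs_mul, abs_mul, abs_of_nonneg hk0]
  have hcc : 0 ≤ c * c' * (P * Q) := by positivity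
  calc |A| * |B| * ker ≤ ((c * P) * (c' * Q)) * 1 :=
        mul_le_mul (mul_le_mul hA hB (abs_nonneg _) (by positivity)) hk1 hk0 (by positivity)
    _ = c * c' * (P * Q) * 1 := by ring
    _ ≤ c * c' * (P * Q) * (X * Y) :=
        mul_le_mul_of_nonneg_left (by nlinarith) hcc
    _ = _ := by ring

theorem cFlowM_hasDerivAt (hη : 0 < η) (hη1 : η < 1) (hr : 0 < r) (hs : 0 < s)
    (ha : FinPassiveM a L) (hb : FinPassiveM b L') {x : ℝ} (h0 : 0 < x) (h1 : x < 1) (k : ι → ℕ) :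
    HasDerivAt (fun y => bsOutM η (flowM a L r y) (flowM b L' s y) k)
      (-(1 / x) * LgenM (η * r + (1 - η) * s) (bsOutM η (flowM a L r x) (flowM b L' s x)) k) x := by
  obtain ⟨c, w, hc, hw, hw1, hA⟩ := flowM_abs_bound hr ha
  obtain ⟨c', w', hc', hw', hw1', hB⟩ := flowM_abs_bound hs hb
  set α : ℝ := x / 2 with hα
  set β : ℝ := (1 + x) / 2 with hβ
  have hα0 : 0 < α := by positivity
  have hβ1 : β < 1 := by rw [hβ]; linarith
  have hxt : x ∈ Ioo α β := ⟨by rw [hα]; linarith, by rw [hβ]; linarith⟩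
  have hsub : ∀ y ∈ Ioo α β, y ∈ Icc (0:ℝ) 1 ∧ 0 < y ∧ y < 1 ∧ α ≤ y := fun y hy =>
    ⟨⟨by linarith [hy.1], by linarith [hy.2]⟩, by linarith [hy.1], by linarith [hy.2], hy.1.le⟩
  set Kg : ℝ := (Fintype.card ι : ℝ) * (c * ((r + 1) * 2 + r * (1 + 1 / w))) with hKg
  set Kg' : ℝ := (Fintype.card ι : ℝ) * (c' * ((s + 1) * 2 + s * (1 + 1 / w'))) with hKg'
  have hKg0 : 0 ≤ Kg := by rw [hKg]; positivity
  have hKg'0 : 0 ≤ Kg' := by rw [hKg']; positivity
  have hKu0 : 0 ≤ (1 / α) * (Kg * c' + c * Kg') := by positivity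
  set Ku : ℝ := (1 / α) * (Kg * c' + c * Kg') with hKu
  let g : (ι → ℕ) × (ι → ℕ) → ℝ → ℝ := fun z y =>
    flowM a L r y z.1 * flowM b L' s y z.2 * kerM η k z.1 z.2
  let g' : (ι → ℕ) × (ι → ℕ) → ℝ → ℝ := fun z y =>
    (-(1 / y) * LgenM r (flowM a L r y) z.1 * flowM b L' s y z.2 +
      flowM a L r y z.1 * (-(1 / y) * LgenM s (flowM b L' s y) z.2)) * kerM η k z.1 z.2
  let u : (ι → ℕ) × (ι → ℕ) → ℝ := fun z =>
    Ku * ((((tot z.1 : ℝ) + 1) * w ^ tot z.1) * (((tot z.2 : ℝ) + 1) * w' ^ tot z.2))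
  have hu : Summable u := (summable_weight hw.le hw1 hw'.le hw1').mul_left Ku
  have hg : ∀ z y, y ∈ Ioo α β → HasDerivAt (g z) (g' z y) y := by
    intro z y hy
    obtain ⟨_, hy0, hy1, _⟩ := hsub y hy
    have d1 := flowM_hasDerivAt hr a L hy0 hy1 z.1
    have d2 := flowM_hasDerivAt hs b L' hy0 hy1 z.2
    exact (d1.mul d2).mul_const _
  have hg' : ∀ z y, y ∈ Ioo α β → ‖g' z y‖ ≤ u z := by
    intro z y hy
    obtain ⟨hyI, hy0, hy1, hya⟩ := hsub y hy
    obtain ⟨M, N⟩ := z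
    have hAb : ∀ m, |flowM a L r y m| ≤ c * w ^ tot m := hA y hyI
    have hBb : ∀ m, |flowM b L' s y m| ≤ c' * w' ^ tot m := hB y hyI
    simp only [g', u, Real.norm_eq_abs]
    exact deriv_term_bound (P := w ^ tot M) (Q := w' ^ tot N) (X := (tot M : ℝ) + 1)
      (Y := (tot N : ℝ) + 1) (by positivity) (one_div_le_one_div_of_le hα0 hya) hKg0 hKg'0 hc.le
      hc'.le (by positivity) (by positivity) (by linarith [(Nat.cast_nonneg (tot M) : (0:ℝ) ≤ tot M)])
      (by linarith [(Nat.cast_nonneg (tot N) : (0:ℝ) ≤ tot N)])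
      (LgenM_bound hc hw hw1 hr hAb M) (LgenM_bound hc' hw' hw1' hs hBb N) (hAb M) (hBb N)
      (kerM_nonneg k M N) (kerM_le_one hη.le hη1.le k M N)
  have hAx : ∀ m, |flowM a L r x m| ≤ c * w ^ tot m := hA x ⟨h0.le, h1.le⟩
  have hBx : ∀ m, |flowM b L' s x m| ≤ c' * w' ^ tot m := hB x ⟨h0.le, h1.le⟩
  have hg0 : Summable (fun z => g z x) := by
    refine Summable.of_norm_bounded
      (g := fun z : (ι → ℕ) × (ι → ℕ) => (c * c') *
        ((((tot z.1 : ℝ) + 1) * w ^ tot z.1) * (((tot z.2 : ℝ) + 1) * w' ^ tot z.2)))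
      ((summable_weight hw.le hw1 hw'.le hw1').mul_left _) ?_
    rintro ⟨M, N⟩
    simp only [g, Real.norm_eq_abs]
    exact term_bound (P := w ^ tot M) (Q := w' ^ tot N) (X := (tot M : ℝ) + 1)
      (Y := (tot N : ℝ) + 1) hc.le hc'.le (by positivity) (by positivity)
      (by linarith [(Nat.cast_nonneg (tot M) : (0:ℝ) ≤ tot M)])
      (by linarith [(Nat.cast_nonneg (tot N) : (0:ℝ) ≤ tot N)]) (hAx M) (hBx N)
      (kerM_nonneg k M N) (kerM_le_one hη.le hη1.le k M N)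
  have hmain := hasDerivAt_tsum_of_isPreconnected hu isOpen_Ioo isPreconnected_Ioo hg hg' hxt hg0 hxt
  have hcov := bsOutM_cov hη.le hη1.le hw.le hw1 hw'.le hw1' hAx hBx r s k
  have hval : ∑' z, g' z x = -(1 / x) * LgenM (η * r + (1 - η) * s)
        (bsOutM η (flowM a L r x) (flowM b L' s x)) k := by
    have e : (fun z => g' z x) = fun z : (ι → ℕ) × (ι → ℕ) => -(1 / x) *
        ((LgenM r (flowM a L r x) z.1 * flowM b L' s x z.2 +
          flowM a L r x z.1 * LgenM s (flowM b L' s x) z.2) * kerM η k z.1 z.2) := by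
      funext z
      simp only [g']
      ring
    rw [e]
    exact (hcov.mul_left _).tsum_eq
  rw [← hval]
  exact hmain

theorem cFlowM_continuousOn (hη : 0 < η) (hη1 : η < 1) (hr : 0 < r) (hs : 0 < s)
    (ha : FinPassiveM a L) (hb : FinPassiveM b L') (k : ι → ℕ) :
    ContinuousOn (fun y => bsOutM η (flowM a L r y) (flowM b L' s y) k) (Icc 0 1) := by
  obtain ⟨c, w, hc, hw, hw1, hA⟩ := flowM_abs_bound hr ha
  obtain ⟨c', w', hc', hw', hw1', hB⟩ := flowM_abs_bound hs hb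
  let u : (ι → ℕ) × (ι → ℕ) → ℝ := fun z => (c * c') *
    (((tot z.1 : ℝ) + 1) * w ^ tot z.1 * (((tot z.2 : ℝ) + 1) * w' ^ tot z.2))
  have hu : Summable u := (summable_weight hw.le hw1 hw'.le hw1').mul_left _
  unfold bsOutM
  refine continuousOn_tsum (u := u) ?_ hu ?_
  · intro z
    exact ((flowM_continuousOn hr a L z.1).mul (flowM_continuousOn hs b L' z.2)).mul
      continuousOn_const
  · rintro ⟨M, N⟩ y hy
    simp only [u, Real.norm_eq_abs]
    exact term_bound (P := w ^ tot M) (Q := w' ^ tot N) (X := (tot M : ℝ) + 1)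
      (Y := (tot N : ℝ) + 1) hc.le hc'.le (by positivity) (by positivity)
      (by linarith [(Nat.cast_nonneg (tot M) : (0:ℝ) ≤ tot M)])
      (by linarith [(Nat.cast_nonneg (tot N) : (0:ℝ) ≤ tot N)]) (hA y hy M) (hB y hy N)
      (kerM_nonneg k M N) (kerM_le_one hη.le hη1.le k M N)

theorem cFlowM_upper (hη : 0 < η) (hη1 : η < 1) (hr : 0 < r) (hs : 0 < s)
    (ha : FinPassiveM a L) (hb : FinPassiveM b L') :
    ∃ c w : ℝ, 0 < c ∧ 0 < w ∧ w < 1 ∧ ∀ y ∈ Icc (0 : ℝ) 1, ∀ k,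
      bsOutM η (flowM a L r y) (flowM b L' s y) k ≤ c * w ^ tot k := by
  obtain ⟨c, w, hc, hw, hw1, hA⟩ := flowM_upper hr ha
  obtain ⟨c', w', hc', hw', hw1', hB⟩ := flowM_upper hs hb
  obtain ⟨K, W, hK, hW, hW1, h⟩ := bsOutM_upper (ι := ι) hη.le hη1.le hc hc' hw hw1 hw' hw1'
  refine ⟨K, W, hK, hW, hW1, fun y hy k => ?_⟩
  exact h _ _ (fun m => ⟨flowM_nonneg hr ha hy m, hA y hy m⟩)
    (fun l => ⟨flowM_nonneg hs hb hy l, hB y hy l⟩) k

private lemma flowM_mok (hr : 0 < r) (ha : FinPassiveM a L) {y : ℝ} (hy : y ∈ Icc (0 : ℝ) 1) :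
    MOK (flowM a L r y) := by
  obtain ⟨c, w, hc, hw, hw1, hA⟩ := flowM_upper hr ha
  exact ⟨flowM_nonneg hr ha hy, flowM_antitone hr ha hy,
    ⟨c, w, hc.le, hw.le, hw1, fun k => hA y hy k⟩⟩

theorem cFlowM_lower (hη : 0 < η) (hη1 : η < 1) (hr : 0 < r) (hs : 0 < s)
    (ha : FinPassiveM a L) (hb : FinPassiveM b L') {lam₁ : ℝ} (h1 : lam₁ < 1) :
    ∃ c w : ℝ, 0 < c ∧ 0 < w ∧ w ≤ 1 ∧ ∀ y ∈ Icc (0 : ℝ) lam₁, ∀ k,
      c * w ^ tot k ≤ bsOutM η (flowM a L r y) (flowM b L' s y) k := by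
  obtain ⟨c, w, hc, hw, hw1, hA⟩ := flowM_lower hr ha h1
  obtain ⟨c', w', hc', hw', hw1', hB⟩ := flowM_lower hs hb h1
  refine ⟨c * c', w * η, mul_pos hc hc', mul_pos hw hη,
    mul_le_one₀ hw1 hη.le hη1.le, fun y hy k => ?_⟩
  have hy1 : y ∈ Icc (0 : ℝ) 1 := ⟨hy.1, by linarith [hy.2]⟩
  have hl := bsOutM_lower hη.le hη1.le (flowM_mok hr ha hy1) (flowM_mok hs hb hy1) k
  refine le_trans ?_ hl
  have h0 : c' ≤ flowM b L' s y 0 := by
    have := hB y hy 0
    simpa [tot] using this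
  have h2 := hA y hy k
  have hη' : 0 < η ^ tot k := pow_pos hη _
  calc c * c' * (w * η) ^ tot k = (c * w ^ tot k) * c' * η ^ tot k := by
        rw [mul_pow]; ring
    _ ≤ flowM a L r y k * flowM b L' s y 0 * η ^ tot k := by
        refine mul_le_mul_of_nonneg_right ?_ hη'.le
        exact mul_le_mul h2 h0 hc'.le (le_trans (by positivity) h2)

end

end Vale.Agent.Lib.P369
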