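import Vale.Agent.Lib.P369.BsBasic

/-!
# JOB E4b: thermal closure (P369)

All the double sums are over `ℕ × ℕ` and absolutely convergent by geometric bounds; `0 ≤ Bp ≤ 1`,
`Bp η k m l = 0` for `k > m + l`.

`bsOut_upper`: `C_k ≤ ∑_{m+l ≥ k} c c' w^m w'^l ≤ c c' ∑_{n ≥ k} (n+1) W^n` where `W = max w w'`; then
`(n+1) W^n ≤ K W₁^n` with `W₁ = (1+W)/2`, and the geometric tail is `≤ K' W₁^k`. The constants only depend on `c,c',w,w'`,
which is why the statement is written with `∃ K W₁, ∀ A B`.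

`bsOut_lower`: keep the single term `(m,l) = (k,0)`: `C_k ≥ A_k B_0 B(k,k,0) = A_k B_0 η^k`.

`bsOut_hasSum`: `∑_k C_k = ∑_{m,l} A_m B_l ∑_k B(k,m,l) = 1` (Fubini, nonneg terms).

Thermal closure.  Let `u = r/(1+r)`, `v = s/(1+s)`, `H_k = ∑_{m,l} u^m v^l B(k,m,l)`.  Taking the coefficient of `x^k` in the `F`
recursion, multiplying by `u^m v^l` and summing:
  `H_k (1 - (1-η) u - η v) = H_{k-1} (η u + (1-η) v - u v) + [k=0]`
(with `α = (1-η) + η x`, `α' = η + (1-η) x`).  So `H_k = H_0 ρ^k` with `H_0 = 1/(1 - (1-η) u - η v)` and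
`ρ = (η u + (1-η) v - u v)/(1 - (1-η) u - η v)`.  Clearing denominators with `t = η r + (1-η) s`:
`1 - (1-η) u - η v = (1+t)/((1+r)(1+s))`, `η u + (1-η) v - u v = t/((1+r)(1+s))`, so `ρ = t/(1+t)` and
`(1-u)(1-v) H_0 ρ^k = t^k/(1+t)^(k+1) = τ_t(k)`.

`entropy_tauTh`: `-τ log τ` summed: `∑_k τ_r(k) (-(k log r) + (k+1) log(r+1)) = -r log r + (r+1) log(r+1)`, with `∑ τ_r = 1`, `∑ k τ_r(k) = r`.
-/

namespace Vale.Agent.Lib.P369

open Polynomial Finset

noncomputable section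

variable {η : ℝ}

private lemma coeff_aP_zero (p : ℝ[X]) : (alphaP η * p).coeff 0 = (1 - η) * p.coeff 0 := by
  unfold alphaP
  rw [add_mul, coeff_add, coeff_C_mul, mul_assoc, coeff_C_mul, coeff_X_mul_zero]
  ring

private lemma coeff_aP_succ (p : ℝ[X]) (k : ℕ) :
    (alphaP η * p).coeff (k + 1) = (1 - η) * p.coeff (k + 1) + η * p.coeff k := by
  unfold alphaP
  rw [add_mul, coeff_add, coeff_C_mul, mul_assoc, coeff_C_mul, coeff_X_mul]

private lemma coeff_aQ_zero (p : ℝ[X]) : (alphaQ η * p).coeff 0 = η * p.coeff 0 := by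
  unfold alphaQ
  rw [add_mul, coeff_add, coeff_C_mul, mul_assoc, coeff_C_mul, coeff_X_mul_zero]
  ring

private lemma coeff_aQ_succ (p : ℝ[X]) (k : ℕ) :
    (alphaQ η * p).coeff (k + 1) = η * p.coeff (k + 1) + (1 - η) * p.coeff k := by
  unfold alphaQ
  rw [add_mul, coeff_add, coeff_C_mul, mul_assoc, coeff_C_mul, coeff_X_mul]

/-- The generating series term. -/
private def Tt (η u v : ℝ) (k : ℕ) (x : ℕ × ℕ) : ℝ := u ^ x.1 * v ^ x.2 * Bp η k x.1 x.2

/-- Shift in the first index. -/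
private def sh1 (f : ℕ × ℕ → ℝ) (x : ℕ × ℕ) : ℝ := if x.1 = 0 then 0 else f (x.1 - 1, x.2)

/-- Shift in the second index. -/
private def sh2 (f : ℕ × ℕ → ℝ) (x : ℕ × ℕ) : ℝ := if x.2 = 0 then 0 else f (x.1, x.2 - 1)

private lemma sh1_hasSum {f : ℕ × ℕ → ℝ} {e : ℝ} (h : HasSum f e) : HasSum (sh1 f) e := by
  have hinj : Function.Injective (fun x : ℕ × ℕ => (x.1 + 1, x.2)) := by
    rintro ⟨a, b⟩ ⟨c, d⟩ hh
    simp only [Prod.mk.injEq, Nat.add_right_cancel_iff] at hh
    exact Prod.ext hh.1 hh.2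
  have hzero : ∀ x ∉ Set.range (fun x : ℕ × ℕ => (x.1 + 1, x.2)), sh1 f x = 0 := by
    rintro ⟨M, L⟩ hx
    cases M with
    | zero => simp [sh1]
    | succ M => exact absurd ⟨(M, L), rfl⟩ hx
  rw [← hinj.hasSum_iff hzero]
  convert h using 1
  funext ⟨M, L⟩
  simp [sh1]

private lemma sh2_hasSum {f : ℕ × ℕ → ℝ} {e : ℝ} (h : HasSum f e) : HasSum (sh2 f) e := by
  have hinj : Function.Injective (fun x : ℕ × ℕ => (x.1, x.2 + 1)) := by
    rintro ⟨a, b⟩ ⟨c, d⟩ hh
    simp only [Prod.mk.injEq, Nat.add_right_cancel_iff] at hh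
    exact Prod.ext hh.1 hh.2
  have hzero : ∀ x ∉ Set.range (fun x : ℕ × ℕ => (x.1, x.2 + 1)), sh2 f x = 0 := by
    rintro ⟨M, L⟩ hx
    cases L with
    | zero => simp [sh2]
    | succ L => exact absurd ⟨(M, L), rfl⟩ hx
  rw [← hinj.hasSum_iff hzero]
  convert h using 1
  funext ⟨M, L⟩
  simp [sh2]

private lemma Tt_zero (hη : 0 ≤ η) (hη1 : η ≤ 1) (u v : ℝ) (x : ℕ × ℕ) :
    Tt η u v 0 x = (if x = (0, 0) then 1 else 0) + (1 - η) * u * sh1 (Tt η u v 0) x +
      η * v * sh2 (Tt η u v 0) x := by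
  rcases x with ⟨m, l⟩
  cases m with
  | zero =>
    cases l with
    | zero =>
      have h := congrArg (fun p : ℝ[X] => p.coeff 0) (Fp_zero_zero hη hη1)
      simp only [coeff_Fp, coeff_one_zero] at h
      simp [Tt, sh1, sh2, h]
    | succ l =>
      have h := congrArg (fun p : ℝ[X] => p.coeff 0) (Fp_zero_succ hη hη1 l)
      simp only [coeff_Fp, coeff_aQ_zero] at h
      simp [Tt, sh1, sh2, h, pow_succ]
      ring
  | succ m =>
    cases l with
    | zero =>
      have h := congrArg (fun p : ℝ[X] => p.coeff 0) (Fp_succ_zero hη hη1 m)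
      simp only [coeff_Fp, coeff_aP_zero] at h
      simp [Tt, sh1, sh2, h, pow_succ]
      ring
    | succ l =>
      have h := congrArg (fun p : ℝ[X] => p.coeff 0) (Fp_succ_succ hη hη1 m l)
      simp only [coeff_sub, coeff_add, coeff_Fp, coeff_aP_zero, coeff_aQ_zero,
        coeff_X_mul_zero] at h
      simp [Tt, sh1, sh2, h, pow_succ]
      ring

private lemma Tt_succ (hη : 0 ≤ η) (hη1 : η ≤ 1) (u v : ℝ) (k : ℕ) (x : ℕ × ℕ) :
    Tt η u v (k + 1) x = (1 - η) * u * sh1 (Tt η u v (k + 1)) x + η * u * sh1 (Tt η u v k) x +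
      η * v * sh2 (Tt η u v (k + 1)) x + (1 - η) * v * sh2 (Tt η u v k) x -
      u * v * sh1 (sh2 (Tt η u v k)) x := by
  rcases x with ⟨m, l⟩
  cases m with
  | zero =>
    cases l with
    | zero =>
      have h := congrArg (fun p : ℝ[X] => p.coeff (k + 1)) (Fp_zero_zero hη hη1)
      simp only [coeff_Fp, coeff_one] at h
      simp [Tt, sh1, sh2, h]
    | succ l =>
      have h := congrArg (fun p : ℝ[X] => p.coeff (k + 1)) (Fp_zero_succ hη hη1 l)
      simp only [coeff_Fp, coeff_aQ_succ] at h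
      simp [Tt, sh1, sh2, h, pow_succ]
      ring
  | succ m =>
    cases l with
    | zero =>
      have h := congrArg (fun p : ℝ[X] => p.coeff (k + 1)) (Fp_succ_zero hη hη1 m)
      simp only [coeff_Fp, coeff_aP_succ] at h
      simp [Tt, sh1, sh2, h, pow_succ]
      ring
    | succ l =>
      have h := congrArg (fun p : ℝ[X] => p.coeff (k + 1)) (Fp_succ_succ hη hη1 m l)
      simp only [coeff_sub, coeff_add, coeff_Fp, coeff_aP_succ, coeff_aQ_succ,
        coeff_X_mul] at h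
      simp [Tt, sh1, sh2, h, pow_succ]
      ring

private lemma Tt_summable (hη : 0 ≤ η) (hη1 : η ≤ 1) {u v : ℝ} (hu : 0 ≤ u) (hu1 : u < 1)
    (hv : 0 ≤ v) (hv1 : v < 1) (k : ℕ) : Summable (Tt η u v k) :=
  summable_bsOut hη hη1 k (A := fun m => u ^ m) (B := fun l => v ^ l) (c := 1) (c' := 1)
    hu hu1 hv hv1 (fun m => by rw [abs_of_nonneg (pow_nonneg hu m), one_mul])
    (fun l => by rw [abs_of_nonneg (pow_nonneg hv l), one_mul])

private lemma Tt_value (hη : 0 ≤ η) (hη1 : η ≤ 1) {u v P₀ Q₀ : ℝ} (hu : 0 ≤ u) (hu1 : u < 1)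
    (hv : 0 ≤ v) (hv1 : v < 1) (hP : P₀ = 1 - (1 - η) * u - η * v)
    (hQ : Q₀ = η * u + (1 - η) * v - u * v) (hP0 : P₀ ≠ 0) (k : ℕ) :
    ∑' x, Tt η u v k x = Q₀ ^ k / P₀ ^ (k + 1) := by
  have hs := fun k => (Tt_summable hη hη1 hu hu1 hv hv1 k).hasSum
  induction k with
  | zero =>
    have h0 := (hasSum_ite_eq ((0, 0) : ℕ × ℕ) (1 : ℝ))
    have h1 := ((h0.add ((sh1_hasSum (hs 0)).mul_left ((1 - η) * u))).add
      ((sh2_hasSum (hs 0)).mul_left (η * v)))
    rw [← funext (Tt_zero hη hη1 u v)] at h1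
    have h2 := h1
    have h3 := (hs 0).unique h2
    have h4 : P₀ * ∑' x, Tt η u v 0 x = 1 := by
      rw [hP]; linarith
    rw [pow_zero, zero_add, pow_one, eq_div_iff hP0]
    linarith
  | succ k ih =>
    have h1 := ((((sh1_hasSum (hs (k + 1))).mul_left ((1 - η) * u)).add
      ((sh1_hasSum (hs k)).mul_left (η * u))).add
      ((sh2_hasSum (hs (k + 1))).mul_left (η * v))).add
      ((sh2_hasSum (hs k)).mul_left ((1 - η) * v))
    have h5 := h1.sub ((sh1_hasSum (sh2_hasSum (hs k))).mul_left (u * v))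
    rw [← funext (Tt_succ hη hη1 u v k)] at h5
    have h2 := h5
    have h3 := (hs (k + 1)).unique h2
    have h4 : P₀ * ∑' x, Tt η u v (k + 1) x = Q₀ * ∑' x, Tt η u v k x := by
      rw [hP, hQ]; linarith
    rw [ih] at h4
    have h6 : ∑' x, Tt η u v (k + 1) x = Q₀ * (Q₀ ^ k / P₀ ^ (k + 1)) / P₀ := by
      rw [eq_div_iff hP0]
      linarith
    rw [h6]
    field_simp
    ring

private lemma tauTh_eq {r : ℝ} (hr : 0 < r) (k : ℕ) :
    tauTh r k = (r / (r + 1)) ^ k / (r + 1) := by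
  unfold tauTh
  have : r + 1 ≠ 0 := by positivity
  rw [div_pow, pow_succ (r + 1) k]
  field_simp

/-- Thermal closure. -/
lemma bsOut_tauTh (hη : 0 ≤ η) (hη1 : η ≤ 1) {r s : ℝ} (hr : 0 < r) (hs : 0 < s) (k : ℕ) :
    bsOut η (tauTh r) (tauTh s) k = tauTh (η * r + (1 - η) * s) k := by
  set u := r / (r + 1) with hu
  set v := s / (s + 1) with hv
  set t := η * r + (1 - η) * s with ht
  have hr1 : 0 < r + 1 := by positivity
  have hs1 : 0 < s + 1 := by positivity
  have hu0 : 0 ≤ u := by positivity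
  have hv0 : 0 ≤ v := by positivity
  have hu1 : u < 1 := by rw [hu, div_lt_one hr1]; linarith
  have hv1 : v < 1 := by rw [hv, div_lt_one hs1]; linarith
  have ht0 : 0 ≤ t := by
    have h1 : 0 ≤ η * r := mul_nonneg hη hr.le
    have h2 : 0 ≤ (1 - η) * s := mul_nonneg (by linarith) hs.le
    rw [ht]; linarith
  have ht1 : 0 < t + 1 := by linarith
  have hP : (t + 1) / ((r + 1) * (s + 1)) = 1 - (1 - η) * u - η * v := by
    rw [hu, hv, ht]; field_simp; ring
  have hQ : t / ((r + 1) * (s + 1)) = η * u + (1 - η) * v - u * v := by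
    rw [hu, hv, ht]; field_simp; ring
  have hP0 : (t + 1) / ((r + 1) * (s + 1)) ≠ 0 := by positivity
  have hev := Tt_value hη hη1 hu0 hu1 hv0 hv1 hP hQ hP0 k
  have hfun : (fun x : ℕ × ℕ => tauTh r x.1 * tauTh s x.2 * Bp η k x.1 x.2) =
      fun x => 1 / ((r + 1) * (s + 1)) * Tt η u v k x := by
    funext ⟨M, L⟩
    simp only [tauTh_eq hr, tauTh_eq hs, Tt, ← hu, ← hv]
    field_simp
  unfold bsOut
  rw [hfun, tsum_mul_left, hev]
  unfold tauTh
  rw [div_pow, div_pow]
  field_simp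
  ring

lemma tauTh_hasSum {r : ℝ} (hr : 0 < r) : HasSum (tauTh r) 1 := by
  have hr1 : 0 < r + 1 := by positivity
  have hu0 : 0 ≤ r / (r + 1) := by positivity
  have hu1 : r / (r + 1) < 1 := by rw [div_lt_one hr1]; linarith
  have h := (hasSum_geometric_of_lt_one hu0 hu1).mul_right (1 / (r + 1))
  have e1 : tauTh r = fun k : ℕ => (r / (r + 1)) ^ k * (1 / (r + 1)) := by
    funext k
    rw [tauTh_eq hr]
    ring
  have e2 : (1 - r / (r + 1))⁻¹ * (1 / (r + 1)) = (1 : ℝ) := by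
    have : (1 : ℝ) - r / (r + 1) = 1 / (r + 1) := by field_simp; ring
    rw [this]
    field_simp
  rw [e1]
  rw [e2] at h
  exact h

private lemma mul_tauTh_hasSum {r : ℝ} (hr : 0 < r) :
    HasSum (fun k : ℕ => (k : ℝ) * tauTh r k) r := by
  have hr1 : 0 < r + 1 := by positivity
  have hu0 : 0 ≤ r / (r + 1) := by positivity
  have hu1 : r / (r + 1) < 1 := by rw [div_lt_one hr1]; linarith
  have hu : ‖r / (r + 1)‖ < 1 := by rwa [Real.norm_of_nonneg hu0]
  have h := (hasSum_coe_mul_geometric_of_norm_lt_one hu).mul_right (1 / (r + 1))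
  have e1 : (fun k : ℕ => (k : ℝ) * tauTh r k) =
      fun k : ℕ => (k : ℝ) * (r / (r + 1)) ^ k * (1 / (r + 1)) := by
    funext k
    rw [tauTh_eq hr]
    ring
  have e2 : r / (r + 1) / (1 - r / (r + 1)) ^ 2 * (1 / (r + 1)) = r := by
    have : (1 : ℝ) - r / (r + 1) = 1 / (r + 1) := by field_simp; ring
    rw [this]
    field_simp
  rw [e1]
  rw [e2] at h
  exact h

lemma entropy_tauTh {r : ℝ} (hr : 0 < r) : entropy (tauTh r) = gFun r := by
  have hr1 : 0 < r + 1 := by positivity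
  have h1 := (tauTh_hasSum hr).mul_left (Real.log (r + 1))
  have h2 := (mul_tauTh_hasSum hr).mul_left (Real.log (r + 1) - Real.log r)
  have h3 := h1.add h2
  unfold entropy
  have hfun : (fun k : ℕ => Real.negMulLog (tauTh r k)) =
      fun k : ℕ => Real.log (r + 1) * tauTh r k +
        (Real.log (r + 1) - Real.log r) * ((k : ℝ) * tauTh r k) := by
    funext k
    have hlog : Real.log (tauTh r k) =
        (k : ℝ) * Real.log r - ((k : ℝ) + 1) * Real.log (r + 1) := by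
      unfold tauTh
      rw [Real.log_div (by positivity) (by positivity), Real.log_pow, Real.log_pow]
      push_cast
      ring
    rw [Real.negMulLog, hlog]
    ring
  rw [hfun, h3.tsum_eq]
  unfold gFun
  ring

lemma tauTh_good {r : ℝ} (hr : 0 < r) : Good (tauTh r) := by
  have hr1 : 0 < r + 1 := by positivity
  have hw : 0 < r / (r + 1) := by positivity
  have hw1 : r / (r + 1) < 1 := by rw [div_lt_one hr1]; linarith
  refine ⟨fun k => ?_, ?_, tauTh_hasSum hr, ?_, ?_⟩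
  · unfold tauTh; positivity
  · refine antitone_nat_of_succ_le fun k => ?_
    rw [tauTh_eq hr, tauTh_eq hr, pow_succ]
    have : (r / (r + 1)) ^ k * (r / (r + 1)) ≤ (r / (r + 1)) ^ k :=
      mul_le_of_le_one_right (by positivity) hw1.le
    exact div_le_div_of_nonneg_right this (by positivity)
  · refine ⟨1 / (r + 1), r / (r + 1), by positivity, hw, hw1.le, fun k => ?_⟩
    rw [tauTh_eq hr]
    apply le_of_eq
    ring
  · refine ⟨1 / (r + 1), r / (r + 1), by positivity, hw, hw1, fun k => ?_⟩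
    rw [tauTh_eq hr]
    apply le_of_eq
    ring

end

end Vale.Agent.Lib.P369
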