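import Mathlib

/-!
# Entropy photon-number inequality for passive one-mode inputs (P369): definitions

Notation of the paper proof.

* `a = √η`, `b = √(1-η)`.
* `ampPoly η m l = (aX - b)^m (bX + a)^l` (dehomogenised `(aX - bY)^m (bX + aY)^l`).
* `bsAmp η k j m l = ⟨k,j|U_η|m,l⟩ = √(k! j!/(m! l!)) [X^k] ampPoly η m l` when `k+j = m+l`, else `0`.
* `Bp η k m l = |⟨k, m+l-k|U_η|m,l⟩|²`: the Fock transition probability.
* `bsOut η A B k = ∑_{m,l} A_m B_l Bp η k m l`: the output Fock distribution of the beam splitter on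
  Fock-diagonal inputs with eigenvalues `A`, `B`.
-/

namespace Vale.Agent.Lib.P369

open Polynomial Finset

noncomputable section

/-- `(√η X - √(1-η))^m (√(1-η) X + √η)^l`. -/
def ampPoly (η : ℝ) (m l : ℕ) : ℝ[X] :=
  (C (Real.sqrt η) * X - C (Real.sqrt (1 - η))) ^ m *
    (C (Real.sqrt (1 - η)) * X + C (Real.sqrt η)) ^ l

/-- Matrix element `⟨k,j|U_η|m,l⟩` of the beam splitter in the Fock basis. -/
def bsAmp (η : ℝ) (k j m l : ℕ) : ℝ :=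
  if k + j = m + l then
    Real.sqrt ((k.factorial * j.factorial : ℝ) / (m.factorial * l.factorial)) *
      (ampPoly η m l).coeff k
  else 0

/-- Transition probability `|⟨k, m+l-k|U_η|m,l⟩|²`. -/
def Bp (η : ℝ) (k m l : ℕ) : ℝ := (bsAmp η k (m + l - k) m l) ^ 2

/-- Output Fock distribution: `C_k = ∑_{m,l} A_m B_l |⟨k,m+l-k|U|m,l⟩|²`. -/
def bsOut (η : ℝ) (A B : ℕ → ℝ) (k : ℕ) : ℝ :=
  ∑' x : ℕ × ℕ, A x.1 * B x.2 * Bp η k x.1 x.2

/-- Shannon (= von Neumann, for diagonal states) entropy. -/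
def entropy (f : ℕ → ℝ) : ℝ := ∑' k, Real.negMulLog (f k)

/-- `g(t) = (t+1) log(t+1) - t log t`, the entropy of the thermal state of mean `t`. -/
def gFun (t : ℝ) : ℝ := (t + 1) * Real.log (t + 1) - t * Real.log t

/-- `β_r = g'(r) = log(1 + 1/r)`. -/
def betaF (r : ℝ) : ℝ := Real.log (1 + 1 / r)

/-- Thermal distribution `τ_r(k) = r^k/(r+1)^(k+1)`. -/
def tauTh (r : ℝ) (k : ℕ) : ℝ := r ^ k / (r + 1) ^ (k + 1)

/-! ### Polynomials and weights (Part I) -/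

/-- `F_{m,l}(x) = ∑_k Bp η k m l x^k`. -/
def Fp (η : ℝ) (m l : ℕ) : ℝ[X] :=
  ∑ k ∈ range (m + l + 1), C (Bp η k m l) * X ^ k

/-- `G_{m,l} = ∑_{m₁+m₂=m, l₁+l₂=l} F_{m₁,l₁} F_{m₂,l₂}`. -/
def Gp (η : ℝ) (m l : ℕ) : ℝ[X] :=
  ∑ x ∈ antidiagonal m, ∑ y ∈ antidiagonal l, Fp η x.1 y.1 * Fp η x.2 y.2

/-- `T̃(k,m,l)`. -/
def Tk (η : ℝ) (k m l : ℕ) : ℝ := (Gp η m l).coeff k

/-- Cumulative kernel `B̄(k,i,j) = ∑_{m≤i, l≤j} Bp η k m l`. -/
def Bbar (η : ℝ) (k i j : ℕ) : ℝ :=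
  ∑ m ∈ range (i + 1), ∑ l ∈ range (j + 1), Bp η k m l

/-- `α = 1 - η + η X`. -/
def alphaP (η : ℝ) : ℝ[X] := C (1 - η) + C η * X

/-- `α' = η + (1 - η) X`. -/
def alphaQ (η : ℝ) : ℝ[X] := C η + C (1 - η) * X

/-- Shifted `G`: `Gs η m l = G_{m-1,l-1}`, and `0` if `m = 0` or `l = 0`. -/
def Gs (η : ℝ) : ℕ → ℕ → ℝ[X]
  | 0, _ => 0
  | _, 0 => 0
  | m + 1, l + 1 => Gp η m l

/-! ### Generators and bond functionals -/

/-- The thermal-attenuator generator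
`L_r f (k) = (r+1)((k+1) f(k+1) - k f(k)) - r((k+1) f(k) - k f(k-1))`
(the factor `k` kills the `k-1 = 0 - 1` truncated-subtraction term at `k = 0`). -/
def Lgen (r : ℝ) (f : ℕ → ℝ) (k : ℕ) : ℝ :=
  (r + 1) * ((k + 1) * f (k + 1) - k * f k) - r * ((k + 1) * f k - k * f (k - 1))

/-- Adjoint of `Lgen`: `L_r^* h (m) = (r+1) m (h(m-1)-h(m)) + r (m+1) (h(m+1)-h(m))`. -/
def Ladj (r : ℝ) (h : ℕ → ℝ) (m : ℕ) : ℝ :=
  (r + 1) * m * (h (m - 1) - h m) + r * (m + 1) * (h (m + 1) - h m)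

/-- Homogeneous bond function `𝓝_r(δ,v) = (r δ - v) log(1 + δ/v) / log(1 + 1/r)`. -/
def Nb (r δ v : ℝ) : ℝ := (r * δ - v) * Real.log (1 + δ / v) / betaF r

/-- `𝓝_r[f] = ∑_k (k+1) 𝓝_r(f_k - f_{k+1}, f_{k+1})`. -/
def Nsum (r : ℝ) (f : ℕ → ℝ) : ℝ :=
  ∑' k : ℕ, ((k : ℝ) + 1) * Nb r (f k - f (k + 1)) (f (k + 1))

/-- A good passive distribution: positive, non-increasing, normalised, with two-sided geometric
bounds. -/
structure Good (f : ℕ → ℝ) : Prop where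
  pos : ∀ k, 0 < f k
  anti : Antitone f
  hasSum : HasSum f 1
  lower : ∃ c w : ℝ, 0 < c ∧ 0 < w ∧ w ≤ 1 ∧ ∀ k, c * w ^ k ≤ f k
  upper : ∃ c w : ℝ, 0 < c ∧ 0 < w ∧ w < 1 ∧ ∀ k, f k ≤ c * w ^ k

/-! ### Flow (Part III) -/

/-- `χ(λ) = 1/(1 + r(1-λ))`. -/
def fChi (r lam : ℝ) : ℝ := 1 / (1 + r * (1 - lam))

/-- `w(λ) = r(1-λ)/(1 + r(1-λ)) = 1 - χ(λ)`. -/
def fW (r lam : ℝ) : ℝ := r * (1 - lam) / (1 + r * (1 - lam))

/-- `φ(λ) = λ/(1 + r(1-λ))`. -/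
def fPhi (r lam : ℝ) : ℝ := lam / (1 + r * (1 - lam))

/-- Binomial kernel `e_m(j) = C(m,j) φ^j (1-φ)^(m-j)`. -/
def eKer (phi : ℝ) (m j : ℕ) : ℝ := (m.choose j : ℝ) * phi ^ j * (1 - phi) ^ (m - j)

/-- Negative-binomial kernel `g_j(k) = C(k,j) χ^(j+1) w^(k-j)`, with `χ + w = 1`. -/
def gKer (chi w : ℝ) (j k : ℕ) : ℝ := (k.choose j : ℝ) * chi ^ (j + 1) * w ^ (k - j)

/-- `c_j(λ) = ∑_{m≤L} p_m e_m(j)`. -/
def cJ (p : ℕ → ℝ) (L : ℕ) (r lam : ℝ) (j : ℕ) : ℝ :=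
  ∑ m ∈ range (L + 1), p m * eKer (fPhi r lam) m j

/-- The flow `A_λ(k) = ∑_{j≤L} c_j(λ) g_j(k)`: the output of the thermal attenuator with
transmissivity `λ` and environment mean `r` on the state `p` supported on `{0,…,L}`. -/
def flow (p : ℕ → ℝ) (L : ℕ) (r lam : ℝ) (k : ℕ) : ℝ :=
  ∑ j ∈ range (L + 1), cJ p L r lam j * gKer (fChi r lam) (fW r lam) j k

/-- `p` is a passive distribution supported on `{0,…,L}`. -/
structure FinPassive (p : ℕ → ℝ) (L : ℕ) : Prop where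
  nonneg : ∀ k, 0 ≤ p k
  anti : Antitone p
  support : ∀ k, L < k → p k = 0
  sum_one : ∑ k ∈ range (L + 1), p k = 1

/-- Difference `δ_k = f_k - f_{k+1}`. -/
def dl (f : ℕ → ℝ) (k : ℕ) : ℝ := f k - f (k + 1)

/-- Bond weight `W^A_k(m) = η ∑_l δ^B_l T̃(k,m,l)`. -/
def WA (η : ℝ) (B : ℕ → ℝ) (k m : ℕ) : ℝ := η * ∑' l, dl B l * Tk η k m l

/-- Bond weight `W^B_k(l) = (1-η) ∑_m δ^A_m T̃(k,m,l)`. -/
def WB (η : ℝ) (A : ℕ → ℝ) (k l : ℕ) : ℝ := (1 - η) * ∑' m, dl A m * Tk η k m l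

/-! ### Single-mode kernel of the flow -/

/-- Kernel of the thermal attenuator (transmissivity `λ`, environment mean `r`) in the Fock basis:
`E(k,m) = ∑_{j≤m} e_m(j) g_j(k)`. -/
def Eker (r lam : ℝ) (k m : ℕ) : ℝ :=
  ∑ j ∈ range (m + 1), eKer (fPhi r lam) m j * gKer (fChi r lam) (fW r lam) j k

/-! ### Multi-mode objects: `ι` indexes the modes, a Fock index is `k : ι → ℕ` -/

section Multi

variable {ι : Type*} [Fintype ι] [DecidableEq ι]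

/-- Total photon number. -/
def tot (m : ι → ℕ) : ℕ := ∑ i, m i

/-- `m + e_i`. -/
def bump (i : ι) (m : ι → ℕ) : ι → ℕ := Function.update m i (m i + 1)

/-- Difference in direction `i`: `f m - f (m + e_i)`. -/
def dlD (i : ι) (f : (ι → ℕ) → ℝ) (m : ι → ℕ) : ℝ := f m - f (bump i m)

/-- The multi-mode kernel `∏_j |⟨k_j, m_j+l_j-k_j|U_η|m_j,l_j⟩|²`. -/
def kerM (η : ℝ) (k m l : ι → ℕ) : ℝ := ∏ j, Bp η (k j) (m j) (l j)

/-- The kernel in the other modes. -/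
def kerRest (η : ℝ) (i : ι) (k m l : ι → ℕ) : ℝ :=
  ∏ j ∈ Finset.univ.erase i, Bp η (k j) (m j) (l j)

/-- `T̃` in mode `i`, ordinary kernel in the other modes. -/
def TT (η : ℝ) (i : ι) (k m l : ι → ℕ) : ℝ := Tk η (k i) (m i) (l i) * kerRest η i k m l

/-- Output Fock distribution for Fock-diagonal inputs with eigenvalues `a`, `b`. -/
def bsOutM (η : ℝ) (a b : (ι → ℕ) → ℝ) (k : ι → ℕ) : ℝ :=
  ∑' x : (ι → ℕ) × (ι → ℕ), a x.1 * b x.2 * kerM η k x.1 x.2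

/-- Entropy of a Fock-diagonal state. -/
def entropyM (f : (ι → ℕ) → ℝ) : ℝ := ∑' k, Real.negMulLog (f k)

/-- Product thermal state. -/
def thM (r : ℝ) (k : ι → ℕ) : ℝ := ∏ j, tauTh r (k j)

/-- The generator in mode `i`. -/
def LgenDir (i : ι) (r : ℝ) (f : (ι → ℕ) → ℝ) (k : ι → ℕ) : ℝ :=
  Lgen r (fun q => f (Function.update k i q)) (k i)

/-- The generator of the thermal attenuator on all modes. -/
def LgenM (r : ℝ) (f : (ι → ℕ) → ℝ) (k : ι → ℕ) : ℝ := ∑ i, LgenDir i r f k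

/-- Bond functional in direction `i`. -/
def NsumDir (i : ι) (r : ℝ) (f : (ι → ℕ) → ℝ) : ℝ :=
  ∑' k : ι → ℕ, ((k i : ℝ) + 1) * Nb r (f k - f (bump i k)) (f (bump i k))

/-- Bond functional. -/
def NsumM (r : ℝ) (f : (ι → ℕ) → ℝ) : ℝ := ∑ i, NsumDir i r f

/-- Good multi-mode passive distribution: positive, antitone in the coordinatewise order, normalised,
two-sided geometric bounds in the total photon number. -/
structure GoodM (f : (ι → ℕ) → ℝ) : Prop where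
  pos : ∀ k, 0 < f k
  anti : Antitone f
  hasSum : HasSum f 1
  lower : ∃ c w : ℝ, 0 < c ∧ 0 < w ∧ w ≤ 1 ∧ ∀ k, c * w ^ tot k ≤ f k
  upper : ∃ c w : ℝ, 0 < c ∧ 0 < w ∧ w < 1 ∧ ∀ k, f k ≤ c * w ^ tot k

/-- Bond weight in direction `i` on the first input. -/
def PAi (η : ℝ) (b : (ι → ℕ) → ℝ) (i : ι) (k m : ι → ℕ) : ℝ :=
  η * ∑' l, dlD i b l * TT η i k m l

/-- Bond weight in direction `i` on the second input. -/
def PBi (η : ℝ) (a : (ι → ℕ) → ℝ) (i : ι) (k l : ι → ℕ) : ℝ :=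
  (1 - η) * ∑' m, dlD i a m * TT η i k m l

/-- The box `{0,…,L}^ι`. -/
def boxF (L : ℕ) : Finset (ι → ℕ) := Fintype.piFinset fun _ => range (L + 1)

/-- Multi-mode flow kernel. -/
def EkerM (r lam : ℝ) (k m : ι → ℕ) : ℝ := ∏ j, Eker r lam (k j) (m j)

/-- The flow: thermal attenuator on each mode applied to `a` supported in the box. -/
def flowM (a : (ι → ℕ) → ℝ) (L : ℕ) (r lam : ℝ) (k : ι → ℕ) : ℝ :=
  ∑ m ∈ boxF L, a m * EkerM r lam k m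

/-- `a` is a passive distribution supported in the box `{0,…,L}^ι`. -/
structure FinPassiveM (a : (ι → ℕ) → ℝ) (L : ℕ) : Prop where
  nonneg : ∀ k, 0 ≤ a k
  anti : Antitone a
  support : ∀ k, k ∉ boxF (ι := ι) L → a k = 0
  sum_one : ∑ k ∈ boxF L, a k = 1

end Multi

end

end Vale.Agent.Lib.P369
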