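import Vale.Agent.Lib.P369.MultiSum

/-!
# JOB M9: derivative of the entropy along the multi-mode flow (P369)

(Multi-mode analogue of the single-mode proof on origin/helper61: `Vale/Agent/Lib/P369/EntropyDeriv.lean`; copy the estimates.)

`entropyM_hasDerivAt`.  Let `f x k` solve `∂_x f x k = -(1/x) LgenM r (f x) k` for `x ∈ (a,b) ⊂ (0,∞)`, with uniform bounds
`c₁ w₁^(tot k) ≤ f x k ≤ c₂ w₂^(tot k)` on `(a,b)` (`w₁ ≤ 1`, `w₂ < 1`).

Term derivative: `d/dx negMulLog(f x k) = (1/x) (LgenM r (f x) k) (1 + log (f x k))`.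
Uniform bound: `|LgenDir i r f k| ≤ (2r+1)(k_i+1)(f(bump i k) + f k + f(unbump i k)) ≤ K₁ (tot k+1) w₂^(tot k)` (`tot (unbump) = tot k - 1`; at `k_i = 0` the factor `k_i` vanishes),
`|1 + log f| ≤ K₂ (tot k+1)`.  Summable by `summable_pow_tot`.
`hasDerivAt_tsum_of_isPreconnected` on `Ioo a b`:  `S'(x) = (1/x) ∑_k ∑_i LgenDir i r f k (1 + log f k)`.

Abel per direction: with `Fl k = (k_i+1)(f(bump i k) - r (f k - f(bump i k)))`,  `LgenDir i r f k = Fl k - [k_i ≥ 1] Fl (unbump i k)` and, by `hasSum_bump_shift`,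
`∑_k LgenDir i r f k h_k = ∑_k Fl k (h_k - h_{bump i k})`  for `h_k = 1 + log f k`.  `h_k - h_{bump i k} = log(1 + δ/v)` where `δ = f k - f(bump i k)`, `v = f(bump i k)`.  So `Fl k (h_k - h_{bump i k}) = -(k_i+1) (r δ - v) log(1+δ/v) = -(k_i+1) β_r Nb r δ v`.
Thus `S'(x) = -(1/x) β_r NsumM r (f x)`.

`entropyM_continuousOn`: `0 ≤ negMulLog t ≤ √t` for `t ∈ [0,1]`, so `|negMulLog (f x k)| ≤ √c (√w)^(tot k)`; `continuousOn_tsum`, `summable_pow_tot`.
-/

namespace Vale.Agent.Lib.P369

open Set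

noncomputable section

variable {ι : Type*} [Fintype ι] [DecidableEq ι]

private lemma tot_update_add (k : ι → ℕ) (i : ι) (q : ℕ) :
    tot (Function.update k i q) + k i = tot k + q := by
  unfold tot
  rw [← Finset.add_sum_erase _ _ (Finset.mem_univ i), ← Finset.add_sum_erase _ k (Finset.mem_univ i)]
  have : ∑ x ∈ Finset.univ.erase i, Function.update k i q x = ∑ x ∈ Finset.univ.erase i, k x := by
    apply Finset.sum_congr rfl
    intro x hx
    rw [Function.update_of_ne (Finset.ne_of_mem_erase hx)]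
  rw [this, Function.update_self]
  omega

private lemma le_tot' (m : ι → ℕ) (j : ι) : m j ≤ tot m := by
  unfold tot
  exact Finset.single_le_sum (f := m) (fun _ _ => Nat.zero_le _) (Finset.mem_univ j)

private lemma tot_bump' (i : ι) (m : ι → ℕ) : tot (bump i m) = tot m + 1 := by
  have := tot_update_add m i (m i + 1)
  simp only [bump]
  omega

private lemma abs_log_le {c₁ w₁ c₂ w₂ t : ℝ} (hc₁ : 0 < c₁) (hw₁ : 0 < w₁) (hc₂ : 0 < c₂)
    (hw₂ : 0 < w₂) (hw₂' : w₂ < 1) {k : ℕ} (hl : c₁ * w₁ ^ k ≤ t) (hu : t ≤ c₂ * w₂ ^ k) :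
    |Real.log t| ≤ (|Real.log c₁| + |Real.log c₂| + |Real.log w₁|) * ((k : ℝ) + 1) := by
  have hpos : 0 < c₁ * w₁ ^ k := by positivity
  have ht : 0 < t := lt_of_lt_of_le hpos hl
  have h1 : Real.log (c₁ * w₁ ^ k) ≤ Real.log t := Real.log_le_log hpos hl
  have h2 : Real.log t ≤ Real.log (c₂ * w₂ ^ k) := Real.log_le_log ht hu
  rw [Real.log_mul hc₁.ne' (pow_ne_zero _ hw₁.ne'), Real.log_pow] at h1
  rw [Real.log_mul hc₂.ne' (pow_ne_zero _ hw₂.ne'), Real.log_pow] at h2
  have hlw : Real.log w₂ ≤ 0 := Real.log_nonpos hw₂.le hw₂'.le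
  have hk : (0 : ℝ) ≤ k := Nat.cast_nonneg k
  have a1 := neg_abs_le (Real.log c₁)
  have a2 := le_abs_self (Real.log c₂)
  have a3 := neg_abs_le (Real.log w₁)
  have a4 := abs_nonneg (Real.log c₁)
  have a5 := abs_nonneg (Real.log c₂)
  have a6 := abs_nonneg (Real.log w₁)
  have b1 : (k : ℝ) * Real.log w₂ ≤ 0 := mul_nonpos_of_nonneg_of_nonpos hk hlw
  have b2 : -((k : ℝ) * |Real.log w₁|) ≤ (k : ℝ) * Real.log w₁ := by nlinarith
  have b3 : 0 ≤ (k : ℝ) * |Real.log c₁| := by positivity
  have b4 : 0 ≤ (k : ℝ) * |Real.log c₂| := by positivity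
  have b5 : 0 ≤ (k : ℝ) * |Real.log w₁| := by positivity
  rw [abs_le]
  constructor <;> nlinarith

/-- Geometric bound for the generator in direction `i`. -/
private lemma LgenDir_bound {f : (ι → ℕ) → ℝ} {c w r : ℝ} (hc : 0 < c) (hw : 0 < w) (hw1 : w < 1)
    (hr : 0 < r) (hf : ∀ m, |f m| ≤ c * w ^ tot m) (i : ι) (M : ι → ℕ) :
    |LgenDir i r f M| ≤ (c * ((r + 1) * 2 + r * (1 + 1 / w))) * ((tot M : ℝ) + 1) * w ^ tot M := by
  have hE : 0 < c * w ^ tot M := by positivity
  set E : ℝ := c * w ^ tot M with hEdef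
  set X : ℝ := (tot M : ℝ) + 1 with hX
  have hXpos : 0 < X := by positivity
  have hMi : ((M i : ℕ) : ℝ) ≤ tot M := by exact_mod_cast le_tot' M i
  have hMX : ((M i : ℕ) : ℝ) + 1 ≤ X := by rw [hX]; linarith
  have hM0 : (0:ℝ) ≤ ((M i : ℕ) : ℝ) := by positivity
  have h1 : |f (Function.update M i (M i + 1))| ≤ E := by
    refine (hf _).trans ?_
    have e : tot (Function.update M i (M i + 1)) = tot M + 1 := by
      have := tot_update_add M i (M i + 1)
      omega
    rw [e, hEdef, pow_succ]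
    have : w ^ tot M * w ≤ w ^ tot M * 1 := mul_le_mul_of_nonneg_left hw1.le (by positivity)
    nlinarith
  have h2 : |f (Function.update M i (M i))| ≤ E := by
    rw [Function.update_eq_self]
    exact hf M
  have h3 : |((M i : ℕ) : ℝ) * f (Function.update M i (M i - 1))| ≤ X * (E * (1 / w)) := by
    rcases Nat.eq_zero_or_pos (M i) with h | h
    · rw [h]
      simp only [Nat.cast_zero, zero_mul, abs_zero]
      positivity
    · rw [abs_mul, abs_of_nonneg hM0]
      have h4 : |f (Function.update M i (M i - 1))| ≤ E * (1 / w) := by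
        refine (hf _).trans (le_of_eq ?_)
        have e : tot (Function.update M i (M i - 1)) + 1 = tot M := by
          have := tot_update_add M i (M i - 1)
          omega
        rw [hEdef, ← e, pow_succ]
        field_simp
      exact mul_le_mul (by linarith) h4 (abs_nonneg _) hXpos.le
  have hA1 : |(((M i : ℕ) : ℝ) + 1) * f (Function.update M i (M i + 1))| ≤ X * E := by
    rw [abs_mul, abs_of_pos (by positivity : (0:ℝ) < ((M i : ℕ) : ℝ) + 1)]
    exact mul_le_mul hMX h1 (abs_nonneg _) hXpos.le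
  have hA2 : |((M i : ℕ) : ℝ) * f (Function.update M i (M i))| ≤ X * E := by
    rw [abs_mul, abs_of_nonneg hM0]
    exact mul_le_mul (by linarith) h2 (abs_nonneg _) hXpos.le
  have hA3 : |(((M i : ℕ) : ℝ) + 1) * f (Function.update M i (M i))| ≤ X * E := by
    rw [abs_mul, abs_of_pos (by positivity : (0:ℝ) < ((M i : ℕ) : ℝ) + 1)]
    exact mul_le_mul hMX h2 (abs_nonneg _) hXpos.le
  have hsum : |LgenDir i r f M| ≤ (r + 1) * (X * E + X * E) + r * (X * E + X * (E * (1 / w))) := by
    unfold LgenDir Lgen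
    have e1 := abs_sub ((r + 1) * ((((M i : ℕ) : ℝ) + 1) * f (Function.update M i (M i + 1)) -
      ((M i : ℕ) : ℝ) * f (Function.update M i (M i))))
      (r * ((((M i : ℕ) : ℝ) + 1) * f (Function.update M i (M i)) -
        ((M i : ℕ) : ℝ) * f (Function.update M i (M i - 1))))
    have e2 : |(r + 1) * ((((M i : ℕ) : ℝ) + 1) * f (Function.update M i (M i + 1)) -
        ((M i : ℕ) : ℝ) * f (Function.update M i (M i)))| ≤ (r + 1) * (X * E + X * E) := by
      rw [abs_mul, abs_of_pos (by positivity : 0 < r + 1)]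
      apply mul_le_mul_of_nonneg_left _ (by positivity)
      exact (abs_sub _ _).trans (add_le_add hA1 hA2)
    have e3 : |r * ((((M i : ℕ) : ℝ) + 1) * f (Function.update M i (M i)) -
        ((M i : ℕ) : ℝ) * f (Function.update M i (M i - 1)))| ≤
        r * (X * E + X * (E * (1 / w))) := by
      rw [abs_mul, abs_of_pos hr]
      apply mul_le_mul_of_nonneg_left _ hr.le
      exact (abs_sub _ _).trans (add_le_add hA3 h3)
    linarith
  refine hsum.trans (le_of_eq ?_)
  rw [hEdef]
  ring

private lemma LgenM_bound {f : (ι → ℕ) → ℝ} {c w r : ℝ} (hc : 0 < c) (hw : 0 < w) (hw1 : w < 1)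
    (hr : 0 < r) (hf : ∀ m, |f m| ≤ c * w ^ tot m) (M : ι → ℕ) :
    |LgenM r f M| ≤ (Fintype.card ι : ℝ) * (c * ((r + 1) * 2 + r * (1 + 1 / w))) *
      ((tot M : ℝ) + 1) * w ^ tot M := by
  unfold LgenM
  refine (Finset.abs_sum_le_sum_abs _ _).trans ?_
  refine (Finset.sum_le_sum fun i _ => LgenDir_bound hc hw hw1 hr hf i M).trans (le_of_eq ?_)
  rw [Finset.sum_const, Finset.card_univ, nsmul_eq_mul]
  ring

/-- Identification of the terms. -/
private lemma term_identity {r u v : ℝ} (hr : 0 < r) (hu : 0 < u) (hv : 0 < v) (X : ℝ) :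
    (X * (v - r * (u - v))) * ((1 + Real.log u) - (1 + Real.log v)) =
      -(betaF r * (X * Nb r (u - v) v)) := by
  have hbeta : betaF r ≠ 0 := by
    have : 0 < betaF r := by
      unfold betaF
      apply Real.log_pos
      have : 0 < 1 / r := one_div_pos.2 hr
      linarith
    exact this.ne'
  have e1 : 1 + (u - v) / v = u / v := by
    field_simp
    ring
  have e2 : (1 + Real.log u) - (1 + Real.log v) = Real.log (1 + (u - v) / v) := by
    rw [e1, Real.log_div hu.ne' hv.ne']
    ring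
  rw [e2]
  simp only [Nb]
  field_simp
  ring

/-- Abel form of the generator in direction `i`. -/
private lemma LgenDir_abel (i : ι) (r : ℝ) (F : (ι → ℕ) → ℝ) (k : ι → ℕ) :
    LgenDir i r F k = (((k i : ℕ) : ℝ) + 1) * (F (bump i k) - r * (F k - F (bump i k))) -
      (if k i = 0 then 0 else
        (((Function.update k i (k i - 1) i : ℕ) : ℝ) + 1) *
          (F (bump i (Function.update k i (k i - 1))) -
            r * (F (Function.update k i (k i - 1)) -
              F (bump i (Function.update k i (k i - 1)))))) := by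
  unfold LgenDir Lgen
  beta_reduce
  rw [Function.update_eq_self]
  by_cases h : k i = 0
  · rw [if_pos h, h]
    simp only [Nat.cast_zero, zero_mul, sub_zero, zero_add, bump, h]
    ring
  · rw [if_neg h]
    have e : bump i (Function.update k i (k i - 1)) = k := by
      funext j
      by_cases hj : j = i
      · subst hj
        simp only [bump, Function.update_self]
        omega
      · simp only [bump, Function.update_of_ne hj]
    rw [e, Function.update_self]
    have hc : (((k i - 1 : ℕ) : ℝ) + 1) = ((k i : ℕ) : ℝ) := by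
      have : k i - 1 + 1 = k i := by omega
      exact_mod_cast this
    rw [hc]
    simp only [bump]
    ring

theorem entropyM_hasDerivAt {f : ℝ → (ι → ℕ) → ℝ} {r a b : ℝ} (hr : 0 < r) (ha : 0 < a)
    {c₁ w₁ c₂ w₂ : ℝ} (hc₁ : 0 < c₁) (hw₁ : 0 < w₁) (hw₁' : w₁ ≤ 1) (hc₂ : 0 < c₂) (hw₂ : 0 < w₂)
    (hw₂' : w₂ < 1)
    (hlow : ∀ x ∈ Ioo a b, ∀ k, c₁ * w₁ ^ tot k ≤ f x k)
    (hup : ∀ x ∈ Ioo a b, ∀ k, f x k ≤ c₂ * w₂ ^ tot k)
    (hder : ∀ x ∈ Ioo a b, ∀ k, HasDerivAt (fun y => f y k) (-(1 / x) * LgenM r (f x) k) x)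
    {x : ℝ} (hx : x ∈ Ioo a b) :
    HasDerivAt (fun y => entropyM (f y)) (-(1 / x) * (betaF r * NsumM r (f x))) x := by
  -- constants
  set K₁ : ℝ := |Real.log c₁| + |Real.log c₂| + |Real.log w₁| with hK₁
  have hK₁0 : 0 ≤ K₁ := by positivity
  set Kg : ℝ := (Fintype.card ι : ℝ) * (c₂ * ((r + 1) * 2 + r * (1 + 1 / w₂))) with hKg
  have hKg0 : 0 ≤ Kg := by positivity
  have hpos : ∀ y ∈ Ioo a b, ∀ k, 0 < f y k := fun y hy k =>
    lt_of_lt_of_le (by positivity) (hlow y hy k)
  have hlog : ∀ y ∈ Ioo a b, ∀ k, |Real.log (f y k)| ≤ K₁ * ((tot k : ℝ) + 1) := fun y hy k =>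
    abs_log_le hc₁ hw₁ hc₂ hw₂ hw₂' (hlow y hy k) (hup y hy k)
  have hh : ∀ y ∈ Ioo a b, ∀ k, |1 + Real.log (f y k)| ≤ (1 + K₁) * ((tot k : ℝ) + 1) := by
    intro y hy k
    have h1 := hlog y hy k
    have h2 : |1 + Real.log (f y k)| ≤ 1 + |Real.log (f y k)| := by
      calc |1 + Real.log (f y k)| ≤ |(1 : ℝ)| + |Real.log (f y k)| := abs_add_le _ _
        _ = 1 + |Real.log (f y k)| := by simp
    have hk : (0 : ℝ) ≤ (tot k : ℝ) := Nat.cast_nonneg _
    nlinarith
  have habsf : ∀ y ∈ Ioo a b, ∀ k, |f y k| ≤ c₂ * w₂ ^ tot k := fun y hy k => by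
    rw [abs_of_pos (hpos y hy k)]
    exact hup y hy k
  have hLg : ∀ y ∈ Ioo a b, ∀ k, |LgenM r (f y) k| ≤ Kg * (((tot k : ℝ) + 1) * w₂ ^ tot k) :=
    fun y hy k => by
      refine (LgenM_bound hc₂ hw₂ hw₂' hr (habsf y hy) k).trans (le_of_eq ?_)
      rw [hKg]
      ring
  -- the derivative series
  let g : (ι → ℕ) → ℝ → ℝ := fun k y => Real.negMulLog (f y k)
  let g' : (ι → ℕ) → ℝ → ℝ := fun k y => (-Real.log (f y k) - 1) * (-(1 / y) * LgenM r (f y) k)
  let u : (ι → ℕ) → ℝ := fun k => (1 / a) * ((1 + K₁) * Kg) * (((tot k : ℝ) + 1) ^ 2 * w₂ ^ tot k)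
  have hu : Summable u := (summable_pow_tot 2 hw₂.le hw₂').mul_left _
  have hg : ∀ k y, y ∈ Ioo a b → HasDerivAt (g k) (g' k y) y := by
    intro k y hy
    exact (Real.hasDerivAt_negMulLog (hpos y hy k).ne').comp y (hder y hy k)
  have hg' : ∀ k y, y ∈ Ioo a b → ‖g' k y‖ ≤ u k := by
    intro k y hy
    have hy0 : 0 < y := lt_trans ha hy.1
    have hinv : 1 / y ≤ 1 / a := one_div_le_one_div_of_le ha hy.1.le
    have e : g' k y = (1 + Real.log (f y k)) * (1 / y) * LgenM r (f y) k := by
      simp only [g']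
      ring
    rw [e, Real.norm_eq_abs, abs_mul, abs_mul, abs_of_pos (one_div_pos.2 hy0)]
    have h1 := hh y hy k
    have h2 := hLg y hy k
    have hnn : 0 ≤ (1 + K₁) * ((tot k : ℝ) + 1) := by positivity
    calc |1 + Real.log (f y k)| * (1 / y) * |LgenM r (f y) k|
        ≤ (((1 + K₁) * ((tot k : ℝ) + 1)) * (1 / a) *
            (Kg * (((tot k : ℝ) + 1) * w₂ ^ tot k))) := by
          gcongr
      _ = u k := by
          simp only [u]
          ring
  -- summability at the base point
  have hg0 : Summable (fun k => g k x) := by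
    refine Summable.of_norm_bounded
      (g := fun k : ι → ℕ => (K₁ * c₂) * (((tot k : ℝ) + 1) ^ 1 * w₂ ^ tot k))
      ((summable_pow_tot 1 hw₂.le hw₂').mul_left _) ?_
    intro k
    simp only [g, Real.negMulLog]
    have h1 := hlog x hx k
    have h2 := hup x hx k
    have h3 := (hpos x hx k).le
    rw [Real.norm_eq_abs, show -f x k * Real.log (f x k) = -(f x k * Real.log (f x k)) by ring,
      abs_neg, abs_mul, abs_of_nonneg h3]
    calc f x k * |Real.log (f x k)| ≤ (c₂ * w₂ ^ tot k) * (K₁ * ((tot k : ℝ) + 1)) := by gcongr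
      _ = (K₁ * c₂) * (((tot k : ℝ) + 1) ^ 1 * w₂ ^ tot k) := by ring
  have hmain := hasDerivAt_tsum_of_isPreconnected (t := Ioo a b) (g := g) (g' := g') (u := u)
    (y₀ := x) (y := x) hu isOpen_Ioo isPreconnected_Ioo hg hg' hx hg0 hx
  -- compute the value
  set F : (ι → ℕ) → ℝ := f x with hF
  have hx0 : 0 < x := lt_trans ha hx.1
  have hFpos : ∀ k, 0 < F k := hpos x hx
  let H : (ι → ℕ) → ℝ := fun k => 1 + Real.log (F k)
  have hHk : ∀ k, |H k| ≤ (1 + K₁) * ((tot k : ℝ) + 1) := hh x hx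
  have hFup : ∀ k, F k ≤ c₂ * w₂ ^ tot k := hup x hx
  have hAbsF : ∀ k, |F k| ≤ c₂ * w₂ ^ tot k := habsf x hx
  -- per direction
  have hdir : ∀ i : ι, Summable (fun k => LgenDir i r F k * H k) ∧
      ∑' k, LgenDir i r F k * H k = -(betaF r * NsumDir i r F) := by
    intro i
    let Fl : (ι → ℕ) → ℝ := fun k =>
      (((k i : ℕ) : ℝ) + 1) * (F (bump i k) - r * (F k - F (bump i k)))
    have hFl : ∀ k, |Fl k| ≤ (c₂ * (w₂ + r + r * w₂)) * (((tot k : ℝ) + 1) * w₂ ^ tot k) := by
      intro k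
      have h1 := hFup k
      have h2 := hFup (bump i k)
      rw [tot_bump', pow_succ] at h2
      have h3 := (hFpos k).le
      have h4 := (hFpos (bump i k)).le
      have hMi : ((k i : ℕ) : ℝ) + 1 ≤ (tot k : ℝ) + 1 := by
        have : ((k i : ℕ) : ℝ) ≤ tot k := by exact_mod_cast le_tot' k i
        linarith
      have hin : |F (bump i k) - r * (F k - F (bump i k))| ≤ c₂ * (w₂ + r + r * w₂) * w₂ ^ tot k := by
        have e : c₂ * (w₂ + r + r * w₂) * w₂ ^ tot k
            = c₂ * (w₂ ^ tot k * w₂) + r * (c₂ * w₂ ^ tot k) + r * (c₂ * (w₂ ^ tot k * w₂)) := by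
          ring
        rw [e]
        have h1' : r * F k ≤ r * (c₂ * w₂ ^ tot k) := mul_le_mul_of_nonneg_left h1 hr.le
        have h2' : r * F (bump i k) ≤ r * (c₂ * (w₂ ^ tot k * w₂)) :=
          mul_le_mul_of_nonneg_left h2 hr.le
        have h3' : 0 ≤ r * F k := by positivity
        have h4' : 0 ≤ r * F (bump i k) := by positivity
        rw [abs_le]
        constructor <;> nlinarith
      simp only [Fl]
      rw [abs_mul, abs_of_pos (by positivity : (0:ℝ) < ((k i : ℕ) : ℝ) + 1)]
      calc (((k i : ℕ) : ℝ) + 1) * |F (bump i k) - r * (F k - F (bump i k))|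
          ≤ ((tot k : ℝ) + 1) * (c₂ * (w₂ + r + r * w₂) * w₂ ^ tot k) :=
            mul_le_mul hMi hin (abs_nonneg _) (by positivity)
        _ = _ := by ring
    have s1 : Summable (fun k => Fl k * H k) := by
      refine Summable.of_norm_bounded
        (g := fun k : ι → ℕ => ((c₂ * (w₂ + r + r * w₂)) * (1 + K₁)) *
          (((tot k : ℝ) + 1) ^ 2 * w₂ ^ tot k))
        ((summable_pow_tot 2 hw₂.le hw₂').mul_left _) ?_
      intro k
      rw [Real.norm_eq_abs, abs_mul]
      calc |Fl k| * |H k| ≤ ((c₂ * (w₂ + r + r * w₂)) * (((tot k : ℝ) + 1) * w₂ ^ tot k)) *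
            ((1 + K₁) * ((tot k : ℝ) + 1)) := by
            apply mul_le_mul (hFl k) (hHk k) (abs_nonneg _) (by positivity)
        _ = _ := by ring
    have s2 : Summable (fun k => Fl k * H (bump i k)) := by
      refine Summable.of_norm_bounded
        (g := fun k : ι → ℕ => ((c₂ * (w₂ + r + r * w₂)) * (2 * (1 + K₁))) *
          (((tot k : ℝ) + 1) ^ 2 * w₂ ^ tot k))
        ((summable_pow_tot 2 hw₂.le hw₂').mul_left _) ?_
      intro k
      rw [Real.norm_eq_abs, abs_mul]
      have hH' : |H (bump i k)| ≤ (2 * (1 + K₁)) * ((tot k : ℝ) + 1) := by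
        have := hHk (bump i k)
        rw [tot_bump'] at this
        push_cast at this
        have hk : (0 : ℝ) ≤ (tot k : ℝ) := Nat.cast_nonneg _
        nlinarith
      calc |Fl k| * |H (bump i k)| ≤ ((c₂ * (w₂ + r + r * w₂)) * (((tot k : ℝ) + 1) * w₂ ^ tot k)) *
            ((2 * (1 + K₁)) * ((tot k : ℝ) + 1)) := by
            apply mul_le_mul (hFl k) hH' (abs_nonneg _) (by positivity)
        _ = _ := by ring
    have hs1 := s1.hasSum
    have hs2 := s2.hasSum
    have hshift := hasSum_bump_shift i hs2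
    have hsub := hs1.sub hshift
    have hcongr : (fun k => Fl k * H k -
        (if k i = 0 then 0 else Fl (Function.update k i (k i - 1)) *
          H (bump i (Function.update k i (k i - 1))))) = fun k => LgenDir i r F k * H k := by
      funext k
      rw [LgenDir_abel]
      by_cases h : k i = 0
      · rw [if_pos h, if_pos h]
        simp only [Fl]
        ring
      · rw [if_neg h, if_neg h]
        have e : bump i (Function.update k i (k i - 1)) = k := by
          funext j
          by_cases hj : j = i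
          · subst hj
            simp only [bump, Function.update_self]
            omega
          · simp only [bump, Function.update_of_ne hj]
        rw [e]
        simp only [Fl, e]
        ring
    rw [hcongr] at hsub
    refine ⟨hsub.summable, ?_⟩
    rw [hsub.tsum_eq, ← s1.tsum_sub s2]
    have e2 : (fun k => Fl k * H k - Fl k * H (bump i k)) =
        fun k : ι → ℕ => -(betaF r * (((k i : ℝ) + 1) * Nb r (F k - F (bump i k)) (F (bump i k)))) := by
      funext k
      rw [← mul_sub]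
      exact term_identity hr (hFpos k) (hFpos _) _
    rw [e2, tsum_neg, tsum_mul_left]
    rfl
  have hval : ∑' k, g' k x = -(1 / x) * (betaF r * NsumM r (f x)) := by
    have e1 : (fun k => g' k x) = fun k => (1 / x) * ∑ i, LgenDir i r F k * H k := by
      funext k
      simp only [g', H, hF, LgenM]
      rw [← Finset.sum_mul]
      ring
    rw [e1, tsum_mul_left, Summable.tsum_finsetSum (fun i _ => (hdir i).1)]
    simp only [fun i => (hdir i).2]
    rw [Finset.sum_neg_distrib, ← Finset.mul_sum]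
    simp only [NsumM, hF]
    ring
  rw [← hval]
  exact hmain

theorem entropyM_continuousOn {f : ℝ → (ι → ℕ) → ℝ} {s : Set ℝ} {c w : ℝ} (hw : 0 < w) (hw1 : w < 1)
    (hc : 0 < c) (hf : ∀ x ∈ s, ∀ k, 0 ≤ f x k ∧ f x k ≤ 1 ∧ f x k ≤ c * w ^ tot k)
    (hcont : ∀ k, ContinuousOn (fun x => f x k) s) :
    ContinuousOn (fun x => entropyM (f x)) s := by
  have hsw1 : Real.sqrt w < 1 := by
    rw [Real.sqrt_lt' one_pos]
    simpa using hw1
  have hsw0 : 0 < Real.sqrt w := Real.sqrt_pos.2 hw
  have hsum : Summable (fun k : ι → ℕ => (2 * Real.sqrt c) * (((tot k : ℝ) + 1) ^ 0 * Real.sqrt w ^ tot k)) :=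
    (summable_pow_tot 0 hsw0.le hsw1).mul_left _
  unfold entropyM
  refine continuousOn_tsum (fun k => ?_) hsum ?_
  · exact Real.continuous_negMulLog.comp_continuousOn (hcont k)
  · intro k x hx
    obtain ⟨h0, h1, h2⟩ := hf x hx k
    rw [Real.norm_eq_abs, abs_of_nonneg (Real.negMulLog_nonneg h0 h1)]
    have hmain : Real.negMulLog (f x k) ≤ 2 * Real.sqrt c * Real.sqrt w ^ tot k := by
      rcases h0.eq_or_lt with h | h
      · rw [← h]
        simp only [Real.negMulLog_zero]
        positivity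
      · have hs : 0 < Real.sqrt (f x k) := Real.sqrt_pos.2 h
        have hlog : -Real.log (f x k) ≤ 2 / Real.sqrt (f x k) := by
          have e : Real.log (f x k) = 2 * Real.log (Real.sqrt (f x k)) := by
            rw [Real.log_sqrt h.le]
            ring
          have h3 := Real.log_le_sub_one_of_pos (one_div_pos.2 hs)
          rw [one_div, Real.log_inv] at h3
          rw [e, div_eq_mul_inv]
          linarith
        have hb : Real.negMulLog (f x k) ≤ 2 * Real.sqrt (f x k) := by
          unfold Real.negMulLog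
          have : f x k = Real.sqrt (f x k) * Real.sqrt (f x k) := (Real.mul_self_sqrt h.le).symm
          calc -f x k * Real.log (f x k) = f x k * (-Real.log (f x k)) := by ring
            _ ≤ f x k * (2 / Real.sqrt (f x k)) := by gcongr
            _ = 2 * Real.sqrt (f x k) := by
                rw [mul_div_assoc']
                nth_rewrite 1 [this]
                field_simp
        have h3 : Real.sqrt (f x k) ≤ Real.sqrt c * Real.sqrt w ^ tot k := by
          have hsp : ∀ n : ℕ, Real.sqrt (w ^ n) = Real.sqrt w ^ n := by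
            intro n
            induction n with
            | zero => simp
            | succ n ih =>
              rw [pow_succ, Real.sqrt_mul (pow_nonneg hw.le n), ih, pow_succ]
          rw [← hsp (tot k), ← Real.sqrt_mul hc.le]
          exact Real.sqrt_le_sqrt h2
        calc Real.negMulLog (f x k) ≤ 2 * Real.sqrt (f x k) := hb
          _ ≤ 2 * (Real.sqrt c * Real.sqrt w ^ tot k) := by gcongr
          _ = 2 * Real.sqrt c * Real.sqrt w ^ tot k := by ring
    calc Real.negMulLog (f x k) ≤ 2 * Real.sqrt c * Real.sqrt w ^ tot k := hmain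
      _ = _ := by ring

/-- Entropy of a distribution is nonnegative (tsum of nonneg terms). -/
lemma entropyM_nonneg {f : (ι → ℕ) → ℝ} (hf : ∀ k, 0 ≤ f k ∧ f k ≤ 1) : 0 ≤ entropyM f :=
  tsum_nonneg fun k => Real.negMulLog_nonneg (hf k).1 (hf k).2

end

end Vale.Agent.Lib.P369
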