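import Vale.Agent.Lib.P369.MainGen

/-!
# JOB M15: the final statement of the library (P369)

`N(f) = g⁻¹(S(f)/card ι)`.

For `0<η<1`: `r = N(a)`, `s = N(b)` are `≥ 0` with `card ι g r = S(a)`, `card ι g s = S(b)` (`gFun_gInv`, `entropyM ≥ 0` as `0 ≤ a k ≤ 1`, `card ι > 0`), `mainM` gives `card ι g(ηr + (1-η)s) ≤ S(C)`; apply monotonicity of `g` (`gFun_strictMonoOn.le_iff_le`) with `gFun_gInv`.
Summability: `entropyM_summable`, `bsOutM_mean`, `bsOutM_hasSum`.

Endpoints: `η = 1`: `√η = 1`, `√(1-η) = 0`: `ampPoly 1 m l = X^m`, `Bp 1 k m l = [k = m]`, `kerM 1 k m l = [k = m]`, so `bsOutM 1 a b k = a k`  (`∑ b = 1`).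
`η = 0`: `ampPoly 0 m l = (-1)^m X^l`, `Bp 0 k m l = [k = l]`, `bsOutM 0 a b k = b k`.
-/

namespace Vale.Agent.Lib.P369

open Set Polynomial

noncomputable section

variable {ι : Type*} [Fintype ι] [DecidableEq ι]

/-- Entropy photon number of a Fock-diagonal state of the modes `ι`. -/
def photonN (f : (ι → ℕ) → ℝ) : ℝ := gInv (entropyM f / (Fintype.card ι : ℝ))


lemma Bp_one_M (k m l : ℕ) : Bp 1 k m l = if k = m then 1 else 0 := by
  unfold Bp bsAmp ampPoly
  norm_num
  by_cases hkm : k = m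
  · subst hkm
    have : k + (k + l - k) = k + l := by omega
    simp only [this, if_true]
    have e : k + l - k = l := by omega
    rw [e]
    have hk : (k.factorial : ℝ) ≠ 0 := by positivity
    have hl : (l.factorial : ℝ) ≠ 0 := by positivity
    have e2 : (k.factorial : ℝ) * l.factorial / (k.factorial * l.factorial) = 1 := by
      field_simp
    simp [e2]
  · simp [hkm]

lemma Bp_zero_M (k m l : ℕ) : Bp 0 k m l = if k = l then 1 else 0 := by
  unfold Bp bsAmp ampPoly
  norm_num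
  by_cases hkl : k = l
  · subst hkl
    have : k + (m + k - k) = m + k := by omega
    simp only [this, if_true]
    have e : m + k - k = m := by omega
    rw [e]
    have hk : (k.factorial : ℝ) ≠ 0 := by positivity
    have hm : (m.factorial : ℝ) ≠ 0 := by positivity
    have e2 : (k.factorial : ℝ) * m.factorial / (m.factorial * k.factorial) = 1 := by
      field_simp
    have e3 : ((-1 : ℝ[X]) ^ m * X ^ k).coeff k = (-1) ^ m := by
      have : ((-1 : ℝ[X]) ^ m) = C ((-1 : ℝ) ^ m) := by simp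
      rw [this, Polynomial.coeff_C_mul_X_pow]
      simp
    simp [e2, e3, ← pow_mul]
  · have e3 : ((-1 : ℝ[X]) ^ m * X ^ l).coeff k = 0 := by
      have : ((-1 : ℝ[X]) ^ m) = C ((-1 : ℝ) ^ m) := by simp
      rw [this, Polynomial.coeff_C_mul_X_pow]
      simp [hkl]
    simp [e3, hkl]

omit [DecidableEq ι] in
lemma bsOutM_one (a b : (ι → ℕ) → ℝ) (hb : HasSum b 1) (k : ι → ℕ) :
    bsOutM 1 a b k = a k := by
  unfold bsOutM kerM
  have hF : ∀ x : (ι → ℕ) × (ι → ℕ),
      a x.1 * b x.2 * ∏ i, Bp 1 (k i) (x.1 i) (x.2 i) = if x.1 = k then a k * b x.2 else 0 := by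
    intro x
    by_cases h : x.1 = k
    · simp [h, Bp_one_M]
    · have : ∃ i, k i ≠ x.1 i := by
        by_contra hc
        exact h (funext fun i => by_contra fun hi => hc ⟨i, fun e => hi e.symm⟩)
      obtain ⟨i, hi⟩ := this
      have hp : ∏ i, Bp 1 (k i) (x.1 i) (x.2 i) = 0 :=
        Finset.prod_eq_zero (Finset.mem_univ i) (by simp [Bp_one_M, hi])
      simp [h, hp]
  simp only [hF]
  have hinj : Function.Injective (fun l : ι → ℕ => (k, l)) := fun _ _ h =>
    (Prod.ext_iff.mp h).2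
  have hsupp : Function.support (fun x : (ι → ℕ) × (ι → ℕ) =>
      if x.1 = k then a k * b x.2 else 0) ⊆ Set.range (fun l : ι → ℕ => (k, l)) := by
    intro x hx
    by_cases h : x.1 = k
    · exact ⟨x.2, Prod.ext h.symm rfl⟩
    · simp [h] at hx
  rw [← hinj.tsum_eq hsupp]
  simp only [if_true]
  rw [tsum_mul_left, hb.tsum_eq, mul_one]

omit [DecidableEq ι] in
lemma bsOutM_zero (a b : (ι → ℕ) → ℝ) (ha : HasSum a 1) (k : ι → ℕ) :
    bsOutM 0 a b k = b k := by
  unfold bsOutM kerM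
  have hF : ∀ x : (ι → ℕ) × (ι → ℕ),
      a x.1 * b x.2 * ∏ i, Bp 0 (k i) (x.1 i) (x.2 i) = if x.2 = k then a x.1 * b k else 0 := by
    intro x
    by_cases h : x.2 = k
    · simp [h, Bp_zero_M]
    · have : ∃ i, k i ≠ x.2 i := by
        by_contra hc
        exact h (funext fun i => by_contra fun hi => hc ⟨i, fun e => hi e.symm⟩)
      obtain ⟨i, hi⟩ := this
      have hp : ∏ i, Bp 0 (k i) (x.1 i) (x.2 i) = 0 :=
        Finset.prod_eq_zero (Finset.mem_univ i) (by simp [Bp_zero_M, hi])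
      simp [h, hp]
  simp only [hF]
  have hinj : Function.Injective (fun m : ι → ℕ => (m, k)) := fun _ _ h =>
    (Prod.ext_iff.mp h).1
  have hsupp : Function.support (fun x : (ι → ℕ) × (ι → ℕ) =>
      if x.2 = k then a x.1 * b k else 0) ⊆ Set.range (fun m : ι → ℕ => (m, k)) := by
    intro x hx
    by_cases h : x.2 = k
    · exact ⟨x.1, Prod.ext rfl h.symm⟩
    · simp [h] at hx
  rw [← hinj.tsum_eq hsupp]
  simp only [if_true]
  rw [tsum_mul_right, ha.tsum_eq, one_mul]

theorem EPnI_coordinatewise_passive [Nonempty ι] {η : ℝ} (hη : 0 ≤ η) (hη1 : η ≤ 1)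
    {a b : (ι → ℕ) → ℝ}
    (ha0 : ∀ k, 0 ≤ a k) (haa : Antitone a) (hsa : HasSum a 1)
    (hma : Summable (fun k => (tot k : ℝ) * a k))
    (hb0 : ∀ k, 0 ≤ b k) (hba : Antitone b) (hsb : HasSum b 1)
    (hmb : Summable (fun k => (tot k : ℝ) * b k)) :
    Summable (fun k => Real.negMulLog (bsOutM η a b k)) ∧
      η * photonN a + (1 - η) * photonN b ≤ photonN (bsOutM η a b) := by
  have ha1 := le_one_of_hasSum ha0 hsa
  have hb1 := le_one_of_hasSum hb0 hsb
  have haE := entropyM_summable ha0 ha1 hma hsa.summable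
  have hbE := entropyM_summable hb0 hb1 hmb hsb.summable
  rcases eq_or_lt_of_le hη with h0 | h0
  · -- `η = 0`
    subst h0
    have e : bsOutM 0 a b = b := funext fun k => bsOutM_zero _ _ hsa k
    rw [e]
    exact ⟨hbE, by simp⟩
  rcases eq_or_lt_of_le hη1 with h1 | h1
  · -- `η = 1`
    subst h1
    have e : bsOutM 1 a b = a := funext fun k => bsOutM_one _ _ hsb k
    rw [e]
    exact ⟨haE, by simp⟩
  -- `0 < η < 1`
  have hc0 : ∀ k, 0 ≤ bsOutM η a b k := bsOutM_nonneg hη hη1 ha0 hb0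
  have hcs := bsOutM_hasSum hη hη1 ha0 hb0 hsa hsb
  have hc1 := le_one_of_hasSum hc0 hcs
  have hcm := bsOutM_mean hη hη1 ha0 hb0 hsa hsb hma hmb
  have hcE := entropyM_summable hc0 hc1 hcm hcs.summable
  refine ⟨hcE, ?_⟩
  unfold photonN
  have hn1 : (0 : ℝ) < (Fintype.card ι : ℝ) := by
    exact_mod_cast Fintype.card_pos
  have hSa : 0 ≤ entropyM a / (Fintype.card ι : ℝ) :=
    div_nonneg (entropyM_nonneg fun k => ⟨ha0 k, ha1 k⟩) hn1.le
  have hSb : 0 ≤ entropyM b / (Fintype.card ι : ℝ) :=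
    div_nonneg (entropyM_nonneg fun k => ⟨hb0 k, hb1 k⟩) hn1.le
  have hSc : 0 ≤ entropyM (bsOutM η a b) / (Fintype.card ι : ℝ) :=
    div_nonneg (entropyM_nonneg fun k => ⟨hc0 k, hc1 k⟩) hn1.le
  set r := gInv (entropyM a / (Fintype.card ι : ℝ)) with hr
  set s := gInv (entropyM b / (Fintype.card ι : ℝ)) with hs
  have hr0 : 0 ≤ r := gInv_nonneg hSa
  have hs0 : 0 ≤ s := gInv_nonneg hSb
  have hgr : gFun r = entropyM a / (Fintype.card ι : ℝ) := gFun_gInv hSa
  have hgs : gFun s = entropyM b / (Fintype.card ι : ℝ) := gFun_gInv hSb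
  have hmain := mainM h0 h1 hr0 hs0 ha0 haa hsa hma hb0 hba hsb hmb
    (by rw [hgr]; field_simp; exact le_rfl) (by rw [hgs]; field_simp; exact le_rfl)
  have ht0 : 0 ≤ η * r + (1 - η) * s := by
    have : 0 ≤ 1 - η := by linarith
    positivity
  have hgc := gFun_gInv hSc
  have hle : gFun (η * r + (1 - η) * s) ≤
      gFun (gInv (entropyM (bsOutM η a b) / (Fintype.card ι : ℝ))) := by
    rw [hgc, le_div_iff₀ hn1]
    linarith
  exact (gFun_strictMonoOn.le_iff_le (Set.mem_Ici.mpr ht0)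
    (Set.mem_Ici.mpr (gInv_nonneg hSc))).mp hle

end

end Vale.Agent.Lib.P369
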