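import Vale.Agent.Lib.P369.Defs

/-!
# JOB E10: ODE for the flow (P369)

Throughout `r > 0`, `λ ∈ (0,1)` (or `[0,1]`).  With `θ = r(1-λ)`: `χ = fChi r λ = 1/(1+θ)`, `w = fW r λ = θχ = 1 - χ`, `φ = fPhi r λ = λ χ`.
Derivatives in `λ`: `χ' = r χ²`, `w' = -r χ²`, `φ' = χ (1 + r φ) = (1+r) χ²`  [`1 + r φ = (1+r) χ`].

Kernel identities:
 (e1) `φ ∂_φ e_m(j) = j e_m(j) - (j+1) e_m(j+1)`   [`(j+1) C(m,j+1) = (m-j) C(m,j)`].
   Hence  `λ ∂_λ c_j = (λ φ'/φ) (j c_j - (j+1) c_{j+1}) = (1+r) χ (j c_j - (j+1) c_{j+1})`.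
 (g1) `∂_w`, `∂_χ` of `g_j(k)`: along `θ`: `∂_θ g_j(k) = χ (k g_j(k-1) - (k+1) g_j(k))`;
   Since `θ' = -r`: `λ ∂_λ g_j(k) = -r λ χ N_j(k)`, `N_j(k) = k g_j(k-1) - (k+1) g_j(k)`.
   [Direct: with `(χ,w)` as above, `d/dθ χ^(j+1) w^(k-j) = χ^(j+2) w^(k-j-1) ((k-j) χ - (j+1) w)` and `(k-j) C(k,j) = k C(k-1,j)`.]
 (g2) for every `χ + w = 1`, all `j,k`:
    `χ j (g_j(k) - g_{j-1}(k)) + ((k+1) g_j(k+1) - k g_j(k)) + w (k g_j(k-1) - (k+1) g_j(k)) = 0`,  (with `g_{-1} = 0`, `g_j(-1) = 0`)
   by Pascal and `(j+1) C(k+1,j+1) = (k+1) C(k,j)`.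

Assembly (here with `L = m`, `c_j = e_m(j)`, `A(k) = Eker r λ k m`).  `A(k) = ∑_{j≤L} c_j g_j(k)`, `c_{L+1} = 0` because `C(m,j) = 0` for `j>m`.  Abel on `j`:
 `∑_{j≤L} (j c_j - (j+1) c_{j+1}) g_j = ∑_{j≤L} j c_j (g_j - g_{j-1})`.
So  `λ ∂_λ A(k) = ∑_j c_j [ (1+r) χ j (g_j - g_{j-1}) - r λ χ N_j ](k)`.
By (g2) × (1+r) and the relations `r - r λ χ = r (1 - φ)= (1+r) w` [since `1 - φ = (1+θ-λ) χ = (1-λ)(1+r) χ`] :
 `(1+r) χ j (g_j - g_{j-1}) = -(1+r) ((k+1) g_j(k+1) - k g_j(k)) - (1+r) w N_j = -(r+1) Loss - r N_j + r λ χ N_j`, so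
 `λ ∂_λ A(k) = - ∑_j c_j [ (r+1) ((k+1) g_j(k+1) - k g_j(k)) + r N_j(k) ] = - Lgen r A k`,
as `Lgen r f k = (r+1) ((k+1) f(k+1) - k f(k)) - r ((k+1) f(k) - k f(k-1))`.
-/

namespace Vale.Agent.Lib.P369

open Finset

noncomputable section

variable {p : ℕ → ℝ} {L : ℕ} {r : ℝ}

private lemma den_pos (hr : 0 < r) {lam : ℝ} (hl : lam ≤ 1) : 0 < 1 + r * (1 - lam) := by
  have : 0 ≤ r * (1 - lam) := mul_nonneg hr.le (by linarith)
  linarith

lemma fChi_add_fW (hr : 0 < r) {lam : ℝ} (hl : lam ≤ 1) : fChi r lam + fW r lam = 1 := by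
  have h := den_pos hr hl
  unfold fChi fW
  field_simp

private lemma gKer_of_lt (chi w : ℝ) {J K : ℕ} (h : K < J) : gKer chi w J K = 0 := by
  unfold gKer
  rw [Nat.choose_eq_zero_of_lt h]
  simp

private lemma gKer_zero_succ (chi w : ℝ) (K : ℕ) :
    gKer chi w 0 (K + 1) = w * gKer chi w 0 K := by
  unfold gKer
  simp only [Nat.choose_zero_right, Nat.sub_zero]
  ring

private lemma gKer_pascal (chi w : ℝ) (J K : ℕ) :
    gKer chi w (J + 1) (K + 1) = w * gKer chi w (J + 1) K + chi * gKer chi w J K := by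
  unfold gKer
  rw [Nat.choose_succ_succ' K J]
  rcases lt_trichotomy K J with h | h | h
  · rw [Nat.choose_eq_zero_of_lt h, Nat.choose_eq_zero_of_lt (by omega : K < J + 1)]
    simp
  · subst h
    rw [Nat.choose_self, Nat.choose_eq_zero_of_lt (by omega : K < K + 1)]
    simp only [Nat.sub_self, Nat.cast_add, Nat.cast_zero, Nat.cast_one, pow_zero]
    ring
  · obtain ⟨d, rfl⟩ : ∃ d, K = J + 1 + d := ⟨K - (J + 1), by omega⟩
    have e1 : J + 1 + d + 1 - (J + 1) = d + 1 := by omega
    have e2 : J + 1 + d - (J + 1) = d := by omega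
    have e3 : J + 1 + d - J = d + 1 := by omega
    rw [e1, e2, e3]
    push_cast
    ring

private lemma gKer_k3 {chi w : ℝ} (h : chi + w = 1) (j k : ℕ) :
    ((j : ℝ) + 1) * gKer chi w (j + 1) (k + 1) + ((k : ℝ) + 1 - j) * gKer chi w j (k + 1) =
      ((k : ℝ) + 1) * gKer chi w j k := by
  rcases lt_or_ge k j with hk | hk
  · rw [gKer_of_lt chi w (by omega : k + 1 < j + 1), gKer_of_lt chi w hk]
    rcases eq_or_lt_of_le (show k + 1 ≤ j from hk) with he | hl
    · subst he
      push_cast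
      ring
    · rw [gKer_of_lt chi w hl]
      ring
  · obtain ⟨d, rfl⟩ : ∃ d, k = j + d := ⟨k - j, by omega⟩
    unfold gKer
    have e1 : j + d + 1 - (j + 1) = d := by omega
    have e2 : j + d + 1 - j = d + 1 := by omega
    have e3 : j + d - j = d := by omega
    rw [e1, e2, e3]
    have h1 : ((j : ℝ) + 1) * ((j + d + 1).choose (j + 1) : ℝ) =
        ((j : ℝ) + d + 1) * ((j + d).choose j : ℝ) := by
      have := Nat.add_one_mul_choose_eq (j + d) j
      have h' : (((j + d + 1) * (j + d).choose j : ℕ) : ℝ) =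
          (((j + d + 1).choose (j + 1) * (j + 1) : ℕ) : ℝ) := by
        exact_mod_cast this
      push_cast at h'
      linarith
    have h2 : ((d : ℝ) + 1) * ((j + d + 1).choose j : ℝ) =
        ((j : ℝ) + d + 1) * ((j + d).choose j : ℝ) := by
      have := Nat.choose_mul_succ_eq (j + d) j
      have e4 : j + d + 1 - j = d + 1 := by omega
      rw [e4] at this
      have h' : (((j + d).choose j * (j + d + 1) : ℕ) : ℝ) =
          (((j + d + 1).choose j * (d + 1) : ℕ) : ℝ) := by
        exact_mod_cast this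
      push_cast at h'
      linarith
    have h3 : ((j + d : ℕ) : ℝ) + 1 - (j : ℝ) = (d : ℝ) + 1 := by
      push_cast
      ring
    rw [h3]
    push_cast
    linear_combination (chi ^ (j + 1 + 1) * w ^ d) * h1 +
      (chi ^ (j + 1) * w ^ (d + 1)) * h2 +
      (((j : ℝ) + d + 1) * ((j + d).choose j : ℝ) * chi ^ (j + 1) * w ^ d) * h

/-- (g2). -/
lemma gKer_ode {chi w : ℝ} (h : chi + w = 1) (j k : ℕ) :
    chi * j * (gKer chi w j k - (if j = 0 then 0 else gKer chi w (j - 1) k)) +
      (((k : ℝ) + 1) * gKer chi w j (k + 1) - k * gKer chi w j k) +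
        w * (k * gKer chi w j (k - 1) - ((k : ℝ) + 1) * gKer chi w j k) = 0 := by
  rcases j with _ | j
  · rcases k with _ | k
    · simp only [if_true, Nat.cast_zero]
      rw [gKer_zero_succ]
      ring
    · simp only [if_true, Nat.cast_zero, Nat.add_sub_cancel]
      rw [gKer_zero_succ chi w (k + 1), gKer_zero_succ chi w k]
      push_cast
      ring
  · have hne : j + 1 ≠ 0 := Nat.succ_ne_zero j
    simp only [hne, if_false, Nat.add_sub_cancel]
    rcases k with _ | k
    · have h0 : gKer chi w (j + 1) 0 = 0 := gKer_of_lt chi w (Nat.succ_pos j)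
      have hj0 : (j : ℝ) * gKer chi w j 0 = 0 := by
        rcases j with _ | j
        · simp
        · rw [gKer_of_lt chi w (Nat.succ_pos j)]
          simp
      have hP := gKer_pascal chi w j 0
      rw [h0] at hP
      simp only [Nat.zero_add]
      rw [hP, h0]
      push_cast
      linear_combination (-chi) * hj0
    · simp only [Nat.add_sub_cancel]
      have P1 := gKer_pascal chi w j (k + 1)
      have P2 := gKer_pascal chi w j k
      have K3 := gKer_k3 h j k
      push_cast
      linear_combination (((k : ℝ) + 1 + 1)) * P1 + chi * K3 - ((k : ℝ) + 1) * P2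

private lemma eKer_hasDerivAt (M J : ℕ) {phi : ℝ} (hphi : phi ≠ 0) :
    HasDerivAt (fun x => eKer x M J)
      ((1 / phi) * ((J : ℝ) * eKer phi M J - ((J : ℝ) + 1) * eKer phi M (J + 1))) phi := by
  rcases lt_or_ge M J with h | h
  · have h1 : M.choose J = 0 := Nat.choose_eq_zero_of_lt h
    have h2 : M.choose (J + 1) = 0 := Nat.choose_eq_zero_of_lt (by omega)
    unfold eKer
    simp only [h1, h2, Nat.cast_zero, zero_mul, mul_zero, sub_zero]
    exact hasDerivAt_const _ _
  · obtain ⟨d, rfl⟩ : ∃ d, M = J + d := ⟨M - J, by omega⟩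
    unfold eKer
    have e1 : J + d - J = d := by omega
    have e2 : J + d - (J + 1) = d - 1 := by omega
    simp only [e1, e2]
    set C : ℝ := ((J + d).choose J : ℝ) with hC_def
    set C' : ℝ := ((J + d).choose (J + 1) : ℝ) with hC'_def
    have hC : ((J : ℝ) + 1) * C' = d * C := by
      have := Nat.choose_succ_right_eq (J + d) J
      have e3 : J + d - J = d := by omega
      rw [e3] at this
      have h' : (((J + d).choose (J + 1) * (J + 1) : ℕ) : ℝ) =
          (((J + d).choose J * d : ℕ) : ℝ) := by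
        exact_mod_cast this
      push_cast at h'
      rw [hC_def, hC'_def]
      linarith
    have hJ : (J : ℝ) * phi ^ (J - 1) = (1 / phi) * ((J : ℝ) * phi ^ J) := by
      rcases J with _ | j
      · simp
      · simp only [Nat.add_sub_cancel]
        rw [pow_succ]
        field_simp
    have h1 : (1 / phi) * phi = 1 := by
      field_simp
    have hd : HasDerivAt (fun x : ℝ => C * x ^ J * (1 - x) ^ d)
        (C * ((J : ℝ) * phi ^ (J - 1) * (1 - phi) ^ d +
          phi ^ J * ((d : ℝ) * (1 - phi) ^ (d - 1) * (-1)))) phi := by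
      have h2 : HasDerivAt (fun x : ℝ => 1 - x) (-1) phi := by
        simpa using (hasDerivAt_id phi).const_sub 1
      have h3 := ((hasDerivAt_pow J phi).fun_mul (h2.fun_pow d)).const_mul C
      refine (h3.congr_of_eventuallyEq (Filter.Eventually.of_forall fun x => ?_))
      simp only
      ring
    refine hd.congr_deriv ?_
    linear_combination (C * (1 - phi) ^ d) * hJ + (phi ^ J * (1 - phi) ^ (d - 1)) * hC +
        (((J : ℝ) + 1) * C' * phi ^ J * (1 - phi) ^ (d - 1)) * h1

private lemma hasDerivAt_den (r lam : ℝ) : HasDerivAt (fun y => 1 + r * (1 - y)) (-r) lam := by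
  have h2 : HasDerivAt (fun x : ℝ => 1 - x) (-1) lam := by
    simpa using (hasDerivAt_id lam).const_sub 1
  have h3 := (h2.const_mul r).const_add 1
  exact h3.congr_deriv (by ring)

private lemma hasDerivAt_fChi (hr : 0 < r) {lam : ℝ} (hl : lam ≤ 1) :
    HasDerivAt (fChi r) (r * fChi r lam ^ 2) lam := by
  have hD := den_pos hr hl
  have h := (hasDerivAt_const lam (1 : ℝ)).fun_div (hasDerivAt_den r lam) hD.ne'
  show HasDerivAt (fun y => 1 / (1 + r * (1 - y))) _ lam
  refine h.congr_deriv ?_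
  unfold fChi
  field_simp
  ring

private lemma hasDerivAt_fW (hr : 0 < r) {lam : ℝ} (hl : lam ≤ 1) :
    HasDerivAt (fW r) (-(r * fChi r lam ^ 2)) lam := by
  have hD := den_pos hr hl
  have h2 : HasDerivAt (fun x : ℝ => r * (1 - x)) (-r) lam := by
    have h2' : HasDerivAt (fun x : ℝ => 1 - x) (-1) lam := by
      simpa using (hasDerivAt_id lam).const_sub 1
    exact (h2'.const_mul r).congr_deriv (by ring)
  have h := h2.fun_div (hasDerivAt_den r lam) hD.ne'
  show HasDerivAt (fun y => r * (1 - y) / (1 + r * (1 - y))) _ lam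
  refine h.congr_deriv ?_
  unfold fChi
  field_simp
  ring

private lemma hasDerivAt_fPhi (hr : 0 < r) {lam : ℝ} (hl : lam ≤ 1) :
    HasDerivAt (fPhi r) ((1 + r) * fChi r lam ^ 2) lam := by
  have hD := den_pos hr hl
  have h := (hasDerivAt_id' lam).fun_div (hasDerivAt_den r lam) hD.ne'
  show HasDerivAt (fun y => y / (1 + r * (1 - y))) _ lam
  refine h.congr_deriv ?_
  unfold fChi
  field_simp
  ring

private lemma gKer_alg {chi w : ℝ} (r : ℝ) (h : chi + w = 1) (J K : ℕ) :
    (K.choose J : ℝ) * (((J + 1 : ℕ) : ℝ) * chi ^ J * (r * chi ^ 2) * w ^ (K - J) +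
        chi ^ (J + 1) * (((K - J : ℕ) : ℝ) * w ^ (K - J - 1) * (-(r * chi ^ 2)))) =
      -(r * chi) * ((K : ℝ) * gKer chi w J (K - 1) - ((K : ℝ) + 1) * gKer chi w J K) := by
  rcases lt_trichotomy K J with hk | hk | hk
  · rw [gKer_of_lt chi w hk, gKer_of_lt chi w (by omega : K - 1 < J),
      Nat.choose_eq_zero_of_lt hk]
    simp
  · subst hk
    have h0 : (K : ℝ) * gKer chi w K (K - 1) = 0 := by
      rcases K with _ | k
      · simp
      · rw [gKer_of_lt chi w (by omega)]
        simp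
    rw [h0]
    unfold gKer
    simp only [Nat.choose_self, Nat.sub_self, Nat.cast_zero, Nat.cast_one, pow_zero, mul_one,
      zero_mul, mul_zero, add_zero]
    push_cast
    ring
  · obtain ⟨d, rfl⟩ : ∃ d, K = J + 1 + d := ⟨K - (J + 1), by omega⟩
    unfold gKer
    have e1 : J + 1 + d - J = d + 1 := by omega
    have e2 : J + 1 + d - 1 = J + d := by omega
    have e3 : J + d - J = d := by omega
    have e4 : d + 1 - 1 = d := by omega
    rw [e2, e1, e3, e4]
    have hC : ((J : ℝ) + 1 + d) * ((J + d).choose J : ℝ) =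
        ((d : ℝ) + 1) * ((J + 1 + d).choose J : ℝ) := by
      have := Nat.choose_mul_succ_eq (J + d) J
      have e5 : J + d + 1 - J = d + 1 := by omega
      have e6 : J + d + 1 = J + 1 + d := by ring
      rw [e5, e6] at this
      have h' : (((J + d).choose J * (J + 1 + d) : ℕ) : ℝ) =
          (((J + 1 + d).choose J * (d + 1) : ℕ) : ℝ) := by
        exact_mod_cast this
      push_cast at h'
      linarith
    push_cast
    linear_combination (r * chi ^ (J + 2) * w ^ d) * hC -
      (r * chi ^ (J + 2) * w ^ d * ((J + 1 + d).choose J : ℝ) * ((d : ℝ) + 1)) * h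

private lemma gKer_hasDerivAt (hr : 0 < r) {lam : ℝ} (hl : lam ≤ 1) (J K : ℕ) :
    HasDerivAt (fun y => gKer (fChi r y) (fW r y) J K)
      (-(r * fChi r lam) * ((K : ℝ) * gKer (fChi r lam) (fW r lam) J (K - 1) -
        ((K : ℝ) + 1) * gKer (fChi r lam) (fW r lam) J K)) lam := by
  have h1 := (hasDerivAt_fChi hr hl).fun_pow (J + 1)
  have h2 := (hasDerivAt_fW hr hl).fun_pow (K - J)
  have h3 := (h1.fun_mul h2).const_mul (K.choose J : ℝ)
  have halg := gKer_alg r (fChi_add_fW hr hl) J K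
  refine (h3.congr_of_eventuallyEq (Filter.Eventually.of_forall fun y => ?_)).congr_deriv ?_
  · unfold gKer
    simp only
    ring
  · rw [← halg]
    simp only [Nat.add_sub_cancel]

private lemma c_hasDerivAt (hr : 0 < r) {lam : ℝ} (h0 : 0 < lam) (h1 : lam < 1) (m J : ℕ) :
    HasDerivAt (fun y => eKer (fPhi r y) m J)
      (((1 + r) * fChi r lam * (1 / lam)) * ((J : ℝ) * eKer (fPhi r lam) m J -
        ((J : ℝ) + 1) * eKer (fPhi r lam) m (J + 1))) lam := by
  have hD := den_pos hr h1.le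
  have hphi : fPhi r lam ≠ 0 := by
    unfold fPhi
    positivity
  have h := (eKer_hasDerivAt m J hphi).comp lam (hasDerivAt_fPhi hr h1.le)
  refine h.congr_deriv ?_
  have key : (1 / fPhi r lam) * ((1 + r) * fChi r lam ^ 2) = (1 + r) * fChi r lam * (1 / lam) := by
    unfold fPhi fChi
    field_simp
  linear_combination (((J : ℝ) * eKer (fPhi r lam) m J -
    ((J : ℝ) + 1) * eKer (fPhi r lam) m (J + 1))) * key

private lemma c_succ (phi : ℝ) (m : ℕ) : eKer phi m (m + 1) = 0 := by
  unfold eKer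
  rw [Nat.choose_eq_zero_of_lt (by omega)]
  simp

/-- The ODE for the kernel. (`c_j = eKer φ m j`, `c_{m+1} = 0`; no passivity needed.) -/
theorem Eker_hasDerivAt (hr : 0 < r) {lam : ℝ} (h0 : 0 < lam) (h1 : lam < 1) (k m : ℕ) :
    HasDerivAt (fun y => Eker r y k m)
      (-(1 / lam) * Lgen r (fun q => Eker r lam q m) k) lam := by
  have hD := den_pos hr h1.le
  have hcw : fChi r lam + fW r lam = 1 := fChi_add_fW hr h1.le
  have hid : (1 + r) * fW r lam + r * lam * fChi r lam = r := by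
    unfold fW fChi
    field_simp
    ring
  have hu : (1 / lam) * lam = 1 := by
    field_simp
  have hmem : ∀ J ∈ range (m + 1), HasDerivAt
      (fun y => eKer (fPhi r y) m J * gKer (fChi r y) (fW r y) J k)
      ((((1 + r) * fChi r lam * (1 / lam)) * ((J : ℝ) * eKer (fPhi r lam) m J -
        ((J : ℝ) + 1) * eKer (fPhi r lam) m (J + 1))) * gKer (fChi r lam) (fW r lam) J k +
        eKer (fPhi r lam) m J * (-(r * fChi r lam) * ((k : ℝ) * gKer (fChi r lam) (fW r lam) J (k - 1) -
        ((k : ℝ) + 1) * gKer (fChi r lam) (fW r lam) J k))) lam :=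
    fun J _ => (c_hasDerivAt hr h0 h1 m J).fun_mul (gKer_hasDerivAt hr h1.le J k)
  have hs := HasDerivAt.fun_sum hmem
  show HasDerivAt (fun y => ∑ J ∈ range (m + 1),
    eKer (fPhi r y) m J * gKer (fChi r y) (fW r y) J k) _ lam
  refine hs.congr_deriv ?_
  set chi := fChi r lam with hchi
  set w := fW r lam with hw
  set u := 1 / lam with hu_def
  set c : ℕ → ℝ := eKer (fPhi r lam) m with hc_def
  set g : ℕ → ℕ → ℝ := fun J K' => gKer chi w J K' with hg_def
  have hcLm : c (m + 1) = 0 := c_succ _ m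
  -- Abel summation in `J`
  have hab : ∑ J ∈ range (m + 1), ((J : ℝ) + 1) * c (J + 1) * g J k =
      ∑ J ∈ range (m + 1), c J * (if J = 0 then 0 else (J : ℝ) * g (J - 1) k) := by
    rw [Finset.sum_range_succ, hcLm, Finset.sum_range_succ' (fun J =>
      c J * (if J = 0 then 0 else (J : ℝ) * g (J - 1) k))]
    simp only [mul_zero, zero_mul, add_zero, if_true, Nat.succ_ne_zero, if_false,
      Nat.add_sub_cancel]
    refine Finset.sum_congr rfl fun J _ => ?_
    push_cast
    ring
  have hL : Lgen r (fun q => Eker r lam q m) k = ∑ J ∈ range (m + 1), c J *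
      ((r + 1) * (((k : ℝ) + 1) * g J (k + 1) - k * g J k) -
        r * (((k : ℝ) + 1) * g J k - k * g J (k - 1))) := by
    unfold Lgen Eker
    simp only [Finset.mul_sum, ← Finset.sum_sub_distrib]
    refine Finset.sum_congr rfl fun J _ => ?_
    simp only [hg_def, hc_def]
    ring
  rw [hL]
  calc ∑ J ∈ range (m + 1), (((1 + r) * chi * u * ((J : ℝ) * c J - ((J : ℝ) + 1) * c (J + 1))) *
        g J k + c J * (-(r * chi) * ((k : ℝ) * g J (k - 1) - ((k : ℝ) + 1) * g J k)))
      = ∑ J ∈ range (m + 1), c J * ((1 + r) * chi * u * ((J : ℝ) * g J k) +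
          (-(r * chi) * ((k : ℝ) * g J (k - 1) - ((k : ℝ) + 1) * g J k))) -
        (1 + r) * chi * u * ∑ J ∈ range (m + 1), ((J : ℝ) + 1) * c (J + 1) * g J k := by
        rw [Finset.mul_sum, ← Finset.sum_sub_distrib]
        refine Finset.sum_congr rfl fun J _ => ?_
        ring
    _ = ∑ J ∈ range (m + 1), c J * ((1 + r) * chi * u * ((J : ℝ) * g J k) +
          (-(r * chi) * ((k : ℝ) * g J (k - 1) - ((k : ℝ) + 1) * g J k))) -
        (1 + r) * chi * u * ∑ J ∈ range (m + 1), c J *
          (if J = 0 then 0 else (J : ℝ) * g (J - 1) k) := by rw [hab]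
    _ = -u * ∑ J ∈ range (m + 1), c J *
        ((r + 1) * (((k : ℝ) + 1) * g J (k + 1) - k * g J k) -
          r * (((k : ℝ) + 1) * g J k - k * g J (k - 1))) := by
        rw [Finset.mul_sum, Finset.mul_sum, ← Finset.sum_sub_distrib]
        refine Finset.sum_congr rfl fun J _ => ?_
        have ode := gKer_ode hcw J k
        simp only [hg_def]
        set G := (k : ℝ) * gKer chi w J (k - 1) - ((k : ℝ) + 1) * gKer chi w J k with hG
        by_cases hJ : J = 0
        · subst hJ
          simp only [if_true, Nat.cast_zero] at ode ⊢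
          linear_combination (c 0) * ((u * (1 + r)) * ode - (u * G) * hid + (r * chi * G) * hu)
        · simp only [hJ, if_false] at ode ⊢
          linear_combination (c J) * ((u * (1 + r)) * ode - (u * G) * hid + (r * chi * G) * hu)

end

end Vale.Agent.Lib.P369
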