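import Vale.Agent.Lib.P369.Flow
import Vale.Agent.Lib.P369.BsBasic

/-!
# JOB E11a: properties of the flow: endpoints, nonnegativity, normalisation, continuity (P369)

This job: lemmas in this file.  Others are job E11b (`FlowBounds.lean`).

`r>0`, `p` = `FinPassive`, `λ ∈ [0,1]`: `χ ∈ [1/(1+r), 1]`, `w ∈ [0, r/(1+r)]`, `χ + w = 1`, `φ ∈ [0,1]`.

Endpoints: `λ=1`: `φ=1,χ=1,w=0`: `e_m(j) = δ_{mj}`, `g_j(k) = δ_{jk}` (`0^0 = 1`); so `flow = p`.
`λ=0`: `φ=0`, `χ = 1/(1+r)`, `w = r/(1+r)`: `e_m(j) = δ_{j0}`, `c_0 = ∑ p = 1`, `g_0(k) = χ w^k = τ_r(k)`.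

Nonnegativity: clear.  Normalisation: `∑_j e_m(j) = 1` (binomial theorem, `j ≤ m ≤ L`) so `∑_j c_j = 1`;
`∑_k g_j(k) = χ^(j+1) ∑_{n} C(n+j,j) w^n = χ^(j+1)/(1-w)^(j+1) = 1`  (`tsum_choose_mul_geometric_of_norm_lt_one`).

Antitone:  (i) `c` is antitone in `j` for `φ ∈ (0,1]`: from `φ(e_m(j) - e_m(j+1)) = e_{m+1}(j+1) - e_m(j+1)` (Pascal, `e_{m+1}(j+1) = (1-φ) e_m(j+1) + φ e_m(j)`),
  Abel in `m`: `φ (c_j - c_{j+1}) = ∑_{m} p_m (e_{m+1}(j+1) - e_m(j+1)) = ∑_{m} (p_{m-1} - p_m) e_m(j+1) ≥ 0`, using `e_0(j+1) = 0` and `p_{L+1} = 0`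
  (so the `m = L+1` boundary term is `p_L e_{L+1}(j+1) ≥ 0`).  At `φ=0` (`λ=0`): `c_0 = 1, c_j = 0`.
 (ii) `H_i(k) = ∑_{j≤i} g_j(k)`  is antitone in `k`: `g_j(k+1) = w g_j(k) + χ g_{j-1}(k)` (Pascal) gives `H_i(k+1) = H_i(k) - χ g_i(k)` [as `w + χ = 1`].
 (iii) Abel in `j`: `A(k) = ∑_{i≤L} (c_i - c_{i+1}) H_i(k)` with `c_{L+1} = 0`.

Upper bound uniform in `λ`: `c_j ≤ 1` (`e_m(j) ≤ 1` and `∑ p = 1`), `χ ≤ 1`, `w ≤ w₀ = r/(1+r)`, so `A(k) ≤ ∑_{j≤L} C(k,j) w₀^(k-j)`.
  Bound `C(k,j) w₀^(k-j) ≤ K_j W^k` with `W = (1+w₀)/2 < 1` (polynomial vs geometric; e.g. `C(k,j) ≤ (k+1)^j` and boundedness of a summable sequence).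

Lower bound for `λ ≤ λ₁ < 1`: `A(k) ≥ c_0 g_0(k) = c_0 χ w^k`, `c_0 ≥ p_0 e_0(0) = p_0 > 0` (`p_0 > 0` from antitone + sum one), `χ ≥ 1/(1+r)`, `w ≥ r (1-λ₁)/(1+r)`.

Continuity: all functions `fChi, fW, fPhi` are continuous in `λ` on `[0,1]` (denominator `≥ 1`), finite sums of products.
-/

namespace Vale.Agent.Lib.P369

open Finset Set

noncomputable section

variable {p : ℕ → ℝ} {L : ℕ} {r : ℝ}

lemma flow_denom_pos (hr : 0 < r) {lam : ℝ} (hl : lam ≤ 1) : 0 < 1 + r * (1 - lam) := by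
  have : 0 ≤ r * (1 - lam) := mul_nonneg hr.le (by linarith)
  linarith

lemma fChi_pos (hr : 0 < r) {lam : ℝ} (hl : lam ≤ 1) : 0 < fChi r lam := by
  unfold fChi
  have := flow_denom_pos hr hl
  positivity

lemma fW_nonneg (hr : 0 < r) {lam : ℝ} (hl : lam ≤ 1) : 0 ≤ fW r lam := by
  unfold fW
  have := flow_denom_pos hr hl
  have h : 0 ≤ r * (1 - lam) := mul_nonneg hr.le (by linarith)
  positivity

lemma fW_lt_one (hr : 0 < r) {lam : ℝ} (hl : lam ≤ 1) : fW r lam < 1 := by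
  have h1 := fChi_add_fW hr hl
  have h2 := fChi_pos hr hl
  linarith

lemma fPhi_nonneg (hr : 0 < r) {lam : ℝ} (h0 : 0 ≤ lam) (hl : lam ≤ 1) : 0 ≤ fPhi r lam := by
  unfold fPhi
  have := flow_denom_pos hr hl
  positivity

lemma fPhi_le_one (hr : 0 < r) {lam : ℝ} (hl : lam ≤ 1) : fPhi r lam ≤ 1 := by
  unfold fPhi
  have h := flow_denom_pos hr hl
  rw [div_le_one h]
  have : 0 ≤ r * (1 - lam) := mul_nonneg hr.le (by linarith)
  linarith

lemma eKer_nonneg {phi : ℝ} (h0 : 0 ≤ phi) (h1 : phi ≤ 1) (m j : ℕ) : 0 ≤ eKer phi m j := by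
  unfold eKer
  have : 0 ≤ 1 - phi := by linarith
  positivity

lemma gKer_nonneg {chi w : ℝ} (h0 : 0 ≤ chi) (h1 : 0 ≤ w) (j k : ℕ) : 0 ≤ gKer chi w j k := by
  unfold gKer
  positivity

lemma cJ_nonneg (hr : 0 < r) (hp : FinPassive p L) {lam : ℝ} (h0 : 0 ≤ lam) (hl : lam ≤ 1) (j : ℕ) :
    0 ≤ cJ p L r lam j := by
  unfold cJ
  apply Finset.sum_nonneg
  intro m _
  exact mul_nonneg (hp.nonneg m) (eKer_nonneg (fPhi_nonneg hr h0 hl) (fPhi_le_one hr hl) m j)

/-- Binomial theorem for `eKer`. -/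
lemma sum_eKer_eq_one (phi : ℝ) {m L : ℕ} (hm : m ≤ L) :
    ∑ j ∈ range (L + 1), eKer phi m j = 1 := by
  have hsub : range (m + 1) ⊆ range (L + 1) := by
    intro x hx
    simp only [Finset.mem_range] at hx ⊢
    omega
  rw [← Finset.sum_subset hsub]
  · have h := add_pow phi (1 - phi) m
    have e : phi + (1 - phi) = 1 := by ring
    rw [e, one_pow] at h
    rw [h]
    apply Finset.sum_congr rfl
    intro j _
    unfold eKer
    ring
  · intro j hj hj2
    simp only [Finset.mem_range] at hj hj2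
    unfold eKer
    rw [Nat.choose_eq_zero_of_lt (by omega)]
    simp

lemma sum_cJ_eq_one (hp : FinPassive p L) (lam : ℝ) :
    ∑ j ∈ range (L + 1), cJ p L r lam j = 1 := by
  unfold cJ
  rw [Finset.sum_comm]
  have h : ∀ m ∈ range (L + 1), ∑ j ∈ range (L + 1), p m * eKer (fPhi r lam) m j = p m := by
    intro m hm
    rw [← Finset.mul_sum, sum_eKer_eq_one _ (by simpa [Nat.lt_succ_iff] using hm), mul_one]
  rw [Finset.sum_congr rfl h]
  exact hp.sum_one

/-- The negative binomial kernel sums to one. -/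
lemma gKer_hasSum {chi w : ℝ} (h : chi + w = 1) (h0 : 0 < chi) (hw : 0 ≤ w) (j : ℕ) :
    HasSum (gKer chi w j) 1 := by
  have hw1 : w < 1 := by linarith
  have hn : ‖w‖ < 1 := by
    rw [Real.norm_eq_abs, abs_of_nonneg hw]
    exact hw1
  have hs := (hasSum_choose_mul_geometric_of_norm_lt_one j hn).mul_left (chi ^ (j + 1))
  have e : 1 - w = chi := by linarith
  have e2 : chi ^ (j + 1) * (1 / (1 - w) ^ (j + 1)) = 1 := by
    rw [e]
    field_simp
  rw [e2] at hs
  have hzero : ∑ i ∈ range j, gKer chi w j i = 0 := by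
    apply Finset.sum_eq_zero
    intro i hi
    simp only [Finset.mem_range] at hi
    unfold gKer
    rw [Nat.choose_eq_zero_of_lt hi]
    simp
  rw [← hasSum_nat_add_iff' j, hzero, sub_zero]
  have hfun : (fun n => gKer chi w j (n + j)) =
      fun i => chi ^ (j + 1) * (((i + j).choose j : ℝ) * w ^ i) := by
    funext n
    unfold gKer
    rw [Nat.add_sub_cancel]
    ring
  rw [hfun]
  exact hs

theorem flow_one (hr : 0 < r) (hp : FinPassive p L) (k : ℕ) : flow p L r 1 k = p k := by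
  have hχ : fChi r 1 = 1 := by simp [fChi]
  have hw : fW r 1 = 0 := by simp [fW]
  have hφ : fPhi r 1 = 1 := by simp [fPhi]
  have he : ∀ m j, eKer 1 m j = if m = j then 1 else 0 := by
    intro m j
    unfold eKer
    rcases lt_trichotomy m j with h | h | h
    · rw [Nat.choose_eq_zero_of_lt h, if_neg (by omega)]
      simp
    · subst h
      simp
    · have : m - j ≠ 0 := by omega
      rw [if_neg (by omega)]
      simp [this]
  have hg : ∀ j k, gKer 1 0 j k = if j = k then 1 else 0 := by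
    intro j k
    unfold gKer
    rcases lt_trichotomy k j with h | h | h
    · rw [Nat.choose_eq_zero_of_lt h, if_neg (by omega)]
      simp
    · subst h
      simp
    · have : k - j ≠ 0 := by omega
      rw [if_neg (by omega)]
      simp [this]
  have hc : ∀ j ∈ range (L + 1), cJ p L r 1 j = p j := by
    intro j hj
    unfold cJ
    rw [hφ]
    simp only [he, mul_ite, mul_one, mul_zero]
    rw [Finset.sum_ite_eq' (range (L + 1)) j p, if_pos hj]
  unfold flow
  rw [hχ, hw]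
  rw [Finset.sum_congr rfl (fun j hj => by rw [hc j hj, hg j k])]
  simp only [mul_ite, mul_one, mul_zero]
  rw [Finset.sum_ite_eq' (range (L + 1)) k p]
  split_ifs with h
  · rfl
  · simp only [Finset.mem_range, not_lt] at h
    exact (hp.support k (by omega)).symm

theorem flow_zero (hr : 0 < r) (hp : FinPassive p L) (k : ℕ) : flow p L r 0 k = tauTh r k := by
  have hφ : fPhi r 0 = 0 := by simp [fPhi]
  have he : ∀ m j, eKer 0 m j = if j = 0 then 1 else 0 := by
    intro m j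
    unfold eKer
    by_cases h : j = 0
    · subst h
      simp
    · simp [h]
  have hc0 : cJ p L r 0 0 = 1 := by
    unfold cJ
    rw [hφ]
    simp only [he, if_true, mul_one]
    exact hp.sum_one
  have hc : ∀ j, j ≠ 0 → cJ p L r 0 j = 0 := by
    intro j hj
    unfold cJ
    rw [hφ]
    simp [he, hj]
  unfold flow
  rw [Finset.sum_eq_single 0]
  · rw [hc0, one_mul]
    unfold gKer tauTh fChi fW
    simp only [Nat.choose_zero_right, Nat.cast_one, one_mul, zero_add, pow_one, Nat.sub_zero,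
      sub_zero, mul_one]
    have h1 : (1:ℝ) + r ≠ 0 := by positivity
    have h2 : r + 1 ≠ 0 := by positivity
    rw [div_pow, add_comm 1 r]
    field_simp
    ring
  · intro j _ hj
    rw [hc j hj, zero_mul]
  · intro h
    simp at h

theorem flow_nonneg (hr : 0 < r) (hp : FinPassive p L) {lam : ℝ} (hl : lam ∈ Icc (0 : ℝ) 1) (k : ℕ) :
    0 ≤ flow p L r lam k := by
  unfold flow
  apply Finset.sum_nonneg
  intro j _
  exact mul_nonneg (cJ_nonneg hr hp hl.1 hl.2 j)
    (gKer_nonneg (fChi_pos hr hl.2).le (fW_nonneg hr hl.2) j k)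

theorem flow_hasSum (hr : 0 < r) (hp : FinPassive p L) {lam : ℝ} (hl : lam ∈ Icc (0 : ℝ) 1) :
    HasSum (flow p L r lam) 1 := by
  have h1 : ∀ j ∈ range (L + 1),
      HasSum (fun k => cJ p L r lam j * gKer (fChi r lam) (fW r lam) j k) (cJ p L r lam j * 1) := by
    intro j _
    exact (gKer_hasSum (fChi_add_fW hr hl.2) (fChi_pos hr hl.2) (fW_nonneg hr hl.2) j).mul_left _
  have h2 := hasSum_sum h1
  simp only [mul_one] at h2
  rw [sum_cJ_eq_one hp] at h2
  exact h2

theorem flow_continuousOn (hr : 0 < r) (hp : FinPassive p L) (k : ℕ) :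
    ContinuousOn (fun y => flow p L r y k) (Icc 0 1) := by
  have hd : ∀ y ∈ Icc (0:ℝ) 1, 1 + r * (1 - y) ≠ 0 := fun y hy => (flow_denom_pos hr hy.2).ne'
  have hden : ContinuousOn (fun y : ℝ => 1 + r * (1 - y)) (Icc 0 1) := by fun_prop
  have hχ : ContinuousOn (fun y => fChi r y) (Icc 0 1) := by
    unfold fChi
    exact continuousOn_const.div hden hd
  have hw : ContinuousOn (fun y => fW r y) (Icc 0 1) := by
    unfold fW
    exact (by fun_prop : ContinuousOn (fun y : ℝ => r * (1 - y)) (Icc 0 1)).div hden hd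
  have hφ : ContinuousOn (fun y => fPhi r y) (Icc 0 1) := by
    unfold fPhi
    exact continuousOn_id.div hden hd
  unfold flow
  apply continuousOn_finsetSum
  intro j _
  apply ContinuousOn.mul
  · unfold cJ
    apply continuousOn_finsetSum
    intro m _
    apply ContinuousOn.mul continuousOn_const
    unfold eKer
    exact (continuousOn_const.mul (hφ.pow j)).mul ((continuousOn_const.sub hφ).pow (m - j))
  · unfold gKer
    exact (continuousOn_const.mul (hχ.pow (j + 1))).mul (hw.pow (k - j))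

end

end Vale.Agent.Lib.P369
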