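import Vale.Agent.Lib.P369.FlowBasic

/-!
# JOB E11b: properties of the flow: passivity, bounds (P369)

This job: lemmas in this file.

`r>0`, `p` = `FinPassive`, `λ ∈ [0,1]`: `χ ∈ [1/(1+r), 1]`, `w ∈ [0, r/(1+r)]`, `χ + w = 1`, `φ ∈ [0,1]`.

Endpoints: `λ=1`: `φ=1,χ=1,w=0`: `e_m(j) = δ_{mj}`, `g_j(k) = δ_{jk}` (`0^0 = 1`); so `flow = p`.
`λ=0`: `φ=0`, `χ = 1/(1+r)`, `w = r/(1+r)`: `e_m(j) = δ_{j0}`, `c_0 = ∑ p = 1`, `g_0(k) = χ w^k = τ_r(k)`.

Nonnegativity: clear.  Normalisation: `∑_j e_m(j) = 1` (binomial theorem, `j ≤ m ≤ L`) so `∑_j c_j = 1`;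
`∑_k g_j(k) = χ^(j+1) ∑_{n} C(n+j,j) w^n = χ^(j+1)/(1-w)^(j+1) = 1`  (`tsum_choose_mul_geometric_of_norm_lt_one`).

Antitone:  (i) `c` is antitone in `j` for `φ ∈ (0,1]`: from `φ(e_m(j) - e_m(j+1)) = e_{m+1}(j+1) - e_m(j+1)` (Pascal, `e_{m+1}(j+1) = (1-φ) e_m(j+1) + φ e_m(j)`),
  Abel in `m`: `φ (c_j - c_{j+1}) = ∑_{m} p_m (e_{m+1}(j+1) - e_m(j+1)) = ∑_{m} (p_{m-1} - p_m) e_m(j+1) ≥ 0`, using `e_0(j+1) = 0` and `p_{L+1} = 0`
  (so the `m = L+1` boundary term is `p_L e_{L+1}(j+1) ≥ 0`).  At `φ=0` (`λ=0`): `c_0 = 1, c_j = 0`.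
 (ii) `H_i(k) = ∑_{j≤i} g_j(k)`  is antitone in `k`: `g_j(k+1) = w g_j(k) + χ g_{j-1}(k)` (Pascal) gives `H_i(k+1) = H_i(k) - χ g_i(k)` [as `w + χ = 1`].
 (iii) Abel in `j`: `A(k) = ∑_{i≤L} (c_i - c_{i+1}) H_i(k)` with `c_{L+1} = 0`.

Upper bound uniform in `λ`: `c_j ≤ 1` (`e_m(j) ≤ 1` and `∑ p = 1`), `χ ≤ 1`, `w ≤ w₀ = r/(1+r)`, so `A(k) ≤ ∑_{j≤L} C(k,j) w₀^(k-j)`.
  Bound `C(k,j) w₀^(k-j) ≤ K_j W^k` with `W = (1+w₀)/2 < 1` (polynomial vs geometric; e.g. `C(k,j) ≤ (k+1)^j` and boundedness of a summable sequence).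

Lower bound for `λ ≤ λ₁ < 1`: `A(k) ≥ c_0 g_0(k) = c_0 χ w^k`, `c_0 ≥ p_0 e_0(0) = p_0 > 0` (`p_0 > 0` from antitone + sum one), `χ ≥ 1/(1+r)`, `w ≥ r (1-λ₁)/(1+r)`.

Continuity: all functions `fChi, fW, fPhi` are continuous in `λ` on `[0,1]` (denominator `≥ 1`), finite sums of products.
-/

namespace Vale.Agent.Lib.P369

open Finset Set

noncomputable section

variable {p : ℕ → ℝ} {L : ℕ} {r : ℝ}

/-- Abel summation: nonnegative partial sums against an antitone weight. -/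
private lemma abel_lower (c D : ℕ → ℝ) (hc : Antitone c)
    (hP : ∀ n, 0 ≤ ∑ j ∈ range n, D j) (n : ℕ) :
    c n * ∑ j ∈ range n, D j ≤ ∑ j ∈ range n, c j * D j := by
  induction n with
  | zero => simp
  | succ n ih =>
    rw [Finset.sum_range_succ, Finset.sum_range_succ]
    have h1 : c (n + 1) * (∑ j ∈ range n, D j + D n) ≤ c n * (∑ j ∈ range n, D j + D n) := by
      apply mul_le_mul_of_nonneg_right (hc (Nat.le_succ n))
      have := hP (n + 1)
      rwa [Finset.sum_range_succ] at this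
    nlinarith

/-- Pascal for `eKer`. -/
private lemma eKer_pascal (phi : ℝ) (m j : ℕ) :
    eKer phi (m + 1) (j + 1) = (1 - phi) * eKer phi m (j + 1) + phi * eKer phi m j := by
  unfold eKer
  have hch : (((m + 1).choose (j + 1) : ℕ) : ℝ) = (m.choose j : ℝ) + (m.choose (j + 1) : ℝ) := by
    rw [Nat.choose_succ_succ]
    push_cast
    ring
  rw [hch]
  rcases Nat.lt_or_ge m (j + 1) with h | h
  · rw [Nat.choose_eq_zero_of_lt h]
    have e1 : m + 1 - (j + 1) = m - j := by omega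
    rw [e1]
    simp only [Nat.cast_zero, add_zero, zero_mul, mul_zero]
    ring
  · have e1 : m + 1 - (j + 1) = m - j := by omega
    have e2 : m - j = (m - (j + 1)) + 1 := by omega
    rw [e1, e2]
    have e3 : (m - (j + 1)) + 1 - 1 = m - (j + 1) := by omega
    ring

private lemma cJ_anti_step (hr : 0 < r) (hp : FinPassive p L) {lam : ℝ} (hl : lam ∈ Icc (0 : ℝ) 1)
    (j : ℕ) : cJ p L r (lam) (j + 1) ≤ cJ p L r lam j := by
  have hφ0 := fPhi_nonneg hr hl.1 hl.2
  have hφ1 := fPhi_le_one hr hl.2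
  set φ := fPhi r lam with hφ
  rcases hφ0.eq_or_lt with h0 | hpos
  · -- φ = 0
    have hz : cJ p L r lam (j + 1) = 0 := by
      unfold cJ
      apply Finset.sum_eq_zero
      intro m _
      rw [← hφ, ← h0]
      unfold eKer
      simp
    rw [hz]
    exact cJ_nonneg hr hp hl.1 hl.2 j
  · have key : ∀ m, φ * (eKer φ m j - eKer φ m (j + 1)) =
        eKer φ (m + 1) (j + 1) - eKer φ m (j + 1) := by
      intro m
      rw [eKer_pascal]
      ring
    have hE0 : ∀ n, 0 ≤ ∑ m ∈ range n, (eKer φ (m + 1) (j + 1) - eKer φ m (j + 1)) := by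
      intro n
      rw [Finset.sum_range_sub (fun m => eKer φ m (j + 1)) n]
      have : eKer φ 0 (j + 1) = 0 := by
        unfold eKer
        simp
      rw [this, sub_zero]
      exact eKer_nonneg hφ0 hφ1 n (j + 1)
    have habel := abel_lower p (fun m => eKer φ (m + 1) (j + 1) - eKer φ m (j + 1)) hp.anti hE0 (L + 1)
    have hlast : 0 ≤ p (L + 1) * ∑ m ∈ range (L + 1), (eKer φ (m + 1) (j + 1) - eKer φ m (j + 1)) :=
      mul_nonneg (hp.nonneg _) (hE0 _)
    have hsum : φ * (cJ p L r lam j - cJ p L r lam (j + 1)) =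
        ∑ m ∈ range (L + 1), p m * (eKer φ (m + 1) (j + 1) - eKer φ m (j + 1)) := by
      unfold cJ
      rw [← Finset.sum_sub_distrib, Finset.mul_sum]
      apply Finset.sum_congr rfl
      intro m _
      rw [← hφ, ← key m]
      ring
    have : 0 ≤ φ * (cJ p L r lam j - cJ p L r lam (j + 1)) := by
      rw [hsum]
      linarith
    have h2 := nonneg_of_mul_nonneg_right this hpos
    linarith

private lemma gKer_pascal_succ {chi w : ℝ} (j k : ℕ) :
    gKer chi w (j + 1) (k + 1) = w * gKer chi w (j + 1) k + chi * gKer chi w j k := by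
  unfold gKer
  have hch : (((k + 1).choose (j + 1) : ℕ) : ℝ) = (k.choose j : ℝ) + (k.choose (j + 1) : ℝ) := by
    rw [Nat.choose_succ_succ]
    push_cast
    ring
  rw [hch]
  rcases Nat.lt_or_ge k (j + 1) with h | h
  · rw [Nat.choose_eq_zero_of_lt h]
    have e1 : k + 1 - (j + 1) = k - j := by omega
    rw [e1]
    simp only [Nat.cast_zero, add_zero, zero_mul, mul_zero]
    ring
  · have e1 : k + 1 - (j + 1) = k - j := by omega
    have e2 : k - j = (k - (j + 1)) + 1 := by omega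
    rw [e1, e2]
    ring

private lemma gKer_zero_succ {chi w : ℝ} (k : ℕ) :
    gKer chi w 0 (k + 1) = w * gKer chi w 0 k := by
  unfold gKer
  simp only [Nat.choose_zero_right, Nat.cast_one, one_mul, zero_add, pow_one, Nat.sub_zero]
  ring

/-- `H_i(k) - H_i(k+1) = χ g_i(k)`. -/
private lemma partial_sum_diff {chi w : ℝ} (h : chi + w = 1) (k n : ℕ) :
    ∑ j ∈ range (n + 1), (gKer chi w j k - gKer chi w j (k + 1)) = chi * gKer chi w n k := by
  induction n with
  | zero =>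
    simp only [zero_add, Finset.sum_range_one]
    rw [gKer_zero_succ]
    have : w = 1 - chi := by linarith
    rw [this]
    ring
  | succ n ih =>
    rw [Finset.sum_range_succ, ih, gKer_pascal_succ]
    have : w = 1 - chi := by linarith
    rw [this]
    ring

theorem flow_antitone (hr : 0 < r) (hp : FinPassive p L) {lam : ℝ} (hl : lam ∈ Icc (0 : ℝ) 1) :
    Antitone (flow p L r lam) := by
  apply antitone_nat_of_succ_le
  intro k
  have hc : Antitone (cJ p L r lam) :=
    antitone_nat_of_succ_le (fun j => cJ_anti_step hr hp hl j)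
  have hχ := fChi_pos hr hl.2
  have hw := fW_nonneg hr hl.2
  have hsum := fChi_add_fW hr hl.2
  have hP : ∀ n, 0 ≤ ∑ j ∈ range n,
      (gKer (fChi r lam) (fW r lam) j k - gKer (fChi r lam) (fW r lam) j (k + 1)) := by
    intro n
    cases n with
    | zero => simp
    | succ n =>
      rw [partial_sum_diff hsum]
      exact mul_nonneg hχ.le (gKer_nonneg hχ.le hw n k)
  have habel := abel_lower (cJ p L r lam) _ hc hP (L + 1)
  have hlast := mul_nonneg (cJ_nonneg hr hp hl.1 hl.2 (L + 1)) (hP (L + 1))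
  have hdiff : flow p L r lam k - flow p L r lam (k + 1) =
      ∑ j ∈ range (L + 1), cJ p L r lam j *
        (gKer (fChi r lam) (fW r lam) j k - gKer (fChi r lam) (fW r lam) j (k + 1)) := by
    unfold flow
    rw [← Finset.sum_sub_distrib]
    apply Finset.sum_congr rfl
    intro j _
    ring
  linarith

theorem flow_upper (hr : 0 < r) (hp : FinPassive p L) :
    ∃ c w : ℝ, 0 < c ∧ 0 < w ∧ w < 1 ∧ ∀ lam ∈ Icc (0 : ℝ) 1, ∀ k, flow p L r lam k ≤ c * w ^ k := by
  set w₀ : ℝ := r / (1 + r) with hw₀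
  have hw₀pos : 0 < w₀ := by positivity
  have hw₀lt : w₀ < 1 := by
    rw [hw₀, div_lt_one (by positivity)]
    linarith
  set W : ℝ := (1 + w₀) / 2 with hW
  have hWpos : 0 < W := by positivity
  have hWlt : W < 1 := by rw [hW]; linarith
  set x : ℝ := w₀ / W with hx
  have hxpos : 0 < x := by positivity
  have hxlt : x < 1 := by
    rw [hx, div_lt_one hWpos, hW]
    linarith
  have h1x : 0 < 1 - x := by linarith
  -- per-kernel constant
  set K : ℕ → ℝ := fun j => 1 / ((1 - x) ^ (j + 1) * W ^ j) with hK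
  have hKpos : ∀ j, 0 < K j := by
    intro j
    rw [hK]
    positivity
  have hbound : ∀ j k : ℕ, (k.choose j : ℝ) * w₀ ^ (k - j) ≤ K j * W ^ k := by
    intro j k
    rcases Nat.lt_or_ge k j with hlt | hge
    · rw [Nat.choose_eq_zero_of_lt hlt]
      simp only [Nat.cast_zero, zero_mul]
      exact mul_nonneg (hKpos j).le (by positivity)
    · have hs := gKer_hasSum (chi := 1 - x) (w := x) (by ring) h1x hxpos.le j
      have hle := le_hasSum hs k (fun i _ => gKer_nonneg h1x.le hxpos.le j i)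
      unfold gKer at hle
      have e0 : x ^ (k - j) = w₀ ^ (k - j) / W ^ (k - j) := by
        rw [hx, div_pow]
      have eW : W ^ k = W ^ (k - j) * W ^ j := by
        rw [← pow_add]
        congr 1
        omega
      rw [e0] at hle
      have hpp : 0 < (1 - x) ^ (j + 1) := by positivity
      have hpW : 0 < W ^ (k - j) := by positivity
      have hpW2 : 0 < W ^ j := by positivity
      rw [hK]
      simp only
      rw [eW]
      have e1 : 1 / ((1 - x) ^ (j + 1) * W ^ j) * (W ^ (k - j) * W ^ j) =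
          W ^ (k - j) / (1 - x) ^ (j + 1) := by
        field_simp
      rw [e1, le_div_iff₀ hpp]
      have e2 : (k.choose j : ℝ) * (1 - x) ^ (j + 1) * (w₀ ^ (k - j) / W ^ (k - j)) ≤ 1 := hle
      have e3 : (k.choose j : ℝ) * w₀ ^ (k - j) * (1 - x) ^ (j + 1) =
          ((k.choose j : ℝ) * (1 - x) ^ (j + 1) * (w₀ ^ (k - j) / W ^ (k - j))) * W ^ (k - j) := by
        field_simp
      rw [e3]
      nlinarith
  refine ⟨∑ j ∈ range (L + 1), K j, W, ?_, hWpos, hWlt, ?_⟩
  · apply Finset.sum_pos (fun j _ => hKpos j)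
    exact ⟨0, by simp⟩
  · intro lam hl k
    unfold flow
    rw [Finset.sum_mul]
    apply Finset.sum_le_sum
    intro j hj
    have hc0 := cJ_nonneg hr hp hl.1 hl.2 j
    have hc1 : cJ p L r lam j ≤ 1 := by
      have := Finset.single_le_sum (f := fun j => cJ p L r lam j)
        (fun i _ => cJ_nonneg hr hp hl.1 hl.2 i) hj
      rwa [sum_cJ_eq_one hp] at this
    have hχ0 := fChi_pos hr hl.2
    have hχ1 : fChi r lam ≤ 1 := by
      have := fChi_add_fW hr hl.2
      have := fW_nonneg hr hl.2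
      linarith
    have hw0 := fW_nonneg hr hl.2
    have hw1 : fW r lam ≤ w₀ := by
      unfold fW
      rw [hw₀]
      have hθ0 : 0 ≤ r * (1 - lam) := mul_nonneg hr.le (by linarith [hl.2])
      have hθ1 : r * (1 - lam) ≤ r := by nlinarith [hl.1]
      rw [div_le_div_iff₀ (by linarith) (by linarith)]
      nlinarith
    have hg : gKer (fChi r lam) (fW r lam) j k ≤ (k.choose j : ℝ) * w₀ ^ (k - j) := by
      unfold gKer
      have h1 : fChi r lam ^ (j + 1) ≤ 1 := pow_le_one₀ hχ0.le hχ1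
      have h2 : fW r lam ^ (k - j) ≤ w₀ ^ (k - j) := pow_le_pow_left₀ hw0 hw1 _
      have h3 : 0 ≤ fChi r lam ^ (j + 1) := by positivity
      have h4 : 0 ≤ fW r lam ^ (k - j) := by positivity
      have h5 : (0:ℝ) ≤ (k.choose j : ℝ) := by positivity
      calc (k.choose j : ℝ) * fChi r lam ^ (j + 1) * fW r lam ^ (k - j)
          ≤ (k.choose j : ℝ) * 1 * w₀ ^ (k - j) := by
            apply mul_le_mul _ h2 h4 (by positivity)
            exact mul_le_mul_of_nonneg_left h1 h5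
        _ = (k.choose j : ℝ) * w₀ ^ (k - j) := by ring
    have hg0 : 0 ≤ gKer (fChi r lam) (fW r lam) j k := gKer_nonneg hχ0.le hw0 j k
    calc cJ p L r lam j * gKer (fChi r lam) (fW r lam) j k
        ≤ 1 * gKer (fChi r lam) (fW r lam) j k := mul_le_mul_of_nonneg_right hc1 hg0
      _ ≤ K j * W ^ k := by
          rw [one_mul]
          exact hg.trans (hbound j k)

private lemma p_zero_pos (hp : FinPassive p L) : 0 < p 0 := by
  have h0 : 0 ≤ p 0 := hp.nonneg 0
  rcases h0.eq_or_lt with h | h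
  · exfalso
    have hz : ∀ k, p k = 0 := by
      intro k
      have h1 : p k ≤ p 0 := hp.anti (Nat.zero_le k)
      have h2 := hp.nonneg k
      linarith
    have := hp.sum_one
    simp [hz] at this
  · exact h

theorem flow_lower (hr : 0 < r) (hp : FinPassive p L) {lam₁ : ℝ} (h1 : lam₁ < 1) :
    ∃ c w : ℝ, 0 < c ∧ 0 < w ∧ w ≤ 1 ∧ ∀ lam ∈ Icc (0 : ℝ) lam₁, ∀ k, c * w ^ k ≤ flow p L r lam k := by
  have hp0 := p_zero_pos hp
  set ll : ℝ := max lam₁ 0 with hll
  have hll1 : ll < 1 := max_lt h1 (by norm_num)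
  set w₁ : ℝ := r * (1 - ll) / (1 + r) with hw₁
  have h1ll : 0 < 1 - ll := by linarith
  have hw₁pos : 0 < w₁ := by positivity
  have hw₁le : w₁ ≤ 1 := by
    rw [hw₁, div_le_one (by positivity)]
    have : ll ≥ 0 := le_max_right _ _
    nlinarith
  refine ⟨p 0 * (1 / (1 + r)), w₁, by positivity, hw₁pos, hw₁le, ?_⟩
  intro lam hl k
  have hl2 : lam ≤ 1 := by linarith [hl.2]
  have hl' : lam ∈ Icc (0:ℝ) 1 := ⟨hl.1, hl2⟩
  have hχ0 := fChi_pos hr hl2
  have hw0 := fW_nonneg hr hl2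
  have hterm : 0 ≤ ∑ j ∈ range (L + 1), cJ p L r lam j * gKer (fChi r lam) (fW r lam) j k := by
    apply Finset.sum_nonneg
    intro j _
    exact mul_nonneg (cJ_nonneg hr hp hl.1 hl2 j) (gKer_nonneg hχ0.le hw0 j k)
  have hsingle := Finset.single_le_sum
    (f := fun j => cJ p L r lam j * gKer (fChi r lam) (fW r lam) j k)
    (fun j _ => mul_nonneg (cJ_nonneg hr hp hl.1 hl2 j) (gKer_nonneg hχ0.le hw0 j k))
    (Finset.mem_range.mpr (Nat.succ_pos L) : 0 ∈ range (L + 1))
  have hc0 : p 0 ≤ cJ p L r lam 0 := by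
    unfold cJ
    have hs := Finset.single_le_sum
      (f := fun m => p m * eKer (fPhi r lam) m 0)
      (fun m _ => mul_nonneg (hp.nonneg m)
        (eKer_nonneg (fPhi_nonneg hr hl.1 hl2) (fPhi_le_one hr hl2) m 0))
      (Finset.mem_range.mpr (Nat.succ_pos L) : 0 ∈ range (L + 1))
    have e : eKer (fPhi r lam) 0 0 = 1 := by
      unfold eKer
      simp
    simp only [e, mul_one] at hs
    exact hs
  have hχ1 : 1 / (1 + r) ≤ fChi r lam := by
    unfold fChi
    have hθ : r * (1 - lam) ≤ r := by nlinarith [hl.1]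
    have hd := flow_denom_pos hr hl2
    apply one_div_le_one_div_of_le hd
    linarith
  have hw1 : w₁ ≤ fW r lam := by
    unfold fW
    rw [hw₁]
    have hd := flow_denom_pos hr hl2
    have hθ1 : r * (1 - lam) ≤ r := by nlinarith [hl.1]
    have hlle : lam ≤ ll := le_trans hl.2 (le_max_left _ _)
    have hθ2 : r * (1 - ll) ≤ r * (1 - lam) := by nlinarith
    have hθ0 : 0 ≤ r * (1 - ll) := by positivity
    rw [div_le_div_iff₀ (by positivity) hd]
    nlinarith
  have hg : (1 / (1 + r)) * w₁ ^ k ≤ gKer (fChi r lam) (fW r lam) 0 k := by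
    unfold gKer
    simp only [Nat.choose_zero_right, Nat.cast_one, one_mul, zero_add, pow_one, Nat.sub_zero]
    apply mul_le_mul hχ1 (pow_le_pow_left₀ hw₁pos.le hw1 _) (by positivity) hχ0.le
  unfold flow
  calc p 0 * (1 / (1 + r)) * w₁ ^ k = p 0 * ((1 / (1 + r)) * w₁ ^ k) := by ring
    _ ≤ cJ p L r lam 0 * gKer (fChi r lam) (fW r lam) 0 k := by
        apply mul_le_mul hc0 hg (by positivity)
        exact cJ_nonneg hr hp hl.1 hl2 0
    _ ≤ _ := hsingle

theorem flow_good (hr : 0 < r) (hp : FinPassive p L) {lam : ℝ} (h0 : 0 ≤ lam) (h1 : lam < 1) :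
    Good (flow p L r lam) := by
  have hl' : lam ∈ Icc (0:ℝ) 1 := ⟨h0, h1.le⟩
  obtain ⟨c, w, hc, hw, hw1, hlow⟩ := flow_lower hr hp h1
  obtain ⟨c', w', hc', hw', hw1', hup⟩ := flow_upper hr hp
  have hmem : lam ∈ Icc (0:ℝ) lam := ⟨h0, le_rfl⟩
  refine ⟨?_, flow_antitone hr hp hl', flow_hasSum hr hp hl', ⟨c, w, hc, hw, hw1, hlow lam hmem⟩,
    ⟨c', w', hc', hw', hw1', hup lam hl'⟩⟩
  intro k
  have := hlow lam hmem k
  have hpos : 0 < c * w ^ k := by positivity
  linarith

end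

end Vale.Agent.Lib.P369
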