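import Vale.Agent.Lib.P369.FlowBounds

/-!
# JOB M7: properties of the single-mode flow kernel `Eker` (P369)

`flow p L r λ k = ∑_{m≤L} p m * Eker r λ k m` (swap finite sums; `eKer φ m j = 0` for `j > m`).

Most lemmas below: same proofs as `FlowBasic.lean`, `FlowBounds.lean` with `p = δ_m` (these only use the support of `p`), or from `flow` lemmas through `δ_m = (m+1) U_m - m U_{m-1}` where `U_m` is the uniform passive distribution on `{0..m}`.
 `Eker_one`: `Eker r 1 k m = [k = m]`;  `Eker_zero`: `Eker r 0 k m = τ_r(k)`;  `Eker_zero_right`: `Eker r λ k 0 = χ w^k`.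
 `Eker_upper`: for `m ≤ L`, uniformly in `λ`: `Eker r λ k m ≤ c w^k`;
 `seq_flow_antitone`: `u` antitone, nonnegative, `u m = 0` for `m > L`, `λ ∈ [0,1]` then `k ↦ ∑_{m≤L} u m * Eker r λ k m` is antitone: this is `flow_antitone` after dividing by the mass `∑ u` (if the mass is `0`, then `u = 0` on `range (L+1)`).
-/

namespace Vale.Agent.Lib.P369

open Finset Set

noncomputable section

variable {r : ℝ}

lemma eKer_eq_zero_of_lt (phi : ℝ) {m j : ℕ} (h : m < j) : eKer phi m j = 0 := by
  unfold eKer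
  rw [Nat.choose_eq_zero_of_lt h]
  simp

lemma flow_eq_sum_Eker (p : ℕ → ℝ) (L : ℕ) (r lam : ℝ) (k : ℕ) :
    flow p L r lam k = ∑ m ∈ range (L + 1), p m * Eker r lam k m := by
  unfold flow cJ
  simp_rw [Finset.sum_mul]
  rw [Finset.sum_comm]
  apply Finset.sum_congr rfl
  intro m hm
  have hm' : m ≤ L := by simpa [Nat.lt_succ_iff] using hm
  unfold Eker
  rw [Finset.mul_sum]
  have hsub : range (m + 1) ⊆ range (L + 1) := by
    intro x hx
    simp only [Finset.mem_range] at hx ⊢
    omega
  rw [← Finset.sum_subset hsub]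
  · apply Finset.sum_congr rfl
    intro j _
    ring
  · intro j hj hj2
    simp only [Finset.mem_range] at hj hj2
    rw [eKer_eq_zero_of_lt _ (by omega : m < j)]
    simp

lemma Eker_one (hr : 0 < r) (k m : ℕ) : Eker r 1 k m = if k = m then 1 else 0 := by
  have hχ : fChi r 1 = 1 := by simp [fChi]
  have hw : fW r 1 = 0 := by simp [fW]
  have hφ : fPhi r 1 = 1 := by simp [fPhi]
  have he : ∀ m j, eKer 1 m j = if m = j then 1 else 0 := by
    intro m j
    unfold eKer
    rcases lt_trichotomy m j with h | h | h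
    · rw [Nat.choose_eq_zero_of_lt h, if_neg (by omega)]
      simp
    · subst h
      simp
    · have : m - j ≠ 0 := by omega
      rw [if_neg (by omega)]
      simp [this]
  have hg : ∀ j k, gKer 1 0 j k = if j = k then 1 else 0 := by
    intro j k
    unfold gKer
    rcases lt_trichotomy k j with h | h | h
    · rw [Nat.choose_eq_zero_of_lt h, if_neg (by omega)]
      simp
    · subst h
      simp
    · have : k - j ≠ 0 := by omega
      rw [if_neg (by omega)]
      simp [this]
  unfold Eker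
  rw [hχ, hw, hφ]
  rw [Finset.sum_eq_single m]
  · rw [he, if_pos rfl, one_mul, hg]
    by_cases h : k = m
    · rw [if_pos h, if_pos h.symm]
    · rw [if_neg h, if_neg (fun h' => h h'.symm)]
  · intro j _ hj
    rw [he, if_neg (fun h' => hj h'.symm), zero_mul]
  · intro h
    simp at h

lemma Eker_zero (hr : 0 < r) (k m : ℕ) : Eker r 0 k m = tauTh r k := by
  have hφ : fPhi r 0 = 0 := by simp [fPhi]
  have he : ∀ m j, eKer 0 m j = if j = 0 then 1 else 0 := by
    intro m j
    unfold eKer
    by_cases h : j = 0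
    · subst h
      simp
    · simp [h]
  unfold Eker
  rw [hφ, Finset.sum_eq_single 0]
  · rw [he, if_pos rfl, one_mul]
    unfold gKer tauTh fChi fW
    simp only [Nat.choose_zero_right, Nat.cast_one, one_mul, zero_add, pow_one, Nat.sub_zero,
      sub_zero, mul_one]
    have h1 : (1:ℝ) + r ≠ 0 := by positivity
    have h2 : r + 1 ≠ 0 := by positivity
    rw [div_pow, add_comm 1 r]
    field_simp
    ring
  · intro j _ hj
    rw [he, if_neg hj, zero_mul]
  · intro h
    simp at h

lemma Eker_zero_right (hr : 0 < r) {lam : ℝ} (hl : lam ∈ Icc (0 : ℝ) 1) (k : ℕ) :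
    Eker r lam k 0 = fChi r lam * fW r lam ^ k := by
  unfold Eker eKer gKer
  simp

lemma Eker_nonneg (hr : 0 < r) {lam : ℝ} (hl : lam ∈ Icc (0 : ℝ) 1) (k m : ℕ) :
    0 ≤ Eker r lam k m := by
  unfold Eker
  apply Finset.sum_nonneg
  intro j _
  exact mul_nonneg (eKer_nonneg (fPhi_nonneg hr hl.1 hl.2) (fPhi_le_one hr hl.2) m j)
    (gKer_nonneg (fChi_pos hr hl.2).le (fW_nonneg hr hl.2) j k)

lemma Eker_hasSum (hr : 0 < r) {lam : ℝ} (hl : lam ∈ Icc (0 : ℝ) 1) (m : ℕ) :
    HasSum (fun k => Eker r lam k m) 1 := by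
  have h1 : ∀ j ∈ range (m + 1),
      HasSum (fun k => eKer (fPhi r lam) m j * gKer (fChi r lam) (fW r lam) j k)
        (eKer (fPhi r lam) m j) := by
    intro j _
    have := (gKer_hasSum (fChi_add_fW hr hl.2) (fChi_pos hr hl.2) (fW_nonneg hr hl.2) j).mul_left
      (eKer (fPhi r lam) m j)
    simpa using this
  have h2 := hasSum_sum h1
  rw [sum_eKer_eq_one _ (le_refl m)] at h2
  exact h2

lemma Eker_continuousOn (hr : 0 < r) (k m : ℕ) :
    ContinuousOn (fun y => Eker r y k m) (Icc 0 1) := by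
  have hd : ∀ y ∈ Icc (0:ℝ) 1, 1 + r * (1 - y) ≠ 0 := fun y hy => (flow_denom_pos hr hy.2).ne'
  have hden : ContinuousOn (fun y : ℝ => 1 + r * (1 - y)) (Icc 0 1) := by fun_prop
  have hχ : ContinuousOn (fun y => fChi r y) (Icc 0 1) := by
    unfold fChi
    exact continuousOn_const.div hden hd
  have hw : ContinuousOn (fun y => fW r y) (Icc 0 1) := by
    unfold fW
    exact (by fun_prop : ContinuousOn (fun y : ℝ => r * (1 - y)) (Icc 0 1)).div hden hd
  have hφ : ContinuousOn (fun y => fPhi r y) (Icc 0 1) := by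
    unfold fPhi
    exact continuousOn_id.div hden hd
  unfold Eker
  apply continuousOn_finsetSum
  intro j _
  apply ContinuousOn.mul
  · unfold eKer
    exact (continuousOn_const.mul (hφ.pow j)).mul ((continuousOn_const.sub hφ).pow (m - j))
  · unfold gKer
    exact (continuousOn_const.mul (hχ.pow (j + 1))).mul (hw.pow (k - j))

/-- The uniform distribution on `{0,…,L}`. -/
private def unifD (L : ℕ) (k : ℕ) : ℝ := if k ≤ L then 1 / ((L : ℝ) + 1) else 0

private lemma unifD_passive (L : ℕ) : FinPassive (unifD L) L where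
  nonneg k := by
    unfold unifD
    split_ifs <;> positivity
  anti := by
    intro a b hab
    unfold unifD
    by_cases hb : b ≤ L
    · rw [if_pos hb, if_pos (hab.trans hb)]
    · rw [if_neg hb]
      split_ifs <;> first | positivity | exact le_refl _
  support k hk := by
    unfold unifD
    rw [if_neg (by omega)]
  sum_one := by
    have : ∀ k ∈ range (L + 1), unifD L k = 1 / ((L : ℝ) + 1) := by
      intro k hk
      unfold unifD
      rw [if_pos]
      simpa [Nat.lt_succ_iff] using hk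
    rw [Finset.sum_congr rfl this, Finset.sum_const, Finset.card_range, nsmul_eq_mul]
    push_cast
    field_simp

lemma Eker_upper (hr : 0 < r) (L : ℕ) :
    ∃ c w : ℝ, 0 < c ∧ 0 < w ∧ w < 1 ∧ ∀ lam ∈ Icc (0 : ℝ) 1, ∀ m, m ≤ L → ∀ k,
      Eker r lam k m ≤ c * w ^ k := by
  obtain ⟨c, w, hc, hw, hw1, h⟩ := flow_upper hr (unifD_passive L)
  refine ⟨((L : ℝ) + 1) * c, w, by positivity, hw, hw1, ?_⟩
  intro lam hl m hm k
  have h1 := h lam hl k
  rw [flow_eq_sum_Eker] at h1
  have h2 : unifD L m * Eker r lam k m ≤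
      ∑ m ∈ range (L + 1), unifD L m * Eker r lam k m := by
    apply Finset.single_le_sum (f := fun m => unifD L m * Eker r lam k m)
    · intro i _
      exact mul_nonneg ((unifD_passive L).nonneg i) (Eker_nonneg hr hl k i)
    · simpa [Nat.lt_succ_iff] using hm
  have h3 : unifD L m = 1 / ((L : ℝ) + 1) := by
    unfold unifD
    rw [if_pos hm]
  rw [h3] at h2
  have hL : (0:ℝ) < (L : ℝ) + 1 := by positivity
  have h4 : 1 / ((L : ℝ) + 1) * Eker r lam k m ≤ c * w ^ k := h2.trans h1
  calc Eker r lam k m = ((L : ℝ) + 1) * (1 / ((L : ℝ) + 1) * Eker r lam k m) := by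
        field_simp
    _ ≤ ((L : ℝ) + 1) * (c * w ^ k) := mul_le_mul_of_nonneg_left h4 hL.le
    _ = _ := by ring

lemma seq_flow_antitone (hr : 0 < r) {u : ℕ → ℝ} {L : ℕ} (h0 : ∀ k, 0 ≤ u k) (ha : Antitone u)
    (hs : ∀ k, L < k → u k = 0) {lam : ℝ} (hl : lam ∈ Icc (0 : ℝ) 1) :
    Antitone (fun k => ∑ m ∈ range (L + 1), u m * Eker r lam k m) := by
  set M : ℝ := ∑ m ∈ range (L + 1), u m with hM
  have hM0 : 0 ≤ M := Finset.sum_nonneg fun i _ => h0 i
  rcases hM0.eq_or_lt with hz | hp
  · have hzero : ∀ m ∈ range (L + 1), u m = 0 := by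
      have := (Finset.sum_eq_zero_iff_of_nonneg (fun i _ => h0 i)).1 hz.symm
      exact this
    intro a b _
    simp only
    rw [Finset.sum_eq_zero (fun m hm => by rw [hzero m hm, zero_mul]),
      Finset.sum_eq_zero (fun m hm => by rw [hzero m hm, zero_mul])]
  · have hP : FinPassive (fun k => u k / M) L := by
      refine ⟨fun k => div_nonneg (h0 k) hp.le, ?_, ?_, ?_⟩
      · intro a b hab
        exact div_le_div_of_nonneg_right (ha hab) hp.le
      · intro k hk
        rw [hs k hk, zero_div]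
      · rw [← Finset.sum_div, ← hM, div_self hp.ne']
    have hA := flow_antitone hr hP hl
    intro a b hab
    have h1 := hA hab
    rw [flow_eq_sum_Eker, flow_eq_sum_Eker] at h1
    have e : ∀ k, ∑ m ∈ range (L + 1), u m * Eker r lam k m =
        M * ∑ m ∈ range (L + 1), u m / M * Eker r lam k m := by
      intro k
      rw [Finset.mul_sum]
      apply Finset.sum_congr rfl
      intro m _
      field_simp
    simp only
    rw [e a, e b]
    exact mul_le_mul_of_nonneg_left h1 hp.le

/-- Bounds on the parameters, for use downstream. -/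
lemma fChi_ge (hr : 0 < r) {lam : ℝ} (hl : lam ∈ Icc (0 : ℝ) 1) : 1 / (1 + r) ≤ fChi r lam := by
  unfold fChi
  have hd := flow_denom_pos hr hl.2
  apply one_div_le_one_div_of_le hd
  nlinarith [hl.1]

lemma fW_ge (hr : 0 < r) {lam lam₁ : ℝ} (hl : lam ∈ Icc (0 : ℝ) lam₁) (h1 : lam₁ < 1) :
    r * (1 - lam₁) / (1 + r) ≤ fW r lam := by
  unfold fW
  have hl1 : lam ≤ 1 := by linarith [hl.2]
  have hd := flow_denom_pos hr hl1
  have hr1 : (0:ℝ) < 1 + r := by positivity
  rw [div_le_div_iff₀ hr1 hd]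
  have h2 : 0 ≤ 1 - lam₁ := by linarith
  have h3 : 1 - lam₁ ≤ 1 - lam := by linarith [hl.2]
  have h4 : 1 + r * (1 - lam) ≤ 1 + r := by nlinarith [hl.1]
  have h5 : 0 ≤ r * (1 - lam₁) := by positivity
  calc r * (1 - lam₁) * (1 + r * (1 - lam)) ≤ r * (1 - lam₁) * (1 + r) :=
        mul_le_mul_of_nonneg_left h4 h5
    _ ≤ r * (1 - lam) * (1 + r) := by
        apply mul_le_mul_of_nonneg_right _ hr1.le
        exact mul_le_mul_of_nonneg_left h3 hr.le

end

end Vale.Agent.Lib.P369
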