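import Vale.Agent.Lib.P369.FlowKer
import Vale.Agent.Lib.P369.Flow
import Vale.Agent.Lib.P369.MultiSum

/-!
# JOB M8: the multi-mode flow (P369)

`flowM a L r λ k = ∑_{m ∈ box} a m ∏_j Eker r λ (k j) (m j)`.  `a` is `FinPassiveM a L`.

ODE `flowM_hasDerivAt`: `HasDerivAt.finset_prod`, `Eker_hasDerivAt`: `∂_λ ∏_j E(k_j,m_j) = -(1/λ) ∑_i Lgen r (E(·,m_i)) (k_i) ∏_{j≠i} E(k_j,m_j)`, and `Lgen r (q ↦ EkerM r λ (update k i q) m) (k i) = Lgen r (E(·,m_i)) (k_i) ∏_{j≠i} E(k_j,m_j)` as `Lgen` is linear.  So `= -(1/λ) LgenM r (flowM ...) k`.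

Endpoints: `Eker_one`: `EkerM r 1 k m = [k = m]`, so `flowM a L r 1 = a` (support).  `Eker_zero`: `EkerM r 0 k m = thM r k`, `flowM a L r 0 = thM r` (`sum_one`).

Nonneg, continuity: products and finite sums.

Normalisation: `∑_k EkerM r λ k m = 1` by `hasSum_pi_prod`, `Eker_hasSum`; finite sum in `m`.

Upper: `Eker_upper`: `EkerM r λ k m ≤ ∏_j c w^(k j) = c^(card ι) w^(tot k)`, for `m` in the box; `flowM ≤ c^(card ι) w^(tot k)` since `∑ a = 1`.

Lower for `λ ≤ λ₁ < 1`: the term `m = 0`: `a 0 ∏_j χ w^(k_j) ≥ a 0 χ₀^(card ι) w₀^(tot k)`, `χ₀ = 1/(1+r)`, `w₀ = r (1-λ₁)/(1+r)`, with `a 0 > 0` (antitone, sum one, so `a 0 ≥ a m` for all `m`; if `a 0 = 0`, all vanish).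

Antitone: by `antitone_of_bump`.  For direction `i`, split the box sum by `m_i`: `flowM(k) = ∑_{m' in box on other coordinates} ∏_{j≠i} E(k_j,m'_j) ∑_{q≤L} a(q,m') E(k_i, q)`, and the inner sum is antitone in `k_i` by `seq_flow_antitone`, because `q ↦ a(q,m')` is antitone, nonneg, vanishes for `q>L`.

`flowM_good`: collect for `λ ∈ [0,1)`.
-/

namespace Vale.Agent.Lib.P369

open Finset Set

noncomputable section

variable {ι : Type*} [Fintype ι] [DecidableEq ι] {a : (ι → ℕ) → ℝ} {L : ℕ} {r : ℝ}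

/-! ### Linearity of the generator -/

omit [Fintype ι] [DecidableEq ι] in
private lemma Lgen_sum_smul {α : Type*} (S : Finset α) (c : α → ℝ) (f : α → ℕ → ℝ) (r : ℝ) (k : ℕ) :
    Lgen r (fun q => ∑ m ∈ S, c m * f m q) k = ∑ m ∈ S, c m * Lgen r (f m) k := by
  classical
  unfold Lgen
  simp only [Finset.mul_sum, ← Finset.sum_sub_distrib]
  refine Finset.sum_congr rfl fun m _ => ?_
  ring

private lemma Lgen_const_mul (R : ℝ) (f : ℕ → ℝ) (r : ℝ) (k : ℕ) :
    Lgen r (fun q => R * f q) k = R * Lgen r f k := by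
  unfold Lgen
  ring

/-- Rewriting the multi-mode kernel with one coordinate updated. -/
private lemma EkerM_update (lam : ℝ) (k m : ι → ℕ) (i : ι) (q : ℕ) :
    EkerM r lam (Function.update k i q) m =
      (∏ j ∈ univ.erase i, Eker r lam (k j) (m j)) * Eker r lam q (m i) := by
  unfold EkerM
  rw [← Finset.prod_erase_mul univ _ (Finset.mem_univ i)]
  congr 1
  · refine Finset.prod_congr rfl fun j hj => ?_
    rw [Function.update_of_ne (Finset.ne_of_mem_erase hj)]
  · rw [Function.update_self]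

theorem flowM_hasDerivAt (hr : 0 < r) (a : (ι → ℕ) → ℝ) (L : ℕ) {lam : ℝ} (h0 : 0 < lam) (h1 : lam < 1)
    (k : ι → ℕ) :
    HasDerivAt (fun y => flowM a L r y k) (-(1 / lam) * LgenM r (flowM a L r lam) k) lam := by
  have hE : ∀ m : ι → ℕ, HasDerivAt (fun y => EkerM r y k m)
      (∑ i, (∏ j ∈ univ.erase i, Eker r lam (k j) (m j)) *
        (-(1 / lam) * Lgen r (fun q => Eker r lam q (m i)) (k i))) lam := by
    intro m
    have := HasDerivAt.fun_finsetProd (u := univ) (f := fun j y => Eker r y (k j) (m j))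
      (f' := fun j => -(1 / lam) * Lgen r (fun q => Eker r lam q (m j)) (k j)) (x := lam)
      (fun j _ => Eker_hasDerivAt hr h0 h1 (k j) (m j))
    simpa [EkerM, smul_eq_mul] using this
  have hF : HasDerivAt (fun y => ∑ m ∈ boxF L, a m * EkerM r y k m)
      (∑ m ∈ boxF L, a m * (∑ i, (∏ j ∈ univ.erase i, Eker r lam (k j) (m j)) *
        (-(1 / lam) * Lgen r (fun q => Eker r lam q (m i)) (k i)))) lam :=
    HasDerivAt.fun_sum (fun m _ => (hE m).const_mul (a m))
  have hval : (∑ m ∈ boxF L, a m * (∑ i, (∏ j ∈ univ.erase i, Eker r lam (k j) (m j)) *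
        (-(1 / lam) * Lgen r (fun q => Eker r lam q (m i)) (k i)))) =
      -(1 / lam) * LgenM r (flowM a L r lam) k := by
    unfold LgenM LgenDir
    rw [Finset.mul_sum]
    have : ∀ i : ι, Lgen r (fun q => flowM a L r lam (Function.update k i q)) (k i) =
        ∑ m ∈ boxF L, a m * ((∏ j ∈ univ.erase i, Eker r lam (k j) (m j)) *
          Lgen r (fun q => Eker r lam q (m i)) (k i)) := by
      intro i
      have h1 : (fun q => flowM a L r lam (Function.update k i q)) =
          fun q => ∑ m ∈ boxF L, a m * ((∏ j ∈ univ.erase i, Eker r lam (k j) (m j)) *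
            Eker r lam q (m i)) := by
        funext q
        unfold flowM
        refine Finset.sum_congr rfl fun m _ => ?_
        rw [EkerM_update]
      rw [h1, Lgen_sum_smul]
      refine Finset.sum_congr rfl fun m _ => ?_
      rw [Lgen_const_mul]
    simp only [this, Finset.mul_sum]
    rw [Finset.sum_comm]
    refine Finset.sum_congr rfl fun i _ => Finset.sum_congr rfl fun m _ => ?_
    ring
  rw [← hval]
  exact hF

theorem flowM_one (hr : 0 < r) (ha : FinPassiveM a L) (k : ι → ℕ) : flowM a L r 1 k = a k := by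
  unfold flowM
  have hE : ∀ m, EkerM r 1 k m = if k = m then 1 else 0 := by
    intro m
    unfold EkerM
    simp only [Eker_one hr]
    by_cases h : k = m
    · subst h; simp
    · rw [if_neg h]
      obtain ⟨j, hj⟩ : ∃ j, k j ≠ m j := by
        by_contra hne
        push Not at hne
        exact h (funext hne)
      exact Finset.prod_eq_zero (Finset.mem_univ j) (if_neg hj)
  simp only [hE, mul_ite, mul_one, mul_zero]
  by_cases hk : k ∈ boxF (ι := ι) L
  · rw [Finset.sum_ite_eq (boxF L) k a, if_pos hk]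
  · rw [Finset.sum_ite_eq (boxF L) k a, if_neg hk, ha.support k hk]

theorem flowM_zero (hr : 0 < r) (ha : FinPassiveM a L) (k : ι → ℕ) : flowM a L r 0 k = thM r k := by
  unfold flowM
  have hE : ∀ m, EkerM r 0 k m = thM r k := by
    intro m
    unfold EkerM thM
    simp only [Eker_zero hr]
  simp only [hE]
  rw [← Finset.sum_mul, ha.sum_one, one_mul]

omit [DecidableEq ι] in
private lemma EkerM_nonneg (hr : 0 < r) {lam : ℝ} (hl : lam ∈ Icc (0 : ℝ) 1) (k m : ι → ℕ) :
    0 ≤ EkerM r lam k m :=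
  Finset.prod_nonneg fun j _ => Eker_nonneg hr hl (k j) (m j)

theorem flowM_nonneg (hr : 0 < r) (ha : FinPassiveM a L) {lam : ℝ} (hl : lam ∈ Icc (0 : ℝ) 1)
    (k : ι → ℕ) : 0 ≤ flowM a L r lam k :=
  Finset.sum_nonneg fun m _ => mul_nonneg (ha.nonneg m) (EkerM_nonneg hr hl k m)

theorem flowM_hasSum (hr : 0 < r) (ha : FinPassiveM a L) {lam : ℝ} (hl : lam ∈ Icc (0 : ℝ) 1) :
    HasSum (flowM a L r lam) 1 := by
  have hE : ∀ m : ι → ℕ, HasSum (fun k => EkerM r lam k m) 1 := by
    intro m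
    have := hasSum_pi_prod (ι := ι) (f := fun j k => Eker r lam k (m j)) (y := fun _ => 1)
      (fun j => Eker_hasSum hr hl (m j))
    simpa [EkerM] using this
  have h := hasSum_sum (s := boxF (ι := ι) L) fun m _ => (hE m).mul_left (a m)
  simp only [mul_one] at h
  rw [ha.sum_one] at h
  exact h

theorem flowM_continuousOn (hr : 0 < r) (a : (ι → ℕ) → ℝ) (L : ℕ) (k : ι → ℕ) :
    ContinuousOn (fun y => flowM a L r y k) (Icc 0 1) := by
  unfold flowM EkerM
  refine continuousOn_finsetSum _ fun m _ => continuousOn_const.mul ?_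
  exact continuousOn_finsetProd _ fun j _ => Eker_continuousOn hr (k j) (m j)

omit [DecidableEq ι] in
/-- `∏ c w^(k j) = c^card w^tot`. -/
private lemma prod_geom (c w : ℝ) (k : ι → ℕ) :
    ∏ j, (c * w ^ k j) = c ^ Fintype.card ι * w ^ tot k := by
  rw [Finset.prod_mul_distrib, Finset.prod_const, Finset.prod_pow_eq_pow_sum]
  rfl

private lemma mem_boxF_iff {L : ℕ} {m : ι → ℕ} : m ∈ boxF (ι := ι) L ↔ ∀ j, m j ≤ L := by
  simp [boxF, Fintype.mem_piFinset]

theorem flowM_upper (hr : 0 < r) (ha : FinPassiveM a L) :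
    ∃ c w : ℝ, 0 < c ∧ 0 < w ∧ w < 1 ∧ ∀ lam ∈ Icc (0 : ℝ) 1, ∀ k,
      flowM a L r lam k ≤ c * w ^ tot k := by
  obtain ⟨c, w, hc, hw, hw1, hup⟩ := Eker_upper hr L
  refine ⟨c ^ Fintype.card ι, w, pow_pos hc _, hw, hw1, fun lam hl k => ?_⟩
  unfold flowM
  have hE : ∀ m ∈ boxF (ι := ι) L, EkerM r lam k m ≤ c ^ Fintype.card ι * w ^ tot k := by
    intro m hm
    rw [← prod_geom]
    refine Finset.prod_le_prod (fun j _ => Eker_nonneg hr hl (k j) (m j)) fun j _ => ?_
    exact hup lam hl (m j) (mem_boxF_iff.mp hm j) (k j)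
  calc ∑ m ∈ boxF L, a m * EkerM r lam k m
      ≤ ∑ m ∈ boxF L, a m * (c ^ Fintype.card ι * w ^ tot k) :=
        Finset.sum_le_sum fun m hm => mul_le_mul_of_nonneg_left (hE m hm) (ha.nonneg m)
    _ = c ^ Fintype.card ι * w ^ tot k := by
        rw [← Finset.sum_mul, ha.sum_one, one_mul]

private lemma a_zero_pos (ha : FinPassiveM a L) : 0 < a 0 := by
  by_contra h
  push Not at h
  have h1 : ∑ k ∈ boxF (ι := ι) L, a k ≤ 0 :=
    Finset.sum_nonpos fun m _ => (ha.anti (bot_le : (0 : ι → ℕ) ≤ m)).trans h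
  rw [ha.sum_one] at h1
  linarith

private lemma zero_mem_boxF : (0 : ι → ℕ) ∈ boxF (ι := ι) L := by
  rw [mem_boxF_iff]
  intro j
  simp

theorem flowM_lower (hr : 0 < r) (ha : FinPassiveM a L) {lam₁ : ℝ} (h1 : lam₁ < 1) :
    ∃ c w : ℝ, 0 < c ∧ 0 < w ∧ w ≤ 1 ∧ ∀ lam ∈ Icc (0 : ℝ) lam₁, ∀ k,
      c * w ^ tot k ≤ flowM a L r lam k := by
  have h1r : 0 < 1 + r := by linarith
  have hw₀ : 0 < r * (1 - lam₁) / (1 + r) := div_pos (mul_pos hr (by linarith)) h1r
  have hχ₀ : 0 < 1 / (1 + r) := one_div_pos.mpr h1r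
  refine ⟨a 0 * (1 / (1 + r)) ^ Fintype.card ι, min (r * (1 - lam₁) / (1 + r)) 1,
    mul_pos (a_zero_pos ha) (pow_pos hχ₀ _), lt_min hw₀ one_pos, min_le_right _ _,
    fun lam hl k => ?_⟩
  have hl1 : lam ∈ Icc (0 : ℝ) 1 := ⟨hl.1, by linarith [hl.2]⟩
  have hterm : a 0 * EkerM r lam k 0 ≤ flowM a L r lam k := by
    unfold flowM
    exact Finset.single_le_sum (f := fun m => a m * EkerM r lam k m)
      (fun m _ => mul_nonneg (ha.nonneg m) (EkerM_nonneg hr hl1 k m)) zero_mem_boxF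
  refine le_trans ?_ hterm
  rw [mul_assoc]
  refine mul_le_mul_of_nonneg_left ?_ (a_zero_pos ha).le
  rw [← prod_geom]
  unfold EkerM
  refine Finset.prod_le_prod (fun j _ => mul_nonneg hχ₀.le
    (pow_nonneg (lt_min hw₀ one_pos).le _)) fun j _ => ?_
  simp only [Pi.zero_apply]
  rw [Eker_zero_right hr hl1]
  refine mul_le_mul (fChi_ge hr hl1) ?_ (pow_nonneg (lt_min hw₀ one_pos).le _)
    (fChi_pos hr hl1.2).le
  exact pow_le_pow_left₀ (lt_min hw₀ one_pos).le
    ((min_le_left _ _).trans (fW_ge hr hl h1)) _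

/-- Split the box sum at coordinate `i`. -/
private lemma sum_boxF_split (i : ι) (F : (ι → ℕ) → ℝ) :
    ∑ m ∈ boxF (ι := ι) L, F m =
      ∑ m₀ ∈ (boxF (ι := ι) L).filter (fun m => m i = 0),
        ∑ q ∈ range (L + 1), F (Function.update m₀ i q) := by
  rw [← Finset.sum_product']
  refine Finset.sum_nbij' (fun m => (Function.update m i 0, m i))
    (fun x => Function.update x.1 i x.2) ?_ ?_ ?_ ?_ ?_
  · intro m hm
    rw [mem_boxF_iff] at hm
    simp only [Finset.mem_product, Finset.mem_filter, mem_boxF_iff, Finset.mem_range,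
      Function.update_self, and_true]
    refine ⟨fun j => ?_, by have := hm i; omega⟩
    by_cases hj : j = i
    · subst hj; simp
    · rw [Function.update_of_ne hj]; exact hm j
  · rintro ⟨m₀, q⟩ hx
    simp only [Finset.mem_product, Finset.mem_filter, mem_boxF_iff, Finset.mem_range] at hx
    rw [mem_boxF_iff]
    intro j
    by_cases hj : j = i
    · subst hj; simp; omega
    · rw [Function.update_of_ne hj]; exact hx.1.1 j
  · intro m _
    simp
  · rintro ⟨m₀, q⟩ hx
    simp only [Finset.mem_product, Finset.mem_filter, mem_boxF_iff, Finset.mem_range] at hx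
    ext j
    · by_cases hj : j = i
      · subst hj; simp [hx.1.2]
      · simp [Function.update_of_ne hj]
    · simp
  · intro m _
    simp

theorem flowM_antitone (hr : 0 < r) (ha : FinPassiveM a L) {lam : ℝ} (hl : lam ∈ Icc (0 : ℝ) 1) :
    Antitone (flowM a L r lam) := by
  refine antitone_of_bump fun i k => ?_
  unfold flowM
  rw [sum_boxF_split i, sum_boxF_split i]
  refine Finset.sum_le_sum fun m₀ hm₀ => ?_
  have hform : ∀ k' : ι → ℕ, ∑ q ∈ range (L + 1), a (Function.update m₀ i q) *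
        EkerM r lam k' (Function.update m₀ i q) =
      (∏ j ∈ univ.erase i, Eker r lam (k' j) (m₀ j)) *
        ∑ q ∈ range (L + 1), a (Function.update m₀ i q) * Eker r lam (k' i) q := by
    intro k'
    rw [Finset.mul_sum]
    refine Finset.sum_congr rfl fun q _ => ?_
    have : EkerM r lam k' (Function.update m₀ i q) =
        (∏ j ∈ univ.erase i, Eker r lam (k' j) (m₀ j)) * Eker r lam (k' i) q := by
      unfold EkerM
      rw [← Finset.prod_erase_mul univ _ (Finset.mem_univ i)]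
      congr 1
      · refine Finset.prod_congr rfl fun j hj => ?_
        rw [Function.update_of_ne (Finset.ne_of_mem_erase hj)]
      · rw [Function.update_self]
    rw [this]
    ring
  rw [hform, hform]
  have hrest : (∏ j ∈ univ.erase i, Eker r lam (bump i k j) (m₀ j)) =
      ∏ j ∈ univ.erase i, Eker r lam (k j) (m₀ j) := by
    refine Finset.prod_congr rfl fun j hj => ?_
    rw [bump_ne i k (Finset.ne_of_mem_erase hj)]
  rw [hrest, bump_same]
  refine mul_le_mul_of_nonneg_left ?_ (Finset.prod_nonneg fun j _ => Eker_nonneg hr hl _ _)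
  have hu0 : ∀ q, 0 ≤ a (Function.update m₀ i q) := fun q => ha.nonneg _
  have hua : Antitone fun q => a (Function.update m₀ i q) := by
    intro q q' hq
    refine ha.anti fun j => ?_
    by_cases hj : j = i
    · subst hj; simpa using hq
    · simp [Function.update_of_ne hj]
  have hus : ∀ q, L < q → a (Function.update m₀ i q) = 0 := by
    intro q hq
    refine ha.support _ fun hmem => ?_
    have := mem_boxF_iff.mp hmem i
    simp at this
    omega
  exact seq_flow_antitone hr hu0 hua hus hl (Nat.le_succ (k i))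

theorem flowM_good (hr : 0 < r) (ha : FinPassiveM a L) {lam : ℝ} (h0 : 0 ≤ lam) (h1 : lam < 1) :
    GoodM (flowM a L r lam) := by
  have hl : lam ∈ Icc (0 : ℝ) 1 := ⟨h0, h1.le⟩
  obtain ⟨c₁, w₁, hc₁, hw₁, hw₁1, hlow⟩ := flowM_lower hr ha h1
  obtain ⟨c₂, w₂, hc₂, hw₂, hw₂1, hup⟩ := flowM_upper hr ha
  refine ⟨fun k => ?_, flowM_antitone hr ha hl, flowM_hasSum hr ha hl,
    ⟨c₁, w₁, hc₁, hw₁, hw₁1, fun k => hlow lam ⟨h0, le_rfl⟩ k⟩,
    ⟨c₂, w₂, hc₂, hw₂, hw₂1, fun k => hup lam hl k⟩⟩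
  exact lt_of_lt_of_le (mul_pos hc₁ (pow_pos hw₁ _)) (hlow lam ⟨h0, le_rfl⟩ k)

end

end Vale.Agent.Lib.P369
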