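import Vale.Agent.Lib.P369.Defs

/-!
# JOB E15: properties of `g`, `β` and the inverse `gInv` (P369)

`g(t) = (t+1) log(t+1) - t log t`.  On `(0,∞)`: `g' = log(1+1/t) > 0`.  `g(0) = 0`, continuous on `[0,∞)` (`t log t → 0`; use `Real.continuous_mul_log`), strictly monotone on `[0,∞)`,
`g(t) ≥ log(t+1) → ∞` [`g(t) - log(t+1) = t log(1+1/t) ≥ 0`].  So `g : [0,∞) → [0,∞)` is a bijection (IVT: `intermediate_value_Icc`).

`gInv x` is the inverse (defined with `Function.invFunOn`); in particular `gInv (g t) = t` for `t ≥ 0`, `g (gInv x) = x` for `x ≥ 0`.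
`betaF` positive, antitone on `(0,∞)`.
-/

namespace Vale.Agent.Lib.P369

open Set

noncomputable section

/-- The inverse of `g` on `[0,∞)`. -/
def gInv (x : ℝ) : ℝ := Function.invFunOn gFun (Ici 0) x

lemma gFun_zero : gFun 0 = 0 := by
  simp [gFun]

private lemma gFun_continuous : Continuous gFun := by
  have h : gFun = fun t : ℝ => (fun x : ℝ => x * Real.log x) (t + 1) - (fun x : ℝ => x * Real.log x) t := by
    funext t
    simp [gFun]
  rw [h]
  exact (Real.continuous_mul_log.comp (continuous_id.add continuous_const)).sub Real.continuous_mul_log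

lemma gFun_continuousOn : ContinuousOn gFun (Ici 0) := gFun_continuous.continuousOn

lemma gFun_continuous_at_pos {t : ℝ} (_ht : 0 < t) : ContinuousAt gFun t :=
  gFun_continuous.continuousAt

private lemma gFun_hasDerivAt {t : ℝ} (ht : 0 < t) :
    HasDerivAt gFun (Real.log (t + 1) - Real.log t) t := by
  have h0 : t ≠ 0 := ht.ne'
  have h1 : t + 1 ≠ 0 := by positivity
  have hid : HasDerivAt (fun t : ℝ => t + 1) 1 t := (hasDerivAt_id' t).add_const 1
  have hA : HasDerivAt (fun t : ℝ => (t + 1) * Real.log (t + 1))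
      (1 * Real.log (t + 1) + (t + 1) * (1 / (t + 1))) t := hid.mul (hid.log h1)
  have hB : HasDerivAt (fun t : ℝ => t * Real.log t) (1 * Real.log t + t * t⁻¹) t :=
    (hasDerivAt_id' t).mul (Real.hasDerivAt_log h0)
  have hC := hA.sub hB
  refine HasDerivAt.congr_deriv hC ?_
  field_simp
  ring

lemma gFun_strictMonoOn : StrictMonoOn gFun (Ici 0) := by
  apply strictMonoOn_of_deriv_pos (convex_Ici 0) gFun_continuousOn
  intro t ht
  rw [interior_Ici] at ht
  have ht0 : 0 < t := ht
  rw [(gFun_hasDerivAt ht0).deriv]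
  have := Real.log_lt_log ht0 (by linarith : t < t + 1)
  linarith

private lemma log_le_gFun {t : ℝ} (ht : 0 ≤ t) : Real.log (t + 1) ≤ gFun t := by
  rcases ht.eq_or_lt with h | h
  · subst h
    simp [gFun]
  · have h1 : Real.log t ≤ Real.log (t + 1) := Real.log_le_log h (by linarith)
    have h2 : gFun t - Real.log (t + 1) = t * (Real.log (t + 1) - Real.log t) := by
      unfold gFun
      ring
    have h3 : 0 ≤ t * (Real.log (t + 1) - Real.log t) :=
      mul_nonneg ht (by linarith)
    linarith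

lemma gFun_surj {x : ℝ} (hx : 0 ≤ x) : ∃ t, 0 ≤ t ∧ gFun t = x := by
  have ht0 : 0 ≤ Real.exp x - 1 := by
    have := Real.add_one_le_exp x
    linarith
  have hup : x ≤ gFun (Real.exp x - 1) := by
    have := log_le_gFun ht0
    have e : Real.exp x - 1 + 1 = Real.exp x := by ring
    rw [e, Real.log_exp] at this
    exact this
  have hcont : ContinuousOn gFun (Icc 0 (Real.exp x - 1)) := gFun_continuous.continuousOn
  have hivt := intermediate_value_Icc ht0 hcont
  have hmem : x ∈ Icc (gFun 0) (gFun (Real.exp x - 1)) := by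
    rw [gFun_zero]
    exact ⟨hx, hup⟩
  obtain ⟨t, ht, hgt⟩ := hivt hmem
  exact ⟨t, ht.1, hgt⟩

private lemma gInv_spec {x : ℝ} (hx : 0 ≤ x) : ∃ a ∈ Ici (0:ℝ), gFun a = x := by
  obtain ⟨t, ht, hgt⟩ := gFun_surj hx
  exact ⟨t, ht, hgt⟩

lemma gInv_nonneg {x : ℝ} (hx : 0 ≤ x) : 0 ≤ gInv x :=
  Function.invFunOn_mem (gInv_spec hx)

lemma gFun_gInv {x : ℝ} (hx : 0 ≤ x) : gFun (gInv x) = x :=
  Function.invFunOn_eq (gInv_spec hx)

lemma gInv_gFun {t : ℝ} (ht : 0 ≤ t) : gInv (gFun t) = t := by
  have hspec : ∃ a ∈ Ici (0:ℝ), gFun a = gFun t := ⟨t, ht, rfl⟩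
  exact gFun_strictMonoOn.injOn (Function.invFunOn_mem hspec) ht (Function.invFunOn_eq hspec)

lemma betaF_pos {r : ℝ} (hr : 0 < r) : 0 < betaF r := by
  unfold betaF
  apply Real.log_pos
  have : 0 < 1 / r := by positivity
  linarith

lemma betaF_anti {r s : ℝ} (hr : 0 < r) (hrs : r ≤ s) : betaF s ≤ betaF r := by
  unfold betaF
  have hs : 0 < s := lt_of_lt_of_le hr hrs
  apply Real.log_le_log
  · positivity
  · have := one_div_le_one_div_of_le hr hrs
    linarith

lemma betaF_continuousAt {r : ℝ} (hr : 0 < r) : ContinuousAt betaF r := by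
  unfold betaF
  have h1 : ContinuousAt (fun s : ℝ => 1 + 1 / s) r :=
    continuousAt_const.add (continuousAt_const.div continuousAt_id hr.ne')
  exact h1.log (by positivity)

end

end Vale.Agent.Lib.P369
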