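import Vale.Agent.Lib.P369.AmpRec

/-!
# JOB E2: recursion for the convolution square `G = F * F` (P369)

Let `R = ℝ[X]`, `Φ = ∑ F_{m,l} s^m t^l` in the ring of double power series over `R`, e.g. `R⟦X⟧⟦X⟧`
or `MvPowerSeries (Fin 2) R`, and `D = 1 - α s - α' t + X s t`.  The recursion of `AmpRec` says `D Φ = 1`.
By definition `Gp η m l` is the coefficient of `s^m t^l` in `Φ²` (double Cauchy product).  So
`D Φ² = Φ`, which is the recursion below.  (Alternatively do it by hand with `Finset.Nat.antidiagonal_succ`.)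

Nonnegativity of coefficients: `Fp` has nonnegative coefficients (`coeff_Fp`, `Bp_nonneg`) and products
and sums of such polynomials have nonnegative coefficients (`Polynomial.coeff_mul`).
Degree: `natDegree (Fp η m l) ≤ m + l`, hence `(Gp η m l).coeff k = 0` for `k > m + l`.
-/

namespace Vale.Agent.Lib.P369

open Polynomial Finset

noncomputable section

variable {η : ℝ}

/-- The double generating function of `Fp`. -/
private def PhiS (η : ℝ) : PowerSeries (PowerSeries ℝ[X]) :=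
  PowerSeries.mk fun m => PowerSeries.mk fun l => Fp η m l

/-- `D = 1 - α s - α' t + X s t`. -/
private def DS (η : ℝ) : PowerSeries (PowerSeries ℝ[X]) :=
  1 - PowerSeries.C (PowerSeries.C (alphaP η)) * PowerSeries.X
    - PowerSeries.C (PowerSeries.C (alphaQ η) * PowerSeries.X)
    + PowerSeries.C (PowerSeries.C (Polynomial.X : ℝ[X]) * PowerSeries.X) * PowerSeries.X

private lemma DS_mul (η : ℝ) (Ψ : PowerSeries (PowerSeries ℝ[X])) :
    DS η * Ψ = Ψ - PowerSeries.C (PowerSeries.C (alphaP η)) * (PowerSeries.X * Ψ)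
      - PowerSeries.C (PowerSeries.C (alphaQ η) * PowerSeries.X) * Ψ
      + PowerSeries.C (PowerSeries.C (Polynomial.X : ℝ[X]) * PowerSeries.X) * (PowerSeries.X * Ψ) := by
  unfold DS
  ring

private lemma inner_succ (c : ℝ[X]) (ψ : PowerSeries ℝ[X]) (l : ℕ) :
    PowerSeries.coeff (l + 1) ((PowerSeries.C c * PowerSeries.X) * ψ) = c * PowerSeries.coeff l ψ := by
  rw [mul_assoc, PowerSeries.coeff_C_mul, PowerSeries.coeff_succ_X_mul]

private lemma inner_zero (c : ℝ[X]) (ψ : PowerSeries ℝ[X]) :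
    PowerSeries.coeff 0 ((PowerSeries.C c * PowerSeries.X) * ψ) = 0 := by
  rw [mul_assoc, PowerSeries.coeff_C_mul, PowerSeries.coeff_zero_X_mul, mul_zero]

private lemma cc_ss (Ψ : PowerSeries (PowerSeries ℝ[X])) (m l : ℕ) :
    PowerSeries.coeff (l + 1) (PowerSeries.coeff (m + 1) (DS η * Ψ)) =
      PowerSeries.coeff (l + 1) (PowerSeries.coeff (m + 1) Ψ)
      - alphaP η * PowerSeries.coeff (l + 1) (PowerSeries.coeff m Ψ)
      - alphaQ η * PowerSeries.coeff l (PowerSeries.coeff (m + 1) Ψ)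
      + Polynomial.X * PowerSeries.coeff l (PowerSeries.coeff m Ψ) := by
  rw [DS_mul]
  simp only [map_add, map_sub, PowerSeries.coeff_C_mul, PowerSeries.coeff_succ_X_mul, inner_succ]

private lemma cc_s0 (Ψ : PowerSeries (PowerSeries ℝ[X])) (m : ℕ) :
    PowerSeries.coeff 0 (PowerSeries.coeff (m + 1) (DS η * Ψ)) =
      PowerSeries.coeff 0 (PowerSeries.coeff (m + 1) Ψ)
      - alphaP η * PowerSeries.coeff 0 (PowerSeries.coeff m Ψ) := by
  rw [DS_mul]
  simp only [map_add, map_sub, PowerSeries.coeff_C_mul, PowerSeries.coeff_succ_X_mul, inner_zero]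
  ring

private lemma cc_0s (Ψ : PowerSeries (PowerSeries ℝ[X])) (l : ℕ) :
    PowerSeries.coeff (l + 1) (PowerSeries.coeff 0 (DS η * Ψ)) =
      PowerSeries.coeff (l + 1) (PowerSeries.coeff 0 Ψ)
      - alphaQ η * PowerSeries.coeff l (PowerSeries.coeff 0 Ψ) := by
  rw [DS_mul]
  simp only [map_add, map_sub, PowerSeries.coeff_C_mul, PowerSeries.coeff_zero_X_mul, inner_succ,
    mul_zero, map_zero]
  ring

private lemma cc_00 (Ψ : PowerSeries (PowerSeries ℝ[X])) :
    PowerSeries.coeff 0 (PowerSeries.coeff 0 (DS η * Ψ)) =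
      PowerSeries.coeff 0 (PowerSeries.coeff 0 Ψ) := by
  rw [DS_mul]
  simp only [map_add, map_sub, PowerSeries.coeff_C_mul, PowerSeries.coeff_zero_X_mul, inner_zero,
    mul_zero, map_zero]
  ring

private lemma cc_Phi (m l : ℕ) :
    PowerSeries.coeff l (PowerSeries.coeff m (PhiS η)) = Fp η m l := by
  simp [PhiS, PowerSeries.coeff_mk]

private lemma DS_mul_Phi (hη : 0 ≤ η) (hη1 : η ≤ 1) : DS η * PhiS η = 1 := by
  ext m l
  cases m with
  | zero =>
    cases l with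
    | zero =>
      rw [cc_00, cc_Phi, Fp_zero_zero hη hη1]
      simp [PowerSeries.coeff_one]
    | succ l =>
      rw [cc_0s, cc_Phi, cc_Phi, Fp_zero_succ hη hη1]
      simp [PowerSeries.coeff_one]
  | succ m =>
    cases l with
    | zero =>
      rw [cc_s0, cc_Phi, cc_Phi, Fp_succ_zero hη hη1]
      simp [PowerSeries.coeff_one]
    | succ l =>
      rw [cc_ss, cc_Phi, cc_Phi, cc_Phi, cc_Phi, Fp_succ_succ hη hη1]
      simp only [PowerSeries.coeff_one]
      simp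
      ring

private lemma cc_PhiSq (m l : ℕ) :
    PowerSeries.coeff l (PowerSeries.coeff m (PhiS η * PhiS η)) = Gp η m l := by
  rw [PowerSeries.coeff_mul, map_sum]
  unfold Gp
  refine Finset.sum_congr rfl (fun x _ => ?_)
  rw [PowerSeries.coeff_mul]
  refine Finset.sum_congr rfl (fun y _ => ?_)
  rw [cc_Phi, cc_Phi]

private lemma DS_mul_PhiSq (hη : 0 ≤ η) (hη1 : η ≤ 1) :
    DS η * (PhiS η * PhiS η) = PhiS η := by
  rw [← mul_assoc, DS_mul_Phi hη hη1, one_mul]

lemma Gp_zero_zero (hη : 0 ≤ η) (hη1 : η ≤ 1) : Gp η 0 0 = 1 := by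
  simp [Gp, Fp_zero_zero hη hη1]

lemma Gp_succ_zero (hη : 0 ≤ η) (hη1 : η ≤ 1) (m : ℕ) :
    Gp η (m + 1) 0 = alphaP η * Gp η m 0 + Fp η (m + 1) 0 := by
  have h := cc_s0 (η := η) (PhiS η * PhiS η) m
  rw [DS_mul_PhiSq hη hη1, cc_Phi, cc_PhiSq, cc_PhiSq] at h
  rw [h]; ring

lemma Gp_zero_succ (hη : 0 ≤ η) (hη1 : η ≤ 1) (l : ℕ) :
    Gp η 0 (l + 1) = alphaQ η * Gp η 0 l + Fp η 0 (l + 1) := by
  have h := cc_0s (η := η) (PhiS η * PhiS η) l
  rw [DS_mul_PhiSq hη hη1, cc_Phi, cc_PhiSq, cc_PhiSq] at h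
  rw [h]; ring

lemma Gp_succ_succ (hη : 0 ≤ η) (hη1 : η ≤ 1) (m l : ℕ) :
    Gp η (m + 1) (l + 1) =
      alphaP η * Gp η m (l + 1) + alphaQ η * Gp η (m + 1) l - X * Gp η m l +
        Fp η (m + 1) (l + 1) := by
  have h := cc_ss (η := η) (PhiS η * PhiS η) m l
  rw [DS_mul_PhiSq hη hη1, cc_Phi, cc_PhiSq, cc_PhiSq, cc_PhiSq, cc_PhiSq] at h
  rw [h]; ring

private lemma Tk_expand (k m l : ℕ) :
    Tk η k m l = ∑ x ∈ antidiagonal m, ∑ y ∈ antidiagonal l, ∑ p ∈ antidiagonal k,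
      Bp η p.1 x.1 y.1 * Bp η p.2 x.2 y.2 := by
  unfold Tk Gp
  rw [Polynomial.finsetSum_coeff]
  refine Finset.sum_congr rfl (fun x _ => ?_)
  rw [Polynomial.finsetSum_coeff]
  refine Finset.sum_congr rfl (fun y _ => ?_)
  rw [Polynomial.coeff_mul]
  refine Finset.sum_congr rfl (fun p _ => ?_)
  rw [coeff_Fp, coeff_Fp]

/-- `T̃ ≥ 0`. -/
lemma Tk_nonneg (k m l : ℕ) : 0 ≤ Tk η k m l := by
  rw [Tk_expand]
  exact Finset.sum_nonneg fun _ _ => Finset.sum_nonneg fun _ _ => Finset.sum_nonneg fun _ _ =>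
    mul_nonneg (Bp_nonneg _ _ _) (Bp_nonneg _ _ _)

/-- `T̃(k,m,l) = 0` for `k > m + l`. -/
lemma Tk_eq_zero_of_lt {k m l : ℕ} (h : m + l < k) : Tk η k m l = 0 := by
  rw [Tk_expand]
  refine Finset.sum_eq_zero fun x hx => Finset.sum_eq_zero fun y hy => Finset.sum_eq_zero fun p hp => ?_
  have hx' := Finset.HasAntidiagonal.mem_antidiagonal.1 hx
  have hy' := Finset.HasAntidiagonal.mem_antidiagonal.1 hy
  have hp' := Finset.HasAntidiagonal.mem_antidiagonal.1 hp
  by_cases h1 : x.1 + y.1 < p.1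
  · rw [Bp_eq_zero_of_lt h1, zero_mul]
  · rw [Bp_eq_zero_of_lt (show x.2 + y.2 < p.2 by omega), mul_zero]

end

end Vale.Agent.Lib.P369
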