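import Vale.Agent.Lib.P369.BondsM
import Vale.Agent.Lib.P369.Closure

/-!
# JOB M5: the output is good; thermal closure in several modes (P369)

`bsOutM_upper`: `kerM η k m l ≤ 1` and `= 0` unless `k_j ≤ m_j + l_j ∀ j`, so `tot k ≤ tot m + tot l` on the support.  With `ρ = max w w' <1`, `W = √ρ`:
 `C(k) ≤ ∑_{tot m + tot l ≥ tot k} c c' ρ^(tot m + tot l) ≤ c c' W^(tot k) ∑_{m,l} W^(tot m) W^(tot l)`.  The constants are uniform in `a,b`.

`bsOutM_lower`: keep the term `(m,l) = (k,0)`: `C(k) ≥ a(k) b(0) η^(tot k)`, by `Bp_self`: `kerM η k k 0 = ∏ η^(k j)`.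

`bsOutM_hasSum`: Fubini with `sum_kerM`.

`bsOutM_anti`: from `mul_dlD`: terms `≥ 0` (`dlD i a ≥ 0` by `a` antitone and `TT_nonneg`), with `antitone_of_bump`.

`goodM_bsOutM`: collect.

`bsOutM_thM`: `(ι→ℕ)×(ι→ℕ) ≃ ι → ℕ×ℕ`, then `hasSum_pi_prod` with single-mode `bsOut_tauTh` (its `HasSum` form; `summable_bsTerm`).

`thM_hasSum`: `hasSum_pi_prod`, `tauTh_hasSum`. `thM_good`.

`entropyM_thM`:  `negMulLog(∏ τ(k_j)) = ∑_i (negMulLog τ(k_i)) ∏_{j≠i} τ(k_j)`; for each `i`, `hasSum_pi_prod`, with `entropy_tauTh` in mode `i`, mass `1` in other modes.  Total: `card ι * g(r)`.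
-/

namespace Vale.Agent.Lib.P369

open Finset

noncomputable section

variable {ι : Type*} [Fintype ι] [DecidableEq ι] {η : ℝ} {a b : (ι → ℕ) → ℝ}

lemma bsOutM_nonneg (hη : 0 ≤ η) (hη1 : η ≤ 1) (ha : ∀ k, 0 ≤ a k) (hb : ∀ k, 0 ≤ b k)
    (k : ι → ℕ) : 0 ≤ bsOutM η a b k :=
  tsum_nonneg fun x => mul_nonneg (mul_nonneg (ha _) (hb _)) (kerM_nonneg _ _ _)

lemma tot_le_of_kerM_ne {k m l : ι → ℕ} (h : kerM η k m l ≠ 0) : tot k ≤ tot m + tot l := by
  by_contra hlt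
  have hex : ∃ j, m j + l j < k j := by
    by_contra hno
    have hno' : ∀ j, k j ≤ m j + l j := fun j => not_lt.1 fun hj => hno ⟨j, hj⟩
    have : tot k ≤ tot m + tot l := by
      unfold tot
      rw [← Finset.sum_add_distrib]
      exact Finset.sum_le_sum fun j _ => hno' j
    exact hlt this
  obtain ⟨j, hj⟩ := hex
  exact h (kerM_eq_zero j hj)

private lemma upper_term (hη : 0 ≤ η) (hη1 : η ≤ 1) {c c' w w' W : ℝ} (hc : 0 < c) (hc' : 0 < c')
    (hw : 0 < w) (hw' : 0 < w') (hW : 0 < W) (hW1 : W < 1) (hwW : w ≤ W * W) (hwW' : w' ≤ W * W)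
    {a b : (ι → ℕ) → ℝ} (ha : ∀ m, 0 ≤ a m ∧ a m ≤ c * w ^ tot m)
    (hb : ∀ l, 0 ≤ b l ∧ b l ≤ c' * w' ^ tot l) (k : ι → ℕ) (x : (ι → ℕ) × (ι → ℕ)) :
    a x.1 * b x.2 * kerM η k x.1 x.2 ≤
      c * c' * W ^ tot k * (W ^ tot x.1 * W ^ tot x.2) := by
  by_cases h0 : kerM η k x.1 x.2 = 0
  · rw [h0, mul_zero]
    positivity
  · have h1 := tot_le_of_kerM_ne h0
    have hA := ha x.1
    have hB := hb x.2
    have hE := kerM_le_one hη hη1 k x.1 x.2
    have hE0 := kerM_nonneg (η := η) k x.1 x.2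
    have h2 : w ^ tot x.1 ≤ W ^ tot x.1 * W ^ tot x.1 := by
      rw [← mul_pow]
      exact pow_le_pow_left₀ hw.le hwW _
    have h3 : w' ^ tot x.2 ≤ W ^ tot x.2 * W ^ tot x.2 := by
      rw [← mul_pow]
      exact pow_le_pow_left₀ hw'.le hwW' _
    have h4 : W ^ (tot x.1 + tot x.2) ≤ W ^ tot k := pow_le_pow_of_le_one hW.le hW1.le h1
    rw [pow_add] at h4
    have hP1 : 0 < W ^ tot x.1 := by positivity
    have hP2 : 0 < W ^ tot x.2 := by positivity
    calc a x.1 * b x.2 * kerM η k x.1 x.2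
        ≤ (c * (W ^ tot x.1 * W ^ tot x.1)) * (c' * (W ^ tot x.2 * W ^ tot x.2)) * 1 := by
          have e1 : a x.1 ≤ c * (W ^ tot x.1 * W ^ tot x.1) :=
            hA.2.trans (mul_le_mul_of_nonneg_left h2 hc.le)
          have e2 : b x.2 ≤ c' * (W ^ tot x.2 * W ^ tot x.2) :=
            hB.2.trans (mul_le_mul_of_nonneg_left h3 hc'.le)
          have e3 := hA.1
          have e4 := hB.1
          gcongr
      _ = c * c' * (W ^ tot x.1 * W ^ tot x.2) * (W ^ tot x.1 * W ^ tot x.2) := by ring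
      _ ≤ c * c' * W ^ tot k * (W ^ tot x.1 * W ^ tot x.2) := by
          gcongr

private lemma exists_W {w w' : ℝ} (hw : 0 < w) (hw1 : w < 1) (hw1' : w' < 1) :
    ∃ W : ℝ, 0 < W ∧ W < 1 ∧ w ≤ W * W ∧ w' ≤ W * W := by
  have hρ0 : 0 < max w w' := lt_max_of_lt_left hw
  have hρ1 : max w w' < 1 := max_lt hw1 hw1'
  have hW0 : 0 < Real.sqrt (max w w') := Real.sqrt_pos.2 hρ0
  have hWW : Real.sqrt (max w w') * Real.sqrt (max w w') = max w w' := Real.mul_self_sqrt hρ0.le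
  refine ⟨Real.sqrt (max w w'), hW0, ?_, ?_, ?_⟩
  · by_contra hh
    have h1 : 1 ≤ Real.sqrt (max w w') := not_lt.1 hh
    have : 1 ≤ Real.sqrt (max w w') * Real.sqrt (max w w') := by nlinarith
    linarith
  · rw [hWW]
    exact le_max_left _ _
  · rw [hWW]
    exact le_max_right _ _

private lemma exists_T {W : ℝ} (hW0 : 0 < W) (hW1 : W < 1) :
    ∃ T : ℝ, 0 ≤ T ∧ HasSum (fun x : (ι → ℕ) × (ι → ℕ) => W ^ tot x.1 * W ^ tot x.2) T := by
  have hS0 : Summable (fun m : ι → ℕ => W ^ tot m) := by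
    have h := summable_pow_tot (ι := ι) 0 hW0.le hW1
    simp only [pow_zero, one_mul] at h
    exact h
  have hD := hS0.mul_of_nonneg hS0 (fun m => pow_nonneg hW0.le _) (fun m => pow_nonneg hW0.le _)
  exact ⟨_, hD.hasSum.nonneg (fun x => by positivity), hD.hasSum⟩

/-- Uniform geometric upper bound. -/
lemma bsOutM_upper (hη : 0 ≤ η) (hη1 : η ≤ 1) {c c' w w' : ℝ} (hc : 0 < c) (hc' : 0 < c')
    (hw : 0 < w) (hw1 : w < 1) (hw' : 0 < w') (hw1' : w' < 1) :
    ∃ K W : ℝ, 0 < K ∧ 0 < W ∧ W < 1 ∧ ∀ a b : (ι → ℕ) → ℝ,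
      (∀ m, 0 ≤ a m ∧ a m ≤ c * w ^ tot m) → (∀ l, 0 ≤ b l ∧ b l ≤ c' * w' ^ tot l) →
        ∀ k, bsOutM η a b k ≤ K * W ^ tot k := by
  obtain ⟨W, hW0, hW1, hww, hww'⟩ := exists_W hw hw1 hw1'
  obtain ⟨T, hT0, hT⟩ := exists_T (ι := ι) hW0 hW1
  refine ⟨c * c' * T + 1, W, by positivity, hW0, hW1, fun a b ha hb k => ?_⟩
  have hterm := upper_term (ι := ι) hη hη1 hc hc' hw hw' hW0 hW1 hww hww' ha hb k
  have hR := hT.mul_left (c * c' * W ^ tot k)
  have hL : Summable (fun x : (ι → ℕ) × (ι → ℕ) => a x.1 * b x.2 * kerM η k x.1 x.2) :=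
    Summable.of_nonneg_of_le (fun x => mul_nonneg (mul_nonneg (ha _).1 (hb _).1)
      (kerM_nonneg _ _ _)) hterm hR.summable
  have h1 : bsOutM η a b k ≤ c * c' * W ^ tot k * T :=
    hasSum_le hterm hL.hasSum hR
  have hP : 0 < W ^ tot k := by positivity
  calc bsOutM η a b k ≤ c * c' * W ^ tot k * T := h1
    _ ≤ (c * c' * T + 1) * W ^ tot k := by nlinarith

lemma kerM_self (hη : 0 ≤ η) (hη1 : η ≤ 1) (k : ι → ℕ) : kerM η k k 0 = η ^ tot k := by
  unfold kerM tot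
  rw [← Finset.prod_pow_eq_pow_sum]
  refine Finset.prod_congr rfl fun j _ => ?_
  exact Bp_self hη hη1 (k j)

lemma bsOutM_lower (hη : 0 ≤ η) (hη1 : η ≤ 1) (ha : MOK a) (hb : MOK b) (k : ι → ℕ) :
    a k * b 0 * η ^ tot k ≤ bsOutM η a b k := by
  have hs := summable_bsOutM hη hη1 ha hb k
  have h := hs.le_tsum (k, 0) (fun x _ => mul_nonneg (mul_nonneg (ha.nonneg _) (hb.nonneg _))
    (kerM_nonneg _ _ _))
  simp only at h
  rw [kerM_self hη hη1] at h
  exact h

lemma bsOutM_hasSum (hη : 0 ≤ η) (hη1 : η ≤ 1) (ha : ∀ k, 0 ≤ a k) (hb : ∀ k, 0 ≤ b k)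
    (hsa : HasSum a 1) (hsb : HasSum b 1) : HasSum (bsOutM η a b) 1 := by
  have hprod : HasSum (fun x : (ι → ℕ) × (ι → ℕ) => a x.1 * b x.2) 1 := by
    have := hsa.mul hsb (hsa.summable.mul_of_nonneg hsb.summable ha hb)
    simpa using this
  have hF : HasSum (fun z : ((ι → ℕ) × (ι → ℕ)) × (ι → ℕ) =>
      a z.1.1 * b z.1.2 * kerM η z.2 z.1.1 z.1.2) 1 := by
    refine hasSum_prod_gen (g := fun x => a x.1 * b x.2)
      (fun z => mul_nonneg (mul_nonneg (ha _) (hb _)) (kerM_nonneg _ _ _)) (fun x => ?_) hprod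
    have := (sum_kerM hη hη1 x.1 x.2).mul_left (a x.1 * b x.2)
    rwa [mul_one] at this
  have h2 := hasSum_swap_gen hF
  simp only at h2
  exact h2.prod_fiberwise fun k => (h2.summable.prod_factor k).hasSum

lemma bsOutM_anti (hη : 0 ≤ η) (hη1 : η ≤ 1) (ha : MOK a) (hb : MOK b) :
    Antitone (bsOutM η a b) := by
  refine antitone_of_bump fun i k => ?_
  have h := mul_dlD hη hη1 ha hb i k
  have h2 : 0 ≤ ((k i : ℝ) + 1) * dlD i (bsOutM η a b) k :=
    h.nonneg fun x => mul_nonneg (mul_nonneg (dlD_nonneg ha i _) (dlD_nonneg hb i _))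
      (TT_nonneg hη hη1 i _ _ _)
  have h3 := nonneg_of_mul_nonneg_right h2 (by positivity : (0 : ℝ) < (k i : ℝ) + 1)
  unfold dlD at h3
  linarith

lemma GoodM.mok {f : (ι → ℕ) → ℝ} (hf : GoodM f) : MOK f := by
  obtain ⟨c, w, hc, hw, hw1, h⟩ := hf.upper
  exact ⟨fun k => (hf.pos k).le, hf.anti, c, w, hc.le, hw.le, hw1, h⟩

theorem goodM_bsOutM (hη : 0 < η) (hη1 : η < 1) (ha : GoodM a) (hb : GoodM b) :
    GoodM (bsOutM η a b) := by
  have hoa := ha.mok
  have hob := hb.mok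
  have hlow := bsOutM_lower hη.le hη1.le hoa hob
  refine ⟨fun k => ?_, bsOutM_anti hη.le hη1.le hoa hob,
    bsOutM_hasSum hη.le hη1.le hoa.nonneg hob.nonneg ha.hasSum hb.hasSum, ?_, ?_⟩
  · refine lt_of_lt_of_le ?_ (hlow k)
    have := ha.pos k
    have := hb.pos 0
    positivity
  · obtain ⟨c1, w1, hc1, hw1p, hw1l, hl⟩ := ha.lower
    refine ⟨c1 * b 0, w1 * η, mul_pos hc1 (hb.pos 0), mul_pos hw1p hη, ?_, fun k => ?_⟩
    · nlinarith
    · refine le_trans ?_ (hlow k)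
      have h1 := hl k
      have h2 := hb.pos 0
      have h3 : 0 ≤ η ^ tot k := by positivity
      calc c1 * b 0 * (w1 * η) ^ tot k = (c1 * w1 ^ tot k) * b 0 * η ^ tot k := by
            rw [mul_pow]
            ring
        _ ≤ a k * b 0 * η ^ tot k := by gcongr
  · obtain ⟨c, w, hc, hw, hw1, hup⟩ := ha.upper
    obtain ⟨c', w', hc', hw', hw1', hup'⟩ := hb.upper
    obtain ⟨K₀, W, h1, h2, h3, h4⟩ := bsOutM_upper (ι := ι) hη.le hη1.le hc hc' hw hw1 hw' hw1'
    exact ⟨K₀, W, h1, h2, h3, h4 a b (fun m => ⟨hoa.nonneg m, hup m⟩)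
      (fun m => ⟨hob.nonneg m, hup' m⟩)⟩

private lemma Good.seqOK {f : ℕ → ℝ} (hf : Good f) : SeqOK f := by
  obtain ⟨c, w, hc, hw, hw1, h⟩ := hf.upper
  exact ⟨fun k => (hf.pos k).le, hf.anti, c, w, hc.le, hw.le, hw1, h⟩

lemma bsOutM_thM (hη : 0 ≤ η) (hη1 : η ≤ 1) {r s : ℝ} (hr : 0 < r) (hs : 0 < s) (k : ι → ℕ) :
    bsOutM η (thM r) (thM s) k = thM (η * r + (1 - η) * s) k := by
  have hone : ∀ q : ℕ, HasSum (fun p : ℕ × ℕ => tauTh r p.1 * tauTh s p.2 * Bp η q p.1 p.2)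
      (tauTh (η * r + (1 - η) * s) q) := by
    intro q
    have h := (summable_seq_term hη hη1 (Good.seqOK (tauTh_good hr))
      (Good.seqOK (tauTh_good hs)) q).hasSum
    rw [← bsOut_tauTh hη hη1 hr hs q]
    exact h
  have h := hasSum_pi_prod (ι := ι)
    (f := fun j (p : ℕ × ℕ) => tauTh r p.1 * tauTh s p.2 * Bp η (k j) p.1 p.2)
    (y := fun j => tauTh (η * r + (1 - η) * s) (k j)) (fun j => hone (k j))
  let E := Equiv.arrowProdEquivProdArrow ι (fun _ => ℕ) (fun _ => ℕ)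
  have h2 : HasSum ((fun x : (ι → ℕ) × (ι → ℕ) => thM r x.1 * thM s x.2 * kerM η k x.1 x.2) ∘ E)
      (thM (η * r + (1 - η) * s) k) := by
    have e : ((fun x : (ι → ℕ) × (ι → ℕ) => thM r x.1 * thM s x.2 * kerM η k x.1 x.2) ∘ E) =
        fun x : ι → ℕ × ℕ => ∏ j, (tauTh r (x j).1 * tauTh s (x j).2 *
          Bp η (k j) (x j).1 (x j).2) := by
      funext x
      simp only [Finset.prod_mul_distrib]
      rfl
    rw [e]
    exact h
  exact (E.hasSum_iff.1 h2).tsum_eq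

lemma thM_hasSum {r : ℝ} (hr : 0 < r) : HasSum (thM (ι := ι) r) 1 := by
  have h := hasSum_pi_prod (ι := ι) (f := fun _ => tauTh r) (y := fun _ => (1 : ℝ))
    (fun _ => tauTh_hasSum hr)
  have h' : HasSum (fun x : ι → ℕ => ∏ j, tauTh r (x j)) (∏ _j : ι, (1 : ℝ)) := h
  rw [Finset.prod_const_one] at h'
  exact h'

lemma tauTh_eq {r : ℝ} (hr : 0 < r) (q : ℕ) : tauTh r q = (r + 1)⁻¹ * (r / (r + 1)) ^ q := by
  unfold tauTh
  have : r + 1 ≠ 0 := by positivity
  rw [div_pow, pow_succ]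
  field_simp

lemma thM_eq {r : ℝ} (hr : 0 < r) (k : ι → ℕ) :
    thM r k = ((r + 1)⁻¹) ^ Fintype.card ι * (r / (r + 1)) ^ tot k := by
  unfold thM tot
  simp only [tauTh_eq hr]
  rw [Finset.prod_mul_distrib, Finset.prod_const, Finset.prod_pow_eq_pow_sum]
  rfl

lemma thM_good {r : ℝ} (hr : 0 < r) : GoodM (thM (ι := ι) r) := by
  have hg := tauTh_good hr
  have hc : 0 < ((r + 1)⁻¹) ^ Fintype.card ι := by positivity
  have hw : 0 < r / (r + 1) := by positivity
  have hw1 : r / (r + 1) < 1 := by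
    rw [div_lt_one (by positivity)]
    linarith
  refine ⟨fun k => Finset.prod_pos fun j _ => hg.pos _, fun k k' h => ?_, thM_hasSum hr,
    ⟨_, _, hc, hw, hw1.le, fun k => (thM_eq hr k).ge⟩,
    ⟨_, _, hc, hw, hw1, fun k => (thM_eq hr k).le⟩⟩
  exact Finset.prod_le_prod (fun j _ => (hg.pos _).le) (fun j _ => hg.anti (h j))

private lemma gFun_pos {r : ℝ} (hr : 0 < r) : 0 < gFun r := by
  unfold gFun
  have h1 : Real.log r < Real.log (r + 1) := Real.log_lt_log hr (by linarith)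
  have h2 : 0 < Real.log (r + 1) := Real.log_pos (by linarith)
  nlinarith

private lemma entropy_tauTh_hasSum {r : ℝ} (hr : 0 < r) :
    HasSum (fun k => Real.negMulLog (tauTh r k)) (gFun r) := by
  have h := entropy_tauTh hr
  unfold entropy at h
  have hs : Summable (fun k => Real.negMulLog (tauTh r k)) := by
    by_contra hn
    rw [tsum_eq_zero_of_not_summable hn] at h
    exact (gFun_pos hr).ne h
  rw [← h]
  exact hs.hasSum

lemma entropyM_thM {r : ℝ} (hr : 0 < r) :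
    entropyM (thM (ι := ι) r) = (Fintype.card ι : ℝ) * gFun r := by
  have hg := tauTh_good hr
  have hi : ∀ i : ι, HasSum (fun x : ι → ℕ =>
      ∏ j, (if j = i then fun q => Real.negMulLog (tauTh r q) else tauTh r) (x j))
      (∏ j, (if j = i then gFun r else 1)) := by
    intro i
    refine hasSum_pi_prod fun j => ?_
    by_cases hj : j = i
    · simp only [hj, if_true]
      exact entropy_tauTh_hasSum hr
    · simp only [hj, if_false]
      exact tauTh_hasSum hr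
  have hsum := hasSum_sum (s := Finset.univ) fun i (_ : i ∈ Finset.univ) => hi i
  have e1 : ∀ i : ι, (∏ j, (if j = i then gFun r else 1)) = gFun r := by
    intro i
    rw [← Finset.mul_prod_erase _ _ (Finset.mem_univ i)]
    simp only [if_true]
    rw [Finset.prod_eq_one, mul_one]
    intro j hj
    simp [(Finset.mem_erase.1 hj).1]
  have e2 : ∀ x : ι → ℕ, (∑ i, ∏ j, (if j = i then fun q => Real.negMulLog (tauTh r q)
      else tauTh r) (x j)) = Real.negMulLog (thM r x) := by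
    intro x
    have hlog : Real.log (thM r x) = ∑ i, Real.log (tauTh r (x i)) := by
      unfold thM
      exact Real.log_prod fun j _ => (hg.pos _).ne'
    have hN : Real.negMulLog (thM r x) = ∑ i, -(thM r x) * Real.log (tauTh r (x i)) := by
      unfold Real.negMulLog
      rw [hlog, Finset.mul_sum]
    rw [hN]
    refine Finset.sum_congr rfl fun i _ => ?_
    rw [← Finset.mul_prod_erase _ _ (Finset.mem_univ i)]
    simp only [if_true]
    have hP : thM r x = tauTh r (x i) * ∏ j ∈ Finset.univ.erase i, tauTh r (x j) := by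
      unfold thM
      rw [Finset.mul_prod_erase Finset.univ (fun j => tauTh r (x j)) (Finset.mem_univ i)]
    have hR : (∏ j ∈ Finset.univ.erase i,
        (if j = i then fun q => Real.negMulLog (tauTh r q) else tauTh r) (x j)) =
        ∏ j ∈ Finset.univ.erase i, tauTh r (x j) := by
      refine Finset.prod_congr rfl fun j hj => ?_
      simp [(Finset.mem_erase.1 hj).1]
    rw [hR, hP]
    unfold Real.negMulLog
    ring
  simp only [e1, e2, Finset.sum_const, Finset.card_univ, nsmul_eq_mul] at hsum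
  exact hsum.tsum_eq

end

end Vale.Agent.Lib.P369
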