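import Vale.Agent.Lib.P369.Defs

/-!
# JOB E5: the key two-variable inequality (P369)

Notation: `ℓ(ξ) = log(1+1/ξ)` for `ξ>0`; for `x,y>0`: `β = ℓ(x)`, `γ = ℓ(y)`, `a = x(x+1)`, `b = y(y+1)`, `d = x-y`,
`w = 2xy+x+y`.

Goal `hess_key`: `(a β + d + b γ)² ≤ γ w (w β + 2 d)`.
-/

namespace Vale.Agent.Lib.P369

noncomputable section

/-- `ℓ(ξ) = log (1 + 1/ξ)`. -/
private def ellH (ξ : ℝ) : ℝ := Real.log (1 + 1 / ξ)

private lemma ellH_lower {ξ : ℝ} (hξ : 0 < ξ) : 1 / (ξ + 1) ≤ ellH ξ := by
  have h1 : 0 < 1 + 1 / ξ := by positivity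
  have h2 := Real.one_sub_inv_le_log_of_pos h1
  have h3 : 1 - (1 + 1 / ξ)⁻¹ = 1 / (ξ + 1) := by
    field_simp
    ring
  unfold ellH
  linarith

/-- `log t ≤ (t - 1/t)/2` for `t ≥ 1`. -/
private lemma log_le_half_sub {t : ℝ} (ht : 1 ≤ t) : Real.log t ≤ (t - 1 / t) / 2 := by
  have hder : ∀ s ∈ Set.Ici (1:ℝ), HasDerivAt (fun s : ℝ => (s - 1 / s) / 2 - Real.log s)
      ((s - 1) ^ 2 / (2 * s ^ 2)) s := by
    intro s hs
    have h1 : (1:ℝ) ≤ s := hs
    have h0 : s ≠ 0 := by linarith
    have h2 : HasDerivAt (fun s : ℝ => 1 / s) ((0 * s - 1 * 1) / s ^ 2) s :=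
      (hasDerivAt_const s (1:ℝ)).div (hasDerivAt_id s) h0
    have h3 : HasDerivAt (fun s : ℝ => s - 1 / s) (1 - (0 * s - 1 * 1) / s ^ 2) s :=
      (hasDerivAt_id s).sub h2
    have h4 : HasDerivAt (fun s : ℝ => (s - 1 / s) / 2 - Real.log s)
        ((1 - (0 * s - 1 * 1) / s ^ 2) / 2 - s⁻¹) s :=
      (h3.div_const 2).sub (Real.hasDerivAt_log h0)
    exact h4.congr_deriv (by field_simp; ring)
  have hmono : MonotoneOn (fun s : ℝ => (s - 1 / s) / 2 - Real.log s) (Set.Ici 1) := by
    apply monotoneOn_of_deriv_nonneg (convex_Ici 1)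
    · intro s hs
      exact (hder s hs).continuousAt.continuousWithinAt
    · rw [interior_Ici]
      intro s hs
      exact (hder s (Set.mem_Ici.mpr (le_of_lt hs))).differentiableAt.differentiableWithinAt
    · rw [interior_Ici]
      intro s hs
      have h1 : (1:ℝ) < s := hs
      rw [(hder s (Set.mem_Ici.mpr h1.le)).deriv]
      positivity
  have h := hmono (Set.mem_Ici.mpr le_rfl) (Set.mem_Ici.mpr ht) ht
  have e : ((1:ℝ) - 1 / 1) / 2 - Real.log 1 = 0 := by simp
  simp only [e] at h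
  linarith

private lemma ellH_upper {ξ : ℝ} (hξ : 0 < ξ) : ellH ξ ≤ (2 * ξ + 1) / (2 * ξ * (ξ + 1)) := by
  have h1 : 1 ≤ 1 + 1 / ξ := by
    have : 0 < 1 / ξ := by positivity
    linarith
  have h2 := log_le_half_sub h1
  have h3 : (1 + 1 / ξ - 1 / (1 + 1 / ξ)) / 2 = (2 * ξ + 1) / (2 * ξ * (ξ + 1)) := by
    field_simp
    ring
  unfold ellH
  linarith

private lemma ellH_hasDerivAt {ξ : ℝ} (hξ : 0 < ξ) :
    HasDerivAt ellH (-(1 / (ξ * (ξ + 1)))) ξ := by
  have h0 : ξ ≠ 0 := hξ.ne'
  have h1 : 1 + 1 / ξ ≠ 0 := by positivity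
  have hin : HasDerivAt (fun s : ℝ => 1 + 1 / s) (0 + (0 * ξ - 1 * 1) / ξ ^ 2) ξ :=
    (hasDerivAt_const ξ (1:ℝ)).add ((hasDerivAt_const ξ (1:ℝ)).div (hasDerivAt_id ξ) h0)
  have := hin.log h1
  have h2 : (0 + (0 * ξ - 1 * 1) / ξ ^ 2) / (1 + 1 / ξ) = -(1 / (ξ * (ξ + 1))) := by
    field_simp
    ring
  rw [h2] at this
  exact this

/-- the function `L_c` is antitone. -/
private lemma Lc_antitone {x c : ℝ} (hx : 0 < x) (hc : 0 < c) :
    AntitoneOn (fun y : ℝ =>
      c * ((y + 1) ^ 2 * ellH y - (x + 1) ^ 2 * ellH x + 2 * (x + 1) * (x - y)) +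
        (x ^ 2 * ellH x - y ^ 2 * ellH y + 2 * x * (x - y)) / c - 2 * (x - y) * (2 * x + 1))
      (Set.Ioi 0) := by
  have hder : ∀ y ∈ Set.Ioi (0:ℝ), HasDerivAt (fun y : ℝ =>
      c * ((y + 1) ^ 2 * ellH y - (x + 1) ^ 2 * ellH x + 2 * (x + 1) * (x - y)) +
        (x ^ 2 * ellH x - y ^ 2 * ellH y + 2 * x * (x - y)) / c - 2 * (x - y) * (2 * x + 1))
      (c * ((2 * (y + 1) * ellH y - (y + 1) / y) - 2 * (x + 1)) +
        (-(2 * y * ellH y - y / (y + 1)) - 2 * x) / c + 2 * (2 * x + 1)) y := by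
    intro y hy
    have hy0 : 0 < y := hy
    have hell := ellH_hasDerivAt hy0
    have h1 : HasDerivAt (fun y : ℝ => (y + 1) ^ 2 * ellH y)
        (2 * (y + 1) * ellH y + (y + 1) ^ 2 * (-(1 / (y * (y + 1))))) y := by
      have hp : HasDerivAt (fun y : ℝ => (y + 1) ^ 2) (2 * (y + 1)) y := by
        have h := ((hasDerivAt_id' y).add_const (1:ℝ)).fun_pow 2
        exact h.congr_deriv (by simp)
      exact hp.mul hell
    have h2 : HasDerivAt (fun y : ℝ => y ^ 2 * ellH y)
        (2 * y * ellH y + y ^ 2 * (-(1 / (y * (y + 1))))) y := by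
      have hp : HasDerivAt (fun y : ℝ => y ^ 2) (2 * y) y := by
        have h := (hasDerivAt_id' y).fun_pow 2
        exact h.congr_deriv (by simp)
      exact hp.mul hell
    have hlin : HasDerivAt (fun y : ℝ => x - y) (-1) y := by
      have h := (hasDerivAt_id' y).const_sub x
      exact h
    have hV : HasDerivAt (fun y : ℝ =>
        (y + 1) ^ 2 * ellH y - (x + 1) ^ 2 * ellH x + 2 * (x + 1) * (x - y))
        (2 * (y + 1) * ellH y + (y + 1) ^ 2 * (-(1 / (y * (y + 1)))) + 2 * (x + 1) * (-1)) y :=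
      (h1.sub_const _).add (hlin.const_mul _)
    have hU : HasDerivAt (fun y : ℝ =>
        x ^ 2 * ellH x - y ^ 2 * ellH y + 2 * x * (x - y))
        (-(2 * y * ellH y + y ^ 2 * (-(1 / (y * (y + 1))))) + 2 * x * (-1)) y := by
      have := (h2.const_sub (x ^ 2 * ellH x)).add (hlin.const_mul (2 * x))
      exact this
    have hW : HasDerivAt (fun y : ℝ => 2 * (x - y) * (2 * x + 1))
        (2 * (-1) * (2 * x + 1)) y := by
      have := (hlin.const_mul (2:ℝ)).mul_const (2 * x + 1)
      exact this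
    have hall := ((hV.const_mul c).add (hU.div_const c)).sub hW
    refine HasDerivAt.congr_deriv hall ?_
    have hy1 : y + 1 ≠ 0 := by positivity
    have hy2 : y ≠ 0 := hy0.ne'
    have e1 : (y + 1) ^ 2 * (-(1 / (y * (y + 1)))) = -((y + 1) / y) := by
      field_simp
    have e2 : y ^ 2 * (-(1 / (y * (y + 1)))) = -(y / (y + 1)) := by
      field_simp
    rw [e1, e2]
    ring
  apply antitoneOn_of_deriv_nonpos (convex_Ioi 0)
  · intro y hy
    exact (hder y hy).continuousAt.continuousWithinAt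
  · rw [interior_Ioi]
    intro y hy
    exact (hder y hy).differentiableAt.differentiableWithinAt
  · rw [interior_Ioi]
    intro y hy
    have hy0 : 0 < y := hy
    rw [(hder y hy).deriv]
    -- pointwise
    set l := ellH y with hl
    have hlo : 1 / (y + 1) ≤ l := ellH_lower hy0
    have hup : l ≤ (2 * y + 1) / (2 * y * (y + 1)) := ellH_upper hy0
    set u := 2 * y * l - y / (y + 1) with hu
    set v := 2 * (y + 1) * l - (y + 1) / y with hv
    have hu0 : y / (y + 1) ≤ u := by
      have : 2 * y * (1 / (y + 1)) ≤ 2 * y * l := by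
        apply mul_le_mul_of_nonneg_left hlo (by positivity)
      have e : 2 * y * (1 / (y + 1)) = 2 * (y / (y + 1)) := by ring
      rw [hu]
      linarith
    have hup0 : 0 < y / (y + 1) := by positivity
    have hv1 : v ≤ 1 := by
      have : 2 * (y + 1) * l ≤ 2 * (y + 1) * ((2 * y + 1) / (2 * y * (y + 1))) := by
        apply mul_le_mul_of_nonneg_left hup (by positivity)
      have e : 2 * (y + 1) * ((2 * y + 1) / (2 * y * (y + 1))) = (2 * y + 1) / y := by
        field_simp
      have e2 : (2 * y + 1) / y - (y + 1) / y = 1 := by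
        field_simp
        ring
      rw [hv]
      linarith
    have hA : 0 < 2 * x + 2 - v := by linarith
    have hB : 0 < 2 * x + u := by linarith
    have hAB : (2 * x + 1) ^ 2 ≤ (2 * x + u) * (2 * x + 2 - v) := by
      have huv : 0 ≤ u - v := by
        have e : u - v = 2 * ((2 * y + 1) / (2 * y * (y + 1)) - l) := by
          rw [hu, hv]
          field_simp
          ring
        rw [e]
        linarith
      have hW : 0 ≤ 2 * u - u * v - 1 := by
        have e : 2 * u - u * v - 1 =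
            4 * y * (y + 1) * (((2 * y + 1) / (2 * y * (y + 1))) - l) * (l - 1 / (y + 1)) := by
          rw [hu, hv]
          field_simp
          ring
        rw [e]
        apply mul_nonneg
        · apply mul_nonneg (by positivity)
          linarith
        · linarith
      nlinarith [mul_nonneg hx.le huv]
    have hamgm : 2 * (2 * x + 1) ≤ c * (2 * x + 2 - v) + (2 * x + u) / c := by
      have hpos : 0 < c * (2 * x + 2 - v) + (2 * x + u) / c := by positivity
      have hsq : (2 * (2 * x + 1)) ^ 2 ≤ (c * (2 * x + 2 - v) + (2 * x + u) / c) ^ 2 := by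
        have e : (c * (2 * x + 2 - v) + (2 * x + u) / c) ^ 2 =
            (c * (2 * x + 2 - v) - (2 * x + u) / c) ^ 2 + 4 * ((2 * x + u) * (2 * x + 2 - v)) := by
          field_simp
          ring
        rw [e]
        nlinarith [sq_nonneg (c * (2 * x + 2 - v) - (2 * x + u) / c)]
      exact le_of_sq_le_sq hsq hpos.le
    have e3 : c * ((2 * (y + 1) * l - (y + 1) / y) - 2 * (x + 1)) +
        (-(2 * y * l - y / (y + 1)) - 2 * x) / c + 2 * (2 * x + 1) =
        2 * (2 * x + 1) - (c * (2 * x + 2 - v) + (2 * x + u) / c) := by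
      rw [hu, hv]
      field_simp
      ring
    rw [e3]
    linarith

/-- `V(y) ≥ (x-y)(2x+1)` antitone comparison. -/
private lemma V_antitone {x : ℝ} (_hx : 0 < x) :
    AntitoneOn (fun y : ℝ =>
      ((y + 1) ^ 2 * ellH y - (x + 1) ^ 2 * ellH x + 2 * (x + 1) * (x - y)) -
        (x - y) * (2 * x + 1)) (Set.Ioi 0) := by
  have hder : ∀ y ∈ Set.Ioi (0:ℝ), HasDerivAt (fun y : ℝ =>
      ((y + 1) ^ 2 * ellH y - (x + 1) ^ 2 * ellH x + 2 * (x + 1) * (x - y)) -
        (x - y) * (2 * x + 1))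
      ((2 * (y + 1) * ellH y - (y + 1) / y) - 1) y := by
    intro y hy
    have hy0 : 0 < y := hy
    have hell := ellH_hasDerivAt hy0
    have h1 : HasDerivAt (fun y : ℝ => (y + 1) ^ 2 * ellH y)
        (2 * (y + 1) * ellH y + (y + 1) ^ 2 * (-(1 / (y * (y + 1))))) y := by
      have hp : HasDerivAt (fun y : ℝ => (y + 1) ^ 2) (2 * (y + 1)) y := by
        have h := ((hasDerivAt_id' y).add_const (1:ℝ)).fun_pow 2
        exact h.congr_deriv (by simp)
      exact hp.mul hell
    have hlin : HasDerivAt (fun y : ℝ => x - y) (-1) y := by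
      have h := (hasDerivAt_id' y).const_sub x
      exact h
    have hall := ((h1.sub_const ((x + 1) ^ 2 * ellH x)).add (hlin.const_mul (2 * (x + 1)))).sub
      (hlin.mul_const (2 * x + 1))
    refine HasDerivAt.congr_deriv hall ?_
    have e1 : (y + 1) ^ 2 * (-(1 / (y * (y + 1)))) = -((y + 1) / y) := by
      field_simp
    rw [e1]
    ring
  apply antitoneOn_of_deriv_nonpos (convex_Ioi 0)
  · intro y hy
    exact (hder y hy).continuousAt.continuousWithinAt
  · rw [interior_Ioi]
    intro y hy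
    exact (hder y hy).differentiableAt.differentiableWithinAt
  · rw [interior_Ioi]
    intro y hy
    have hy0 : 0 < y := hy
    rw [(hder y hy).deriv]
    have hup := ellH_upper hy0
    have : 2 * (y + 1) * ellH y ≤ 2 * (y + 1) * ((2 * y + 1) / (2 * y * (y + 1))) := by
      apply mul_le_mul_of_nonneg_left hup (by positivity)
    have e : 2 * (y + 1) * ((2 * y + 1) / (2 * y * (y + 1))) = (2 * y + 1) / y := by
      field_simp
    have e2 : (2 * y + 1) / y - (y + 1) / y = 1 := by
      field_simp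
      ring
    linarith

/-- The Hessian inequality. -/
theorem hess_key {x y : ℝ} (hx : 0 < x) (hy : 0 < y) :
    (x * (x + 1) * Real.log (1 + 1 / x) + (x - y) + y * (y + 1) * Real.log (1 + 1 / y)) ^ 2 ≤
      Real.log (1 + 1 / y) * (2 * x * y + x + y) *
        ((2 * x * y + x + y) * Real.log (1 + 1 / x) + 2 * (x - y)) := by
  change (x * (x + 1) * ellH x + (x - y) + y * (y + 1) * ellH y) ^ 2 ≤
      ellH y * (2 * x * y + x + y) * ((2 * x * y + x + y) * ellH x + 2 * (x - y))
  obtain ⟨U, hU⟩ : ∃ U, U = x ^ 2 * ellH x - y ^ 2 * ellH y + 2 * x * (x - y) := ⟨_, rfl⟩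
  obtain ⟨V, hV⟩ : ∃ V, V = (y + 1) ^ 2 * ellH y - (x + 1) ^ 2 * ellH x + 2 * (x + 1) * (x - y) :=
    ⟨_, rfl⟩
  obtain ⟨M, hM⟩ : ∃ M, M = 2 * x + 1 := ⟨_, rfl⟩
  have hid : ellH y * (2 * x * y + x + y) * ((2 * x * y + x + y) * ellH x + 2 * (x - y)) -
      (x * (x + 1) * ellH x + (x - y) + y * (y + 1) * ellH y) ^ 2 =
      U * V - (x - y) ^ 2 * M ^ 2 := by
    rw [hU, hV, hM]
    ring
  suffices hmain : (x - y) ^ 2 * M ^ 2 ≤ U * V by linarith
  have hMpos : 0 < M := by rw [hM]; positivity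
  have hx' : x ∈ Set.Ioi (0:ℝ) := hx
  have hy' : y ∈ Set.Ioi (0:ℝ) := hy
  rcases lt_trichotomy y x with hlt | heq | hgt
  · -- y < x
    have hd : 0 < x - y := by linarith
    have hVlow : (x - y) * M ≤ V := by
      have := V_antitone hx hy' hx' hlt.le
      simp only [sub_self, mul_zero, zero_mul, add_zero] at this
      rw [hV, hM]
      linarith
    have hVpos : 0 < V := lt_of_lt_of_le (by positivity) hVlow
    have hc : 0 < (x - y) * M / V := by positivity
    have hL := Lc_antitone hx hc hy' hx' hlt.le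
    simp only [sub_self, mul_zero, zero_mul, add_zero, zero_div] at hL
    rw [← hV, ← hU, ← hM] at hL
    have e2 : (x - y) * M / V * V = (x - y) * M := by
      field_simp
    have e3 : U / ((x - y) * M / V) = U * V / ((x - y) * M) := by
      field_simp
    rw [e2, e3] at hL
    have hpos : 0 < (x - y) * M := by positivity
    have h4 : (x - y) * M ≤ U * V / ((x - y) * M) := by nlinarith
    rw [le_div_iff₀ hpos] at h4
    nlinarith
  · -- y = x
    subst heq
    have hU0 : U = 0 := by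
      rw [hU]
      ring
    simp [hU0]
  · -- y > x
    have hd : 0 < y - x := by linarith
    have hVup : V ≤ -((y - x) * M) := by
      have := V_antitone hx hx' hy' hgt.le
      simp only [sub_self, mul_zero, zero_mul, add_zero] at this
      rw [hV, hM]
      nlinarith
    have hVneg : V < 0 := by
      have : 0 < (y - x) * M := by positivity
      linarith
    have hV' : 0 < -V := by linarith
    have hc : 0 < (y - x) * M / (-V) := by positivity
    have hL := Lc_antitone hx hc hx' hy' hgt.le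
    simp only [sub_self, mul_zero, zero_mul, add_zero, zero_div] at hL
    rw [← hV, ← hU, ← hM] at hL
    have hVne : V ≠ 0 := hVneg.ne
    have e2 : (y - x) * M / (-V) * V = -((y - x) * M) := by
      rw [div_neg, neg_mul, div_mul_cancel₀ _ hVne]
    have e3 : U / ((y - x) * M / (-V)) = U * (-V) / ((y - x) * M) := by
      field_simp
    rw [e2, e3] at hL
    have hpos : 0 < (y - x) * M := by positivity
    have h4 : U * (-V) / ((y - x) * M) ≤ -((y - x) * M) := by nlinarith
    rw [div_le_iff₀ hpos] at h4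
    nlinarith

end

end Vale.Agent.Lib.P369
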