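import Vale.Agent.Lib.P369.TruncM

/-!
# JOB M14: general inputs of finite mean (P369)

`tangentM`.  Let `r,s>0`, `t = η r + (1-η) s`, `κ = card ι * (g(t)/β_t - η g(r)/β_r - (1-η) g(s)/β_s)`.  Truncate `a^L = truncM a L`, `b^L = truncM b L`, `C^L = bsOutM η a^L b^L`.  `interpM_ineq` gives
   `κ ≤ S(C^L)/β_t - η S(a^L)/β_r - (1-η) S(b^L)/β_s`;  multiply by `θ_L = Z_L Z'_L > 0` and use `θ_L S(C^L) ≤ S(c)` (`entropyM_bsOutM_truncM`; summability from `entropyM_summable`, `bsOutM_mean`, `bsOutM_hasSum`):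
   `θ_L (κ + η S(a^L)/β_r + (1-η) S(b^L)/β_s) ≤ S(c)/β_t`.  Let `L → ∞`: `θ_L → 1` (`Zm_tendsto`), `S(a^L) → S(a)` (`entropyM_truncM_tendsto`).  `le_of_tendsto'`.

`mainM`.  For `r,s ≥ 0`, `card ι g(r) ≤ S(a)`, `card ι g(s) ≤ S(b)`: claim `card ι g(t) ≤ S(c)`.
 If `t = 0` use `S(c) ≥ 0` and `g(0) = 0` (`0 log 0 = 0`).  Else take `ε ↓ 0` in `tangentM` at `(r+ε, s+ε)`, where `t+ε = η (r+ε) + (1-η) (s+ε)`, with `N = card ι`:
 `S(c)/β_{t+ε} ≥ N g(t+ε)/β_{t+ε} + η (S(a) - N g(r+ε))/β_{r+ε} + (1-η) (S(b) - N g(s+ε))/β_{s+ε}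
            ≥ N g(t+ε)/β_{t+ε} - N η (g(r+ε) - g(r))/β_{r+1} - N (1-η) (g(s+ε) - g(s))/β_{s+1}`  for `0 < ε ≤ 1`, using `g` monotone on `[0,∞)` and `β` antitone;
 `g` is continuous on `[0,∞)` and `β_{t+ε} → β_t` since `t>0`.  Let `ε → 0`, multiply by `β_t > 0`.
 (Single-mode version of the epsilon argument: `finite_main` in `MainFinite.lean` on origin/helper39.)
-/

namespace Vale.Agent.Lib.P369

open Set

noncomputable section

variable {ι : Type*} [Fintype ι] [DecidableEq ι] {η r s : ℝ} {a b : (ι → ℕ) → ℝ}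

omit [Fintype ι] [DecidableEq ι] in
lemma le_one_of_hasSum {f : (ι → ℕ) → ℝ} (h0 : ∀ k, 0 ≤ f k) (hs : HasSum f 1) (k : ι → ℕ) :
    f k ≤ 1 :=
  le_hasSum hs k (fun j _ => h0 j)

/-- Tangent form: it tensorizes. -/
theorem tangentM (hη : 0 < η) (hη1 : η < 1) (hr : 0 < r) (hs : 0 < s)
    (ha0 : ∀ k, 0 ≤ a k) (haa : Antitone a) (hsa : HasSum a 1)
    (hma : Summable (fun k => (tot k : ℝ) * a k))
    (hb0 : ∀ k, 0 ≤ b k) (hba : Antitone b) (hsb : HasSum b 1)
    (hmb : Summable (fun k => (tot k : ℝ) * b k)) :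
    (Fintype.card ι : ℝ) * (gFun (η * r + (1 - η) * s) / betaF (η * r + (1 - η) * s) -
        η * (gFun r / betaF r) - (1 - η) * (gFun s / betaF s)) ≤
      entropyM (bsOutM η a b) / betaF (η * r + (1 - η) * s) - η * (entropyM a / betaF r)
        - (1 - η) * (entropyM b / betaF s) := by
  have h1η : 0 < 1 - η := by linarith
  have ht : 0 < η * r + (1 - η) * s := by positivity
  have hβt : 0 < betaF (η * r + (1 - η) * s) := betaF_pos ht
  set κ := (Fintype.card ι : ℝ) * (gFun (η * r + (1 - η) * s) / betaF (η * r + (1 - η) * s) -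
        η * (gFun r / betaF r) - (1 - η) * (gFun s / betaF s)) with hκ
  have hc0 : ∀ K, 0 ≤ bsOutM η a b K := bsOutM_nonneg hη.le hη1.le ha0 hb0
  have hcs := bsOutM_hasSum hη.le hη1.le ha0 hb0 hsa hsb
  have hc1 := le_one_of_hasSum hc0 hcs
  have hcm := bsOutM_mean hη.le hη1.le ha0 hb0 hsa hsb hma hmb
  have hcsum := entropyM_summable hc0 hc1 hcm hcs.summable
  have hasum := entropyM_summable ha0 (le_one_of_hasSum ha0 hsa) hma hsa.summable
  have hbsum := entropyM_summable hb0 (le_one_of_hasSum hb0 hsb) hmb hsb.summable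
  have key : ∀ Lm : ℕ, (Zm a Lm * Zm b Lm) * (κ + η * (entropyM (truncM a Lm) / betaF r)
      + (1 - η) * (entropyM (truncM b Lm) / betaF s)) ≤
        entropyM (bsOutM η a b) / betaF (η * r + (1 - η) * s) := by
    intro Lm
    have h := interpM_ineq hη hη1 hr hs (truncM_finPassive ha0 haa hsa Lm)
      (truncM_finPassive hb0 hba hsb Lm)
    have h2 := entropyM_bsOutM_truncM hη.le hη1.le ha0 haa hsa hb0 hba hsb hcsum Lm
    have hθ : 0 ≤ Zm a Lm * Zm b Lm :=
      (mul_pos (Zm_pos ha0 haa hsa Lm) (Zm_pos hb0 hba hsb Lm)).le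
    have h3 : κ + η * (entropyM (truncM a Lm) / betaF r)
        + (1 - η) * (entropyM (truncM b Lm) / betaF s) ≤
        entropyM (bsOutM η (truncM a Lm) (truncM b Lm)) /
          betaF (η * r + (1 - η) * s) := by
      linarith
    calc (Zm a Lm * Zm b Lm) * (κ + η * (entropyM (truncM a Lm) / betaF r)
          + (1 - η) * (entropyM (truncM b Lm) / betaF s))
        ≤ (Zm a Lm * Zm b Lm) * (entropyM (bsOutM η (truncM a Lm) (truncM b Lm)) /
            betaF (η * r + (1 - η) * s)) := mul_le_mul_of_nonneg_left h3 hθ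
      _ = (Zm a Lm * Zm b Lm * entropyM (bsOutM η (truncM a Lm) (truncM b Lm))) /
            betaF (η * r + (1 - η) * s) := by ring
      _ ≤ entropyM (bsOutM η a b) / betaF (η * r + (1 - η) * s) :=
          div_le_div_of_nonneg_right h2 hβt.le
  have hlim : Filter.Tendsto (fun Lm : ℕ => (Zm a Lm * Zm b Lm) *
      (κ + η * (entropyM (truncM a Lm) / betaF r)
        + (1 - η) * (entropyM (truncM b Lm) / betaF s))) Filter.atTop
      (nhds ((1 * 1) * (κ + η * (entropyM a / betaF r) + (1 - η) * (entropyM b / betaF s)))) := by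
    apply Filter.Tendsto.mul ((Zm_tendsto hsa).mul (Zm_tendsto hsb))
    apply Filter.Tendsto.add
    · apply Filter.Tendsto.add tendsto_const_nhds
      exact ((entropyM_truncM_tendsto ha0 haa hsa hasum).div_const _).const_mul _
    · exact ((entropyM_truncM_tendsto hb0 hba hsb hbsum).div_const _).const_mul _
  have hfin := le_of_tendsto' hlim key
  linarith

theorem mainM (hη : 0 < η) (hη1 : η < 1) (hr : 0 ≤ r) (hs : 0 ≤ s)
    (ha0 : ∀ k, 0 ≤ a k) (haa : Antitone a) (hsa : HasSum a 1)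
    (hma : Summable (fun k => (tot k : ℝ) * a k))
    (hb0 : ∀ k, 0 ≤ b k) (hba : Antitone b) (hsb : HasSum b 1)
    (hmb : Summable (fun k => (tot k : ℝ) * b k))
    (hgr : (Fintype.card ι : ℝ) * gFun r ≤ entropyM a)
    (hgs : (Fintype.card ι : ℝ) * gFun s ≤ entropyM b) :
    (Fintype.card ι : ℝ) * gFun (η * r + (1 - η) * s) ≤ entropyM (bsOutM η a b) := by
  have h1η : 0 < 1 - η := by linarith
  have hn1 : (0 : ℝ) ≤ (Fintype.card ι : ℝ) := Nat.cast_nonneg _
  have ht0 : 0 ≤ η * r + (1 - η) * s := by positivity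
  have hc0 : ∀ K, 0 ≤ bsOutM η a b K := bsOutM_nonneg hη.le hη1.le ha0 hb0
  have hcs := bsOutM_hasSum hη.le hη1.le ha0 hb0 hsa hsb
  have hc1 := le_one_of_hasSum hc0 hcs
  rcases eq_or_lt_of_le ht0 with ht | ht
  · rw [← ht, gFun_zero, mul_zero]
    exact entropyM_nonneg fun k => ⟨hc0 k, hc1 k⟩
  set t := η * r + (1 - η) * s with htdef
  set Sc := entropyM (bsOutM η a b) with hSc
  have hβr1 : 0 < betaF (r + 1) := betaF_pos (by linarith)
  have hβs1 : 0 < betaF (s + 1) := betaF_pos (by linarith)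
  -- the inequality at positive `ε`
  have key : ∀ ε : ℝ, 0 < ε → ε ≤ 1 →
      (Fintype.card ι : ℝ) * (gFun (t + ε) / betaF (t + ε))
        - η * ((Fintype.card ι : ℝ) * (gFun (r + ε) - gFun r) / betaF (r + 1))
        - (1 - η) * ((Fintype.card ι : ℝ) * (gFun (s + ε) - gFun s) / betaF (s + 1))
        ≤ Sc / betaF (t + ε) := by
    intro ε hε hε1
    have hrε : 0 < r + ε := by linarith
    have hsε : 0 < s + ε := by linarith
    have htε : η * (r + ε) + (1 - η) * (s + ε) = t + ε := by rw [htdef]; ring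
    have h := tangentM hη hη1 hrε hsε ha0 haa hsa hma hb0 hba hsb hmb
    rw [htε] at h
    have hβr : 0 < betaF (r + ε) := betaF_pos hrε
    have hβs : 0 < betaF (s + ε) := betaF_pos hsε
    have hβrle : betaF (r + 1) ≤ betaF (r + ε) := betaF_anti hrε (by linarith)
    have hβsle : betaF (s + 1) ≤ betaF (s + ε) := betaF_anti hsε (by linarith)
    have hYr : 0 ≤ (Fintype.card ι : ℝ) * (gFun (r + ε) - gFun r) := by
      apply mul_nonneg hn1
      have := gFun_strictMonoOn.monotoneOn (Set.mem_Ici.mpr hr)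
        (Set.mem_Ici.mpr (by linarith : (0:ℝ) ≤ r + ε)) (by linarith : r ≤ r + ε)
      linarith
    have hYs : 0 ≤ (Fintype.card ι : ℝ) * (gFun (s + ε) - gFun s) := by
      apply mul_nonneg hn1
      have := gFun_strictMonoOn.monotoneOn (Set.mem_Ici.mpr hs)
        (Set.mem_Ici.mpr (by linarith : (0:ℝ) ≤ s + ε)) (by linarith : s ≤ s + ε)
      linarith
    have h1 : -((Fintype.card ι : ℝ) * (gFun (r + ε) - gFun r) / betaF (r + 1)) ≤
        (entropyM a - (Fintype.card ι : ℝ) * gFun (r + ε)) / betaF (r + ε) := by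
      have a1 : (Fintype.card ι : ℝ) * (gFun (r + ε) - gFun r) / betaF (r + ε) ≤
          (Fintype.card ι : ℝ) * (gFun (r + ε) - gFun r) / betaF (r + 1) :=
        div_le_div_of_nonneg_left hYr hβr1 hβrle
      have a2 : -((Fintype.card ι : ℝ) * (gFun (r + ε) - gFun r) / betaF (r + ε)) ≤
          (entropyM a - (Fintype.card ι : ℝ) * gFun (r + ε)) / betaF (r + ε) := by
        rw [← neg_div]
        apply div_le_div_of_nonneg_right _ hβr.le
        nlinarith
      linarith
    have h2 : -((Fintype.card ι : ℝ) * (gFun (s + ε) - gFun s) / betaF (s + 1)) ≤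
        (entropyM b - (Fintype.card ι : ℝ) * gFun (s + ε)) / betaF (s + ε) := by
      have a1 : (Fintype.card ι : ℝ) * (gFun (s + ε) - gFun s) / betaF (s + ε) ≤
          (Fintype.card ι : ℝ) * (gFun (s + ε) - gFun s) / betaF (s + 1) :=
        div_le_div_of_nonneg_left hYs hβs1 hβsle
      have a2 : -((Fintype.card ι : ℝ) * (gFun (s + ε) - gFun s) / betaF (s + ε)) ≤
          (entropyM b - (Fintype.card ι : ℝ) * gFun (s + ε)) / betaF (s + ε) := by
        rw [← neg_div]
        apply div_le_div_of_nonneg_right _ hβs.le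
        nlinarith
      linarith
    have h3 := mul_le_mul_of_nonneg_left h1 hη.le
    have h4 := mul_le_mul_of_nonneg_left h2 h1η.le
    have e1 : (entropyM a - (Fintype.card ι : ℝ) * gFun (r + ε)) / betaF (r + ε) =
        entropyM a / betaF (r + ε) - (Fintype.card ι : ℝ) * (gFun (r + ε) / betaF (r + ε)) := by
      ring
    have e2 : (entropyM b - (Fintype.card ι : ℝ) * gFun (s + ε)) / betaF (s + ε) =
        entropyM b / betaF (s + ε) - (Fintype.card ι : ℝ) * (gFun (s + ε) / betaF (s + ε)) := by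
      ring
    rw [e1] at h3
    rw [e2] at h4
    have e3 : (Fintype.card ι : ℝ) * (gFun (t + ε) / betaF (t + ε) -
        η * (gFun (r + ε) / betaF (r + ε)) - (1 - η) * (gFun (s + ε) / betaF (s + ε))) =
        (Fintype.card ι : ℝ) * (gFun (t + ε) / betaF (t + ε))
        - η * ((Fintype.card ι : ℝ) * (gFun (r + ε) / betaF (r + ε)))
        - (1 - η) * ((Fintype.card ι : ℝ) * (gFun (s + ε) / betaF (s + ε))) := by ring
    rw [e3] at h
    linarith
  -- continuity at `ε → 0⁺`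
  have hmap0 : Filter.Tendsto (fun ε : ℝ => ε) (nhdsWithin 0 (Set.Ioi 0)) (nhds 0) :=
    tendsto_nhdsWithin_of_tendsto_nhds Filter.tendsto_id
  have hshift : ∀ a : ℝ, Filter.Tendsto (fun ε : ℝ => a + ε) (nhdsWithin 0 (Set.Ioi 0)) (nhds a) := by
    intro a
    have := (tendsto_const_nhds (x := a)).add hmap0
    simpa using this
  have hgshift : ∀ a : ℝ, 0 ≤ a →
      Filter.Tendsto (fun ε : ℝ => gFun (a + ε)) (nhdsWithin 0 (Set.Ioi 0)) (nhds (gFun a)) := by
    intro a ha
    have hc : Filter.Tendsto gFun (nhdsWithin a (Set.Ici 0)) (nhds (gFun a)) :=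
      gFun_continuousOn a (Set.mem_Ici.mpr ha)
    refine hc.comp (tendsto_nhdsWithin_iff.mpr ⟨hshift a, ?_⟩)
    filter_upwards [self_mem_nhdsWithin] with ε hε
    have : (0:ℝ) < ε := hε
    exact Set.mem_Ici.mpr (by linarith)
  have hgt : Filter.Tendsto (fun ε : ℝ => gFun (t + ε)) (nhdsWithin 0 (Set.Ioi 0)) (nhds (gFun t)) :=
    hgshift t ht0
  have hβt : Filter.Tendsto (fun ε : ℝ => betaF (t + ε)) (nhdsWithin 0 (Set.Ioi 0))
      (nhds (betaF t)) := (betaF_continuousAt ht).tendsto.comp (hshift t)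
  have hβt0 : betaF t ≠ 0 := (betaF_pos ht).ne'
  have hL : Filter.Tendsto (fun ε : ℝ => (Fintype.card ι : ℝ) * (gFun (t + ε) / betaF (t + ε))
        - η * ((Fintype.card ι : ℝ) * (gFun (r + ε) - gFun r) / betaF (r + 1))
        - (1 - η) * ((Fintype.card ι : ℝ) * (gFun (s + ε) - gFun s) / betaF (s + 1)))
      (nhdsWithin 0 (Set.Ioi 0))
      (nhds ((Fintype.card ι : ℝ) * (gFun t / betaF t)
        - η * ((Fintype.card ι : ℝ) * (gFun r - gFun r) / betaF (r + 1))
        - (1 - η) * ((Fintype.card ι : ℝ) * (gFun s - gFun s) / betaF (s + 1)))) := by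
    apply Filter.Tendsto.sub
    · apply Filter.Tendsto.sub
      · exact (hgt.div hβt hβt0).const_mul _
      · exact ((((hgshift r hr).sub_const _).const_mul _).div_const _).const_mul _
    · exact ((((hgshift s hs).sub_const _).const_mul _).div_const _).const_mul _
  have hR : Filter.Tendsto (fun ε : ℝ => Sc / betaF (t + ε)) (nhdsWithin 0 (Set.Ioi 0))
      (nhds (Sc / betaF t)) := tendsto_const_nhds.div hβt hβt0
  have hev : ∀ᶠ ε : ℝ in nhdsWithin 0 (Set.Ioi 0), (Fintype.card ι : ℝ) * (gFun (t + ε) / betaF (t + ε))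
        - η * ((Fintype.card ι : ℝ) * (gFun (r + ε) - gFun r) / betaF (r + 1))
        - (1 - η) * ((Fintype.card ι : ℝ) * (gFun (s + ε) - gFun s) / betaF (s + 1))
        ≤ Sc / betaF (t + ε) := by
    have h1 : Set.Ioc (0:ℝ) 1 ∈ nhdsWithin (0:ℝ) (Set.Ioi 0) :=
      Ioc_mem_nhdsGT zero_lt_one
    filter_upwards [h1] with ε hε
    exact key ε hε.1 hε.2
  have hfin := le_of_tendsto_of_tendsto hL hR hev
  have hfin' : (Fintype.card ι : ℝ) * (gFun t / betaF t) ≤ Sc / betaF t := by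
    simpa using hfin
  have hβ : 0 < betaF t := betaF_pos ht
  have e : (Fintype.card ι : ℝ) * (gFun t / betaF t) = ((Fintype.card ι : ℝ) * gFun t) / betaF t := by ring
  rw [e] at hfin'
  exact (div_le_div_iff_of_pos_right hβ).mp hfin'

end

end Vale.Agent.Lib.P369
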