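import Vale.Agent.Lib.P369.TSM
import Vale.Agent.Lib.P369.CFlowM
import Vale.Agent.Lib.P369.EntropyM
import Vale.Agent.Lib.P369.GProps

/-!
# JOB M12: monotone interpolation for finitely supported inputs (P369)

(Multi-mode analogue of `MainFinite.lean` `interp_ineq` on origin/helper39; copy and adapt.)

Let `t = η r + (1-η) s`, `A_x = flowM a L r x`, `B_x = flowM b L' s x`, `C_x = bsOutM η A_x B_x`,
`Ψ(x) = S(C_x)/β_t - η S(A_x)/β_r - (1-η) S(B_x)/β_s` with `S = entropyM`.

On `(0,1)`, by `entropyM_hasDerivAt` on subintervals `(x₀, x₁) ∋ x` (with the uniform bounds `flowM_upper`, `flowM_lower`, `cFlowM_upper`, `cFlowM_lower`):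
 `Ψ'(x) = -(1/x) [ NsumM t C_x - η NsumM r A_x - (1-η) NsumM s B_x ] ≥ 0`  by `TS_bsOutM` with `flowM_good`.
`Ψ` is continuous on `[0,1]` by `entropyM_continuousOn` (`0 ≤ f ≤ 1` from normalisation) and `flowM_continuousOn`, `cFlowM_continuousOn`.
So `Ψ(0) ≤ Ψ(1)` (`monotoneOn_of_deriv_nonneg` on `Icc 0 1`).
`Ψ(1)`: `flowM a L r 1 = a`, `flowM b L' s 1 = b`.  `Ψ(0)`: `A_0 = thM r`, `B_0 = thM s`, `C_0 = thM t` (`bsOutM_thM`), entropy `card ι * g`.
-/

namespace Vale.Agent.Lib.P369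

open Set

noncomputable section

variable {ι : Type*} [Fintype ι] [DecidableEq ι] {η r s : ℝ} {a b : (ι → ℕ) → ℝ} {L L' : ℕ}

omit [Fintype ι] [DecidableEq ι] in
private lemma le_one_of_hasSumM {f : (ι → ℕ) → ℝ} (h0 : ∀ k, 0 ≤ f k) (hs : HasSum f 1)
    (k : ι → ℕ) : f k ≤ 1 := by
  have := le_hasSum hs k (fun j _ => h0 j)
  simpa using this

private lemma flowM_unit (hr : 0 < r) (ha : FinPassiveM a L) {y : ℝ} (hy : y ∈ Icc (0 : ℝ) 1)
    (k : ι → ℕ) : 0 ≤ flowM a L r y k ∧ flowM a L r y k ≤ 1 :=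
  ⟨flowM_nonneg hr ha hy k, le_one_of_hasSumM (flowM_nonneg hr ha hy) (flowM_hasSum hr ha hy) k⟩

/-- Entropy along the flow: continuity on `[0,1]`. -/
private lemma entropy_flowM_continuousOn (hr : 0 < r) (ha : FinPassiveM a L) :
    ContinuousOn (fun y => entropyM (flowM a L r y)) (Icc 0 1) := by
  obtain ⟨c, w, hc, hw, hw1, hup⟩ := flowM_upper hr ha
  exact entropyM_continuousOn hw hw1 hc
    (fun y hy k => ⟨(flowM_unit hr ha hy k).1, (flowM_unit hr ha hy k).2, hup y hy k⟩)
    (fun k => flowM_continuousOn hr a L k)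

/-- The entropy derivative along the flow. -/
private lemma entropy_flowM_hasDerivAt (hr : 0 < r) (ha : FinPassiveM a L) {x : ℝ} (h0 : 0 < x)
    (h1 : x < 1) :
    HasDerivAt (fun y => entropyM (flowM a L r y))
      (-(1 / x) * (betaF r * NsumM r (flowM a L r x))) x := by
  obtain ⟨c₂, w₂, hc₂, hw₂, hw₂1, hup⟩ := flowM_upper hr ha
  have hb : (1 + x) / 2 < 1 := by linarith
  obtain ⟨c₁, w₁, hc₁, hw₁, hw₁1, hlow⟩ := flowM_lower hr ha hb
  refine entropyM_hasDerivAt (a := x / 2) (b := (1 + x) / 2) hr (by linarith) hc₁ hw₁ hw₁1 hc₂ hw₂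
    hw₂1 ?_ ?_ ?_ ⟨by linarith, by linarith⟩
  · intro y hy k
    exact hlow y ⟨by linarith [hy.1], hy.2.le⟩ k
  · intro y hy k
    exact hup y ⟨by linarith [hy.1], by linarith [hy.2]⟩ k
  · intro y hy k
    exact flowM_hasDerivAt hr a L (by linarith [hy.1]) (by linarith [hy.2]) k

private lemma cflowM_unit (hη : 0 < η) (hη1 : η < 1) (hr : 0 < r) (hs : 0 < s)
    (ha : FinPassiveM a L) (hb : FinPassiveM b L') {y : ℝ} (hy : y ∈ Icc (0 : ℝ) 1)
    (k : ι → ℕ) :
    0 ≤ bsOutM η (flowM a L r y) (flowM b L' s y) k ∧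
      bsOutM η (flowM a L r y) (flowM b L' s y) k ≤ 1 := by
  have h1 : ∀ k, 0 ≤ bsOutM η (flowM a L r y) (flowM b L' s y) k :=
    fun k => bsOutM_nonneg hη.le hη1.le (flowM_nonneg hr ha hy) (flowM_nonneg hs hb hy) k
  exact ⟨h1 k, le_one_of_hasSumM h1 (bsOutM_hasSum hη.le hη1.le (flowM_nonneg hr ha hy)
    (flowM_nonneg hs hb hy) (flowM_hasSum hr ha hy) (flowM_hasSum hs hb hy)) k⟩

private lemma entropy_cflowM_continuousOn (hη : 0 < η) (hη1 : η < 1) (hr : 0 < r) (hs : 0 < s)
    (ha : FinPassiveM a L) (hb : FinPassiveM b L') :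
    ContinuousOn (fun y => entropyM (bsOutM η (flowM a L r y) (flowM b L' s y))) (Icc 0 1) := by
  obtain ⟨c, w, hc, hw, hw1, hup⟩ := cFlowM_upper hη hη1 hr hs ha hb
  exact entropyM_continuousOn hw hw1 hc
    (fun y hy k => ⟨(cflowM_unit hη hη1 hr hs ha hb hy k).1, (cflowM_unit hη hη1 hr hs ha hb hy k).2,
      hup y hy k⟩)
    (fun k => cFlowM_continuousOn hη hη1 hr hs ha hb k)

private lemma entropy_cflowM_hasDerivAt (hη : 0 < η) (hη1 : η < 1) (hr : 0 < r) (hs : 0 < s)
    (ha : FinPassiveM a L) (hb : FinPassiveM b L') {x : ℝ} (h0 : 0 < x) (h1 : x < 1) :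
    HasDerivAt (fun y => entropyM (bsOutM η (flowM a L r y) (flowM b L' s y)))
      (-(1 / x) * (betaF (η * r + (1 - η) * s) *
        NsumM (η * r + (1 - η) * s) (bsOutM η (flowM a L r x) (flowM b L' s x)))) x := by
  obtain ⟨c₂, w₂, hc₂, hw₂, hw₂1, hup⟩ := cFlowM_upper hη hη1 hr hs ha hb
  have hb' : (1 + x) / 2 < 1 := by linarith
  obtain ⟨c₁, w₁, hc₁, hw₁, hw₁1, hlow⟩ := cFlowM_lower hη hη1 hr hs ha hb hb'
  have ht : 0 < η * r + (1 - η) * s := by
    have h1 : 0 < η * r := mul_pos hη hr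
    have h2 : 0 < (1 - η) * s := mul_pos (by linarith) hs
    linarith
  refine entropyM_hasDerivAt (a := x / 2) (b := (1 + x) / 2) ht (by linarith) hc₁ hw₁ hw₁1 hc₂ hw₂
    hw₂1 ?_ ?_ ?_ ⟨by linarith, by linarith⟩
  · intro y hy k
    exact hlow y ⟨by linarith [hy.1], hy.2.le⟩ k
  · intro y hy k
    exact hup y ⟨by linarith [hy.1], by linarith [hy.2]⟩ k
  · intro y hy k
    exact cFlowM_hasDerivAt hη hη1 hr hs ha hb (by linarith [hy.1]) (by linarith [hy.2]) k

theorem interpM_ineq (hη : 0 < η) (hη1 : η < 1) (hr : 0 < r) (hs : 0 < s)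
    (ha : FinPassiveM a L) (hb : FinPassiveM b L') :
    (Fintype.card ι : ℝ) * (gFun (η * r + (1 - η) * s) / betaF (η * r + (1 - η) * s) -
        η * (gFun r / betaF r) - (1 - η) * (gFun s / betaF s)) ≤
      entropyM (bsOutM η a b) / betaF (η * r + (1 - η) * s) - η * (entropyM a / betaF r)
        - (1 - η) * (entropyM b / betaF s) := by
  have ht : 0 < η * r + (1 - η) * s := by
    have h1 : 0 < η * r := mul_pos hη hr
    have h2 : 0 < (1 - η) * s := mul_pos (by linarith) hs
    linarith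
  set t := η * r + (1 - η) * s with htdef
  have hβt : 0 < betaF t := betaF_pos ht
  have hβr : 0 < betaF r := betaF_pos hr
  have hβs : 0 < betaF s := betaF_pos hs
  let Ψ : ℝ → ℝ := fun y =>
    entropyM (bsOutM η (flowM a L r y) (flowM b L' s y)) / betaF t
      - η * (entropyM (flowM a L r y) / betaF r) - (1 - η) * (entropyM (flowM b L' s y) / betaF s)
  have hcont : ContinuousOn Ψ (Icc 0 1) := by
    refine ((entropy_cflowM_continuousOn hη hη1 hr hs ha hb).div_const _).sub
      (continuousOn_const.mul ((entropy_flowM_continuousOn hr ha).div_const _)) |>.sub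
      (continuousOn_const.mul ((entropy_flowM_continuousOn hs hb).div_const _))
  have hder : ∀ x ∈ Ioo (0 : ℝ) 1, HasDerivAt Ψ
      (-(1 / x) * (betaF t * NsumM t (bsOutM η (flowM a L r x) (flowM b L' s x))) / betaF t
        - η * (-(1 / x) * (betaF r * NsumM r (flowM a L r x)) / betaF r)
        - (1 - η) * (-(1 / x) * (betaF s * NsumM s (flowM b L' s x)) / betaF s)) x := by
    intro x hx
    exact ((entropy_cflowM_hasDerivAt hη hη1 hr hs ha hb hx.1 hx.2).div_const _).sub
      (((entropy_flowM_hasDerivAt hr ha hx.1 hx.2).div_const _).const_mul _) |>.sub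
      (((entropy_flowM_hasDerivAt hs hb hx.1 hx.2).div_const _).const_mul _)
  have hmono : MonotoneOn Ψ (Icc 0 1) := by
    refine monotoneOn_of_deriv_nonneg (convex_Icc 0 1) hcont ?_ ?_
    · intro x hx
      rw [interior_Icc] at hx
      exact (hder x hx).differentiableAt.differentiableWithinAt
    · intro x hx
      rw [interior_Icc] at hx
      rw [(hder x hx).deriv]
      have hTS := TS_bsOutM hη hη1 hr hs (flowM_good hr ha hx.1.le hx.2)
        (flowM_good hs hb hx.1.le hx.2)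
      rw [← htdef] at hTS
      have hx0 : 0 < 1 / x := one_div_pos.mpr hx.1
      have e1 : -(1 / x) * (betaF t * NsumM t (bsOutM η (flowM a L r x) (flowM b L' s x))) / betaF t
          = -(1 / x) * NsumM t (bsOutM η (flowM a L r x) (flowM b L' s x)) := by
        field_simp
      have e2 : -(1 / x) * (betaF r * NsumM r (flowM a L r x)) / betaF r
          = -(1 / x) * NsumM r (flowM a L r x) := by
        field_simp
      have e3 : -(1 / x) * (betaF s * NsumM s (flowM b L' s x)) / betaF s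
          = -(1 / x) * NsumM s (flowM b L' s x) := by
        field_simp
      rw [e1, e2, e3]
      have : 0 ≤ (1 / x) * (η * NsumM r (flowM a L r x) + (1 - η) * NsumM s (flowM b L' s x)
          - NsumM t (bsOutM η (flowM a L r x) (flowM b L' s x))) :=
        mul_nonneg hx0.le (by linarith)
      nlinarith [this]
  have hle : Ψ 0 ≤ Ψ 1 := hmono (left_mem_Icc.mpr zero_le_one) (right_mem_Icc.mpr zero_le_one)
    zero_le_one
  have hA1 : flowM a L r 1 = a := funext (flowM_one hr ha)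
  have hB1 : flowM b L' s 1 = b := funext (flowM_one hs hb)
  have hA0 : flowM a L r 0 = thM r := funext (flowM_zero hr ha)
  have hB0 : flowM b L' s 0 = thM s := funext (flowM_zero hs hb)
  have hC0 : bsOutM η (thM (ι := ι) r) (thM s) = thM t :=
    funext (bsOutM_thM hη.le hη1.le hr hs)
  simp only [Ψ, hA1, hB1, hA0, hB0, hC0, entropyM_thM ht, entropyM_thM hr, entropyM_thM hs]
    at hle
  have e : (Fintype.card ι : ℝ) * (gFun t / betaF t - η * (gFun r / betaF r)
      - (1 - η) * (gFun s / betaF s)) =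
      (Fintype.card ι : ℝ) * gFun t / betaF t - η * ((Fintype.card ι : ℝ) * gFun r / betaF r)
      - (1 - η) * ((Fintype.card ι : ℝ) * gFun s / betaF s) := by
    ring
  rw [e]
  exact hle

end

end Vale.Agent.Lib.P369
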