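import Vale.Agent.Lib.P369.RzSets

/-!
# Layer cake (Abel summation) and the one-mode trilinear rearrangement (P369)

`abel_nonpos`: if `f ≥ 0` is antitone and all partial sums of `Y` up to `N` are `≤ 0`, then
`∑_{u<N} f u Y u ≤ 0`.

`tri_rearr`: for permutations `σ₁, σ₂, σ₃` of `ℕ` and antitone nonnegative `f, a, b`:
`∑_{u,v,w<N} f u a v b w M(σ₁ u|σ₂ v,σ₃ w) ≤ ∑_{u,v,w<N} f u a v b w M(u|v,w)`.
-/

namespace Vale.Agent.Lib.P369

open Finset

noncomputable section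

variable {η : ℝ}

/-- Abel's inequality. -/
lemma abel_nonpos {f Y : ℕ → ℝ} {N : ℕ} (h0 : ∀ u, 0 ≤ f u) (hf : Antitone f)
    (hY : ∀ m ≤ N, ∑ u ∈ range m, Y u ≤ 0) : ∑ u ∈ range N, f u * Y u ≤ 0 := by
  cases N with
  | zero => simp
  | succ N =>
    have key : ∀ K, K ≤ N → ∑ u ∈ range (K + 1), f u * Y u ≤ f K * ∑ u ∈ range (K + 1), Y u := by
      intro K
      induction K with
      | zero => intro _; simp
      | succ K ih =>
        intro hK
        have h1 := ih (by omega)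
        have h2 := hY (K + 1) (by omega)
        have h3 : f (K + 1) ≤ f K := hf (by omega)
        rw [sum_range_succ, sum_range_succ (fun u => Y u) (K + 1)]
        nlinarith [mul_nonneg (sub_nonneg.2 h3) (neg_nonneg.2 h2)]
    calc _ ≤ f N * ∑ u ∈ range (N + 1), Y u := key N le_rfl
      _ ≤ 0 := mul_nonpos_of_nonneg_of_nonpos (h0 N) (hY _ le_rfl)

private lemma comm3 (A B C : Finset ℕ) (F : ℕ → ℕ → ℕ → ℝ) :
    ∑ u ∈ A, ∑ v ∈ B, ∑ w ∈ C, F u v w = ∑ v ∈ B, ∑ w ∈ C, ∑ u ∈ A, F u v w := by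
  rw [sum_comm]
  refine sum_congr rfl fun v _ => ?_
  rw [sum_comm]

/-- Trilinear rearrangement on one mode. -/
theorem tri_rearr (hη : 0 ≤ η) (hη1 : η ≤ 1) (σ₁ σ₂ σ₃ : Equiv.Perm ℕ) {f a b : ℕ → ℝ}
    (hf0 : ∀ u, 0 ≤ f u) (hf : Antitone f) (ha0 : ∀ u, 0 ≤ a u) (ha : Antitone a)
    (hb0 : ∀ u, 0 ≤ b u) (hb : Antitone b) (N : ℕ) :
    ∑ u ∈ range N, ∑ v ∈ range N, ∑ w ∈ range N, f u * a v * b w * Bp η (σ₁ u) (σ₂ v) (σ₃ w) ≤
      ∑ u ∈ range N, ∑ v ∈ range N, ∑ w ∈ range N, f u * a v * b w * Bp η u v w := by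
  set X : ℕ → ℕ → ℕ → ℝ := fun u v w => Bp η (σ₁ u) (σ₂ v) (σ₃ w) - Bp η u v w with hX
  have hX0 : ∀ m n r, ∑ u ∈ range m, ∑ v ∈ range n, ∑ w ∈ range r, X u v w ≤ 0 := by
    intro m n r
    have h := rz_perm hη hη1 σ₁ σ₂ σ₃ m n r
    simp only [hX, sum_sub_distrib]
    linarith
  -- three applications of Abel's inequality
  have step1 : ∀ m n, ∑ w ∈ range N, b w * ∑ u ∈ range m, ∑ v ∈ range n, X u v w ≤ 0 := by
    intro m n
    refine abel_nonpos hb0 hb fun r _ => ?_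
    rw [comm3 (range r) (range m) (range n) (fun w u v => X u v w)]
    exact hX0 m n r
  have step2 : ∀ m, ∑ v ∈ range N, a v * ∑ w ∈ range N, b w * ∑ u ∈ range m, X u v w ≤ 0 := by
    intro m
    refine abel_nonpos ha0 ha fun n _ => ?_
    have := step1 m n
    calc ∑ v ∈ range n, ∑ w ∈ range N, b w * ∑ u ∈ range m, X u v w
        = ∑ w ∈ range N, b w * ∑ u ∈ range m, ∑ v ∈ range n, X u v w := by
          rw [sum_comm]
          refine sum_congr rfl fun w _ => ?_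
          rw [← mul_sum, sum_comm]
      _ ≤ 0 := this
  have step3 : ∑ u ∈ range N, f u * ∑ v ∈ range N, a v * ∑ w ∈ range N, b w * X u v w ≤ 0 := by
    refine abel_nonpos hf0 hf fun m _ => ?_
    have := step2 m
    calc ∑ u ∈ range m, ∑ v ∈ range N, a v * ∑ w ∈ range N, b w * X u v w
        = ∑ v ∈ range N, a v * ∑ w ∈ range N, b w * ∑ u ∈ range m, X u v w := by
          simp only [mul_sum]
          exact comm3 (range m) (range N) (range N) (fun u v w => a v * (b w * X u v w))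
      _ ≤ 0 := this
  have e : ∑ u ∈ range N, f u * ∑ v ∈ range N, a v * ∑ w ∈ range N, b w * X u v w =
      ∑ u ∈ range N, ∑ v ∈ range N, ∑ w ∈ range N, f u * a v * b w * Bp η (σ₁ u) (σ₂ v) (σ₃ w) -
      ∑ u ∈ range N, ∑ v ∈ range N, ∑ w ∈ range N, f u * a v * b w * Bp η u v w := by
    simp only [← sum_sub_distrib, mul_sum]
    refine sum_congr rfl fun u _ => sum_congr rfl fun v _ => sum_congr rfl fun w _ => ?_
    simp only [hX]
    ring
  linarith

end

end Vale.Agent.Lib.P369
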