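import Vale.Agent.Lib.P369.RzFibre

/-!
# Rearrangement along a list of coordinates (P369)
-/

namespace Vale.Agent.Lib.P369

open Finset

noncomputable section

variable {ι : Type*} [Fintype ι] [DecidableEq ι] {η : ℝ}

/-- Successive fibrewise sorting along a list of coordinates. -/
def RearrL (M : ℕ) : List ι → ((ι → ℕ) → ℝ) → ((ι → ℕ) → ℝ) → Prop
  | [], g, g' => g' = g
  | i :: l, g, g' => ∃ h, FibreSorted i M g h ∧ RearrL M l h g'

theorem exists_rearrL (M : ℕ) (l : List ι) {g : (ι → ℕ) → ℝ} (h0 : ∀ x, 0 ≤ g x)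
    (hs : ∀ x, x ∉ boxF (ι := ι) M → g x = 0) : ∃ g', RearrL M l g g' := by
  induction l generalizing g with
  | nil => exact ⟨g, rfl⟩
  | cons i l ih =>
    obtain ⟨h, hh⟩ := exists_fibreSorted i h0 hs
    obtain ⟨g', hg'⟩ := ih (hh.nonneg h0) (hh.support hs)
    exact ⟨g', h, hh, hg'⟩

lemma RearrL.nonneg {M : ℕ} {l : List ι} {g g' : (ι → ℕ) → ℝ} (h : RearrL M l g g')
    (h0 : ∀ x, 0 ≤ g x) (x : ι → ℕ) : 0 ≤ g' x := by
  induction l generalizing g with
  | nil =>
    have e : g' = g := h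
    rw [e]
    exact h0 x
  | cons i l ih =>
    obtain ⟨k, hk, hk'⟩ := h
    exact ih hk' (hk.nonneg h0)

lemma RearrL.support {M : ℕ} {l : List ι} {g g' : (ι → ℕ) → ℝ} (h : RearrL M l g g')
    (h0 : ∀ x, x ∉ boxF (ι := ι) M → g x = 0) (x : ι → ℕ) (hx : x ∉ boxF (ι := ι) M) : g' x = 0 := by
  induction l generalizing g with
  | nil =>
    have e : g' = g := h
    rw [e]
    exact h0 x hx
  | cons i l ih =>
    obtain ⟨k, hk, hk'⟩ := h
    exact ih hk' (hk.support h0)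

lemma RearrL.sum_comp {M : ℕ} {l : List ι} {g g' : (ι → ℕ) → ℝ} (h : RearrL M l g g')
    (φ : ℝ → ℝ) : ∑ x ∈ boxF M, φ (g' x) = ∑ x ∈ boxF M, φ (g x) := by
  induction l generalizing g with
  | nil =>
    have e : g' = g := h
    rw [e]
  | cons i l ih =>
    obtain ⟨k, hk, hk'⟩ := h
    rw [ih hk', hk.sum_comp φ]

lemma RearrL.comp {M : ℕ} {l : List ι} {g g' : (ι → ℕ) → ℝ} (h : RearrL M l g g')
    {ψ : ℝ → ℝ} (hψ : Monotone ψ) : RearrL M l (fun x => ψ (g x)) (fun x => ψ (g' x)) := by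
  induction l generalizing g with
  | nil =>
    have e : g' = g := h
    subst e
    rfl
  | cons i l ih =>
    obtain ⟨k, hk, hk'⟩ := h
    exact ⟨fun x => ψ (k x), hk.comp hψ, ih hk'⟩

/-- The trilinear form does not decrease along a chain. -/
theorem TriM_rearrL (hη : 0 ≤ η) (hη1 : η ≤ 1) (M : ℕ) (l : List ι) {f a b f' a' b' : (ι → ℕ) → ℝ}
    (hf0 : ∀ x, 0 ≤ f x) (ha0 : ∀ x, 0 ≤ a x) (hb0 : ∀ x, 0 ≤ b x)
    (hf : RearrL M l f f') (ha : RearrL M l a a') (hb : RearrL M l b b') :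
    TriM η M f a b ≤ TriM η M f' a' b' := by
  induction l generalizing f a b with
  | nil =>
    have e1 : f' = f := hf
    have e2 : a' = a := ha
    have e3 : b' = b := hb
    rw [e1, e2, e3]
  | cons i l ih =>
    obtain ⟨f₁, hf₁, hf₂⟩ := hf
    obtain ⟨a₁, ha₁, ha₂⟩ := ha
    obtain ⟨b₁, hb₁, hb₂⟩ := hb
    have s1 := hf₁.nonneg hf0
    have s2 := ha₁.nonneg ha0
    have s3 := hb₁.nonneg hb0
    exact (TriM_step hη hη1 i M s1 s2 s3 hf₁ ha₁ hb₁).trans (ih s1 s2 s3 hf₂ ha₂ hb₂)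

private lemma RearrL.antiDir_aux {M : ℕ} {l : List ι} {g g' : (ι → ℕ) → ℝ} (h : RearrL M l g g') :
    (∀ j, AntiDir j g → AntiDir j g') ∧ (∀ j ∈ l, AntiDir j g') := by
  induction l generalizing g with
  | nil =>
    have e : g' = g := h
    rw [e]
    exact ⟨fun _ hj => hj, fun j hj => absurd hj (List.not_mem_nil)⟩
  | cons i l ih =>
    obtain ⟨k, hk, hk'⟩ := h
    obtain ⟨i1, i2⟩ := ih hk'
    refine ⟨fun j hj => ?_, fun j hj => ?_⟩
    · by_cases hji : j = i
      · subst hji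
        exact i1 j hk.antiDir_self
      · exact i1 j (hk.antiDir_of_ne hji hj)
    · rcases List.mem_cons.1 hj with hji | hjl
      · subst hji
        exact i1 j hk.antiDir_self
      · exact i2 j hjl

/-- Antitone after sorting along every coordinate. -/
theorem RearrL.antitone {M : ℕ} {g g' : (ι → ℕ) → ℝ}
    (h : RearrL M (Finset.univ.toList : List ι) g g') : Antitone g' := by
  have hA : ∀ j : ι, AntiDir j g' := fun j =>
    (RearrL.antiDir_aux h).2 j (Finset.mem_toList.2 (Finset.mem_univ j))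
  exact antitone_of_bump fun i m => hA i m

end

end Vale.Agent.Lib.P369
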