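import Vale.Agent.Lib.P369.RzChain

/-!
# Rearranging finitely supported inputs lowers the output entropy (P369)

Let `a, b ≥ 0` with total mass `1`, supported in `box L`, `M = 2 L`, `c = bsOutM η a b`, supported in `box M`.
Sort `a, b, c` along all coordinates (`RearrL M l`) to `a', b', c'`; `d = bsOutM η a' b'`.

* (`bsOutM_eq_sum`, `TriM_eq`) `TriM η M f a b = ∑_{j∈box} f j * c j`.
* Test `f = ψ₀ ∘ c`, `ψ₀ t = 1` if `t > 0`, else `0`: `1 = ∑_box c ≤ ∑_{box} ψ₀(c' j) d j`, so `d j = 0` unless `j ∈ box` and `c' j > 0`.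
* Test `f = ψ ∘ c`, `ψ t = log(t/ε)` if `ε ≤ t`, else `0`, where `ε = min{c j > 0}`; by `RearrL.sum_comp` also `c' j > 0 ⇒ ε ≤ c' j`.
  `-S(c) - log ε = ∑ ψ(c j) c j ≤ ∑ ψ(c' j) d j = ∑_box d j log c' j - log ε`.
* Gibbs: `d log c' + negMulLog d ≤ c' - d` termwise, sum `≤ 1 - 1 = 0`. So `S(d) ≤ S(c)`.
-/

namespace Vale.Agent.Lib.P369

open Finset

noncomputable section

variable {ι : Type*} [Fintype ι] [DecidableEq ι] {η : ℝ}

/-- For inputs supported in the box, the output is a finite sum. -/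
lemma bsOutM_eq_sum {M : ℕ} {a b : (ι → ℕ) → ℝ} (ha : ∀ x, x ∉ boxF (ι := ι) M → a x = 0)
    (hb : ∀ x, x ∉ boxF (ι := ι) M → b x = 0) (j : ι → ℕ) :
    bsOutM η a b j = ∑ k ∈ boxF M, ∑ l ∈ boxF M, a k * b l * kerM η j k l := by
  unfold bsOutM
  rw [tsum_eq_sum (s := boxF (ι := ι) M ×ˢ boxF (ι := ι) M)]
  · rw [Finset.sum_product]
  · intro x hx
    rw [Finset.mem_product, not_and_or] at hx
    rcases hx with hx | hx
    · rw [ha _ hx]; simp
    · rw [hb _ hx]; simp

lemma TriM_eq {M : ℕ} {a b : (ι → ℕ) → ℝ} (ha : ∀ x, x ∉ boxF (ι := ι) M → a x = 0)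
    (hb : ∀ x, x ∉ boxF (ι := ι) M → b x = 0) (f : (ι → ℕ) → ℝ) :
    TriM η M f a b = ∑ j ∈ boxF M, f j * bsOutM η a b j := by
  unfold TriM
  refine Finset.sum_congr rfl fun j _ => ?_
  rw [bsOutM_eq_sum ha hb, Finset.mul_sum]
  refine Finset.sum_congr rfl fun k _ => ?_
  rw [Finset.mul_sum]
  refine Finset.sum_congr rfl fun l _ => ?_
  ring

/-- The output of inputs in `box L` lies in `box (2 L)`. -/
lemma bsOutM_support {L : ℕ} {a b : (ι → ℕ) → ℝ} (ha : ∀ x, x ∉ boxF (ι := ι) L → a x = 0)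
    (hb : ∀ x, x ∉ boxF (ι := ι) L → b x = 0) (j : ι → ℕ) (hj : j ∉ boxF (ι := ι) (2 * L)) :
    bsOutM η a b j = 0 := by
  unfold bsOutM
  rw [show (fun x : (ι → ℕ) × (ι → ℕ) => a x.1 * b x.2 * kerM η j x.1 x.2) = fun _ => 0 from ?_,
    tsum_zero]
  funext x
  rw [mem_boxF'] at hj
  simp only [not_forall, not_le] at hj
  obtain ⟨i, hi⟩ := hj
  by_cases h1 : x.1 ∈ boxF (ι := ι) L
  · by_cases h2 : x.2 ∈ boxF (ι := ι) L
    · have h3 := mem_boxF'.mp h1 i
      have h4 := mem_boxF'.mp h2 i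
      rw [kerM_eq_zero i (by omega), mul_zero]
    · rw [hb x.2 h2]
      simp
  · rw [ha x.1 h1]
    simp

lemma support_mono {L M : ℕ} (h : L ≤ M) {a : (ι → ℕ) → ℝ}
    (ha : ∀ x, x ∉ boxF (ι := ι) L → a x = 0) (x : ι → ℕ) (hx : x ∉ boxF (ι := ι) M) : a x = 0 := by
  apply ha
  intro hL
  apply hx
  rw [mem_boxF'] at hL ⊢
  exact fun i => (hL i).trans h

/-! ### E2 -/

private lemma rzE_hasSum_box {M : ℕ} {c : (ι → ℕ) → ℝ} (hc : ∀ x, x ∉ boxF (ι := ι) M → c x = 0)
    (hs : HasSum c 1) : ∑ j ∈ boxF M, c j = 1 := by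
  have h1 : HasSum c (∑ j ∈ boxF (ι := ι) M, c j) := hasSum_sum_of_ne_finset_zero hc
  exact h1.unique hs

private lemma rzE_hasSum_of_box {M : ℕ} {c : (ι → ℕ) → ℝ} (hc : ∀ x, x ∉ boxF (ι := ι) M → c x = 0)
    (hs : ∑ j ∈ boxF M, c j = 1) : HasSum c 1 := by
  have h1 : HasSum c (∑ j ∈ boxF (ι := ι) M, c j) := hasSum_sum_of_ne_finset_zero hc
  rwa [hs] at h1

private lemma rzE_entropy_box {M : ℕ} {c : (ι → ℕ) → ℝ} (hc : ∀ x, x ∉ boxF (ι := ι) M → c x = 0) :
    entropyM c = ∑ j ∈ boxF M, Real.negMulLog (c j) := by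
  unfold entropyM
  apply tsum_eq_sum
  intro x hx
  rw [hc x hx]
  simp

/-- The monotone test function of the level `ε`. -/
private def rzE_psi (ε : ℝ) (t : ℝ) : ℝ := if ε ≤ t then Real.log (t / ε) else 0

private lemma rzE_psi_nonneg {ε : ℝ} (hε : 0 < ε) (t : ℝ) : 0 ≤ rzE_psi ε t := by
  unfold rzE_psi
  split_ifs with h
  · apply Real.log_nonneg
    rwa [le_div_iff₀ hε, one_mul]
  · exact le_rfl

private lemma rzE_psi_mono {ε : ℝ} (hε : 0 < ε) : Monotone (rzE_psi ε) := by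
  intro s t hst
  unfold rzE_psi
  by_cases hs : ε ≤ s
  · have ht : ε ≤ t := hs.trans hst
    simp only [hs, ht, if_true]
    apply Real.log_le_log
    · exact div_pos (lt_of_lt_of_le hε hs) hε
    · exact div_le_div_of_nonneg_right hst hε.le
  · simp only [hs, if_false]
    exact rzE_psi_nonneg hε t

private lemma rzE_psi_eq {ε t : ℝ} (hε : 0 < ε) (ht : ε ≤ t) :
    rzE_psi ε t = Real.log t - Real.log ε := by
  unfold rzE_psi
  rw [if_pos ht, Real.log_div (lt_of_lt_of_le hε ht).ne' hε.ne']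

/-- The support test function. -/
private def rzE_psi0 (t : ℝ) : ℝ := if 0 < t then 1 else 0

private lemma rzE_psi0_mono : Monotone rzE_psi0 := by
  intro s t hst
  unfold rzE_psi0
  by_cases hs : 0 < s
  · have ht : 0 < t := lt_of_lt_of_le hs hst
    simp [hs, ht]
  · simp only [hs, if_false]
    split_ifs <;> norm_num

private lemma rzE_psi0_nonneg (t : ℝ) : 0 ≤ rzE_psi0 t := by
  unfold rzE_psi0
  split_ifs <;> norm_num

/-- The gap test function. -/
private def rzE_gap (ε t : ℝ) : ℝ := if 0 < t ∧ t < ε then 1 else 0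

/-- Gibbs, termwise. -/
private lemma rzE_gibbs {d c : ℝ} (hd : 0 ≤ d) (hc : 0 ≤ c) (h : 0 < d → 0 < c) :
    d * Real.log c + Real.negMulLog d ≤ c - d := by
  rcases hd.eq_or_lt with rfl | hd
  · simp [Real.negMulLog]
    exact hc
  · have hc' := h hd
    have h1 : Real.log (c / d) ≤ c / d - 1 := Real.log_le_sub_one_of_pos (div_pos hc' hd)
    rw [Real.log_div hc'.ne' hd.ne'] at h1
    have h2 := mul_le_mul_of_nonneg_left h1 hd.le
    have e : d * (c / d - 1) = c - d := by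
      field_simp
    rw [e] at h2
    unfold Real.negMulLog
    nlinarith

/-- The entropy comparison for rearranged inputs. -/
theorem entropy_rearr (hη : 0 ≤ η) (hη1 : η ≤ 1) {L : ℕ} {l : List ι} {a b a' b' : (ι → ℕ) → ℝ}
    (ha0 : ∀ x, 0 ≤ a x) (hb0 : ∀ x, 0 ≤ b x) (hsa : HasSum a 1) (hsb : HasSum b 1)
    (ha : ∀ x, x ∉ boxF (ι := ι) L → a x = 0) (hb : ∀ x, x ∉ boxF (ι := ι) L → b x = 0)
    (hra : RearrL (2 * L) l a a') (hrb : RearrL (2 * L) l b b') :
    entropyM (bsOutM η a' b') ≤ entropyM (bsOutM η a b) := by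
  set M := 2 * L with hM
  have hLM : L ≤ M := by omega
  have haM := support_mono hLM ha
  have hbM := support_mono hLM hb
  have haM' := hra.support haM
  have hbM' := hrb.support hbM
  have ha0' := hra.nonneg ha0
  have hb0' := hrb.nonneg hb0
  -- the rearranged inputs have mass one
  have hsa' : HasSum a' 1 := by
    apply rzE_hasSum_of_box haM'
    have := hra.sum_comp id
    simp only [id] at this
    rw [this]
    exact rzE_hasSum_box haM hsa
  have hsb' : HasSum b' 1 := by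
    apply rzE_hasSum_of_box hbM'
    have := hrb.sum_comp id
    simp only [id] at this
    rw [this]
    exact rzE_hasSum_box hbM hsb
  -- the output and its rearrangement
  set c := bsOutM η a b with hc
  set d := bsOutM η a' b' with hd
  have hc0 : ∀ x, 0 ≤ c x := bsOutM_nonneg hη hη1 ha0 hb0
  have hd0 : ∀ x, 0 ≤ d x := bsOutM_nonneg hη hη1 ha0' hb0'
  have hcM : ∀ x, x ∉ boxF (ι := ι) M → c x = 0 := fun x hx => bsOutM_support ha hb x hx
  have hsc : HasSum c 1 := bsOutM_hasSum hη hη1 ha0 hb0 hsa hsb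
  have hsd : HasSum d 1 := bsOutM_hasSum hη hη1 ha0' hb0' hsa' hsb'
  have hc1 : ∑ j ∈ boxF M, c j = 1 := rzE_hasSum_box hcM hsc
  -- the rearranged output
  obtain ⟨c', hrc⟩ := exists_rearrL M l hc0 hcM
  have hc0' := hrc.nonneg hc0
  have hc'1 : ∑ j ∈ boxF M, c' j = 1 := by
    have := hrc.sum_comp id
    simp only [id] at this
    rw [this, hc1]
  -- the support test
  have hsupp : ∑ j ∈ boxF M, c j ≤ ∑ j ∈ boxF M, rzE_psi0 (c' j) * d j := by
    have h1 := TriM_rearrL hη hη1 M l (fun x => rzE_psi0_nonneg (c x)) ha0 hb0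
      (hrc.comp rzE_psi0_mono) hra hrb
    rw [TriM_eq haM hbM, TriM_eq haM' hbM'] at h1
    refine le_trans (le_of_eq ?_) h1
    refine Finset.sum_congr rfl fun j _ => ?_
    unfold rzE_psi0
    rcases (hc0 j).eq_or_lt with h | h
    · rw [← h]; simp
    · rw [if_pos h, one_mul]
  rw [hc1] at hsupp
  have hdle : ∀ s : Finset (ι → ℕ), ∑ j ∈ s, d j ≤ 1 := fun s =>
    sum_le_hasSum s (fun x _ => hd0 x) hsd
  have hpsi1 : ∀ t : ℝ, rzE_psi0 t ≤ 1 := by
    intro t
    unfold rzE_psi0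
    split_ifs <;> norm_num
  have hdbox : 1 ≤ ∑ j ∈ boxF M, d j := by
    refine hsupp.trans (Finset.sum_le_sum fun j _ => ?_)
    have := mul_le_mul_of_nonneg_right (hpsi1 (c' j)) (hd0 j)
    linarith
  have hd1 : ∑ j ∈ boxF M, d j = 1 := le_antisymm (hdle _) hdbox
  have hdM : ∀ x, x ∉ boxF (ι := ι) M → d x = 0 := by
    intro x hx
    have h1 := hdle (insert x (boxF M))
    rw [Finset.sum_insert hx, hd1] at h1
    exact le_antisymm (by linarith) (hd0 x)
  -- support of `d` inside the support of `c'`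
  have hdpos : ∀ j ∈ boxF (ι := ι) M, 0 < d j → 0 < c' j := by
    intro j hj hdj
    by_contra hcon
    have h0 : rzE_psi0 (c' j) = 0 := by
      unfold rzE_psi0
      rw [if_neg hcon]
    have h2 : ∑ i ∈ boxF M, rzE_psi0 (c' i) * d i < ∑ i ∈ boxF M, d i := by
      apply Finset.sum_lt_sum
      · intro i _
        have := mul_le_mul_of_nonneg_right (hpsi1 (c' i)) (hd0 i)
        linarith
      · exact ⟨j, hj, by rw [h0]; linarith⟩
    rw [hd1] at h2
    linarith
  -- the level `ε`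
  have hex : ((boxF (ι := ι) M).filter fun j => 0 < c j).Nonempty := by
    by_contra hne
    rw [Finset.not_nonempty_iff_eq_empty] at hne
    have : ∑ j ∈ boxF M, c j = 0 := by
      apply Finset.sum_eq_zero
      intro j hj
      have hj' : j ∉ (boxF (ι := ι) M).filter fun j => 0 < c j := by rw [hne]; simp
      rw [Finset.mem_filter, not_and] at hj'
      exact le_antisymm (not_lt.mp (hj' hj)) (hc0 j)
    rw [hc1] at this
    norm_num at this
  obtain ⟨j0, hj0, hmin⟩ := Finset.exists_min_image _ c hex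
  set ε := c j0 with hε
  have hεpos : 0 < ε := (Finset.mem_filter.mp hj0).2
  have hcε : ∀ j ∈ boxF (ι := ι) M, 0 < c j → ε ≤ c j := fun j hj hp =>
    hmin j (Finset.mem_filter.mpr ⟨hj, hp⟩)
  -- the rearrangement has no values in the gap
  have hc'ε : ∀ j ∈ boxF (ι := ι) M, 0 < c' j → ε ≤ c' j := by
    intro j hj hp
    by_contra hlt
    have hlt' : c' j < ε := not_le.mp hlt
    have h1 := hrc.sum_comp (rzE_gap ε)
    have h2 : ∑ x ∈ boxF M, rzE_gap ε (c x) = 0 := by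
      apply Finset.sum_eq_zero
      intro x hx
      unfold rzE_gap
      rw [if_neg]
      rintro ⟨h3, h4⟩
      exact absurd (hcε x hx h3) (not_le.mpr h4)
    rw [h2] at h1
    have h3 : rzE_gap ε (c' j) ≤ ∑ x ∈ boxF M, rzE_gap ε (c' x) :=
      Finset.single_le_sum (f := fun x => rzE_gap ε (c' x)) (fun x _ => by
        unfold rzE_gap
        split_ifs <;> norm_num) hj
    rw [h1] at h3
    unfold rzE_gap at h3
    rw [if_pos ⟨hp, hlt'⟩] at h3
    norm_num at h3
  -- the logarithmic test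
  have hlog := TriM_rearrL hη hη1 M l (fun x => rzE_psi_nonneg hεpos (c x)) ha0 hb0
      (hrc.comp (rzE_psi_mono hεpos)) hra hrb
  rw [TriM_eq haM hbM, TriM_eq haM' hbM'] at hlog
  have hL : ∑ j ∈ boxF M, rzE_psi ε (c j) * bsOutM η a b j
      = - ∑ j ∈ boxF M, Real.negMulLog (c j) - Real.log ε := by
    have : ∀ j ∈ boxF (ι := ι) M, rzE_psi ε (c j) * bsOutM η a b j
        = - Real.negMulLog (c j) - c j * Real.log ε := by
      intro j hj
      change rzE_psi ε (c j) * c j = _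
      rcases (hc0 j).eq_or_lt with h | h
      · rw [← h]
        simp [Real.negMulLog]
      · rw [rzE_psi_eq hεpos (hcε j hj h)]
        unfold Real.negMulLog
        ring
    rw [Finset.sum_congr rfl this, Finset.sum_sub_distrib, Finset.sum_neg_distrib,
      ← Finset.sum_mul, hc1, one_mul]
  have hR : ∑ j ∈ boxF M, rzE_psi ε (c' j) * bsOutM η a' b' j
      = ∑ j ∈ boxF M, d j * Real.log (c' j) - Real.log ε := by
    have : ∀ j ∈ boxF (ι := ι) M, rzE_psi ε (c' j) * bsOutM η a' b' j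
        = d j * Real.log (c' j) - d j * Real.log ε := by
      intro j hj
      change rzE_psi ε (c' j) * d j = _
      rcases (hd0 j).eq_or_lt with h | h
      · rw [← h]
        simp
      · rw [rzE_psi_eq hεpos (hc'ε j hj (hdpos j hj h))]
        ring
    rw [Finset.sum_congr rfl this, Finset.sum_sub_distrib, ← Finset.sum_mul, hd1, one_mul]
  rw [hL, hR] at hlog
  -- Gibbs
  have hG : ∑ j ∈ boxF M, (d j * Real.log (c' j) + Real.negMulLog (d j)) ≤
      ∑ j ∈ boxF M, (c' j - d j) := by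
    refine Finset.sum_le_sum fun j hj => ?_
    exact rzE_gibbs (hd0 j) (hc0' j) (hdpos j hj)
  rw [Finset.sum_add_distrib, Finset.sum_sub_distrib, hc'1, hd1] at hG
  rw [rzE_entropy_box hdM, rzE_entropy_box hcM]
  linarith

/-- Sorting preserves mass, entropy, finite moments, monotonicity: the part of the passage
to antitone inputs that concerns a single function. -/
private lemma passive_one {M : ℕ} {a a' : (ι → ℕ) → ℝ}
    (ha0 : ∀ x, 0 ≤ a x) (hsa : HasSum a 1)
    (ha : ∀ x, x ∉ boxF (ι := ι) M → a x = 0)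
    (hra : RearrL M (Finset.univ.toList : List ι) a a') :
    (∀ x, 0 ≤ a' x) ∧ Antitone a' ∧ HasSum a' 1 ∧
      Summable (fun k => (tot k : ℝ) * a' k) ∧ entropyM a' = entropyM a := by
  have hsupp : ∀ x, x ∉ boxF (ι := ι) M → a' x = 0 := hra.support ha
  refine ⟨hra.nonneg ha0, hra.antitone, ?_, ?_, ?_⟩
  · have h1 : ∑ x ∈ boxF (ι := ι) M, a x = 1 :=
      (hasSum_sum_of_ne_finset_zero ha).unique hsa
    have h2 : ∑ x ∈ boxF (ι := ι) M, a' x = 1 := by
      rw [hra.sum_comp (fun t => t)]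
      exact h1
    rw [← h2]
    exact hasSum_sum_of_ne_finset_zero hsupp
  · apply summable_of_ne_finset_zero (s := boxF (ι := ι) M)
    intro k hk
    rw [hsupp k hk, mul_zero]
  · unfold entropyM
    rw [tsum_eq_sum (s := boxF (ι := ι) M) (fun k hk => by rw [hsupp k hk, Real.negMulLog_zero]),
      tsum_eq_sum (s := boxF (ι := ι) M) (fun k hk => by rw [ha k hk, Real.negMulLog_zero])]
    exact hra.sum_comp Real.negMulLog

/-- Finitely supported inputs: passage to antitone inputs with the same entropies. -/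
theorem exists_passive_version [Nonempty ι] (hη : 0 ≤ η) (hη1 : η ≤ 1) {L : ℕ} {a b : (ι → ℕ) → ℝ}
    (ha0 : ∀ x, 0 ≤ a x) (hb0 : ∀ x, 0 ≤ b x) (hsa : HasSum a 1) (hsb : HasSum b 1)
    (ha : ∀ x, x ∉ boxF (ι := ι) L → a x = 0) (hb : ∀ x, x ∉ boxF (ι := ι) L → b x = 0) :
    ∃ a' b' : (ι → ℕ) → ℝ, (∀ x, 0 ≤ a' x) ∧ Antitone a' ∧ HasSum a' 1 ∧
      Summable (fun k => (tot k : ℝ) * a' k) ∧
      (∀ x, 0 ≤ b' x) ∧ Antitone b' ∧ HasSum b' 1 ∧
      Summable (fun k => (tot k : ℝ) * b' k) ∧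
      entropyM a' = entropyM a ∧ entropyM b' = entropyM b ∧
      entropyM (bsOutM η a' b') ≤ entropyM (bsOutM η a b) := by
  have hL : L ≤ 2 * L := by omega
  have ha2 : ∀ x, x ∉ boxF (ι := ι) (2 * L) → a x = 0 := support_mono hL ha
  have hb2 : ∀ x, x ∉ boxF (ι := ι) (2 * L) → b x = 0 := support_mono hL hb
  obtain ⟨a', hra⟩ := exists_rearrL (2 * L) (Finset.univ.toList : List ι) ha0 ha2
  obtain ⟨b', hrb⟩ := exists_rearrL (2 * L) (Finset.univ.toList : List ι) hb0 hb2
  obtain ⟨h1, h2, h3, h4, h5⟩ := passive_one ha0 hsa ha2 hra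
  obtain ⟨k1, k2, k3, k4, k5⟩ := passive_one hb0 hsb hb2 hrb
  exact ⟨a', b', h1, h2, h3, h4, k1, k2, k3, k4, h5, k5,
    entropy_rearr hη hη1 ha0 hb0 hsa hsb ha hb hra hrb⟩

end

end Vale.Agent.Lib.P369
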