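import Mathlib

/-!
# Sorting a finitely supported sequence by a permutation of `ℕ` (P369)
-/

namespace Vale.Agent.Lib.P369

open Finset

noncomputable section

/-- Every sequence is sorted (non-increasingly) on `[0,N)` by a permutation of `ℕ` that fixes
everything else. -/
theorem exists_sortPerm (g : ℕ → ℝ) (N : ℕ) :
    ∃ σ : Equiv.Perm ℕ, (∀ q, N ≤ q → σ q = q) ∧ ∀ p q, p ≤ q → q < N → g (σ q) ≤ g (σ p) := by
  let h : Fin N → ℝ := fun i => - g i
  let τ : Equiv.Perm (Fin N) := Tuple.sort h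
  let f : Fin N ≃ {x : ℕ // x < N} := Fin.equivSubtype
  refine ⟨τ.extendDomain f, ?_, ?_⟩
  · intro q hq
    exact Equiv.Perm.extendDomain_apply_not_subtype τ f (by omega)
  · intro p q hpq hq
    have hp : p < N := by omega
    have e : ∀ x (hx : x < N), (τ.extendDomain f) x = τ ⟨x, hx⟩ := by
      intro x hx
      rw [Equiv.Perm.extendDomain_apply_subtype τ f hx]
      rfl
    rw [e p hp, e q hq]
    have hm := Tuple.monotone_sort h (show (⟨p, hp⟩ : Fin N) ≤ ⟨q, hq⟩ from hpq)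
    simp only [Function.comp, h] at hm
    linarith

/-- A nonnegative sequence vanishing from `N` on: the sorted sequence is antitone on `ℕ`. -/
theorem exists_sortPerm_antitone {g : ℕ → ℝ} (h0 : ∀ q, 0 ≤ g q) {N : ℕ} (hN : ∀ q, N ≤ q → g q = 0) :
    ∃ σ : Equiv.Perm ℕ, (∀ q, N ≤ q → σ q = q) ∧ Antitone (fun q => g (σ q)) := by
  obtain ⟨σ, h1, h2⟩ := exists_sortPerm g N
  refine ⟨σ, h1, fun p q hpq => ?_⟩
  by_cases hq : q < N
  · exact h2 p q hpq hq
  · have : q ≥ N := by omega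
    show g (σ q) ≤ g (σ p)
    rw [h1 q this, hN q this]
    exact h0 _

/-- Sorting is monotone: if `g₁ ≤ g₂` pointwise then the sorted sequences compare pointwise. -/
theorem sort_mono {g₁ g₂ : ℕ → ℝ} (h : ∀ q, g₁ q ≤ g₂ q) {σ₁ σ₂ : Equiv.Perm ℕ}
    (h₁ : Antitone (fun q => g₁ (σ₁ q))) (h₂ : Antitone (fun q => g₂ (σ₂ q))) (q : ℕ) :
    g₁ (σ₁ q) ≤ g₂ (σ₂ q) := by
  by_contra hc
  push_neg at hc
  have hlt : ∀ p ∈ range (q + 1), σ₂.symm (σ₁ p) ∈ range q := by
    intro p hp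
    have hp' : p ≤ q := by
      have := mem_range.1 hp
      omega
    rw [mem_range]
    by_contra hge
    push_neg at hge
    have a1 : g₂ (σ₂ (σ₂.symm (σ₁ p))) ≤ g₂ (σ₂ q) := h₂ hge
    rw [Equiv.apply_symm_apply] at a1
    have a2 : g₁ (σ₁ q) ≤ g₁ (σ₁ p) := h₁ hp'
    have a3 := h (σ₁ p)
    linarith
  have hinj : Set.InjOn (fun p => σ₂.symm (σ₁ p)) (range (q + 1) : Set ℕ) := by
    intro a _ b _ hab
    exact σ₁.injective (σ₂.symm.injective hab)
  have hcard := Finset.card_le_card_of_injOn _ hlt hinj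
  simp at hcard

end

end Vale.Agent.Lib.P369
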