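import Vale.Agent.Lib.P369.RzAbel
import Vale.Agent.Lib.P369.RzSort
import Vale.Agent.Lib.P369.FinalM

/-!
# Rearrangement along one coordinate, several modes (P369)

`X = ι → ℕ`.  `FibreSorted i M g g'`: every fibre `q ↦ g' (Jn i r q)` of `g'` in direction `i` is antitone and is
the fibre `q ↦ g (Jn i r q)` of `g` composed with a permutation of `ℕ` fixing all `q > M`.

`TriM η M f a b = ∑_{j,k,l ∈ box M} f j * a k * b l * kerM η j k l`.

Main result `TriM_step`: `TriM` does not decrease when `f, a, b` are replaced by `FibreSorted i M` versions.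
Proof: split the three box sums along coordinate `i` (`sum_box_split`), `kerM_Jn3`, and apply `tri_rearr` in each fibre,
after reindexing by the three fibre permutations (`perm_sum`).
-/

namespace Vale.Agent.Lib.P369

open Finset

noncomputable section

variable {ι : Type*} [Fintype ι] [DecidableEq ι] {η : ℝ}

/-- Fibres in direction `i` of `g'` are the sorted fibres of `g`. -/
def FibreSorted (i : ι) (M : ℕ) (g g' : (ι → ℕ) → ℝ) : Prop :=
  ∀ r : RR i, ∃ σ : Equiv.Perm ℕ, (∀ q, M + 1 ≤ q → σ q = q) ∧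
    (∀ q, g' (Jn i r q) = g (Jn i r (σ q))) ∧ Antitone (fun q => g' (Jn i r q))

/-- The trilinear form on the box. -/
def TriM (η : ℝ) (M : ℕ) (f a b : (ι → ℕ) → ℝ) : ℝ :=
  ∑ j ∈ boxF M, ∑ k ∈ boxF M, ∑ l ∈ boxF M, f j * a k * b l * kerM η j k l

/-- Box of the other coordinates. -/
def boxR (i : ι) (M : ℕ) : Finset (RR i) := Fintype.piFinset fun _ => range (M + 1)

lemma mem_boxF' {M : ℕ} {k : ι → ℕ} : k ∈ boxF (ι := ι) M ↔ ∀ i, k i ≤ M := by
  simp [boxF, Fintype.mem_piFinset, Nat.lt_succ_iff]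

lemma Jn_mem_boxF {i : ι} {M : ℕ} {r : RR i} {q : ℕ} :
    Jn i r q ∈ boxF (ι := ι) M ↔ q ≤ M ∧ r ∈ boxR i M := by
  rw [mem_boxF']
  constructor
  · intro h
    refine ⟨by simpa [Jn_same] using h i, ?_⟩
    simp only [boxR, Fintype.mem_piFinset, mem_range, Nat.lt_succ_iff]
    rintro ⟨j, hj⟩
    simpa [Jn_ne hj] using h j
  · rintro ⟨h1, h2⟩ j
    by_cases hj : j = i
    · subst hj
      simpa [Jn_same] using h1
    · rw [Jn_ne hj]
      simp only [boxR, Fintype.mem_piFinset, mem_range, Nat.lt_succ_iff] at h2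
      exact h2 ⟨j, hj⟩

/-- Every index is `Jn i r q`. -/
lemma exists_Jn (i : ι) (x : ι → ℕ) : ∃ (r : RR i) (q : ℕ), x = Jn i r q := by
  refine ⟨fun j => x j.1, x i, ?_⟩
  funext j
  by_cases hj : j = i
  · subst hj
    simp [Jn_same]
  · rw [Jn_ne hj]

/-- Splitting a box sum along a coordinate. -/
lemma sum_box_split (i : ι) (M : ℕ) (F : (ι → ℕ) → ℝ) :
    ∑ k ∈ boxF M, F k = ∑ r ∈ boxR i M, ∑ q ∈ range (M + 1), F (Jn i r q) := by
  rw [← Finset.sum_product']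
  refine Finset.sum_nbij' (fun k => ((fun j => k j.1 : RR i), k i)) (fun p => Jn i p.1 p.2)
    ?_ ?_ ?_ ?_ ?_
  · intro k hk
    rw [mem_boxF'] at hk
    simp only [mem_product, boxR, Fintype.mem_piFinset, mem_range, Nat.lt_succ_iff]
    exact ⟨fun j => hk j.1, hk i⟩
  · rintro ⟨r, q⟩ hp
    simp only [mem_product, mem_range, Nat.lt_succ_iff] at hp
    exact Jn_mem_boxF.2 ⟨hp.2, hp.1⟩
  · intro k _
    funext j
    by_cases hj : j = i
    · subst hj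
      simp [Jn_same]
    · rw [Jn_ne hj]
  · rintro ⟨r, q⟩ _
    refine Prod.ext ?_ ?_
    · funext j
      exact Jn_ne j.2 r q
    · exact Jn_same i r q
  · intro k _
    congr 1
    funext j
    by_cases hj : j = i
    · subst hj
      simp [Jn_same]
    · rw [Jn_ne hj]

/-- A permutation of `ℕ` fixing everything from `N` on permutes `range N`. -/
lemma perm_sum {σ : Equiv.Perm ℕ} {N : ℕ} (h : ∀ q, N ≤ q → σ q = q) (F : ℕ → ℝ) :
    ∑ q ∈ range N, F (σ q) = ∑ q ∈ range N, F q := by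
  refine Finset.sum_nbij' (fun q => σ q) (fun q => σ.symm q) ?_ ?_ ?_ ?_ ?_
  · intro q hq
    rw [mem_range] at hq ⊢
    by_contra hc
    have h1 : σ (σ q) = σ q := h _ (by omega)
    have h2 : σ q = q := σ.injective h1
    omega
  · intro q hq
    rw [mem_range] at hq ⊢
    by_contra hc
    have h1 : σ (σ.symm q) = σ.symm q := h _ (by omega)
    rw [Equiv.apply_symm_apply] at h1
    omega
  · intro q _
    simp
  · intro q _
    simp
  · intro q _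
    rfl

/-- The kernel on three split indices. -/
lemma kerM_Jn3 (i : ι) (r₁ r₂ r₃ : RR i) (q₁ q₂ q₃ : ℕ) :
    kerM η (Jn i r₁ q₁) (Jn i r₂ q₂) (Jn i r₃ q₃) =
      Bp η q₁ q₂ q₃ * kerRest η i (Jn i r₁ 0) (Jn i r₂ 0) (Jn i r₃ 0) := by
  rw [kerM_split i, Jn_same, Jn_same, Jn_same]
  congr 1
  unfold kerRest
  refine Finset.prod_congr rfl fun j hj => ?_
  have hj' := (Finset.mem_erase.1 hj).1
  rw [Jn_ne hj', Jn_ne hj', Jn_ne hj', Jn_ne hj', Jn_ne hj', Jn_ne hj']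

private lemma perm_sum3 {σ₁ σ₂ σ₃ : Equiv.Perm ℕ} {N : ℕ} (h1 : ∀ q, N ≤ q → σ₁ q = q)
    (h2 : ∀ q, N ≤ q → σ₂ q = q) (h3 : ∀ q, N ≤ q → σ₃ q = q) (F : ℕ → ℕ → ℕ → ℝ) :
    ∑ u ∈ range N, ∑ v ∈ range N, ∑ w ∈ range N, F (σ₁ u) (σ₂ v) (σ₃ w) =
      ∑ u ∈ range N, ∑ v ∈ range N, ∑ w ∈ range N, F u v w := by
  calc ∑ u ∈ range N, ∑ v ∈ range N, ∑ w ∈ range N, F (σ₁ u) (σ₂ v) (σ₃ w)
      = ∑ u ∈ range N, ∑ v ∈ range N, ∑ w ∈ range N, F (σ₁ u) (σ₂ v) w :=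
        sum_congr rfl fun u _ => sum_congr rfl fun v _ =>
          perm_sum h3 (fun w => F (σ₁ u) (σ₂ v) w)
    _ = ∑ u ∈ range N, ∑ v ∈ range N, ∑ w ∈ range N, F (σ₁ u) v w :=
        sum_congr rfl fun u _ => perm_sum h2 (fun v => ∑ w ∈ range N, F (σ₁ u) v w)
    _ = ∑ u ∈ range N, ∑ v ∈ range N, ∑ w ∈ range N, F u v w :=
        perm_sum h1 (fun u => ∑ v ∈ range N, ∑ w ∈ range N, F u v w)

/-- The trilinear form, split along coordinate `i`. -/
private lemma TriM_split (i : ι) (M : ℕ) (f a b : (ι → ℕ) → ℝ) :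
    TriM η M f a b = ∑ r₁ ∈ boxR i M, ∑ r₂ ∈ boxR i M, ∑ r₃ ∈ boxR i M,
      kerRest η i (Jn i r₁ 0) (Jn i r₂ 0) (Jn i r₃ 0) *
        ∑ q₁ ∈ range (M + 1), ∑ q₂ ∈ range (M + 1), ∑ q₃ ∈ range (M + 1),
          f (Jn i r₁ q₁) * a (Jn i r₂ q₂) * b (Jn i r₃ q₃) * Bp η q₁ q₂ q₃ := by
  unfold TriM
  have e3 : ∀ j k : ι → ℕ, ∑ l ∈ boxF M, f j * a k * b l * kerM η j k l =
      ∑ r₃ ∈ boxR i M, ∑ q₃ ∈ range (M + 1),
        f j * a k * b (Jn i r₃ q₃) * kerM η j k (Jn i r₃ q₃) :=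
    fun j k => sum_box_split i M _
  have e2 : ∀ j : ι → ℕ, ∑ k ∈ boxF M, ∑ l ∈ boxF M, f j * a k * b l * kerM η j k l =
      ∑ r₂ ∈ boxR i M, ∑ q₂ ∈ range (M + 1), ∑ r₃ ∈ boxR i M, ∑ q₃ ∈ range (M + 1),
        f j * a (Jn i r₂ q₂) * b (Jn i r₃ q₃) * kerM η j (Jn i r₂ q₂) (Jn i r₃ q₃) := by
    intro j
    rw [sum_box_split i M]
    refine sum_congr rfl fun r₂ _ => sum_congr rfl fun q₂ _ => e3 j _
  rw [sum_box_split i M]
  refine sum_congr rfl fun r₁ _ => ?_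
  calc ∑ q₁ ∈ range (M + 1), ∑ k ∈ boxF M, ∑ l ∈ boxF M,
        f (Jn i r₁ q₁) * a k * b l * kerM η (Jn i r₁ q₁) k l
      = ∑ q₁ ∈ range (M + 1), ∑ r₂ ∈ boxR i M, ∑ q₂ ∈ range (M + 1), ∑ r₃ ∈ boxR i M,
          ∑ q₃ ∈ range (M + 1), f (Jn i r₁ q₁) * a (Jn i r₂ q₂) * b (Jn i r₃ q₃) *
            kerM η (Jn i r₁ q₁) (Jn i r₂ q₂) (Jn i r₃ q₃) :=
        sum_congr rfl fun q₁ _ => e2 _
    _ = ∑ r₂ ∈ boxR i M, ∑ q₁ ∈ range (M + 1), ∑ q₂ ∈ range (M + 1), ∑ r₃ ∈ boxR i M,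
          ∑ q₃ ∈ range (M + 1), f (Jn i r₁ q₁) * a (Jn i r₂ q₂) * b (Jn i r₃ q₃) *
            kerM η (Jn i r₁ q₁) (Jn i r₂ q₂) (Jn i r₃ q₃) := sum_comm
    _ = _ := by
        refine sum_congr rfl fun r₂ _ => ?_
        calc ∑ q₁ ∈ range (M + 1), ∑ q₂ ∈ range (M + 1), ∑ r₃ ∈ boxR i M,
              ∑ q₃ ∈ range (M + 1), f (Jn i r₁ q₁) * a (Jn i r₂ q₂) * b (Jn i r₃ q₃) *
                kerM η (Jn i r₁ q₁) (Jn i r₂ q₂) (Jn i r₃ q₃)
            = ∑ q₁ ∈ range (M + 1), ∑ r₃ ∈ boxR i M, ∑ q₂ ∈ range (M + 1),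
                ∑ q₃ ∈ range (M + 1), f (Jn i r₁ q₁) * a (Jn i r₂ q₂) * b (Jn i r₃ q₃) *
                  kerM η (Jn i r₁ q₁) (Jn i r₂ q₂) (Jn i r₃ q₃) :=
              sum_congr rfl fun q₁ _ => sum_comm
          _ = ∑ r₃ ∈ boxR i M, ∑ q₁ ∈ range (M + 1), ∑ q₂ ∈ range (M + 1),
                ∑ q₃ ∈ range (M + 1), f (Jn i r₁ q₁) * a (Jn i r₂ q₂) * b (Jn i r₃ q₃) *
                  kerM η (Jn i r₁ q₁) (Jn i r₂ q₂) (Jn i r₃ q₃) := sum_comm
          _ = _ := by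
              refine sum_congr rfl fun r₃ _ => ?_
              simp only [mul_sum]
              refine sum_congr rfl fun q₁ _ => sum_congr rfl fun q₂ _ =>
                sum_congr rfl fun q₃ _ => ?_
              rw [kerM_Jn3]
              ring

/-- One rearrangement step does not decrease the trilinear form. -/
theorem TriM_step (hη : 0 ≤ η) (hη1 : η ≤ 1) (i : ι) (M : ℕ) {f a b f' a' b' : (ι → ℕ) → ℝ}
    (hf0 : ∀ x, 0 ≤ f' x) (ha0 : ∀ x, 0 ≤ a' x) (hb0 : ∀ x, 0 ≤ b' x)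
    (hf : FibreSorted i M f f') (ha : FibreSorted i M a a') (hb : FibreSorted i M b b') :
    TriM η M f a b ≤ TriM η M f' a' b' := by
  rw [TriM_split i M f a b, TriM_split i M f' a' b']
  refine sum_le_sum fun r₁ _ => sum_le_sum fun r₂ _ => sum_le_sum fun r₃ _ => ?_
  refine mul_le_mul_of_nonneg_left ?_ (kerRest_nonneg _ _ _ _)
  obtain ⟨σ₁, h₁, e₁, m₁⟩ := hf r₁
  obtain ⟨σ₂, h₂, e₂, m₂⟩ := ha r₂
  obtain ⟨σ₃, h₃, e₃, m₃⟩ := hb r₃
  have key := tri_rearr hη hη1 σ₁ σ₂ σ₃ (fun u => hf0 (Jn i r₁ u)) m₁ (fun u => ha0 (Jn i r₂ u)) m₂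
    (fun u => hb0 (Jn i r₃ u)) m₃ (M + 1)
  have e := perm_sum3 h₁ h₂ h₃ (fun q₁ q₂ q₃ =>
    f (Jn i r₁ q₁) * a (Jn i r₂ q₂) * b (Jn i r₃ q₃) * Bp η q₁ q₂ q₃)
  rw [← e]
  refine le_trans (le_of_eq ?_) key
  refine sum_congr rfl fun u _ => sum_congr rfl fun v _ => sum_congr rfl fun w _ => ?_
  rw [e₁, e₂, e₃]

/-! ### Properties of one step -/

lemma FibreSorted.nonneg {i : ι} {M : ℕ} {g g' : (ι → ℕ) → ℝ} (h : FibreSorted i M g g')
    (h0 : ∀ x, 0 ≤ g x) (x : ι → ℕ) : 0 ≤ g' x := by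
  obtain ⟨r, q, rfl⟩ := exists_Jn i x
  obtain ⟨σ, _, h2, _⟩ := h r
  rw [h2]
  exact h0 _

lemma FibreSorted.support {i : ι} {M : ℕ} {g g' : (ι → ℕ) → ℝ} (h : FibreSorted i M g g')
    (h0 : ∀ x, x ∉ boxF (ι := ι) M → g x = 0) (x : ι → ℕ) (hx : x ∉ boxF (ι := ι) M) : g' x = 0 := by
  obtain ⟨r, q, rfl⟩ := exists_Jn i x
  obtain ⟨σ, h1, h2, _⟩ := h r
  rw [h2]
  apply h0
  rw [Jn_mem_boxF] at hx ⊢
  rintro ⟨hq, hr⟩
  by_cases hqM : q ≤ M
  · exact hx ⟨hqM, hr⟩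
  · rw [h1 q (by omega)] at hq
    exact hqM hq

/-- The multiset of values on the box is preserved. -/
lemma FibreSorted.sum_comp {i : ι} {M : ℕ} {g g' : (ι → ℕ) → ℝ} (h : FibreSorted i M g g')
    (φ : ℝ → ℝ) : ∑ x ∈ boxF M, φ (g' x) = ∑ x ∈ boxF M, φ (g x) := by
  rw [sum_box_split i M (fun x => φ (g' x)), sum_box_split i M (fun x => φ (g x))]
  refine Finset.sum_congr rfl fun r _ => ?_
  obtain ⟨σ, h1, h2, _⟩ := h r
  simp only [h2]
  exact perm_sum h1 (fun q => φ (g (Jn i r q)))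

lemma FibreSorted.comp {i : ι} {M : ℕ} {g g' : (ι → ℕ) → ℝ} (h : FibreSorted i M g g')
    {ψ : ℝ → ℝ} (hψ : Monotone ψ) : FibreSorted i M (fun x => ψ (g x)) (fun x => ψ (g' x)) := by
  intro r
  obtain ⟨σ, h1, h2, h3⟩ := h r
  exact ⟨σ, h1, fun q => by simp only [h2], hψ.comp_antitone h3⟩

/-- Existence of the sorted version. -/
theorem exists_fibreSorted (i : ι) {M : ℕ} {g : (ι → ℕ) → ℝ} (h0 : ∀ x, 0 ≤ g x)
    (hs : ∀ x, x ∉ boxF (ι := ι) M → g x = 0) : ∃ g', FibreSorted i M g g' := by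
  have hσ : ∀ r : RR i, ∃ σ : Equiv.Perm ℕ, (∀ q, M + 1 ≤ q → σ q = q) ∧
      Antitone (fun q => g (Jn i r (σ q))) := fun r =>
    exists_sortPerm_antitone (g := fun q => g (Jn i r q)) (fun q => h0 _) (N := M + 1)
      (fun q hq => hs _ (fun hm => by
        have := (Jn_mem_boxF.1 hm).1
        omega))
  choose σ hσ1 hσ2 using hσ
  let g' : (ι → ℕ) → ℝ := fun x =>
    g (Jn i (Equiv.piSplitAt i (fun _ => ℕ) x).2 (σ (Equiv.piSplitAt i (fun _ => ℕ) x).2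
      (Equiv.piSplitAt i (fun _ => ℕ) x).1))
  have hg' : ∀ r q, g' (Jn i r q) = g (Jn i r (σ r q)) := by
    intro r q
    have e : Equiv.piSplitAt i (fun _ => ℕ) (Jn i r q) = (q, r) := by
      simp only [Jn, Equiv.apply_symm_apply]
    simp only [g', e]
  refine ⟨g', fun r => ⟨σ r, hσ1 r, hg' r, ?_⟩⟩
  intro p q hpq
  simp only [hg']
  exact hσ2 r hpq

/-- `g` is non-increasing in direction `j`. -/
def AntiDir (j : ι) (g : (ι → ℕ) → ℝ) : Prop := ∀ x, g (bump j x) ≤ g x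

lemma FibreSorted.antiDir_self {i : ι} {M : ℕ} {g g' : (ι → ℕ) → ℝ} (h : FibreSorted i M g g') :
    AntiDir i g' := by
  intro x
  obtain ⟨r, q, rfl⟩ := exists_Jn i x
  obtain ⟨σ, _, _, h3⟩ := h r
  rw [bump_Jn]
  exact h3 (Nat.le_succ q)

/-- Sorting along `i` preserves monotonicity along another coordinate. -/
lemma FibreSorted.antiDir_of_ne {i j : ι} (hij : j ≠ i) {M : ℕ} {g g' : (ι → ℕ) → ℝ}
    (h : FibreSorted i M g g') (hg : AntiDir j g) : AntiDir j g' := by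
  intro x
  obtain ⟨r, q, rfl⟩ := exists_Jn i x
  have e : bump j (Jn i r q) = Jn i (Function.update r ⟨j, hij⟩ (r ⟨j, hij⟩ + 1)) q := by
    funext m
    by_cases hm : m = i
    · subst hm
      rw [Jn_same, bump, Function.update_of_ne (Ne.symm hij), Jn_same]
    · rw [Jn_ne hm]
      by_cases hmj : m = j
      · subst hmj
        rw [bump, Function.update_self, Jn_ne hm, Function.update_self]
      · rw [bump, Function.update_of_ne hmj, Jn_ne hm, Function.update_of_ne]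
        intro hc
        exact hmj (congrArg Subtype.val hc)
  rw [e]
  obtain ⟨σ₁, _, h2₁, h3₁⟩ := h (Function.update r ⟨j, hij⟩ (r ⟨j, hij⟩ + 1))
  obtain ⟨σ₂, _, h2₂, h3₂⟩ := h r
  rw [h2₁, h2₂]
  refine sort_mono (g₁ := fun q => g (Jn i (Function.update r ⟨j, hij⟩ (r ⟨j, hij⟩ + 1)) q))
    (g₂ := fun q => g (Jn i r q)) (fun p => ?_) ?_ ?_ q
  · show g (Jn i (Function.update r ⟨j, hij⟩ (r ⟨j, hij⟩ + 1)) p) ≤ g (Jn i r p)
    have e' : bump j (Jn i r p) = Jn i (Function.update r ⟨j, hij⟩ (r ⟨j, hij⟩ + 1)) p := by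
      funext m
      by_cases hm : m = i
      · subst hm
        rw [Jn_same, bump, Function.update_of_ne (Ne.symm hij), Jn_same]
      · rw [Jn_ne hm]
        by_cases hmj : m = j
        · subst hmj
          rw [bump, Function.update_self, Jn_ne hm, Function.update_self]
        · rw [bump, Function.update_of_ne hmj, Jn_ne hm, Function.update_of_ne]
          intro hc
          exact hmj (congrArg Subtype.val hc)
    rw [← e']
    exact hg _
  · intro a b hab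
    have := h3₁ hab
    simp only [h2₁] at this
    exact this
  · intro a b hab
    have := h3₂ hab
    simp only [h2₂] at this
    exact this

end

end Vale.Agent.Lib.P369
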