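import Vale.Agent.Lib.P369.Alg

/-!
# Flux identity for the beam splitter kernel (P369)

`F_{m,l} = ∑_k Bp η k m l X^k`, `ζ = 1 - η`.

Polynomial form: `(1 - X) (η ∑_{m'<m} F_{m',l} + ζ ∑_{l'<l} F_{m,l'}) = 1 - F_{m,l}`.
Induction on `m`, `l` from the recursion `F_{m+1,l+1} = α F_{m,l+1} + α' F_{m+1,l} - X F_{m,l}`,
where `α = ζ + η X`, `α' = η + ζ X`, `1 - α = η (1 - X)`, `1 - α' = ζ (1 - X)`.

Coefficient form: `∑_{i≤j} Bp η i m l + η ∑_{m'<m} Bp η j m' l + ζ ∑_{l'<l} Bp η j m l' = 1`.
-/

namespace Vale.Agent.Lib.P369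

open Polynomial Finset

noncomputable section

variable {η : ℝ}

private lemma rz_alphaP_one_sub : (1 - X) * C η = 1 - alphaP η := by
  simp only [alphaP, map_sub, map_one]
  ring

private lemma rz_alphaQ_one_sub : (1 - X) * C (1 - η) = 1 - alphaQ η := by
  simp only [alphaQ, map_sub, map_one]
  ring

private lemma rz_alpha_sum : alphaP η + alphaQ η - X = (1 : ℝ[X]) := by
  simp only [alphaP, alphaQ, map_sub, map_one]
  ring

private lemma rz_A_rec (hη : 0 ≤ η) (hη1 : η ≤ 1) (m l : ℕ) :
    ∑ m' ∈ range (m + 1), Fp η m' (l + 1) =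
      alphaP η * ∑ m' ∈ range m, Fp η m' (l + 1) + alphaQ η * ∑ m' ∈ range (m + 1), Fp η m' l
        - X * ∑ m' ∈ range m, Fp η m' l := by
  induction m with
  | zero =>
    simp [Fp_zero_succ hη hη1]
  | succ m ih =>
    simp only [sum_range_succ] at ih ⊢
    rw [Fp_succ_succ hη hη1]
    linear_combination ih

private lemma rz_B_rec (hη : 0 ≤ η) (hη1 : η ≤ 1) (m l : ℕ) :
    ∑ l' ∈ range (l + 1), Fp η (m + 1) l' =
      alphaP η * ∑ l' ∈ range (l + 1), Fp η m l' + alphaQ η * ∑ l' ∈ range l, Fp η (m + 1) l'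
        - X * ∑ l' ∈ range l, Fp η m l' := by
  induction l with
  | zero =>
    simp [Fp_succ_zero hη hη1]
  | succ l ih =>
    simp only [sum_range_succ] at ih ⊢
    rw [Fp_succ_succ hη hη1]
    linear_combination ih

/-- Polynomial flux identity. -/
theorem Fp_flux (hη : 0 ≤ η) (hη1 : η ≤ 1) (m l : ℕ) :
    (1 - X) * (C η * ∑ m' ∈ range m, Fp η m' l + C (1 - η) * ∑ l' ∈ range l, Fp η m l') =
      1 - Fp η m l := by
  induction m generalizing l with
  | zero =>
    induction l with
    | zero => simp [Fp_zero_zero hη hη1]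
    | succ l ih =>
      simp only [range_zero, sum_empty, mul_zero, zero_add] at ih ⊢
      rw [sum_range_succ, Fp_zero_succ hη hη1]
      have h := rz_alphaQ_one_sub (η := η)
      linear_combination ih + Fp η 0 l * h
  | succ m ihm =>
    induction l with
    | zero =>
      have h0 := ihm 0
      simp only [range_zero, sum_empty, mul_zero, add_zero] at h0 ⊢
      rw [sum_range_succ, Fp_succ_zero hη hη1]
      have h := rz_alphaP_one_sub (η := η)
      linear_combination h0 + Fp η m 0 * h
    | succ l ihl =>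
      have h1 := ihm (l + 1)
      have h3 := ihm l
      rw [rz_A_rec hη hη1, rz_B_rec hη hη1, Fp_succ_succ hη hη1]
      have h := rz_alpha_sum (η := η)
      linear_combination alphaP η * h1 + alphaQ η * ihl - X * h3 + h

/-- The flux identity, coefficient form. -/
theorem Bp_flux (hη : 0 ≤ η) (hη1 : η ≤ 1) (j m l : ℕ) :
    ∑ i ∈ range (j + 1), Bp η i m l + η * ∑ m' ∈ range m, Bp η j m' l +
      (1 - η) * ∑ l' ∈ range l, Bp η j m l' = 1 := by
  set R : ℝ[X] := C η * ∑ m' ∈ range m, Fp η m' l + C (1 - η) * ∑ l' ∈ range l, Fp η m l' with hR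
  have hc : ∀ j, R.coeff j =
      η * ∑ m' ∈ range m, Bp η j m' l + (1 - η) * ∑ l' ∈ range l, Bp η j m l' := by
    intro j
    simp only [hR, coeff_add, coeff_C_mul, finsetSum_coeff, coeff_Fp]
  have hf := Fp_flux hη hη1 m l
  rw [← hR] at hf
  have key : ∀ j, ∑ i ∈ range (j + 1), Bp η i m l + R.coeff j = 1 := by
    intro j
    induction j with
    | zero =>
      have h := congrArg (fun p : ℝ[X] => p.coeff 0) hf
      simp only [sub_mul, one_mul, coeff_sub, coeff_X_mul_zero, coeff_one_zero, coeff_Fp,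
        sub_zero] at h
      simp only [zero_add, sum_range_one]
      linarith
    | succ j ih =>
      have h := congrArg (fun p : ℝ[X] => p.coeff (j + 1)) hf
      simp only [sub_mul, one_mul, coeff_sub, coeff_X_mul, coeff_one, coeff_Fp] at h
      rw [if_neg (by omega)] at h
      rw [sum_range_succ]
      linarith
  have h := key j
  rw [hc] at h
  linarith

end

end Vale.Agent.Lib.P369
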