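import Vale.Agent.Lib.P369.RzEntropy

/-!
# The entropy photon-number inequality for all Fock-diagonal inputs (P369)

`tangentAll`: as `tangentM` in `MainGen.lean` with the antitone hypotheses removed.
 For finitely supported inputs use `exists_passive_version` and `tangentM` for `a', b'`.
 For general inputs truncate as in `tangentM` (`truncM a L`, eventually `Zm a L > 0` as `Zm a L → 1`; copy `entropyM_bsOutM_truncM`, `entropyM_truncM_tendsto` and the private lemmas they use, without `Antitone`; `truncM a L` is supported in `box L`).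
`mainAll`: as `mainM`, from `tangentAll` (same proof).
`EPnI_all`: as `EPnI_coordinatewise_passive` in `FinalM.lean`, from `mainAll`.
-/

namespace Vale.Agent.Lib.P369

open Set

noncomputable section

variable {ι : Type*} [Fintype ι] [DecidableEq ι] {η r s : ℝ} {a b : (ι → ℕ) → ℝ}

private lemma rzm_mem_boxF {L : ℕ} {k : ι → ℕ} : k ∈ boxF (ι := ι) L ↔ ∀ i, k i ≤ L := by
  unfold boxF
  simp only [Fintype.mem_piFinset, Finset.mem_range]
  exact ⟨fun h i => by have := h i; omega, fun h i => by have := h i; omega⟩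

private lemma rzm_tendsto_boxF :
    Filter.Tendsto (boxF (ι := ι)) Filter.atTop Filter.atTop := by
  refine Filter.tendsto_atTop_finset_of_monotone ?_ ?_
  · intro L L' hLL k hk
    rw [rzm_mem_boxF] at hk ⊢
    exact fun i => (hk i).trans hLL
  · intro k
    refine ⟨tot k, ?_⟩
    rw [rzm_mem_boxF]
    exact fun i => le_tot k i

private lemma rzm_Zm_le_one (ha0 : ∀ k, 0 ≤ a k) (hsa : HasSum a 1) (L : ℕ) : Zm a L ≤ 1 :=
  sum_le_hasSum _ (fun k _ => ha0 k) hsa

private lemma rzm_truncM_nonneg (ha0 : ∀ k, 0 ≤ a k) {L : ℕ} (hZ : 0 < Zm a L) (k : ι → ℕ) :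
    0 ≤ truncM a L k := by
  unfold truncM
  split_ifs
  · exact div_nonneg (ha0 k) hZ.le
  · exact le_rfl

private lemma rzm_truncM_support {L : ℕ} (k : ι → ℕ) (hk : k ∉ boxF (ι := ι) L) :
    truncM a L k = 0 := by
  unfold truncM
  rw [if_neg hk]

private lemma rzm_truncM_hasSum {L : ℕ} (hZ : 0 < Zm a L) : HasSum (truncM a L) 1 := by
  have h2 : HasSum (truncM a L) (∑ k ∈ boxF L, truncM a L k) :=
    hasSum_sum_of_ne_finset_zero (fun k hk => rzm_truncM_support k hk)
  have h3 : ∑ k ∈ boxF L, truncM a L k = 1 := by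
    have h : ∀ k ∈ boxF (ι := ι) L, truncM a L k = a k / Zm a L := by
      intro k hk
      unfold truncM
      rw [if_pos hk]
    rw [Finset.sum_congr rfl h, ← Finset.sum_div]
    exact div_self hZ.ne'
  rwa [h3] at h2

private lemma rzm_negMulLog_div (x : ℝ) {z : ℝ} (hz : 0 < z) :
    Real.negMulLog (x / z) = Real.negMulLog x / z + x / z * Real.log z := by
  unfold Real.negMulLog
  by_cases hx : x = 0
  · simp [hx]
  · rw [Real.log_div hx hz.ne']
    field_simp
    ring

private lemma rzm_entropyM_truncM_eq {L : ℕ} (hZ : 0 < Zm a L) :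
    entropyM (truncM a L) =
      (∑ k ∈ boxF L, Real.negMulLog (a k)) / Zm a L + Real.log (Zm a L) := by
  unfold entropyM
  rw [tsum_eq_sum (s := boxF L)]
  · have h : ∀ k ∈ boxF (ι := ι) L, Real.negMulLog (truncM a L k) =
        Real.negMulLog (a k) / Zm a L + a k * (Real.log (Zm a L) / Zm a L) := by
      intro k hk
      unfold truncM
      rw [if_pos hk, rzm_negMulLog_div _ hZ]
      ring
    rw [Finset.sum_congr rfl h, Finset.sum_add_distrib, ← Finset.sum_div, ← Finset.sum_mul]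
    congr 1
    change Zm a L * _ = _
    field_simp
  · intro k hk
    rw [rzm_truncM_support k hk]
    simp

private lemma rzm_summable_term (hη : 0 ≤ η) (hη1 : η ≤ 1) (ha0 : ∀ k, 0 ≤ a k) (hb0 : ∀ k, 0 ≤ b k)
    (hsa : Summable a) (hsb : Summable b) (k : ι → ℕ) :
    Summable (fun x : (ι → ℕ) × (ι → ℕ) => a x.1 * b x.2 * kerM η k x.1 x.2) := by
  have h := Summable.mul_of_nonneg hsa hsb ha0 hb0
  refine Summable.of_nonneg_of_le (fun x => ?_) (fun x => ?_) h
  · exact mul_nonneg (mul_nonneg (ha0 _) (hb0 _)) (kerM_nonneg _ _ _)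
  · have := kerM_le_one hη hη1 k x.1 x.2
    have h2 := mul_le_mul_of_nonneg_left this (mul_nonneg (ha0 x.1) (hb0 x.2))
    calc _ ≤ _ := h2
      _ = _ := by ring

/-- `S(a^L) → S(a)`, without monotonicity. -/
private lemma rzm_entropyM_truncM_tendsto (hsa : HasSum a 1)
    (hsum : Summable (fun k => Real.negMulLog (a k))) :
    Filter.Tendsto (fun L => entropyM (truncM a L)) Filter.atTop (nhds (entropyM a)) := by
  have h1 : Filter.Tendsto (fun L : ℕ => ∑ k ∈ boxF (ι := ι) L, Real.negMulLog (a k))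
      Filter.atTop (nhds (entropyM a)) :=
    hsum.hasSum.comp rzm_tendsto_boxF
  have h2 := Zm_tendsto hsa
  have h3 : Filter.Tendsto (fun L => Real.log (Zm a L)) Filter.atTop (nhds 0) := by
    have := h2.log one_ne_zero
    simpa using this
  have h4 := (h1.div h2 one_ne_zero).add h3
  simp only [div_one, add_zero] at h4
  have hev : ∀ᶠ L in Filter.atTop, 0 < Zm a L :=
    h2.eventually (lt_mem_nhds one_pos)
  refine h4.congr' ?_
  filter_upwards [hev] with L hL
  exact (rzm_entropyM_truncM_eq hL).symm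

/-- Concavity step (d), without monotonicity. -/
private lemma rzm_entropyM_bsOutM_truncM (hη : 0 ≤ η) (hη1 : η ≤ 1)
    (ha0 : ∀ k, 0 ≤ a k) (hsa : HasSum a 1)
    (hb0 : ∀ k, 0 ≤ b k) (hsb : HasSum b 1)
    (hsum : Summable (fun k => Real.negMulLog (bsOutM η a b k))) {L : ℕ}
    (hZp : 0 < Zm a L) (hZq : 0 < Zm b L) :
    Zm a L * Zm b L * entropyM (bsOutM η (truncM a L) (truncM b L)) ≤ entropyM (bsOutM η a b) := by
  have hZp1 := rzm_Zm_le_one ha0 hsa L
  have hZq1 := rzm_Zm_le_one hb0 hsb L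
  set θ := Zm a L * Zm b L with hθ
  have hθ0 : 0 < θ := mul_pos hZp hZq
  have hθ1 : θ ≤ 1 := by nlinarith
  have hPn := rzm_truncM_nonneg ha0 hZp
  have hQn := rzm_truncM_nonneg hb0 hZq
  have hPsupp : ∀ k, k ∉ boxF (ι := ι) L → truncM a L k = 0 := fun k hk => rzm_truncM_support k hk
  have hQsupp : ∀ k, k ∉ boxF (ι := ι) L → truncM b L k = 0 := fun k hk => rzm_truncM_support k hk
  have hPs := rzm_truncM_hasSum hZp
  have hQs := rzm_truncM_hasSum hZq
  set P := truncM a L with hPdef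
  set Q := truncM b L with hQdef
  set C := bsOutM η P Q with hCdef
  set c := bsOutM η a b with hcdef
  have hC0 : ∀ k, 0 ≤ C k := bsOutM_nonneg hη hη1 hPn hQn
  have hc0 : ∀ k, 0 ≤ c k := bsOutM_nonneg hη hη1 ha0 hb0
  have hCs : HasSum C 1 := bsOutM_hasSum hη hη1 hPn hQn hPs hQs
  have hcs : HasSum c 1 := bsOutM_hasSum hη hη1 ha0 hb0 hsa hsb
  -- the pointwise comparison
  have hle : ∀ k, θ * C k ≤ c k := by
    intro k
    have hA := rzm_summable_term hη hη1 ha0 hb0 hsa.summable hsb.summable k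
    have hB := rzm_summable_term hη hη1 hPn hQn hPs.summable hQs.summable k
    simp only [hCdef, hcdef]
    unfold bsOutM
    rw [← tsum_mul_left]
    refine hB.mul_left θ |>.tsum_le_tsum (fun x => ?_) hA
    have hBk := kerM_nonneg (η := η) k x.1 x.2
    have hpq : θ * (P x.1 * Q x.2) ≤ a x.1 * b x.2 := by
      simp only [hPdef, hQdef, hθ]
      unfold truncM
      split_ifs with h1 h2 h2
      · apply le_of_eq
        field_simp
      · simpa using mul_nonneg (ha0 x.1) (hb0 x.2)
      · simpa using mul_nonneg (ha0 x.1) (hb0 x.2)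
      · simpa using mul_nonneg (ha0 x.1) (hb0 x.2)
    calc θ * (P x.1 * Q x.2 * kerM η k x.1 x.2) = θ * (P x.1 * Q x.2) * kerM η k x.1 x.2 := by ring
      _ ≤ a x.1 * b x.2 * kerM η k x.1 x.2 := mul_le_mul_of_nonneg_right hpq hBk
  -- the remainder has small total mass
  have hR : HasSum (fun k => c k - θ * C k) (1 - θ) := by
    have := hcs.sub (hCs.mul_left θ)
    simpa only [mul_one] using this
  have hRle : ∀ k, c k - θ * C k ≤ 1 - θ := fun k =>
    le_hasSum hR k (fun j _ => sub_nonneg.2 (hle j))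
  -- pointwise concavity
  have hconc : ∀ k, θ * Real.negMulLog (C k) ≤ Real.negMulLog (c k) := by
    intro k
    have hCK := hC0 k
    have hR0 := sub_nonneg.2 (hle k)
    rcases hθ1.eq_or_lt with h1 | h1
    · have h2 := hRle k
      have : c k = C k := by
        rw [h1] at h2 hR0
        nlinarith
      rw [this, h1, one_mul]
    · have hd : 0 < 1 - θ := by linarith
      set R := (c k - θ * C k) / (1 - θ) with hRdef
      have hR00 : 0 ≤ R := div_nonneg hR0 hd.le
      have hR1 : R ≤ 1 := (div_le_one hd).2 (hRle k)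
      have hcomb : θ • C k + (1 - θ) • R = c k := by
        simp only [smul_eq_mul, hRdef]
        field_simp
        ring
      have h3 := Real.concaveOn_negMulLog.2 (x := C k) (y := R) (Set.mem_Ici.2 hCK)
        (Set.mem_Ici.2 hR00) hθ0.le hd.le (by ring)
      rw [hcomb] at h3
      simp only [smul_eq_mul] at h3
      have h4 := Real.negMulLog_nonneg hR00 hR1
      nlinarith [mul_nonneg hd.le h4]
  -- finite support of the truncated output
  have hsupp : ∀ k, k ∉ boxF (ι := ι) (2 * L) → C k = 0 := by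
    intro k hk
    simp only [hCdef]
    unfold bsOutM
    rw [show (fun x : (ι → ℕ) × (ι → ℕ) => P x.1 * Q x.2 * kerM η k x.1 x.2) = fun _ => 0 from ?_,
      tsum_zero]
    funext x
    rw [rzm_mem_boxF] at hk
    simp only [not_forall, not_le] at hk
    obtain ⟨j, hj⟩ := hk
    by_cases h1 : x.1 ∈ boxF (ι := ι) L
    · by_cases h2 : x.2 ∈ boxF (ι := ι) L
      · have h3 := rzm_mem_boxF.mp h1 j
        have h4 := rzm_mem_boxF.mp h2 j
        rw [kerM_eq_zero j (by omega), mul_zero]
      · rw [hQsupp x.2 h2]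
        simp
    · rw [hPsupp x.1 h1]
      simp
  have hsumC : Summable (fun k => θ * Real.negMulLog (C k)) := by
    refine summable_of_ne_finset_zero (s := boxF (2 * L)) (fun k hk => ?_)
    rw [hsupp k hk]
    simp
  unfold entropyM
  rw [← tsum_mul_left]
  exact hsumC.tsum_le_tsum hconc hsum

/-- The finitely supported case of `tangentAll`. -/
private theorem rzm_tangent_fin [Nonempty ι] (hη : 0 < η) (hη1 : η < 1) (hr : 0 < r) (hs : 0 < s)
    {L : ℕ} (ha0 : ∀ k, 0 ≤ a k) (hsa : HasSum a 1) (ha : ∀ x, x ∉ boxF (ι := ι) L → a x = 0)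
    (hb0 : ∀ k, 0 ≤ b k) (hsb : HasSum b 1) (hb : ∀ x, x ∉ boxF (ι := ι) L → b x = 0) :
    (Fintype.card ι : ℝ) * (gFun (η * r + (1 - η) * s) / betaF (η * r + (1 - η) * s) -
        η * (gFun r / betaF r) - (1 - η) * (gFun s / betaF s)) ≤
      entropyM (bsOutM η a b) / betaF (η * r + (1 - η) * s) - η * (entropyM a / betaF r)
        - (1 - η) * (entropyM b / betaF s) := by
  obtain ⟨a', b', ha'0, ha'a, ha's, ha'm, hb'0, hb'a, hb's, hb'm, hEa, hEb, hEc⟩ :=
    exists_passive_version hη.le hη1.le ha0 hb0 hsa hsb ha hb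
  have h := tangentM hη hη1 hr hs ha'0 ha'a ha's ha'm hb'0 hb'a hb's hb'm
  rw [hEa, hEb] at h
  have h1η : 0 < 1 - η := by linarith
  have ht : 0 < η * r + (1 - η) * s := by positivity
  have hβt : 0 < betaF (η * r + (1 - η) * s) := betaF_pos ht
  have h2 := div_le_div_of_nonneg_right hEc hβt.le
  linarith

private theorem rzm_tangent_nonempty [Nonempty ι] (hη : 0 < η) (hη1 : η < 1) (hr : 0 < r) (hs : 0 < s)
    (ha0 : ∀ k, 0 ≤ a k) (hsa : HasSum a 1)
    (hma : Summable (fun k => (tot k : ℝ) * a k))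
    (hb0 : ∀ k, 0 ≤ b k) (hsb : HasSum b 1)
    (hmb : Summable (fun k => (tot k : ℝ) * b k)) :
    (Fintype.card ι : ℝ) * (gFun (η * r + (1 - η) * s) / betaF (η * r + (1 - η) * s) -
        η * (gFun r / betaF r) - (1 - η) * (gFun s / betaF s)) ≤
      entropyM (bsOutM η a b) / betaF (η * r + (1 - η) * s) - η * (entropyM a / betaF r)
        - (1 - η) * (entropyM b / betaF s) := by
  have h1η : 0 < 1 - η := by linarith
  have ht : 0 < η * r + (1 - η) * s := by positivity
  have hβt : 0 < betaF (η * r + (1 - η) * s) := betaF_pos ht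
  set κ := (Fintype.card ι : ℝ) * (gFun (η * r + (1 - η) * s) / betaF (η * r + (1 - η) * s) -
        η * (gFun r / betaF r) - (1 - η) * (gFun s / betaF s)) with hκ
  have hc0 : ∀ K, 0 ≤ bsOutM η a b K := bsOutM_nonneg hη.le hη1.le ha0 hb0
  have hcs := bsOutM_hasSum hη.le hη1.le ha0 hb0 hsa hsb
  have hc1 := le_one_of_hasSum hc0 hcs
  have hcm := bsOutM_mean hη.le hη1.le ha0 hb0 hsa hsb hma hmb
  have hcsum := entropyM_summable hc0 hc1 hcm hcs.summable
  have hasum := entropyM_summable ha0 (le_one_of_hasSum ha0 hsa) hma hsa.summable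
  have hbsum := entropyM_summable hb0 (le_one_of_hasSum hb0 hsb) hmb hsb.summable
  have hZa : ∀ᶠ L in Filter.atTop, 0 < Zm a L :=
    (Zm_tendsto hsa).eventually (lt_mem_nhds one_pos)
  have hZb : ∀ᶠ L in Filter.atTop, 0 < Zm b L :=
    (Zm_tendsto hsb).eventually (lt_mem_nhds one_pos)
  have key : ∀ᶠ Lm : ℕ in Filter.atTop, (Zm a Lm * Zm b Lm) * (κ + η * (entropyM (truncM a Lm) / betaF r)
      + (1 - η) * (entropyM (truncM b Lm) / betaF s)) ≤
        entropyM (bsOutM η a b) / betaF (η * r + (1 - η) * s) := by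
    filter_upwards [hZa, hZb] with Lm hZa' hZb'
    have h := rzm_tangent_fin hη hη1 hr hs (L := Lm) (rzm_truncM_nonneg ha0 hZa') (rzm_truncM_hasSum hZa')
      (fun x hx => rzm_truncM_support x hx) (rzm_truncM_nonneg hb0 hZb') (rzm_truncM_hasSum hZb')
      (fun x hx => rzm_truncM_support x hx)
    have h2 := rzm_entropyM_bsOutM_truncM hη.le hη1.le ha0 hsa hb0 hsb hcsum hZa' hZb'
    have hθ : 0 ≤ Zm a Lm * Zm b Lm := (mul_pos hZa' hZb').le
    have h3 : κ + η * (entropyM (truncM a Lm) / betaF r)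
        + (1 - η) * (entropyM (truncM b Lm) / betaF s) ≤
        entropyM (bsOutM η (truncM a Lm) (truncM b Lm)) /
          betaF (η * r + (1 - η) * s) := by
      linarith
    calc (Zm a Lm * Zm b Lm) * (κ + η * (entropyM (truncM a Lm) / betaF r)
          + (1 - η) * (entropyM (truncM b Lm) / betaF s))
        ≤ (Zm a Lm * Zm b Lm) * (entropyM (bsOutM η (truncM a Lm) (truncM b Lm)) /
            betaF (η * r + (1 - η) * s)) := mul_le_mul_of_nonneg_left h3 hθ
      _ = (Zm a Lm * Zm b Lm * entropyM (bsOutM η (truncM a Lm) (truncM b Lm))) /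
            betaF (η * r + (1 - η) * s) := by ring
      _ ≤ entropyM (bsOutM η a b) / betaF (η * r + (1 - η) * s) :=
          div_le_div_of_nonneg_right h2 hβt.le
  have hlim : Filter.Tendsto (fun Lm : ℕ => (Zm a Lm * Zm b Lm) *
      (κ + η * (entropyM (truncM a Lm) / betaF r)
        + (1 - η) * (entropyM (truncM b Lm) / betaF s))) Filter.atTop
      (nhds ((1 * 1) * (κ + η * (entropyM a / betaF r) + (1 - η) * (entropyM b / betaF s)))) := by
    apply Filter.Tendsto.mul ((Zm_tendsto hsa).mul (Zm_tendsto hsb))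
    apply Filter.Tendsto.add
    · apply Filter.Tendsto.add tendsto_const_nhds
      exact ((rzm_entropyM_truncM_tendsto hsa hasum).div_const _).const_mul _
    · exact ((rzm_entropyM_truncM_tendsto hsb hbsum).div_const _).const_mul _
  have hfin := le_of_tendsto hlim key
  linarith

private lemma rzm_entropyM_of_isEmpty [IsEmpty ι] {f : (ι → ℕ) → ℝ} (hf : HasSum f 1) :
    entropyM f = 0 := by
  have h1 : f default = 1 := by
    have := hf.unique (hasSum_single default (fun k hk => absurd (Subsingleton.elim k default) hk))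
    exact this.symm
  unfold entropyM
  rw [tsum_eq_single default (fun k hk => absurd (Subsingleton.elim k default) hk), h1]
  simp

theorem tangentAll (hη : 0 < η) (hη1 : η < 1) (hr : 0 < r) (hs : 0 < s)
    (ha0 : ∀ k, 0 ≤ a k) (hsa : HasSum a 1)
    (hma : Summable (fun k => (tot k : ℝ) * a k))
    (hb0 : ∀ k, 0 ≤ b k) (hsb : HasSum b 1)
    (hmb : Summable (fun k => (tot k : ℝ) * b k)) :
    (Fintype.card ι : ℝ) * (gFun (η * r + (1 - η) * s) / betaF (η * r + (1 - η) * s) -
        η * (gFun r / betaF r) - (1 - η) * (gFun s / betaF s)) ≤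
      entropyM (bsOutM η a b) / betaF (η * r + (1 - η) * s) - η * (entropyM a / betaF r)
        - (1 - η) * (entropyM b / betaF s) := by
  rcases isEmpty_or_nonempty ι with hι | hι
  · have h1η : 0 < 1 - η := by linarith
    have ht : 0 < η * r + (1 - η) * s := by positivity
    have hβt : 0 < betaF (η * r + (1 - η) * s) := betaF_pos ht
    have hc0 : ∀ K, 0 ≤ bsOutM η a b K := bsOutM_nonneg hη.le hη1.le ha0 hb0
    have hcs := bsOutM_hasSum hη.le hη1.le ha0 hb0 hsa hsb
    have hc1 := le_one_of_hasSum hc0 hcs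
    have hS : 0 ≤ entropyM (bsOutM η a b) := entropyM_nonneg fun k => ⟨hc0 k, hc1 k⟩
    rw [rzm_entropyM_of_isEmpty hsa, rzm_entropyM_of_isEmpty hsb, Fintype.card_eq_zero]
    simp only [Nat.cast_zero, zero_mul, zero_div, mul_zero, sub_zero]
    exact div_nonneg hS hβt.le
  · exact rzm_tangent_nonempty hη hη1 hr hs ha0 hsa hma hb0 hsb hmb

theorem mainAll (hη : 0 < η) (hη1 : η < 1) (hr : 0 ≤ r) (hs : 0 ≤ s)
    (ha0 : ∀ k, 0 ≤ a k) (hsa : HasSum a 1)
    (hma : Summable (fun k => (tot k : ℝ) * a k))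
    (hb0 : ∀ k, 0 ≤ b k) (hsb : HasSum b 1)
    (hmb : Summable (fun k => (tot k : ℝ) * b k))
    (hgr : (Fintype.card ι : ℝ) * gFun r ≤ entropyM a)
    (hgs : (Fintype.card ι : ℝ) * gFun s ≤ entropyM b) :
    (Fintype.card ι : ℝ) * gFun (η * r + (1 - η) * s) ≤ entropyM (bsOutM η a b) := by
  have h1η : 0 < 1 - η := by linarith
  have hn1 : (0 : ℝ) ≤ (Fintype.card ι : ℝ) := Nat.cast_nonneg _
  have ht0 : 0 ≤ η * r + (1 - η) * s := by positivity
  have hc0 : ∀ K, 0 ≤ bsOutM η a b K := bsOutM_nonneg hη.le hη1.le ha0 hb0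
  have hcs := bsOutM_hasSum hη.le hη1.le ha0 hb0 hsa hsb
  have hc1 := le_one_of_hasSum hc0 hcs
  rcases eq_or_lt_of_le ht0 with ht | ht
  · rw [← ht, gFun_zero, mul_zero]
    exact entropyM_nonneg fun k => ⟨hc0 k, hc1 k⟩
  set t := η * r + (1 - η) * s with htdef
  set Sc := entropyM (bsOutM η a b) with hSc
  have hβr1 : 0 < betaF (r + 1) := betaF_pos (by linarith)
  have hβs1 : 0 < betaF (s + 1) := betaF_pos (by linarith)
  -- the inequality at positive `ε`
  have key : ∀ ε : ℝ, 0 < ε → ε ≤ 1 →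
      (Fintype.card ι : ℝ) * (gFun (t + ε) / betaF (t + ε))
        - η * ((Fintype.card ι : ℝ) * (gFun (r + ε) - gFun r) / betaF (r + 1))
        - (1 - η) * ((Fintype.card ι : ℝ) * (gFun (s + ε) - gFun s) / betaF (s + 1))
        ≤ Sc / betaF (t + ε) := by
    intro ε hε hε1
    have hrε : 0 < r + ε := by linarith
    have hsε : 0 < s + ε := by linarith
    have htε : η * (r + ε) + (1 - η) * (s + ε) = t + ε := by rw [htdef]; ring
    have h := tangentAll hη hη1 hrε hsε ha0 hsa hma hb0 hsb hmb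
    rw [htε] at h
    have hβr : 0 < betaF (r + ε) := betaF_pos hrε
    have hβs : 0 < betaF (s + ε) := betaF_pos hsε
    have hβrle : betaF (r + 1) ≤ betaF (r + ε) := betaF_anti hrε (by linarith)
    have hβsle : betaF (s + 1) ≤ betaF (s + ε) := betaF_anti hsε (by linarith)
    have hYr : 0 ≤ (Fintype.card ι : ℝ) * (gFun (r + ε) - gFun r) := by
      apply mul_nonneg hn1
      have := gFun_strictMonoOn.monotoneOn (Set.mem_Ici.mpr hr)
        (Set.mem_Ici.mpr (by linarith : (0:ℝ) ≤ r + ε)) (by linarith : r ≤ r + ε)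
      linarith
    have hYs : 0 ≤ (Fintype.card ι : ℝ) * (gFun (s + ε) - gFun s) := by
      apply mul_nonneg hn1
      have := gFun_strictMonoOn.monotoneOn (Set.mem_Ici.mpr hs)
        (Set.mem_Ici.mpr (by linarith : (0:ℝ) ≤ s + ε)) (by linarith : s ≤ s + ε)
      linarith
    have h1 : -((Fintype.card ι : ℝ) * (gFun (r + ε) - gFun r) / betaF (r + 1)) ≤
        (entropyM a - (Fintype.card ι : ℝ) * gFun (r + ε)) / betaF (r + ε) := by
      have a1 : (Fintype.card ι : ℝ) * (gFun (r + ε) - gFun r) / betaF (r + ε) ≤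
          (Fintype.card ι : ℝ) * (gFun (r + ε) - gFun r) / betaF (r + 1) :=
        div_le_div_of_nonneg_left hYr hβr1 hβrle
      have a2 : -((Fintype.card ι : ℝ) * (gFun (r + ε) - gFun r) / betaF (r + ε)) ≤
          (entropyM a - (Fintype.card ι : ℝ) * gFun (r + ε)) / betaF (r + ε) := by
        rw [← neg_div]
        apply div_le_div_of_nonneg_right _ hβr.le
        nlinarith
      linarith
    have h2 : -((Fintype.card ι : ℝ) * (gFun (s + ε) - gFun s) / betaF (s + 1)) ≤
        (entropyM b - (Fintype.card ι : ℝ) * gFun (s + ε)) / betaF (s + ε) := by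
      have a1 : (Fintype.card ι : ℝ) * (gFun (s + ε) - gFun s) / betaF (s + ε) ≤
          (Fintype.card ι : ℝ) * (gFun (s + ε) - gFun s) / betaF (s + 1) :=
        div_le_div_of_nonneg_left hYs hβs1 hβsle
      have a2 : -((Fintype.card ι : ℝ) * (gFun (s + ε) - gFun s) / betaF (s + ε)) ≤
          (entropyM b - (Fintype.card ι : ℝ) * gFun (s + ε)) / betaF (s + ε) := by
        rw [← neg_div]
        apply div_le_div_of_nonneg_right _ hβs.le
        nlinarith
      linarith
    have h3 := mul_le_mul_of_nonneg_left h1 hη.le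
    have h4 := mul_le_mul_of_nonneg_left h2 h1η.le
    have e1 : (entropyM a - (Fintype.card ι : ℝ) * gFun (r + ε)) / betaF (r + ε) =
        entropyM a / betaF (r + ε) - (Fintype.card ι : ℝ) * (gFun (r + ε) / betaF (r + ε)) := by
      ring
    have e2 : (entropyM b - (Fintype.card ι : ℝ) * gFun (s + ε)) / betaF (s + ε) =
        entropyM b / betaF (s + ε) - (Fintype.card ι : ℝ) * (gFun (s + ε) / betaF (s + ε)) := by
      ring
    rw [e1] at h3
    rw [e2] at h4
    have e3 : (Fintype.card ι : ℝ) * (gFun (t + ε) / betaF (t + ε) -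
        η * (gFun (r + ε) / betaF (r + ε)) - (1 - η) * (gFun (s + ε) / betaF (s + ε))) =
        (Fintype.card ι : ℝ) * (gFun (t + ε) / betaF (t + ε))
        - η * ((Fintype.card ι : ℝ) * (gFun (r + ε) / betaF (r + ε)))
        - (1 - η) * ((Fintype.card ι : ℝ) * (gFun (s + ε) / betaF (s + ε))) := by ring
    rw [e3] at h
    linarith
  -- continuity at `ε → 0⁺`
  have hmap0 : Filter.Tendsto (fun ε : ℝ => ε) (nhdsWithin 0 (Set.Ioi 0)) (nhds 0) :=
    tendsto_nhdsWithin_of_tendsto_nhds Filter.tendsto_id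
  have hshift : ∀ a : ℝ, Filter.Tendsto (fun ε : ℝ => a + ε) (nhdsWithin 0 (Set.Ioi 0)) (nhds a) := by
    intro a
    have := (tendsto_const_nhds (x := a)).add hmap0
    simpa using this
  have hgshift : ∀ a : ℝ, 0 ≤ a →
      Filter.Tendsto (fun ε : ℝ => gFun (a + ε)) (nhdsWithin 0 (Set.Ioi 0)) (nhds (gFun a)) := by
    intro a ha
    have hc : Filter.Tendsto gFun (nhdsWithin a (Set.Ici 0)) (nhds (gFun a)) :=
      gFun_continuousOn a (Set.mem_Ici.mpr ha)
    refine hc.comp (tendsto_nhdsWithin_iff.mpr ⟨hshift a, ?_⟩)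
    filter_upwards [self_mem_nhdsWithin] with ε hε
    have : (0:ℝ) < ε := hε
    exact Set.mem_Ici.mpr (by linarith)
  have hgt : Filter.Tendsto (fun ε : ℝ => gFun (t + ε)) (nhdsWithin 0 (Set.Ioi 0)) (nhds (gFun t)) :=
    hgshift t ht0
  have hβt : Filter.Tendsto (fun ε : ℝ => betaF (t + ε)) (nhdsWithin 0 (Set.Ioi 0))
      (nhds (betaF t)) := (betaF_continuousAt ht).tendsto.comp (hshift t)
  have hβt0 : betaF t ≠ 0 := (betaF_pos ht).ne'
  have hL : Filter.Tendsto (fun ε : ℝ => (Fintype.card ι : ℝ) * (gFun (t + ε) / betaF (t + ε))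
        - η * ((Fintype.card ι : ℝ) * (gFun (r + ε) - gFun r) / betaF (r + 1))
        - (1 - η) * ((Fintype.card ι : ℝ) * (gFun (s + ε) - gFun s) / betaF (s + 1)))
      (nhdsWithin 0 (Set.Ioi 0))
      (nhds ((Fintype.card ι : ℝ) * (gFun t / betaF t)
        - η * ((Fintype.card ι : ℝ) * (gFun r - gFun r) / betaF (r + 1))
        - (1 - η) * ((Fintype.card ι : ℝ) * (gFun s - gFun s) / betaF (s + 1)))) := by
    apply Filter.Tendsto.sub
    · apply Filter.Tendsto.sub
      · exact (hgt.div hβt hβt0).const_mul _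
      · exact ((((hgshift r hr).sub_const _).const_mul _).div_const _).const_mul _
    · exact ((((hgshift s hs).sub_const _).const_mul _).div_const _).const_mul _
  have hR : Filter.Tendsto (fun ε : ℝ => Sc / betaF (t + ε)) (nhdsWithin 0 (Set.Ioi 0))
      (nhds (Sc / betaF t)) := tendsto_const_nhds.div hβt hβt0
  have hev : ∀ᶠ ε : ℝ in nhdsWithin 0 (Set.Ioi 0), (Fintype.card ι : ℝ) * (gFun (t + ε) / betaF (t + ε))
        - η * ((Fintype.card ι : ℝ) * (gFun (r + ε) - gFun r) / betaF (r + 1))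
        - (1 - η) * ((Fintype.card ι : ℝ) * (gFun (s + ε) - gFun s) / betaF (s + 1))
        ≤ Sc / betaF (t + ε) := by
    have h1 : Set.Ioc (0:ℝ) 1 ∈ nhdsWithin (0:ℝ) (Set.Ioi 0) :=
      Ioc_mem_nhdsGT zero_lt_one
    filter_upwards [h1] with ε hε
    exact key ε hε.1 hε.2
  have hfin := le_of_tendsto_of_tendsto hL hR hev
  have hfin' : (Fintype.card ι : ℝ) * (gFun t / betaF t) ≤ Sc / betaF t := by
    simpa using hfin
  have hβ : 0 < betaF t := betaF_pos ht
  have e : (Fintype.card ι : ℝ) * (gFun t / betaF t) = ((Fintype.card ι : ℝ) * gFun t) / betaF t := by ring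
  rw [e] at hfin'
  exact (div_le_div_iff_of_pos_right hβ).mp hfin'


/-- **EPnI for all Fock-diagonal inputs of finite mean.** -/
theorem EPnI_all [Nonempty ι] (hη : 0 ≤ η) (hη1 : η ≤ 1)
    (ha0 : ∀ k, 0 ≤ a k) (hsa : HasSum a 1)
    (hma : Summable (fun k => (tot k : ℝ) * a k))
    (hb0 : ∀ k, 0 ≤ b k) (hsb : HasSum b 1)
    (hmb : Summable (fun k => (tot k : ℝ) * b k)) :
    Summable (fun k => Real.negMulLog (bsOutM η a b k)) ∧
      η * photonN a + (1 - η) * photonN b ≤ photonN (bsOutM η a b) := by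
  have ha1 := le_one_of_hasSum ha0 hsa
  have hb1 := le_one_of_hasSum hb0 hsb
  have haE := entropyM_summable ha0 ha1 hma hsa.summable
  have hbE := entropyM_summable hb0 hb1 hmb hsb.summable
  rcases eq_or_lt_of_le hη with h0 | h0
  · -- `η = 0`
    subst h0
    have e : bsOutM 0 a b = b := funext fun k => bsOutM_zero _ _ hsa k
    rw [e]
    exact ⟨hbE, by simp⟩
  rcases eq_or_lt_of_le hη1 with h1 | h1
  · -- `η = 1`
    subst h1
    have e : bsOutM 1 a b = a := funext fun k => bsOutM_one _ _ hsb k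
    rw [e]
    exact ⟨haE, by simp⟩
  -- `0 < η < 1`
  have hc0 : ∀ k, 0 ≤ bsOutM η a b k := bsOutM_nonneg hη hη1 ha0 hb0
  have hcs := bsOutM_hasSum hη hη1 ha0 hb0 hsa hsb
  have hc1 := le_one_of_hasSum hc0 hcs
  have hcm := bsOutM_mean hη hη1 ha0 hb0 hsa hsb hma hmb
  have hcE := entropyM_summable hc0 hc1 hcm hcs.summable
  refine ⟨hcE, ?_⟩
  unfold photonN
  have hn1 : (0 : ℝ) < (Fintype.card ι : ℝ) := by
    exact_mod_cast Fintype.card_pos
  have hSa : 0 ≤ entropyM a / (Fintype.card ι : ℝ) :=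
    div_nonneg (entropyM_nonneg fun k => ⟨ha0 k, ha1 k⟩) hn1.le
  have hSb : 0 ≤ entropyM b / (Fintype.card ι : ℝ) :=
    div_nonneg (entropyM_nonneg fun k => ⟨hb0 k, hb1 k⟩) hn1.le
  have hSc : 0 ≤ entropyM (bsOutM η a b) / (Fintype.card ι : ℝ) :=
    div_nonneg (entropyM_nonneg fun k => ⟨hc0 k, hc1 k⟩) hn1.le
  set r := gInv (entropyM a / (Fintype.card ι : ℝ)) with hr
  set s := gInv (entropyM b / (Fintype.card ι : ℝ)) with hs
  have hr0 : 0 ≤ r := gInv_nonneg hSa
  have hs0 : 0 ≤ s := gInv_nonneg hSb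
  have hgr : gFun r = entropyM a / (Fintype.card ι : ℝ) := gFun_gInv hSa
  have hgs : gFun s = entropyM b / (Fintype.card ι : ℝ) := gFun_gInv hSb
  have hmain := mainAll h0 h1 hr0 hs0 ha0 hsa hma hb0 hsb hmb
    (by rw [hgr]; field_simp; exact le_rfl) (by rw [hgs]; field_simp; exact le_rfl)
  have ht0 : 0 ≤ η * r + (1 - η) * s := by
    have : 0 ≤ 1 - η := by linarith
    positivity
  have hgc := gFun_gInv hSc
  have hle : gFun (η * r + (1 - η) * s) ≤
      gFun (gInv (entropyM (bsOutM η a b) / (Fintype.card ι : ℝ))) := by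
    rw [hgc, le_div_iff₀ hn1]
    linarith
  exact (gFun_strictMonoOn.le_iff_le (Set.mem_Ici.mpr ht0)
    (Set.mem_Ici.mpr (gInv_nonneg hSc))).mp hle


end

end Vale.Agent.Lib.P369
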