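import Vale.Agent.Lib.P369.RzFlux

/-!
# The rearrangement inequality for Fock sets (P369)

`M(j|k,l) = Bp η j k l`.  For finite sets `S, K, L ⊆ ℕ` of sizes `m, n, r`:
`∑_{S×K×L} M ≤ ∑_{[m]×[n]×[r]} M`.

Proof: linear programming duality with the kernel as its own dual certificate.
Enumerate `S = {J 0 < J 1 < …}`, `K = {K 0 < …}`, `L = {L 0 < …}`, `μ u s t = M(J u|K s,L t)`.
The flux identity and `M ≥ 0` give, for all `i, s, t`,
`∑_{u≤i} μ u s t + η ∑_{s'<s} μ i s' t + ζ ∑_{t'<t} μ i s t' ≤ 1`.  Multiply it by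
`w i s t = M(m-1-i|n-1-s,r-1-t) ≥ 0` and sum: the coefficient of each `μ u s t` is `1`, again by
the flux identity.
-/

namespace Vale.Agent.Lib.P369

open Finset

noncomputable section

variable {η : ℝ}

private lemma swap_tri (N : ℕ) (f g : ℕ → ℝ) :
    ∑ a ∈ range N, f a * ∑ b ∈ Ico a N, g b = ∑ b ∈ range N, g b * ∑ a ∈ range (b + 1), f a := by
  simp only [mul_sum]
  rw [Finset.sum_comm' (s' := fun b => range (b + 1)) (t' := range N)]
  · refine sum_congr rfl fun b _ => sum_congr rfl fun a _ => mul_comm _ _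
  · intro a b
    simp only [mem_range, mem_Ico]
    omega

private lemma swap_str (N : ℕ) (f g : ℕ → ℝ) :
    ∑ a ∈ range N, f a * ∑ b ∈ Ico (a + 1) N, g b = ∑ b ∈ range N, g b * ∑ a ∈ range b, f a := by
  simp only [mul_sum]
  rw [Finset.sum_comm' (s' := fun b => range b) (t' := range N)]
  · refine sum_congr rfl fun b _ => sum_congr rfl fun a _ => mul_comm _ _
  · intro a b
    simp only [mem_range, mem_Ico]
    omega

/-- The duality step. -/
theorem lpDual {e z : ℝ} {m n r : ℕ} {μ w : ℕ → ℕ → ℕ → ℝ}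
    (hw : ∀ i s t, 0 ≤ w i s t)
    (hμ : ∀ i < m, ∀ s < n, ∀ t < r, ∑ u ∈ range (i + 1), μ u s t +
      e * ∑ s' ∈ range s, μ i s' t + z * ∑ t' ∈ range t, μ i s t' ≤ 1)
    (hd : ∀ u < m, ∀ s < n, ∀ t < r, ∑ i ∈ Ico u m, w i s t +
      e * ∑ s' ∈ Ico (s + 1) n, w u s' t + z * ∑ t' ∈ Ico (t + 1) r, w u s t' = 1) :
    ∑ u ∈ range m, ∑ s ∈ range n, ∑ t ∈ range r, μ u s t ≤
      ∑ u ∈ range m, ∑ s ∈ range n, ∑ t ∈ range r, w u s t := by
  have E1 : ∑ u ∈ range m, ∑ s ∈ range n, ∑ t ∈ range r, μ u s t * ∑ i ∈ Ico u m, w i s t =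
      ∑ u ∈ range m, ∑ s ∈ range n, ∑ t ∈ range r, w u s t * ∑ i ∈ range (u + 1), μ i s t := by
    rw [Finset.sum_comm]
    conv_rhs => rw [Finset.sum_comm]
    refine sum_congr rfl fun s _ => ?_
    rw [Finset.sum_comm]
    conv_rhs => rw [Finset.sum_comm]
    refine sum_congr rfl fun t _ => ?_
    exact swap_tri m (fun u => μ u s t) (fun i => w i s t)
  have E2 : ∑ u ∈ range m, ∑ s ∈ range n, ∑ t ∈ range r,
        μ u s t * (e * ∑ i ∈ Ico (s + 1) n, w u i t) =
      ∑ u ∈ range m, ∑ s ∈ range n, ∑ t ∈ range r,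
        w u s t * (e * ∑ i ∈ range s, μ u i t) := by
    refine sum_congr rfl fun u _ => ?_
    rw [Finset.sum_comm]
    conv_rhs => rw [Finset.sum_comm]
    refine sum_congr rfl fun t _ => ?_
    have := swap_str n (fun s => μ u s t) (fun i => w u i t)
    calc ∑ s ∈ range n, μ u s t * (e * ∑ i ∈ Ico (s + 1) n, w u i t)
        = e * ∑ s ∈ range n, μ u s t * ∑ i ∈ Ico (s + 1) n, w u i t := by
          rw [mul_sum]
          exact sum_congr rfl fun _ _ => by ring
      _ = e * ∑ s ∈ range n, w u s t * ∑ i ∈ range s, μ u i t := by rw [this]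
      _ = _ := by
          rw [mul_sum]
          exact sum_congr rfl fun _ _ => by ring
  have E3 : ∑ u ∈ range m, ∑ s ∈ range n, ∑ t ∈ range r,
        μ u s t * (z * ∑ i ∈ Ico (t + 1) r, w u s i) =
      ∑ u ∈ range m, ∑ s ∈ range n, ∑ t ∈ range r,
        w u s t * (z * ∑ i ∈ range t, μ u s i) := by
    refine sum_congr rfl fun u _ => sum_congr rfl fun s _ => ?_
    have := swap_str r (fun t => μ u s t) (fun i => w u s i)
    calc ∑ t ∈ range r, μ u s t * (z * ∑ i ∈ Ico (t + 1) r, w u s i)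
        = z * ∑ t ∈ range r, μ u s t * ∑ i ∈ Ico (t + 1) r, w u s i := by
          rw [mul_sum]
          exact sum_congr rfl fun _ _ => by ring
      _ = z * ∑ t ∈ range r, w u s t * ∑ i ∈ range t, μ u s i := by rw [this]
      _ = _ := by
          rw [mul_sum]
          exact sum_congr rfl fun _ _ => by ring
  calc ∑ u ∈ range m, ∑ s ∈ range n, ∑ t ∈ range r, μ u s t
      = ∑ u ∈ range m, ∑ s ∈ range n, ∑ t ∈ range r, (μ u s t * ∑ i ∈ Ico u m, w i s t +
          μ u s t * (e * ∑ i ∈ Ico (s + 1) n, w u i t) +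
          μ u s t * (z * ∑ i ∈ Ico (t + 1) r, w u s i)) := by
        refine sum_congr rfl fun u hu => sum_congr rfl fun s hs => sum_congr rfl fun t ht => ?_
        have := hd u (mem_range.1 hu) s (mem_range.1 hs) t (mem_range.1 ht)
        calc μ u s t = μ u s t * 1 := (mul_one _).symm
          _ = _ := by rw [← this]; ring
    _ = ∑ u ∈ range m, ∑ s ∈ range n, ∑ t ∈ range r, (w u s t * ∑ i ∈ range (u + 1), μ i s t +
          w u s t * (e * ∑ i ∈ range s, μ u i t) +
          w u s t * (z * ∑ i ∈ range t, μ u s i)) := by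
        simp only [sum_add_distrib]
        rw [E1, E2, E3]
    _ ≤ ∑ u ∈ range m, ∑ s ∈ range n, ∑ t ∈ range r, w u s t := by
        refine sum_le_sum fun u hu => sum_le_sum fun s hs => sum_le_sum fun t ht => ?_
        have h := hμ u (mem_range.1 hu) s (mem_range.1 hs) t (mem_range.1 ht)
        calc _ = w u s t * (∑ i ∈ range (u + 1), μ i s t + e * ∑ i ∈ range s, μ u i t +
                z * ∑ i ∈ range t, μ u s i) := by ring
          _ ≤ w u s t * 1 := mul_le_mul_of_nonneg_left h (hw _ _ _)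
          _ = _ := mul_one _

private lemma sum_comp_le {J : ℕ → ℕ} {N M : ℕ} {g : ℕ → ℝ} (hg : ∀ x, 0 ≤ g x)
    (hJ : ∀ a b, a < b → b < N → J a < J b) (hmaps : ∀ u < N, J u < M) :
    ∑ u ∈ range N, g (J u) ≤ ∑ x ∈ range M, g x := by
  have hinj : Set.InjOn J (range N : Set ℕ) := by
    intro a ha b hb hab
    simp only [coe_range, Set.mem_Iio] at ha hb
    rcases lt_trichotomy a b with h | h | h
    · have := hJ a b h hb
      omega
    · exact h
    · have := hJ b a h ha
      omega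
  rw [← sum_image (f := g) hinj]
  refine sum_le_sum_of_subset_of_nonneg ?_ fun x _ _ => hg x
  intro x hx
  obtain ⟨u, hu, rfl⟩ := mem_image.1 hx
  exact mem_range.2 (hmaps u (mem_range.1 hu))

private lemma reflect_Ico {N u : ℕ} (hu : u < N) (g : ℕ → ℝ) :
    ∑ i ∈ Ico u N, g (N - 1 - i) = ∑ a ∈ range (N - 1 - u + 1), g a := by
  refine sum_nbij' (fun i => N - 1 - i) (fun a => N - 1 - a) ?_ ?_ ?_ ?_ ?_
  · intro i hi
    simp only [mem_Ico, mem_range] at hi ⊢
    omega
  · intro a ha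
    simp only [mem_Ico, mem_range] at ha ⊢
    omega
  · intro i hi
    simp only [mem_Ico] at hi
    show N - 1 - (N - 1 - i) = i
    omega
  · intro a ha
    simp only [mem_range] at ha
    show N - 1 - (N - 1 - a) = a
    omega
  · intro i _
    rfl

private lemma reflect_Ico_succ {N u : ℕ} (hu : u < N) (g : ℕ → ℝ) :
    ∑ i ∈ Ico (u + 1) N, g (N - 1 - i) = ∑ a ∈ range (N - 1 - u), g a := by
  refine sum_nbij' (fun i => N - 1 - i) (fun a => N - 1 - a) ?_ ?_ ?_ ?_ ?_
  · intro i hi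
    simp only [mem_Ico, mem_range] at hi ⊢
    omega
  · intro a ha
    simp only [mem_Ico, mem_range] at ha ⊢
    omega
  · intro i hi
    simp only [mem_Ico] at hi
    show N - 1 - (N - 1 - i) = i
    omega
  · intro a ha
    simp only [mem_range] at ha
    show N - 1 - (N - 1 - a) = a
    omega
  · intro i _
    rfl

/-- The rearrangement inequality for enumerated sets. -/
theorem rz_enum (hη : 0 ≤ η) (hη1 : η ≤ 1) {m n r : ℕ} {J K L : ℕ → ℕ}
    (hJ : ∀ a b, a < b → b < m → J a < J b) (hK : ∀ a b, a < b → b < n → K a < K b)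
    (hL : ∀ a b, a < b → b < r → L a < L b) :
    ∑ u ∈ range m, ∑ s ∈ range n, ∑ t ∈ range r, Bp η (J u) (K s) (L t) ≤
      ∑ u ∈ range m, ∑ s ∈ range n, ∑ t ∈ range r, Bp η u s t := by
  have h1η : 0 ≤ 1 - η := by linarith
  have key := lpDual (e := η) (z := 1 - η) (m := m) (n := n) (r := r)
    (μ := fun u s t => Bp η (J u) (K s) (L t))
    (w := fun i s t => Bp η (m - 1 - i) (n - 1 - s) (r - 1 - t))
    (fun i s t => Bp_nonneg _ _ _) ?_ ?_
  · refine key.trans (le_of_eq ?_)
    -- reflect the three sums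
    have hr : ∀ (N : ℕ) (g : ℕ → ℝ), ∑ i ∈ range N, g (N - 1 - i) = ∑ i ∈ range N, g i := by
      intro N g
      exact sum_range_reflect g N
    calc ∑ u ∈ range m, ∑ s ∈ range n, ∑ t ∈ range r,
          Bp η (m - 1 - u) (n - 1 - s) (r - 1 - t)
        = ∑ u ∈ range m, ∑ s ∈ range n, ∑ t ∈ range r, Bp η u (n - 1 - s) (r - 1 - t) :=
          hr m (fun u => ∑ s ∈ range n, ∑ t ∈ range r, Bp η u (n - 1 - s) (r - 1 - t))
      _ = ∑ u ∈ range m, ∑ s ∈ range n, ∑ t ∈ range r, Bp η u s (r - 1 - t) :=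
          sum_congr rfl fun u _ => hr n (fun s => ∑ t ∈ range r, Bp η u s (r - 1 - t))
      _ = ∑ u ∈ range m, ∑ s ∈ range n, ∑ t ∈ range r, Bp η u s t :=
          sum_congr rfl fun u _ => sum_congr rfl fun s _ => hr r (fun t => Bp η u s t)
  · -- the constraints
    intro i hi s hs t ht
    have hf := Bp_flux hη hη1 (J i) (K s) (L t)
    have a1 : ∑ u ∈ range (i + 1), Bp η (J u) (K s) (L t) ≤
        ∑ x ∈ range (J i + 1), Bp η x (K s) (L t) := by
      refine sum_comp_le (g := fun x => Bp η x (K s) (L t)) (fun x => Bp_nonneg _ _ _)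
        (fun a b hab hb => hJ a b hab (by omega)) (fun u hu => ?_)
      rcases Nat.lt_succ_iff_lt_or_eq.1 hu with h | h
      · have := hJ u i h hi
        omega
      · subst h
        omega
    have a2 : ∑ s' ∈ range s, Bp η (J i) (K s') (L t) ≤
        ∑ x ∈ range (K s), Bp η (J i) x (L t) :=
      sum_comp_le (g := fun x => Bp η (J i) x (L t)) (fun x => Bp_nonneg _ _ _)
        (fun a b hab hb => hK a b hab (by omega)) (fun u hu => hK u s hu hs)
    have a3 : ∑ t' ∈ range t, Bp η (J i) (K s) (L t') ≤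
        ∑ x ∈ range (L t), Bp η (J i) (K s) x :=
      sum_comp_le (g := fun x => Bp η (J i) (K s) x) (fun x => Bp_nonneg _ _ _)
        (fun a b hab hb => hL a b hab (by omega)) (fun u hu => hL u t hu ht)
    have b2 := mul_le_mul_of_nonneg_left a2 hη
    have b3 := mul_le_mul_of_nonneg_left a3 h1η
    linarith
  · -- the dual equalities
    intro u hu s hs t ht
    have hf := Bp_flux hη hη1 (m - 1 - u) (n - 1 - s) (r - 1 - t)
    rw [reflect_Ico hu (fun a => Bp η a (n - 1 - s) (r - 1 - t)),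
      reflect_Ico_succ hs (fun a => Bp η (m - 1 - u) a (r - 1 - t)),
      reflect_Ico_succ ht (fun a => Bp η (m - 1 - u) (n - 1 - s) a)]
    exact hf

/-- Enumeration of a finite set of naturals in increasing order. -/
lemma exists_enum (S : Finset ℕ) : ∃ J : ℕ → ℕ, (∀ a b, a < b → b < S.card → J a < J b) ∧
    (∀ u < S.card, J u ∈ S) ∧ ∀ g : ℕ → ℝ, ∑ j ∈ S, g j = ∑ u ∈ range S.card, g (J u) := by
  induction S using Finset.induction_on_max with
  | empty => exact ⟨id, by simp, by simp, by simp⟩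
  | insert a T hT ih =>
    obtain ⟨J, h1, h2, h3⟩ := ih
    have ha : a ∉ T := fun h => lt_irrefl _ (hT a h)
    refine ⟨fun u => if u < T.card then J u else a, ?_, ?_, ?_⟩
    · intro x y hxy hy
      rw [card_insert_of_notMem ha] at hy
      have hx' : x < T.card := by omega
      simp only [if_pos hx']
      by_cases hy' : y < T.card
      · simp only [if_pos hy']
        exact h1 x y hxy hy'
      · simp only [if_neg hy']
        exact hT _ (h2 x hx')
    · intro u hu
      rw [card_insert_of_notMem ha] at hu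
      by_cases hu' : u < T.card
      · simp only [if_pos hu']
        exact mem_insert_of_mem (h2 u hu')
      · simp only [if_neg hu']
        exact mem_insert_self _ _
    · intro g
      rw [sum_insert ha, card_insert_of_notMem ha, sum_range_succ, h3 g]
      have e : ∑ u ∈ range T.card, g (if u < T.card then J u else a) =
          ∑ u ∈ range T.card, g (J u) :=
        sum_congr rfl fun u hu => by rw [if_pos (mem_range.1 hu)]
      rw [e]
      simp only [lt_irrefl, if_false]
      ring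

/-- **Rearrangement inequality for Fock sets.** -/
theorem rz_finset (hη : 0 ≤ η) (hη1 : η ≤ 1) (S K L : Finset ℕ) :
    ∑ j ∈ S, ∑ k ∈ K, ∑ l ∈ L, Bp η j k l ≤
      ∑ u ∈ range S.card, ∑ s ∈ range K.card, ∑ t ∈ range L.card, Bp η u s t := by
  obtain ⟨J, j1, -, j3⟩ := exists_enum S
  obtain ⟨K', k1, -, k3⟩ := exists_enum K
  obtain ⟨L', l1, -, l3⟩ := exists_enum L
  have h := rz_enum hη hη1 j1 k1 l1
  refine le_trans (le_of_eq ?_) h
  rw [j3 (fun j => ∑ k ∈ K, ∑ l ∈ L, Bp η j k l)]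
  refine sum_congr rfl fun u _ => ?_
  rw [k3 (fun k => ∑ l ∈ L, Bp η (J u) k l)]
  refine sum_congr rfl fun s _ => ?_
  exact l3 (fun l => Bp η (J u) (K' s) l)

/-- The same inequality along permutations. -/
theorem rz_perm (hη : 0 ≤ η) (hη1 : η ≤ 1) (σ₁ σ₂ σ₃ : Equiv.Perm ℕ) (m n r : ℕ) :
    ∑ u ∈ range m, ∑ v ∈ range n, ∑ w ∈ range r, Bp η (σ₁ u) (σ₂ v) (σ₃ w) ≤
      ∑ u ∈ range m, ∑ v ∈ range n, ∑ w ∈ range r, Bp η u v w := by
  have h := rz_finset hη hη1 ((range m).map σ₁.toEmbedding) ((range n).map σ₂.toEmbedding)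
    ((range r).map σ₃.toEmbedding)
  simpa [Finset.sum_map] using h

end

end Vale.Agent.Lib.P369
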