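import Vale.Agent.Lib.P369.Tangent

/-!
# JOB E7: the thermal Stam inequality from the bond identities, abstractly (P369)

Abstract summation lemma.  `A,B,C` are positive antitone sequences, `WA,WB ≥ 0` weights with
 (L1) `∑_m WA k m δA m = η (k+1) ΔC k`, (L2) `∑_l WB k l δB l = (1-η)(k+1) ΔC k`,
 (L3) `∑_m WA k m A(m+1) + ∑_l WB k l B(l+1) = (k+1) C(k+1)`,
 (L4) `∑_k WA k m = η (m+1)`, (L5) `∑_k WB k l = (1-η)(l+1)`.
Also the three series `(k+1) Nb ...` are absolutely summable.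

Paper proof.  Fix `k`, put `Δ = C k - C(k+1) ≥ 0`, `V = C(k+1) > 0`, `t = η r + (1-η) s`.
 Case `Δ > 0`: take `c₁,c₂,c₃` from `Nb_tangent ht hΔ hV`.  For each `m` (`δ = δA m`, `v = A(m+1)`):
   `(c₁ r + c₂) δ + c₃ v ≤ Nb r δ v`; multiply by `WA k m ≥ 0`, sum over `m`; same with `B`, `s`.  By (L1)-(L3):
   `(k+1) Nb t Δ V = (k+1) [ (c₁ t + c₂) Δ + c₃ V ]
       = (c₁ r + c₂) ∑ WA δA + (c₁ s + c₂) ∑ WB δB + c₃ (∑ WA A(·+1) + ∑ WB B(·+1))
       ≤ ∑_m WA k m Nb r (δA m) (A(m+1)) + ∑_l WB k l Nb s (δB l) (B(l+1))`.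
 Case `Δ = 0`: from (L1),(L2) and nonnegativity each `WA k m δA m = 0`, so each `WA k m Nb r (δA m) (A(m+1)) = 0` (if `δA m = 0`,
   `Nb = 0` as `log 1 = 0`); also `Nb t 0 V = 0`.  So both sides are `0`.
 Summation in `k`: the sum over `k` of the right side equals, by Tonelli for `|·|` (`WA k m ≤ η(m+1)` and (L4) and absolute summability of `(m+1) Nb`),
   `∑_m (∑_k WA k m) Nb r … = η ∑_m (m+1) Nb r … = η Nsum r A`, and similarly `(1-η) Nsum s B`.
   The summability of `m ↦ WA k m * Nb …` for fixed `k` uses `WA k m ≤ η (m+1)` (a term of a nonnegative series with sum `η(m+1)`).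
-/

namespace Vale.Agent.Lib.P369

noncomputable section

/-- Tonelli package: weights `P` with `∑_k P k m = c (m+1)`, and `(m+1) N m` summable. -/
private lemma weight_tonelli {P : ℕ → ℕ → ℝ} {c : ℝ} (hP : ∀ k m, 0 ≤ P k m)
    (L : ∀ m, HasSum (fun k => P k m) (c * ((m : ℝ) + 1))) {N : ℕ → ℝ}
    (sN : Summable (fun m : ℕ => ((m : ℝ) + 1) * N m)) :
    (∀ k, Summable (fun m => P k m * N m)) ∧
      Summable (fun k => ∑' m, P k m * N m) ∧
      ∑' k, ∑' m, P k m * N m = c * ∑' m : ℕ, ((m : ℝ) + 1) * N m := by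
  -- absolute summability on the product, in the order `(k, m)`
  have hG : Summable (fun z : ℕ × ℕ => P z.2 z.1 * |N z.1|) := by
    have hnn : 0 ≤ (fun z : ℕ × ℕ => P z.2 z.1 * |N z.1|) :=
      fun z => mul_nonneg (hP _ _) (abs_nonneg _)
    have a1 : ∀ m, Summable (fun k => P k m * |N m|) := fun m => (L m).summable.mul_right _
    have h1 : (fun m : ℕ => ∑' k, P k m * |N m|) = fun m : ℕ => c * (((m : ℝ) + 1) * |N m|) := by
      funext m
      rw [tsum_mul_right, (L m).tsum_eq]; ring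
    have a2 : Summable (fun m : ℕ => ∑' k, P k m * |N m|) := by
      rw [h1]
      refine Summable.mul_left _ ?_
      have h2 := sN.abs
      refine h2.congr (fun m => ?_)
      rw [abs_mul, abs_of_nonneg (by positivity : (0 : ℝ) ≤ (m : ℝ) + 1)]
    exact (summable_prod_of_nonneg hnn).mpr ⟨a1, a2⟩
  have hF : Summable (fun z : ℕ × ℕ => P z.2 z.1 * N z.1) := by
    refine Summable.of_norm ?_
    refine hG.congr (fun z => ?_)
    rw [Real.norm_eq_abs, abs_mul, abs_of_nonneg (hP _ _)]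
  have hF' : Summable (fun z : ℕ × ℕ => P z.1 z.2 * N z.2) := by
    have := (Equiv.prodComm ℕ ℕ).summable_iff.mpr hF
    refine this.congr (fun z => ?_)
    simp
  have b1 : ∀ k, Summable (fun m => P k m * N m) := fun k => hF'.prod_factor k
  have b2 : Summable (fun k => ∑' m, P k m * N m) := hF'.prod
  refine ⟨b1, b2, ?_⟩
  have h3 : ∑' m, ∑' k, P k m * N m = ∑' k, ∑' m, P k m * N m :=
    Summable.tsum_comm' (f := fun k m => P k m * N m) hF' b1
      (fun m => (L m).summable.mul_right _)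
  rw [← h3, ← tsum_mul_left]
  refine tsum_congr (fun m => ?_)
  rw [tsum_mul_right, (L m).tsum_eq]; ring

private lemma Nb_zero (r v : ℝ) : Nb r 0 v = 0 := by
  simp [Nb]

private lemma dl_nonneg {f : ℕ → ℝ} (hf : Antitone f) (k : ℕ) : 0 ≤ dl f k :=
  sub_nonneg.mpr (hf (Nat.le_succ k))

/-- If the weighted differences vanish then so do the weighted bonds. -/
private lemma weight_bond_zero {f : ℕ → ℝ} {P : ℕ → ℝ} (hP : ∀ m, 0 ≤ P m)
    (hf : Antitone f) (r : ℝ) (h : HasSum (fun m => P m * dl f m) 0) (m : ℕ) :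
    P m * Nb r (dl f m) (f (m + 1)) = 0 := by
  have h0 : ∀ m, 0 ≤ P m * dl f m := fun m => mul_nonneg (hP m) (dl_nonneg hf m)
  have h1 : (fun m => P m * dl f m) = 0 := (hasSum_zero_iff_of_nonneg h0).mp h
  have h2 : P m * dl f m = 0 := congrFun h1 m
  rcases mul_eq_zero.mp h2 with h3 | h3
  · rw [h3, zero_mul]
  · rw [h3, Nb_zero, mul_zero]

theorem TS_of_weights {η r s : ℝ} (hη : 0 < η) (hη1 : η < 1) (hr : 0 < r) (hs : 0 < s)
    {A B C : ℕ → ℝ} (hA : ∀ k, 0 < A k) (hB : ∀ k, 0 < B k) (hC : ∀ k, 0 < C k)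
    (hAa : Antitone A) (hBa : Antitone B) (hCa : Antitone C)
    {PA PB : ℕ → ℕ → ℝ} (hPA : ∀ k m, 0 ≤ PA k m) (hPB : ∀ k l, 0 ≤ PB k l)
    (L1 : ∀ k, HasSum (fun m => PA k m * dl A m) (η * ((k : ℝ) + 1) * dl C k))
    (L2 : ∀ k, HasSum (fun l => PB k l * dl B l) ((1 - η) * ((k : ℝ) + 1) * dl C k))
    (L3 : ∀ k, ∃ x y : ℝ, HasSum (fun m => PA k m * A (m + 1)) x ∧
      HasSum (fun l => PB k l * B (l + 1)) y ∧ x + y = ((k : ℝ) + 1) * C (k + 1))
    (L4 : ∀ m, HasSum (fun k => PA k m) (η * ((m : ℝ) + 1)))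
    (L5 : ∀ l, HasSum (fun k => PB k l) ((1 - η) * ((l : ℝ) + 1)))
    (sA : Summable (fun m : ℕ => ((m : ℝ) + 1) * Nb r (dl A m) (A (m + 1))))
    (sB : Summable (fun l : ℕ => ((l : ℝ) + 1) * Nb s (dl B l) (B (l + 1))))
    (sC : Summable (fun k : ℕ => ((k : ℝ) + 1) * Nb (η * r + (1 - η) * s) (dl C k) (C (k + 1)))) :
    Nsum (η * r + (1 - η) * s) C ≤ η * Nsum r A + (1 - η) * Nsum s B := by
  obtain ⟨hA1, hA2, hA3⟩ := weight_tonelli hPA L4 sA
  obtain ⟨hB1, hB2, hB3⟩ := weight_tonelli hPB L5 sB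
  have ht : 0 < η * r + (1 - η) * s := by
    have : 0 < 1 - η := sub_pos.mpr hη1
    positivity
  -- the pointwise inequality at fixed `k`
  have key : ∀ k : ℕ, ((k : ℝ) + 1) * Nb (η * r + (1 - η) * s) (dl C k) (C (k + 1)) ≤
      ∑' m, PA k m * Nb r (dl A m) (A (m + 1)) + ∑' l, PB k l * Nb s (dl B l) (B (l + 1)) := by
    intro k
    have hk1 : (0 : ℝ) < (k : ℝ) + 1 := by positivity
    rcases (dl_nonneg hCa k).eq_or_lt with hΔ | hΔ
    · -- `Δ = 0`
      have h1 := L1 k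
      have h2 := L2 k
      rw [← hΔ, mul_zero] at h1 h2
      have e1 : (fun m => PA k m * Nb r (dl A m) (A (m + 1))) = fun _ => 0 := by
        funext m; exact weight_bond_zero (hPA k) hAa r h1 m
      have e2 : (fun l => PB k l * Nb s (dl B l) (B (l + 1))) = fun _ => 0 := by
        funext l; exact weight_bond_zero (hPB k) hBa s h2 l
      rw [e1, e2, ← hΔ, Nb_zero]
      simp
    · -- `Δ > 0`
      obtain ⟨c₁, c₂, c₃, hbase, htan⟩ := Nb_tangent ht hΔ (hC (k + 1))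
      obtain ⟨x, y, hx, hy, hxy⟩ := L3 k
      have i1 : (c₁ * r + c₂) * (η * ((k : ℝ) + 1) * dl C k) + c₃ * x ≤
          ∑' m, PA k m * Nb r (dl A m) (A (m + 1)) := by
        have h1 : HasSum (fun m => (c₁ * r + c₂) * (PA k m * dl A m) + c₃ * (PA k m * A (m + 1)))
            ((c₁ * r + c₂) * (η * ((k : ℝ) + 1) * dl C k) + c₃ * x) :=
          ((L1 k).mul_left _).add (hx.mul_left _)
        refine hasSum_le (fun m => ?_) h1 (hA1 k).hasSum
        have h2 := htan r (dl A m) (A (m + 1)) hr (dl_nonneg hAa m) (hA (m + 1))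
        have h3 := mul_le_mul_of_nonneg_left h2 (hPA k m)
        calc (c₁ * r + c₂) * (PA k m * dl A m) + c₃ * (PA k m * A (m + 1))
            = PA k m * ((c₁ * r + c₂) * dl A m + c₃ * A (m + 1)) := by ring
          _ ≤ _ := h3
      have i2 : (c₁ * s + c₂) * ((1 - η) * ((k : ℝ) + 1) * dl C k) + c₃ * y ≤
          ∑' l, PB k l * Nb s (dl B l) (B (l + 1)) := by
        have h1 : HasSum (fun m => (c₁ * s + c₂) * (PB k m * dl B m) + c₃ * (PB k m * B (m + 1)))
            ((c₁ * s + c₂) * ((1 - η) * ((k : ℝ) + 1) * dl C k) + c₃ * y) :=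
          ((L2 k).mul_left _).add (hy.mul_left _)
        refine hasSum_le (fun m => ?_) h1 (hB1 k).hasSum
        have h2 := htan s (dl B m) (B (m + 1)) hs (dl_nonneg hBa m) (hB (m + 1))
        have h3 := mul_le_mul_of_nonneg_left h2 (hPB k m)
        calc (c₁ * s + c₂) * (PB k m * dl B m) + c₃ * (PB k m * B (m + 1))
            = PB k m * ((c₁ * s + c₂) * dl B m + c₃ * B (m + 1)) := by ring
          _ ≤ _ := h3
      have e : ((k : ℝ) + 1) * Nb (η * r + (1 - η) * s) (dl C k) (C (k + 1)) =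
          (c₁ * r + c₂) * (η * ((k : ℝ) + 1) * dl C k) + c₃ * x +
            ((c₁ * s + c₂) * ((1 - η) * ((k : ℝ) + 1) * dl C k) + c₃ * y) := by
        rw [← hbase]
        linear_combination (-c₃) * hxy
      rw [e]
      exact add_le_add i1 i2
  -- sum over `k`
  have hsum := Summable.tsum_le_tsum key sC (hA2.add hB2)
  rw [Summable.tsum_add hA2 hB2, hA3, hB3] at hsum
  exact hsum

end

end Vale.Agent.Lib.P369
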