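import Vale.Agent.Lib.P369.TSAbstract

/-!
# JOB M1: `TS_of_weights` for arbitrary index types and weights (P369)

Same proof as `TS_of_weights` in `TSAbstract.lean` (copy and adapt; `(k+1)`, `(m+1)`, `(l+1)` become `WC k`, `WA m`, `WB l`; bonds become `(dC k, vC k)`, etc; all index types arbitrary).

Fix `k`.  Case `dC k > 0`: `Nb_tangent ht hΔ hV`; for each `m`: `(c₁ r + c₂) dA m + c₃ vA m ≤ Nb r (dA m) (vA m)`, multiply by `PA k m`, sum; likewise for `B`, `s`.  By L1-L3:
 `WC k * Nb t (dC k) (vC k) ≤ ∑_m PA k m * Nb r (dA m) (vA m) + ∑_l PB k l * Nb s (dB l) (vB l)`.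
Case `dC k = 0`: `PA k m * dA m = 0` for all `m`, so `PA k m * Nb r (dA m) (vA m) = 0` (if `dA m = 0` then `Nb = 0`, as `log 1 = 0`), same for `B`, both sides `0`.
Sum over `k`, Tonelli for `|·|` (L4, L5, and `PA k m ≤ η WA m`, with `WA m ≥ 0`, for summability at fixed `k`).
-/

namespace Vale.Agent.Lib.P369

noncomputable section

/-- Tonelli package: weights `P` with `∑_k P k m = c W m`, and `W m * N m` summable. -/
private lemma weight_tonelli_gen {κ μ : Type*} {P : κ → μ → ℝ} {c : ℝ} {W : μ → ℝ}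
    (hW : ∀ m, 0 ≤ W m) (hP : ∀ k m, 0 ≤ P k m)
    (L : ∀ m, HasSum (fun k => P k m) (c * W m)) {N : μ → ℝ}
    (sN : Summable (fun m => W m * N m)) :
    (∀ k, Summable (fun m => P k m * N m)) ∧
      Summable (fun k => ∑' m, P k m * N m) ∧
      ∑' k, ∑' m, P k m * N m = c * ∑' m, W m * N m := by
  -- absolute summability on the product, in the order `(m, k)`
  have hG : Summable (fun z : μ × κ => P z.2 z.1 * |N z.1|) := by
    have hnn : 0 ≤ (fun z : μ × κ => P z.2 z.1 * |N z.1|) :=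
      fun z => mul_nonneg (hP _ _) (abs_nonneg _)
    have a1 : ∀ m, Summable (fun k => P k m * |N m|) := fun m => (L m).summable.mul_right _
    have h1 : (fun m => ∑' k, P k m * |N m|) = fun m => c * (W m * |N m|) := by
      funext m
      rw [tsum_mul_right, (L m).tsum_eq]; ring
    have a2 : Summable (fun m => ∑' k, P k m * |N m|) := by
      rw [h1]
      refine Summable.mul_left _ ?_
      have h2 := sN.abs
      refine h2.congr (fun m => ?_)
      rw [abs_mul, abs_of_nonneg (hW m)]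
    exact (summable_prod_of_nonneg hnn).mpr ⟨a1, a2⟩
  have hF : Summable (fun z : μ × κ => P z.2 z.1 * N z.1) := by
    refine Summable.of_norm ?_
    refine hG.congr (fun z => ?_)
    rw [Real.norm_eq_abs, abs_mul, abs_of_nonneg (hP _ _)]
  have hF' : Summable (fun z : κ × μ => P z.1 z.2 * N z.2) := by
    have := (Equiv.prodComm κ μ).summable_iff.mpr hF
    refine this.congr (fun z => ?_)
    simp
  have b1 : ∀ k, Summable (fun m => P k m * N m) := fun k => hF'.prod_factor k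
  have b2 : Summable (fun k => ∑' m, P k m * N m) := hF'.prod
  refine ⟨b1, b2, ?_⟩
  have h3 : ∑' m, ∑' k, P k m * N m = ∑' k, ∑' m, P k m * N m :=
    Summable.tsum_comm' (f := fun k m => P k m * N m) hF' b1
      (fun m => (L m).summable.mul_right _)
  rw [← h3, ← tsum_mul_left]
  refine tsum_congr (fun m => ?_)
  rw [tsum_mul_right, (L m).tsum_eq]; ring

private lemma Nb_zero' (r v : ℝ) : Nb r 0 v = 0 := by
  simp [Nb]

/-- If the weighted differences vanish then so do the weighted bonds. -/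
private lemma weight_bond_zero_gen {μ : Type*} {P d v : μ → ℝ} (hP : ∀ m, 0 ≤ P m)
    (hd : ∀ m, 0 ≤ d m) (r : ℝ) (h : HasSum (fun m => P m * d m) 0) (m : μ) :
    P m * Nb r (d m) (v m) = 0 := by
  have h0 : ∀ m, 0 ≤ P m * d m := fun m => mul_nonneg (hP m) (hd m)
  have h1 : (fun m => P m * d m) = 0 := (hasSum_zero_iff_of_nonneg h0).mp h
  have h2 : P m * d m = 0 := congrFun h1 m
  rcases mul_eq_zero.mp h2 with h3 | h3
  · rw [h3, zero_mul]
  · rw [h3, Nb_zero', mul_zero]

theorem TS_abs {κ μ ν : Type*} {η r s : ℝ} (hη : 0 < η) (hη1 : η < 1) (hr : 0 < r) (hs : 0 < s)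
    {WC : κ → ℝ} {WA : μ → ℝ} {WB : ν → ℝ} (hWC : ∀ k, 0 < WC k) (hWA : ∀ m, 0 ≤ WA m)
    (hWB : ∀ l, 0 ≤ WB l)
    {dC vC : κ → ℝ} {dA vA : μ → ℝ} {dB vB : ν → ℝ}
    (hdC : ∀ k, 0 ≤ dC k) (hvC : ∀ k, 0 < vC k) (hdA : ∀ m, 0 ≤ dA m) (hvA : ∀ m, 0 < vA m)
    (hdB : ∀ l, 0 ≤ dB l) (hvB : ∀ l, 0 < vB l)
    {PA : κ → μ → ℝ} {PB : κ → ν → ℝ} (hPA : ∀ k m, 0 ≤ PA k m) (hPB : ∀ k l, 0 ≤ PB k l)
    (L1 : ∀ k, HasSum (fun m => PA k m * dA m) (η * WC k * dC k))
    (L2 : ∀ k, HasSum (fun l => PB k l * dB l) ((1 - η) * WC k * dC k))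
    (L3 : ∀ k, ∃ x y : ℝ, HasSum (fun m => PA k m * vA m) x ∧
      HasSum (fun l => PB k l * vB l) y ∧ x + y = WC k * vC k)
    (L4 : ∀ m, HasSum (fun k => PA k m) (η * WA m))
    (L5 : ∀ l, HasSum (fun k => PB k l) ((1 - η) * WB l))
    (sA : Summable (fun m => WA m * Nb r (dA m) (vA m)))
    (sB : Summable (fun l => WB l * Nb s (dB l) (vB l)))
    (sC : Summable (fun k => WC k * Nb (η * r + (1 - η) * s) (dC k) (vC k))) :
    ∑' k, WC k * Nb (η * r + (1 - η) * s) (dC k) (vC k) ≤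
      η * ∑' m, WA m * Nb r (dA m) (vA m) + (1 - η) * ∑' l, WB l * Nb s (dB l) (vB l) := by
  obtain ⟨hA1, hA2, hA3⟩ := weight_tonelli_gen hWA hPA L4 sA
  obtain ⟨hB1, hB2, hB3⟩ := weight_tonelli_gen hWB hPB L5 sB
  have ht : 0 < η * r + (1 - η) * s := by
    have : 0 < 1 - η := sub_pos.mpr hη1
    positivity
  -- the pointwise inequality at fixed `k`
  have key : ∀ k, WC k * Nb (η * r + (1 - η) * s) (dC k) (vC k) ≤
      ∑' m, PA k m * Nb r (dA m) (vA m) + ∑' l, PB k l * Nb s (dB l) (vB l) := by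
    intro k
    rcases (hdC k).eq_or_lt with hΔ | hΔ
    · -- `Δ = 0`
      have h1 := L1 k
      have h2 := L2 k
      rw [← hΔ, mul_zero] at h1 h2
      have e1 : (fun m => PA k m * Nb r (dA m) (vA m)) = fun _ => 0 := by
        funext m; exact weight_bond_zero_gen (hPA k) hdA r h1 m
      have e2 : (fun l => PB k l * Nb s (dB l) (vB l)) = fun _ => 0 := by
        funext l; exact weight_bond_zero_gen (hPB k) hdB s h2 l
      rw [e1, e2, ← hΔ, Nb_zero']
      simp
    · -- `Δ > 0`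
      obtain ⟨c₁, c₂, c₃, hbase, htan⟩ := Nb_tangent ht hΔ (hvC k)
      obtain ⟨x, y, hx, hy, hxy⟩ := L3 k
      have i1 : (c₁ * r + c₂) * (η * WC k * dC k) + c₃ * x ≤
          ∑' m, PA k m * Nb r (dA m) (vA m) := by
        have h1 : HasSum (fun m => (c₁ * r + c₂) * (PA k m * dA m) + c₃ * (PA k m * vA m))
            ((c₁ * r + c₂) * (η * WC k * dC k) + c₃ * x) :=
          ((L1 k).mul_left _).add (hx.mul_left _)
        refine hasSum_le (fun m => ?_) h1 (hA1 k).hasSum
        have h2 := htan r (dA m) (vA m) hr (hdA m) (hvA m)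
        have h3 := mul_le_mul_of_nonneg_left h2 (hPA k m)
        calc (c₁ * r + c₂) * (PA k m * dA m) + c₃ * (PA k m * vA m)
            = PA k m * ((c₁ * r + c₂) * dA m + c₃ * vA m) := by ring
          _ ≤ _ := h3
      have i2 : (c₁ * s + c₂) * ((1 - η) * WC k * dC k) + c₃ * y ≤
          ∑' l, PB k l * Nb s (dB l) (vB l) := by
        have h1 : HasSum (fun m => (c₁ * s + c₂) * (PB k m * dB m) + c₃ * (PB k m * vB m))
            ((c₁ * s + c₂) * ((1 - η) * WC k * dC k) + c₃ * y) :=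
          ((L2 k).mul_left _).add (hy.mul_left _)
        refine hasSum_le (fun m => ?_) h1 (hB1 k).hasSum
        have h2 := htan s (dB m) (vB m) hs (hdB m) (hvB m)
        have h3 := mul_le_mul_of_nonneg_left h2 (hPB k m)
        calc (c₁ * s + c₂) * (PB k m * dB m) + c₃ * (PB k m * vB m)
            = PB k m * ((c₁ * s + c₂) * dB m + c₃ * vB m) := by ring
          _ ≤ _ := h3
      have e : WC k * Nb (η * r + (1 - η) * s) (dC k) (vC k) =
          (c₁ * r + c₂) * (η * WC k * dC k) + c₃ * x +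
            ((c₁ * s + c₂) * ((1 - η) * WC k * dC k) + c₃ * y) := by
        rw [← hbase]
        linear_combination (-c₃) * hxy
      rw [e]
      exact add_le_add i1 i2
  -- sum over `k`
  have hsum := Summable.tsum_le_tsum key sC (hA2.add hB2)
  rw [Summable.tsum_add hA2 hB2, hA3, hB3] at hsum
  exact hsum

end

end Vale.Agent.Lib.P369
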