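import Vale.Agent.Lib.P369.TSGen
import Vale.Agent.Lib.P369.GoodM

/-!
# JOB M6: thermal Stam inequality on several modes (P369)

`NsumDir_summable`: `GoodM f`, `r>0`: with `δ = f k - f (bump i k) ≥ 0`, `v = f (bump i k) > 0`: `|Nb r δ v| ≤ (r δ + v) log(f k/f (bump i k))/β_r`, `r δ + v ≤ (r+1) f k ≤ (r+1) c w^(tot k)`,
 and by the two-sided bound `log (f k / f (bump i k)) ≤ log(c₂/c₁) + (tot k + 1) log(1/w₁)`.  `(k i + 1) ≤ tot k + 1`.  Then `summable_pow_tot`.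

`TSDir`: for direction `i` apply `TS_abs` with `κ = μ = ν = ι → ℕ`, `WC k = k i + 1`, `WA m = m i + 1`, `WB l = l i + 1`, `dC = dlD i C`, `vC k = C (bump i k)`, `dA = dlD i a`, `vA m = a (bump i m)`, `dB`, `vB`; `PA = PAi η b i`, `PB = PBi η a i`, `bondM_L*`, `goodM_bsOutM`.

`TS_bsOutM`: sum over `i`.
-/

namespace Vale.Agent.Lib.P369

noncomputable section

variable {ι : Type*} [Fintype ι] [DecidableEq ι] {η r s : ℝ} {a b : (ι → ℕ) → ℝ}

private lemma log_ratio_bound {f : (ι → ℕ) → ℝ} (hf : GoodM f) (i : ι) {c₁ w₁ c₂ w₂ : ℝ}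
    (hc₁ : 0 < c₁) (hw₁ : 0 < w₁) (hw₁1 : w₁ ≤ 1) (hlow : ∀ k, c₁ * w₁ ^ tot k ≤ f k)
    (hc₂ : 0 < c₂) (hw₂ : 0 < w₂) (hw₂1 : w₂ < 1) (hup : ∀ k, f k ≤ c₂ * w₂ ^ tot k) (k : ι → ℕ) :
    Real.log (f k / f (bump i k)) ≤
      (|Real.log (c₂ / c₁)| + Real.log (1 / w₁)) * ((tot k : ℝ) + 1) := by
  have hfK := hf.pos k
  have hfK1 := hf.pos (bump i k)
  have h1 : f k / f (bump i k) ≤ (c₂ / c₁) * (1 / w₁) ^ (tot k + 1) := by
    have h2 : f k ≤ c₂ := by
      have := hup k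
      have h3 : w₂ ^ tot k ≤ 1 := pow_le_one₀ hw₂.le hw₂1.le
      nlinarith
    rw [div_le_iff₀ hfK1]
    have h4 := hlow (bump i k)
    rw [tot_bump] at h4
    have h5 : (c₂ / c₁) * (1 / w₁) ^ (tot k + 1) * (c₁ * w₁ ^ (tot k + 1)) = c₂ := by
      rw [one_div, inv_pow]
      field_simp
    have h6 : 0 ≤ (c₂ / c₁) * (1 / w₁) ^ (tot k + 1) := by positivity
    calc f k ≤ c₂ := h2
      _ = (c₂ / c₁) * (1 / w₁) ^ (tot k + 1) * (c₁ * w₁ ^ (tot k + 1)) := h5.symm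
      _ ≤ _ := mul_le_mul_of_nonneg_left h4 h6
  have hpos : 0 < f k / f (bump i k) := div_pos hfK hfK1
  have h7 := Real.log_le_log hpos h1
  rw [Real.log_mul (by positivity) (by positivity), Real.log_pow] at h7
  have h8 : Real.log (c₂ / c₁) ≤ |Real.log (c₂ / c₁)| * ((tot k : ℝ) + 1) := by
    have h9 : (1 : ℝ) ≤ (tot k : ℝ) + 1 := by
      have : (0 : ℝ) ≤ tot k := Nat.cast_nonneg _
      linarith
    calc Real.log (c₂ / c₁) ≤ |Real.log (c₂ / c₁)| := le_abs_self _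
      _ ≤ |Real.log (c₂ / c₁)| * ((tot k : ℝ) + 1) := le_mul_of_one_le_right (abs_nonneg _) h9
  push_cast at h7
  nlinarith

lemma NsumDir_summable (hr : 0 < r) {f : (ι → ℕ) → ℝ} (hf : GoodM f) (i : ι) :
    Summable (fun k : ι → ℕ => ((k i : ℝ) + 1) * Nb r (f k - f (bump i k)) (f (bump i k))) := by
  obtain ⟨c₁, w₁, hc₁, hw₁, hw₁1, hlow⟩ := hf.lower
  obtain ⟨c₂, w₂, hc₂, hw₂, hw₂1, hup⟩ := hf.upper
  have hβ : 0 < betaF r := by
    unfold betaF
    apply Real.log_pos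
    have : 0 < 1 / r := by positivity
    linarith
  have hlogw₁ : 0 ≤ Real.log (1 / w₁) := by
    apply Real.log_nonneg
    rw [le_div_iff₀ hw₁]
    linarith
  obtain ⟨Λ, hΛ0, hlogbd⟩ : ∃ Λ : ℝ, 0 ≤ Λ ∧ ∀ k : ι → ℕ,
      Real.log (f k / f (bump i k)) ≤ Λ * ((tot k : ℝ) + 1) :=
    ⟨|Real.log (c₂ / c₁)| + Real.log (1 / w₁), by positivity,
      log_ratio_bound hf i hc₁ hw₁ hw₁1 hlow hc₂ hw₂ hw₂1 hup⟩
  have hsum := (summable_pow_tot (ι := ι) 2 hw₂.le hw₂1).mul_left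
    ((r + 1) * c₂ * (Λ / betaF r))
  refine Summable.of_norm_bounded hsum ?_
  intro k
  have hfK := hf.pos k
  have hfK1 := hf.pos (bump i k)
  have hanti : f (bump i k) ≤ f k := hf.anti (le_bump i k)
  have hd0 : 0 ≤ f k - f (bump i k) := sub_nonneg.2 hanti
  have hratio : 1 + (f k - f (bump i k)) / f (bump i k) = f k / f (bump i k) := by
    field_simp
    ring
  have hlog0 : 0 ≤ Real.log (f k / f (bump i k)) := by
    apply Real.log_nonneg
    rw [le_div_iff₀ hfK1, one_mul]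
    exact hanti
  have hW0 : (0 : ℝ) ≤ (k i : ℝ) + 1 := by positivity
  have hWle : (k i : ℝ) + 1 ≤ (tot k : ℝ) + 1 := cast_le_tot k i
  have hnb : |Nb r (f k - f (bump i k)) (f (bump i k))| ≤ (r + 1) * (c₂ * w₂ ^ tot k) *
      (Λ * ((tot k : ℝ) + 1)) / betaF r := by
    unfold Nb
    rw [hratio, abs_div, abs_of_pos hβ, abs_mul, abs_of_nonneg hlog0]
    apply div_le_div_of_nonneg_right _ hβ.le
    have h1 : |r * (f k - f (bump i k)) - f (bump i k)| ≤ (r + 1) * (c₂ * w₂ ^ tot k) := by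
      have hup' := hup k
      have hd1 : f k - f (bump i k) ≤ f k := by linarith
      rw [abs_le]
      constructor <;> nlinarith [mul_nonneg hr.le hd0]
    exact mul_le_mul h1 (hlogbd k) hlog0 (by positivity)
  rw [Real.norm_eq_abs, abs_mul, abs_of_nonneg hW0]
  calc ((k i : ℝ) + 1) * |Nb r (f k - f (bump i k)) (f (bump i k))|
      ≤ ((tot k : ℝ) + 1) *
        ((r + 1) * (c₂ * w₂ ^ tot k) * (Λ * ((tot k : ℝ) + 1)) / betaF r) :=
        mul_le_mul hWle hnb (abs_nonneg _) (by positivity)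
    _ = (r + 1) * c₂ * (Λ / betaF r) * (((tot k : ℝ) + 1) ^ 2 * w₂ ^ tot k) := by
        ring

theorem TS_dir (hη : 0 < η) (hη1 : η < 1) (hr : 0 < r) (hs : 0 < s) (ha : GoodM a) (hb : GoodM b)
    (i : ι) :
    NsumDir i (η * r + (1 - η) * s) (bsOutM η a b) ≤ η * NsumDir i r a + (1 - η) * NsumDir i s b := by
  have hc := goodM_bsOutM hη hη1 ha hb
  have hoa := ha.mok
  have hob := hb.mok
  have ht : 0 < η * r + (1 - η) * s := by
    have : 0 < 1 - η := by linarith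
    positivity
  unfold NsumDir
  exact TS_abs hη hη1 hr hs (WC := fun k : ι → ℕ => (k i : ℝ) + 1)
    (WA := fun k : ι → ℕ => (k i : ℝ) + 1) (WB := fun k : ι → ℕ => (k i : ℝ) + 1)
    (dC := dlD i (bsOutM η a b)) (vC := fun k => bsOutM η a b (bump i k))
    (dA := dlD i a) (vA := fun k => a (bump i k))
    (dB := dlD i b) (vB := fun k => b (bump i k))
    (PA := PAi η b i) (PB := PBi η a i)
    (fun k => by positivity) (fun k => by positivity) (fun k => by positivity)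
    (dlD_nonneg hc.mok i) (fun k => hc.pos _) (dlD_nonneg hoa i) (fun k => ha.pos _)
    (dlD_nonneg hob i) (fun k => hb.pos _)
    (PAi_nonneg hη.le hη1.le hob i) (PBi_nonneg hη.le hη1.le hoa i)
    (bondM_L1 hη.le hη1.le hoa hob i) (bondM_L2 hη.le hη1.le hoa hob i)
    (bondM_L3 hη.le hη1.le hoa hob i)
    (bondM_L4 hη.le hη1.le hoa hob hb.hasSum i) (bondM_L5 hη.le hη1.le hoa hob ha.hasSum i)
    (NsumDir_summable hr ha i) (NsumDir_summable hs hb i) (NsumDir_summable ht hc i)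

theorem TS_bsOutM (hη : 0 < η) (hη1 : η < 1) (hr : 0 < r) (hs : 0 < s) (ha : GoodM a) (hb : GoodM b) :
    NsumM (η * r + (1 - η) * s) (bsOutM η a b) ≤ η * NsumM r a + (1 - η) * NsumM s b := by
  unfold NsumM
  rw [Finset.mul_sum, Finset.mul_sum, ← Finset.sum_add_distrib]
  exact Finset.sum_le_sum fun i _ => TS_dir hη hη1 hr hs ha hb i

end

end Vale.Agent.Lib.P369
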