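import Vale.Agent.Lib.P369.Hess

/-!
# JOB E6: tangent-plane inequality for the bond function (P369)

`n(x,y) = (x-y) ℓ(y)/ℓ(x)` for `x,y > 0`, `ℓ(ξ) = log(1+1/ξ)`, `ℓ' = -1/(ξ(ξ+1))`.  With `β = ℓ(x)`, `γ = ℓ(y)`,
`a = x(x+1)`, `b = y(y+1)`, `d = x - y`, `w = 2xy+x+y` (`w² = 4ab + d²`):
  `n_x  = γ (aβ + d)/(a β²)`,  `n_y = -(bγ + d)/(bβ)`,
  `n_xx = γ (wβ + 2d)/(a² β³)`,  `n_yy = w/(b² β)`,  `n_xy = -(aβ + d + bγ)/(a b β²)`.
By `hess_key`, `n_xx n_yy ≥ n_xy²`, and `n_yy > 0`, so for all real `ξ,ζ`: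
`n_xx ξ² + 2 n_xy ξ ζ + n_yy ζ² ≥ 0`  (= `(n_yy ζ + n_xy ξ)²/n_yy + (n_xx n_yy - n_xy²) ξ²/n_yy`).

Tangent plane.  Given `(x₀,y₀)`, `(x₁,y₁)` in the positive quadrant, `φ(τ) = n(x₀+τ(x₁-x₀), y₀+τ(y₁-y₀))` has
`φ'' = quadratic form ≥ 0` on a neighbourhood of `[0,1]` (compute `φ'`, `φ''` by one-variable `HasDerivAt` with the product/quotient rule). Hence
`ψ(τ) = φ(τ) - φ(0) - τ φ'(0)` has `ψ(0) = ψ'(0) = 0`, `ψ'' ≥ 0`, so `ψ(1) ≥ 0`:
 `n(x₁,y₁) ≥ n(x₀,y₀) + n_x(x₀,y₀)(x₁-x₀) + n_y(x₀,y₀)(y₁-y₀)`.   (`n_tangent`)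

Also `n_y ≤ 0`: `bγ + d ≥ 0`?  Careful: `n_y = -(bγ+d)/(bβ)` and `bγ = y(y+1)ℓ(y) ≥ y` by `ℓ(y) ≥ 1/(y+1)`, so `bγ + d ≥ y + x - y = x > 0`. OK.

Homogeneous form (`Nb_tangent`).  Let `t,Δ,V>0`, `(x₀,y₀) = (t, V/Δ)`, `c₁ = n_x(x₀,y₀)`, `c₃ = n_y(x₀,y₀)`,
`c₂ = n(x₀,y₀) - x₀ c₁ - y₀ c₃`.  For `δ>0, v>0, r>0`, `Nb r δ v = δ n(r, v/δ)` since `log(1+δ/v) = ℓ(v/δ)` and
`(rδ - v) = δ (r - v/δ)`; the tangent inequality at `(x₁,y₁) = (r, v/δ)` multiplied by `δ` gives `(c₁ r + c₂) δ + c₃ v ≤ Nb r δ v`.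
For `δ = 0`: `Nb r 0 v = 0` as `log 1 = 0`, and the left side is `c₃ v ≤ 0`.
At the base point: `(c₁ t + c₂) Δ + c₃ V = n(x₀,y₀) Δ + c₃ (V - y₀ Δ) = Nb t Δ V`.
-/

namespace Vale.Agent.Lib.P369

noncomputable section

/-- `ℓ(ξ) = log(1+1/ξ)`. -/
def ellF (ξ : ℝ) : ℝ := Real.log (1 + 1 / ξ)

lemma ellF_pos {ξ : ℝ} (h : 0 < ξ) : 0 < ellF ξ :=
  Real.log_pos (by have := one_div_pos.mpr h; linarith)

lemma ellF_ge {ξ : ℝ} (h : 0 < ξ) : 1 / (ξ + 1) ≤ ellF ξ := by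
  have hu : 0 < 1 + 1 / ξ := by positivity
  have := Real.one_sub_inv_le_log_of_pos hu
  have e : 1 - (1 + 1 / ξ)⁻¹ = 1 / (ξ + 1) := by
    field_simp
    ring
  rw [e] at this
  exact this

lemma hasDerivAt_ellF {ξ : ℝ} (h : 0 < ξ) : HasDerivAt ellF (-(1 / (ξ * (ξ + 1)))) ξ := by
  have h1 : HasDerivAt (fun z : ℝ => 1 + 1 / z) (-(1 / ξ ^ 2)) ξ := by
    have := (hasDerivAt_inv h.ne').const_add 1
    simpa [one_div] using this
  have h2 : (1 + 1 / ξ) ≠ 0 := by positivity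
  have h3 := h1.log h2
  unfold ellF
  convert h3 using 1
  field_simp

/-- Second derivative along a line, on abstract data. -/
lemma hasDerivAt_D {X Y B G : ℝ → ℝ} {τ p q : ℝ}
    (hX : HasDerivAt X p τ) (hY : HasDerivAt Y q τ)
    (hB : HasDerivAt B (-(1 / (X τ * (X τ + 1))) * p) τ)
    (hG : HasDerivAt G (-(1 / (Y τ * (Y τ + 1))) * q) τ)
    (hX0 : 0 < X τ) (hY0 : 0 < Y τ) (hB0 : 0 < B τ) :
    HasDerivAt
      (fun s => G s / B s * (p - q) + (X s - Y s) * G s / (X s * (X s + 1) * B s ^ 2) * p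
        - (X s - Y s) / (Y s * (Y s + 1) * B s) * q)
      (G τ * ((2 * X τ * Y τ + X τ + Y τ) * B τ + 2 * (X τ - Y τ))
            / ((X τ * (X τ + 1)) ^ 2 * B τ ^ 3) * p ^ 2
        + 2 * (-(X τ * (X τ + 1) * B τ + (X τ - Y τ) + Y τ * (Y τ + 1) * G τ)
            / (X τ * (X τ + 1) * (Y τ * (Y τ + 1)) * B τ ^ 2)) * p * q
        + (2 * X τ * Y τ + X τ + Y τ) / ((Y τ * (Y τ + 1)) ^ 2 * B τ) * q ^ 2) τ := by
  have hX1 : X τ + 1 ≠ 0 := by positivity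
  have hY1 : Y τ + 1 ≠ 0 := by positivity
  have hXne := hX0.ne'
  have hYne := hY0.ne'
  have hBne := hB0.ne'
  have h1 : HasDerivAt (fun s => G s / B s * (p - q)) _ τ := (hG.div hB hBne).mul_const (p - q)
  have hXX : HasDerivAt (fun s => X s * (X s + 1)) (p * (X τ + 1) + X τ * p) τ :=
    hX.mul (hX.add_const 1)
  have hYY : HasDerivAt (fun s => Y s * (Y s + 1)) (q * (Y τ + 1) + Y τ * q) τ :=
    hY.mul (hY.add_const 1)
  have h2 : HasDerivAt (fun s => (X s - Y s) * G s / (X s * (X s + 1) * B s ^ 2) * p) _ τ :=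
    (((hX.sub hY).mul hG).div (hXX.mul (hB.pow 2))
      (mul_ne_zero (mul_ne_zero hXne hX1) (pow_ne_zero _ hBne))).mul_const p
  have h3 : HasDerivAt (fun s => (X s - Y s) / (Y s * (Y s + 1) * B s) * q) _ τ :=
    ((hX.sub hY).div (hYY.mul hB) (mul_ne_zero (mul_ne_zero hYne hY1) hBne)).mul_const q
  have := (h1.add h2).sub h3
  refine HasDerivAt.congr_deriv this ?_
  simp only [Pi.mul_apply, Pi.sub_apply, Pi.pow_apply]
  norm_num
  field_simp
  ring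

/-- Convexity of `n` in the form of a tangent-plane inequality. -/
theorem n_tangent {x₀ y₀ x₁ y₁ : ℝ} (hx₀ : 0 < x₀) (hy₀ : 0 < y₀) (hx₁ : 0 < x₁) (hy₁ : 0 < y₁) :
    (x₀ - y₀) * ellF y₀ / ellF x₀
        + (ellF y₀ * (x₀ * (x₀ + 1) * ellF x₀ + (x₀ - y₀)) / (x₀ * (x₀ + 1) * ellF x₀ ^ 2))
            * (x₁ - x₀)
        + (-(y₀ * (y₀ + 1) * ellF y₀ + (x₀ - y₀)) / (y₀ * (y₀ + 1) * ellF x₀)) * (y₁ - y₀)
      ≤ (x₁ - y₁) * ellF y₁ / ellF x₁ := by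
  set p := x₁ - x₀ with hp
  set q := y₁ - y₀ with hq
  let X : ℝ → ℝ := fun s => x₀ + s * p
  let Y : ℝ → ℝ := fun s => y₀ + s * q
  have hX : ∀ s, HasDerivAt X p s := fun s => by
    simpa [X] using ((hasDerivAt_id s).mul_const p).const_add x₀
  have hY : ∀ s, HasDerivAt Y q s := fun s => by
    simpa [Y] using ((hasDerivAt_id s).mul_const q).const_add y₀
  have hXpos : ∀ s ∈ Set.Icc (0:ℝ) 1, 0 < X s := by
    intro s hs
    have : X s = (1 - s) * x₀ + s * x₁ := by simp only [X, hp]; ring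
    rw [this]
    rcases eq_or_lt_of_le hs.1 with h | h
    · subst h; simpa using hx₀
    · have : 0 ≤ 1 - s := by linarith [hs.2]
      positivity
  have hYpos : ∀ s ∈ Set.Icc (0:ℝ) 1, 0 < Y s := by
    intro s hs
    have : Y s = (1 - s) * y₀ + s * y₁ := by simp only [Y, hq]; ring
    rw [this]
    rcases eq_or_lt_of_le hs.1 with h | h
    · subst h; simpa using hy₀
    · have : 0 ≤ 1 - s := by linarith [hs.2]
      positivity
  let B : ℝ → ℝ := fun s => ellF (X s)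
  let G : ℝ → ℝ := fun s => ellF (Y s)
  have hB : ∀ s ∈ Set.Icc (0:ℝ) 1, HasDerivAt B (-(1 / (X s * (X s + 1))) * p) s := fun s hs =>
    (hasDerivAt_ellF (hXpos s hs)).comp s (hX s)
  have hG : ∀ s ∈ Set.Icc (0:ℝ) 1, HasDerivAt G (-(1 / (Y s * (Y s + 1))) * q) s := fun s hs =>
    (hasDerivAt_ellF (hYpos s hs)).comp s (hY s)
  have hBpos : ∀ s ∈ Set.Icc (0:ℝ) 1, 0 < B s := fun s hs => ellF_pos (hXpos s hs)
  have hGpos : ∀ s ∈ Set.Icc (0:ℝ) 1, 0 < G s := fun s hs => ellF_pos (hYpos s hs)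
  let φ : ℝ → ℝ := fun s => (X s - Y s) * G s / B s
  let D : ℝ → ℝ := fun s => G s / B s * (p - q) + (X s - Y s) * G s / (X s * (X s + 1) * B s ^ 2) * p
        - (X s - Y s) / (Y s * (Y s + 1) * B s) * q
  have hφ : ∀ s ∈ Set.Icc (0:ℝ) 1, HasDerivAt φ (D s) s := by
    intro s hs
    have hX0 := hXpos s hs
    have hY0 := hYpos s hs
    have hB0 := hBpos s hs
    have := ((hX s).sub (hY s)).mul (hG s hs) |>.div (hB s hs) hB0.ne'
    refine HasDerivAt.congr_deriv this ?_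
    dsimp only [D]
    simp only [Pi.mul_apply, Pi.sub_apply]
    field_simp
    ring
  have hD : ∀ s ∈ Set.Icc (0:ℝ) 1, ∃ E, 0 ≤ E ∧ HasDerivAt D E s := by
    intro s hs
    have hX0 := hXpos s hs
    have hY0 := hYpos s hs
    have hB0 := hBpos s hs
    have hG0 := hGpos s hs
    refine ⟨_, ?_, hasDerivAt_D (hX s) (hY s) (hB s hs) (hG s hs) hX0 hY0 hB0⟩
    have key := hess_key hX0 hY0
    change _ ≤ ellF (Y s) * _ * (_ * ellF (X s) + _) at key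
    change (_ * ellF (X s) + _ + _ * ellF (Y s)) ^ 2 ≤ _ at key
    set x := X s
    set y := Y s
    have hB' : B s = ellF x := rfl
    have hG' : G s = ellF y := rfl
    rw [hB', hG'] at *
    set β := ellF x
    set γ := ellF y
    set a := x * (x + 1) with ha
    set b := y * (y + 1) with hb
    set w := 2 * x * y + x + y with hw
    set d := x - y with hd
    have ha0 : 0 < a := by positivity
    have hb0 : 0 < b := by positivity
    have hw0 : 0 < w := by positivity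
    set A := γ * (w * β + 2 * d) / (a ^ 2 * β ^ 3) with hA
    set H := -(a * β + d + b * γ) / (a * b * β ^ 2) with hH
    set C := w / (b ^ 2 * β) with hC
    have hC0 : 0 < C := by positivity
    have hAC : H ^ 2 ≤ A * C := by
      have e1 : A * C - H ^ 2 = (γ * w * (w * β + 2 * d) - (a * β + d + b * γ) ^ 2)
          / (a ^ 2 * b ^ 2 * β ^ 4) := by
        rw [hA, hH, hC]
        field_simp
      have e2 : 0 ≤ A * C - H ^ 2 := by
        rw [e1]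
        apply div_nonneg _ (by positivity)
        linarith
      linarith
    have e3 : C * (A * p ^ 2 + 2 * H * p * q + C * q ^ 2)
        = (C * q + H * p) ^ 2 + (A * C - H ^ 2) * p ^ 2 := by ring
    have e4 : 0 ≤ C * (A * p ^ 2 + 2 * H * p * q + C * q ^ 2) := by
      rw [e3]
      have : 0 ≤ A * C - H ^ 2 := by linarith
      positivity
    exact nonneg_of_mul_nonneg_right e4 hC0
  have hDmono : MonotoneOn D (Set.Icc 0 1) := by
    apply monotoneOn_of_deriv_nonneg (convex_Icc 0 1)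
    · intro s hs
      obtain ⟨E, _, h⟩ := hD s hs
      exact h.continuousAt.continuousWithinAt
    · intro s hs
      have hs' := interior_subset hs
      obtain ⟨E, _, h⟩ := hD s hs'
      exact h.differentiableAt.differentiableWithinAt
    · intro s hs
      have hs' := interior_subset hs
      obtain ⟨E, hE, h⟩ := hD s hs'
      rw [h.deriv]
      exact hE
  obtain ⟨ξ, hξ, hξ'⟩ := exists_hasDerivAt_eq_slope φ D (zero_lt_one (α := ℝ))
    (fun s hs => (hφ s hs).continuousAt.continuousWithinAt)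
    (fun s hs => hφ s (Set.Ioo_subset_Icc_self hs))
  have hD0 : D 0 ≤ D ξ := hDmono (Set.left_mem_Icc.mpr zero_le_one)
    (Set.Ioo_subset_Icc_self hξ) hξ.1.le
  have hφ0 : φ 0 = (x₀ - y₀) * ellF y₀ / ellF x₀ := by simp [φ, X, Y, B, G]
  have hφ1 : φ 1 = (x₁ - y₁) * ellF y₁ / ellF x₁ := by
    simp [φ, X, Y, B, G, hp, hq]
  have hD00 : D 0 = (ellF y₀ * (x₀ * (x₀ + 1) * ellF x₀ + (x₀ - y₀)) / (x₀ * (x₀ + 1) * ellF x₀ ^ 2))
            * p
        + (-(y₀ * (y₀ + 1) * ellF y₀ + (x₀ - y₀)) / (y₀ * (y₀ + 1) * ellF x₀)) * q := by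
    simp only [D, X, Y, B, G, zero_mul, add_zero]
    have := (ellF_pos hx₀).ne'
    field_simp
    ring
  have hslope : φ 1 - φ 0 = D ξ := by
    rw [hξ']
    simp
  rw [← hφ1]
  have : φ 1 = φ 0 + D ξ := by linarith
  rw [this, hφ0]
  rw [hD00] at hD0
  linarith

/-- Tangent-plane inequality for `Nb` in the variables `(ρ,δ,v) = (rδ,δ,v)`. -/
theorem Nb_tangent {t Δ V : ℝ} (ht : 0 < t) (hΔ : 0 < Δ) (hV : 0 < V) :
    ∃ c₁ c₂ c₃ : ℝ, (c₁ * t + c₂) * Δ + c₃ * V = Nb t Δ V ∧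
      ∀ r δ v : ℝ, 0 < r → 0 ≤ δ → 0 < v → (c₁ * r + c₂) * δ + c₃ * v ≤ Nb r δ v := by
  set x₀ := t with hx₀'
  set y₀ := V / Δ with hy₀'
  have hx₀ : 0 < x₀ := ht
  have hy₀ : 0 < y₀ := by positivity
  have hβ : 0 < ellF x₀ := ellF_pos hx₀
  have hγ : 0 < ellF y₀ := ellF_pos hy₀
  set c₁ := ellF y₀ * (x₀ * (x₀ + 1) * ellF x₀ + (x₀ - y₀)) / (x₀ * (x₀ + 1) * ellF x₀ ^ 2) with hc₁
  set c₃ := -(y₀ * (y₀ + 1) * ellF y₀ + (x₀ - y₀)) / (y₀ * (y₀ + 1) * ellF x₀) with hc₃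
  set n₀ := (x₀ - y₀) * ellF y₀ / ellF x₀ with hn₀
  have hNb : ∀ r δ v : ℝ, 0 < δ → 0 < v →
      Nb r δ v = δ * ((r - v / δ) * ellF (v / δ) / ellF r) := by
    intro r δ v hδ hv
    have e : ellF (v / δ) = Real.log (1 + δ / v) := by
      unfold ellF
      congr 2
      field_simp
    rw [e]
    unfold Nb betaF ellF
    field_simp
  refine ⟨c₁, n₀ - x₀ * c₁ - y₀ * c₃, c₃, ?_, ?_⟩
  · rw [hNb t Δ V hΔ hV]
    have e : (c₁ * t + (n₀ - x₀ * c₁ - y₀ * c₃)) * Δ + c₃ * V = n₀ * Δ + c₃ * (V - y₀ * Δ) := by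
      rw [hx₀']
      ring
    rw [e]
    have e2 : V - y₀ * Δ = 0 := by
      rw [hy₀']
      field_simp
      ring
    rw [e2, mul_zero, add_zero, mul_comm]
  · intro r δ v hr hδ hv
    rcases eq_or_lt_of_le hδ with h | h
    · subst h
      have hc : c₃ ≤ 0 := by
        have h1 : 1 / (y₀ + 1) ≤ ellF y₀ := ellF_ge hy₀
        have h2 : y₀ ≤ y₀ * (y₀ + 1) * ellF y₀ := by
          have : y₀ * (y₀ + 1) * (1 / (y₀ + 1)) = y₀ := by field_simp
          calc y₀ = y₀ * (y₀ + 1) * (1 / (y₀ + 1)) := this.symm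
            _ ≤ y₀ * (y₀ + 1) * ellF y₀ := by
              apply mul_le_mul_of_nonneg_left h1 (by positivity)
        rw [hc₃]
        apply div_nonpos_of_nonpos_of_nonneg _ (by positivity)
        have : 0 ≤ y₀ * (y₀ + 1) * ellF y₀ + (x₀ - y₀) := by linarith
        linarith
      have e : Nb r 0 v = 0 := by simp [Nb]
      rw [e]
      have : c₃ * v ≤ 0 := mul_nonpos_of_nonpos_of_nonneg hc hv.le
      simpa using this
    · rw [hNb r δ v h hv]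
      have hy₁ : 0 < v / δ := by positivity
      have key := n_tangent hx₀ hy₀ hr hy₁
      rw [← hc₁, ← hc₃, ← hn₀] at key
      have e : (c₁ * r + (n₀ - x₀ * c₁ - y₀ * c₃)) * δ + c₃ * v
          = δ * (n₀ + c₁ * (r - x₀) + c₃ * (v / δ - y₀)) := by
        field_simp
        ring
      rw [e]
      exact mul_le_mul_of_nonneg_left key h.le

end

end Vale.Agent.Lib.P369
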