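import Vale.Agent.Lib.P369.MainM

/-!
# JOB M13: truncation lemmas, several modes (P369)

Let `a` be nonnegative, antitone, `HasSum a 1`, finite mean `Summable (k ↦ tot k * a k)`; same for `b`.

(a) `entropyM_summable`: if `0 ≤ f ≤ 1`, `Summable f`, `Summable (k ↦ tot k * f k)`, then `Summable (negMulLog ∘ f)`:
    `negMulLog t ≤ (tot k+1) t + exp(-(tot k+2))` for `t ∈ [0,1]` (since `-t log t - c t ≤ exp(-c-1)`, `c = tot k+1`), and `negMulLog ≥ 0`; `exp(-tot k)` summable by `summable_pow_tot`.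

(b) `bsOutM_mean`: `c = bsOutM η a b` satisfies `Summable (k ↦ tot k * c k)`: `∑_k tot k kerM η k m l ≤ (tot m + tot l) ∑_k kerM η k m l = tot m + tot l`, as `tot k ≤ tot m + tot l` on the support (`kerM_eq_zero`, `sum_kerM`); so (Tonelli) the total is `≤ ∑_{m,l} a m b l (tot m + tot l) = mean a + mean b < ∞`.

(c) Truncation.  `Z_L = ∑_{k∈box L} a k > 0` for all `L` (`a 0 > 0`), `Z_L → 1` (boxes exhaust `ι → ℕ`; `HasSum` with `tendsto_finset_sum`-like lemma, the boxes tend to `atTop` in `Finset (ι→ℕ)`). `truncM a L k = a k/Z_L` for `k ∈ box`, `0` otherwise: `FinPassiveM (truncM a L) L`.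
   `S(a^L) = (1/Z_L) ∑_{k∈box} negMulLog(a k) + log Z_L → S(a)`.

(d) Let `θ = Z_L Z'_L`.  `C^L = bsOutM η a^L b^L`: `c k = θ C^L k + R' k`, `R' k = ∑_{(m,l) ∉ box×box} a m b l kerM η k m l ≥ 0`, `∑_k R' k = 1 - θ` so `R' k ≤ 1 - θ`.
   If `θ < 1`, `R k = R' k/(1-θ) ∈ [0,1]`, and by concavity of `negMulLog` (`Real.concaveOn_negMulLog`):
   `negMulLog(c k) ≥ θ negMulLog(C^L k) + (1-θ) negMulLog(R k) ≥ θ negMulLog(C^L k)`.  (If `θ = 1`, `c = C^L`.)  `C^L` is finitely supported (in the box of size `2L`) so `negMulLog C^L` is summable. So `S(c) ≥ θ S(C^L)`.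
-/

namespace Vale.Agent.Lib.P369

open Set Finset

noncomputable section

variable {ι : Type*} [Fintype ι] [DecidableEq ι] {η r s : ℝ} {a b : (ι → ℕ) → ℝ} {L' : ℕ}

/-- Partial mass on the box. -/
def Zm (a : (ι → ℕ) → ℝ) (L : ℕ) : ℝ := ∑ k ∈ boxF L, a k

/-- Truncated normalised distribution. -/
def truncM (a : (ι → ℕ) → ℝ) (L : ℕ) (k : ι → ℕ) : ℝ := if k ∈ boxF L then a k / Zm a L else 0

private lemma negMulLog_le_aux {t c : ℝ} (h0 : 0 ≤ t) :
    Real.negMulLog t ≤ c * t + Real.exp (-(c + 1)) := by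
  rcases h0.eq_or_lt with rfl | ht
  · simp [Real.exp_pos, le_of_lt]
  · have h1 := Real.add_one_le_exp (-(Real.log t + c + 1))
    have h2 : Real.exp (-(Real.log t + c + 1)) = Real.exp (-(c + 1)) / t := by
      rw [show -(Real.log t + c + 1) = -(c + 1) - Real.log t by ring, Real.exp_sub,
        Real.exp_log ht]
    rw [h2] at h1
    have h3 : (-(Real.log t + c + 1) + 1) * t ≤ Real.exp (-(c + 1)) := by
      calc (-(Real.log t + c + 1) + 1) * t ≤ Real.exp (-(c + 1)) / t * t :=
            mul_le_mul_of_nonneg_right h1 ht.le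
        _ = Real.exp (-(c + 1)) := by field_simp
    unfold Real.negMulLog
    nlinarith

private lemma summable_exp_tot :
    Summable (fun k : ι → ℕ => Real.exp (-(((tot k : ℝ) + 1) + 1))) := by
  have hw1 : Real.exp (-1) < 1 := by
    have : Real.exp (-1) < Real.exp 0 := Real.exp_lt_exp.2 (by norm_num)
    simpa using this
  have h := summable_pow_tot (ι := ι) 0 (Real.exp_pos (-1)).le hw1
  refine Summable.of_nonneg_of_le (fun k => (Real.exp_pos _).le) (fun k => ?_) h
  simp only [pow_zero, one_mul]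
  rw [← Real.exp_nat_mul]
  apply Real.exp_le_exp.2
  linarith [(Nat.cast_nonneg (tot k) : (0 : ℝ) ≤ (tot k : ℝ))]

private lemma tot_le_of_kerM_ne_trunc {k m l : ι → ℕ} (h : kerM η k m l ≠ 0) : tot k ≤ tot m + tot l := by
  unfold tot
  rw [← Finset.sum_add_distrib]
  refine Finset.sum_le_sum fun j _ => ?_
  by_contra hcon
  exact h (kerM_eq_zero j (not_le.mp hcon))

private lemma summable_term (hη : 0 ≤ η) (hη1 : η ≤ 1) (ha0 : ∀ k, 0 ≤ a k) (hb0 : ∀ k, 0 ≤ b k)
    (hsa : Summable a) (hsb : Summable b) (k : ι → ℕ) :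
    Summable (fun x : (ι → ℕ) × (ι → ℕ) => a x.1 * b x.2 * kerM η k x.1 x.2) := by
  have h := Summable.mul_of_nonneg hsa hsb ha0 hb0
  refine Summable.of_nonneg_of_le (fun x => ?_) (fun x => ?_) h
  · exact mul_nonneg (mul_nonneg (ha0 _) (hb0 _)) (kerM_nonneg _ _ _)
  · have := kerM_le_one hη hη1 k x.1 x.2
    have h2 := mul_le_mul_of_nonneg_left this (mul_nonneg (ha0 x.1) (hb0 x.2))
    calc _ ≤ _ := h2
      _ = _ := by ring

private lemma zero_pos_of (ha0 : ∀ k, 0 ≤ a k) (haa : Antitone a) (hsa : HasSum a 1) : 0 < a 0 := by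
  rcases (ha0 0).eq_or_lt with h | h
  · exfalso
    have hz : ∀ k, a k = 0 := fun k =>
      le_antisymm (h ▸ haa (show (0 : ι → ℕ) ≤ k from fun i => Nat.zero_le _)) (ha0 k)
    have : HasSum a 0 := by
      have hf : a = fun _ => 0 := funext hz
      rw [hf]
      exact hasSum_zero
    exact one_ne_zero (hsa.unique this)
  · exact h

private lemma mem_boxF {L : ℕ} {k : ι → ℕ} : k ∈ boxF (ι := ι) L ↔ ∀ i, k i ≤ L := by
  unfold boxF
  simp only [Fintype.mem_piFinset, Finset.mem_range]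
  exact ⟨fun h i => by have := h i; omega, fun h i => by have := h i; omega⟩

private lemma tendsto_boxF :
    Filter.Tendsto (boxF (ι := ι)) Filter.atTop Filter.atTop := by
  refine Filter.tendsto_atTop_finset_of_monotone ?_ ?_
  · intro L L' hLL k hk
    rw [mem_boxF] at hk ⊢
    exact fun i => (hk i).trans hLL
  · intro k
    refine ⟨tot k, ?_⟩
    rw [mem_boxF]
    exact fun i => le_tot k i

private lemma Zm_le_one (ha0 : ∀ k, 0 ≤ a k) (hsa : HasSum a 1) (L : ℕ) : Zm a L ≤ 1 :=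
  sum_le_hasSum _ (fun k _ => ha0 k) hsa

private lemma truncM_hasSum (ha0 : ∀ k, 0 ≤ a k) (haa : Antitone a) (hsa : HasSum a 1)
    (hZ : ∀ L, 0 < Zm a L) (L : ℕ) : HasSum (truncM a L) 1 := by
  have h2 : HasSum (truncM a L) (∑ k ∈ boxF L, truncM a L k) :=
    hasSum_sum_of_ne_finset_zero (fun k hk => by
      unfold truncM
      rw [if_neg hk])
  have h3 : ∑ k ∈ boxF L, truncM a L k = 1 := by
    have h : ∀ k ∈ boxF (ι := ι) L, truncM a L k = a k / Zm a L := by
      intro k hk
      unfold truncM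
      rw [if_pos hk]
    rw [Finset.sum_congr rfl h, ← Finset.sum_div]
    exact div_self (hZ L).ne'
  rwa [h3] at h2

private lemma negMulLog_div (x : ℝ) {z : ℝ} (hz : 0 < z) :
    Real.negMulLog (x / z) = Real.negMulLog x / z + x / z * Real.log z := by
  unfold Real.negMulLog
  by_cases hx : x = 0
  · simp [hx]
  · rw [Real.log_div hx hz.ne']
    field_simp
    ring

private lemma entropyM_truncM_eq (hZ : 0 < Zm a L') :
    entropyM (truncM a L') =
      (∑ k ∈ boxF L', Real.negMulLog (a k)) / Zm a L' + Real.log (Zm a L') := by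
  unfold entropyM
  rw [tsum_eq_sum (s := boxF L')]
  · have h : ∀ k ∈ boxF (ι := ι) L', Real.negMulLog (truncM a L' k) =
        Real.negMulLog (a k) / Zm a L' + a k * (Real.log (Zm a L') / Zm a L') := by
      intro k hk
      unfold truncM
      rw [if_pos hk, negMulLog_div _ hZ]
      ring
    rw [Finset.sum_congr rfl h, Finset.sum_add_distrib, ← Finset.sum_div, ← Finset.sum_mul]
    congr 1
    change Zm a L' * _ = _
    field_simp
  · intro k hk
    unfold truncM
    rw [if_neg hk]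
    simp

lemma entropyM_summable {f : (ι → ℕ) → ℝ} (h0 : ∀ k, 0 ≤ f k) (h1 : ∀ k, f k ≤ 1)
    (hm : Summable (fun k => (tot k : ℝ) * f k)) (hs : Summable f) :
    Summable (fun k => Real.negMulLog (f k)) := by
  refine Summable.of_nonneg_of_le (fun k => Real.negMulLog_nonneg (h0 k) (h1 k)) (fun k => ?_)
    ((hm.add hs).add (summable_exp_tot (ι := ι)))
  have h2 := negMulLog_le_aux (c := (tot k : ℝ) + 1) (h0 k)
  calc _ ≤ _ := h2
    _ = _ := by ring

lemma bsOutM_mean (hη : 0 ≤ η) (hη1 : η ≤ 1) (ha0 : ∀ k, 0 ≤ a k) (hb0 : ∀ k, 0 ≤ b k)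
    (hsa : HasSum a 1) (hsb : HasSum b 1)
    (hma : Summable (fun k => (tot k : ℝ) * a k)) (hmb : Summable (fun k => (tot k : ℝ) * b k)) :
    Summable (fun k => (tot k : ℝ) * bsOutM η a b k) := by
  set F : ((ι → ℕ) × (ι → ℕ)) × (ι → ℕ) → ℝ := fun y =>
    (tot y.2 : ℝ) * (a y.1.1 * b y.1.2 * kerM η y.2 y.1.1 y.1.2) with hF
  have hF0 : 0 ≤ F := by
    intro y
    exact mul_nonneg (Nat.cast_nonneg _)
      (mul_nonneg (mul_nonneg (ha0 _) (hb0 _)) (kerM_nonneg _ _ _))
  have hFle : ∀ x : (ι → ℕ) × (ι → ℕ), ∀ k, F (x, k) ≤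
      ((tot x.1 : ℝ) + tot x.2) * (a x.1 * b x.2) * kerM η k x.1 x.2 := by
    intro x k
    simp only [hF]
    by_cases hk : kerM η k x.1 x.2 = 0
    · simp [hk]
    · have h1 : (tot k : ℝ) ≤ (tot x.1 : ℝ) + tot x.2 := by
        exact_mod_cast tot_le_of_kerM_ne_trunc hk
      have hnn : 0 ≤ a x.1 * b x.2 * kerM η k x.1 x.2 :=
        mul_nonneg (mul_nonneg (ha0 _) (hb0 _)) (kerM_nonneg _ _ _)
      calc (tot k : ℝ) * (a x.1 * b x.2 * kerM η k x.1 x.2)
          ≤ ((tot x.1 : ℝ) + tot x.2) * (a x.1 * b x.2 * kerM η k x.1 x.2) :=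
            mul_le_mul_of_nonneg_right h1 hnn
        _ = _ := by ring
  have hsumk : ∀ x : (ι → ℕ) × (ι → ℕ),
      HasSum (fun k => ((tot x.1 : ℝ) + tot x.2) * (a x.1 * b x.2) * kerM η k x.1 x.2)
        (((tot x.1 : ℝ) + tot x.2) * (a x.1 * b x.2) * 1) :=
    fun x => (sum_kerM hη hη1 x.1 x.2).mul_left _
  have hbound : ∀ x : (ι → ℕ) × (ι → ℕ), ∑' k, F (x, k) ≤
      ((tot x.1 : ℝ) * a x.1) * b x.2 + a x.1 * ((tot x.2 : ℝ) * b x.2) := by
    intro x
    have h1 : Summable (fun k => F (x, k)) :=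
      Summable.of_nonneg_of_le (fun k => hF0 (x, k)) (hFle x) (hsumk x).summable
    have h2 := h1.tsum_le_tsum (hFle x) (hsumk x).summable
    rw [(hsumk x).tsum_eq] at h2
    refine h2.trans (le_of_eq ?_)
    ring
  have hsumm : Summable (fun x : (ι → ℕ) × (ι → ℕ) =>
      ((tot x.1 : ℝ) * a x.1) * b x.2 + a x.1 * ((tot x.2 : ℝ) * b x.2)) := by
    exact (Summable.mul_of_nonneg hma hsb.summable
        (fun k => mul_nonneg (Nat.cast_nonneg _) (ha0 k)) hb0).add
      (Summable.mul_of_nonneg hsa.summable hmb ha0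
        (fun k => mul_nonneg (Nat.cast_nonneg _) (hb0 k)))
  have hFs : Summable F := by
    rw [summable_prod_of_nonneg hF0]
    refine ⟨fun x => Summable.of_nonneg_of_le (fun k => hF0 (x, k)) (hFle x) (hsumk x).summable, ?_⟩
    refine Summable.of_nonneg_of_le (fun x => ?_) hbound hsumm
    exact tsum_nonneg (fun k => hF0 (x, k))
  have h2 := hFs.prod_symm.prod
  refine h2.congr (fun k => ?_)
  unfold bsOutM
  rw [← tsum_mul_left]
  refine tsum_congr (fun x => ?_)
  rfl

lemma Zm_pos (ha0 : ∀ k, 0 ≤ a k) (haa : Antitone a) (hsa : HasSum a 1) (L : ℕ) : 0 < Zm a L := by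
  have h := zero_pos_of ha0 haa hsa
  unfold Zm
  refine Finset.sum_pos' (fun k _ => ha0 k) ⟨0, ?_, h⟩
  rw [mem_boxF]
  intro i
  simp

lemma Zm_tendsto (hsa : HasSum a 1) : Filter.Tendsto (Zm a) Filter.atTop (nhds 1) := by
  exact hsa.comp tendsto_boxF

lemma truncM_finPassive (ha0 : ∀ k, 0 ≤ a k) (haa : Antitone a) (hsa : HasSum a 1) (L : ℕ) :
    FinPassiveM (truncM a L) L := by
  have hZ := Zm_pos ha0 haa hsa L
  refine ⟨fun k => ?_, fun i j hij => ?_, fun k hk => ?_, ?_⟩
  · unfold truncM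
    split_ifs
    · exact div_nonneg (ha0 k) hZ.le
    · exact le_rfl
  · unfold truncM
    split_ifs with h1 h2 h2
    · exact div_le_div_of_nonneg_right (haa hij) hZ.le
    · exact absurd (mem_boxF.mpr fun t => (hij t).trans (mem_boxF.mp h1 t)) h2
    · exact div_nonneg (ha0 i) hZ.le
    · exact le_rfl
  · unfold truncM
    rw [if_neg hk]
  · have h : ∀ k ∈ boxF (ι := ι) L, truncM a L k = a k / Zm a L := by
      intro k hk
      unfold truncM
      rw [if_pos hk]
    rw [Finset.sum_congr rfl h, ← Finset.sum_div]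
    exact div_self hZ.ne'

/-- `S(a^L) → S(a)`. -/
lemma entropyM_truncM_tendsto (ha0 : ∀ k, 0 ≤ a k) (haa : Antitone a) (hsa : HasSum a 1)
    (hsum : Summable (fun k => Real.negMulLog (a k))) :
    Filter.Tendsto (fun L => entropyM (truncM a L)) Filter.atTop (nhds (entropyM a)) := by
  have h1 : Filter.Tendsto (fun L : ℕ => ∑ k ∈ boxF (ι := ι) L, Real.negMulLog (a k))
      Filter.atTop (nhds (entropyM a)) :=
    hsum.hasSum.comp tendsto_boxF
  have h2 := Zm_tendsto hsa
  have h3 : Filter.Tendsto (fun L => Real.log (Zm a L)) Filter.atTop (nhds 0) := by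
    have := h2.log one_ne_zero
    simpa using this
  have h4 := (h1.div h2 one_ne_zero).add h3
  simp only [div_one, add_zero] at h4
  refine h4.congr (fun L => ?_)
  exact (entropyM_truncM_eq (Zm_pos ha0 haa hsa L)).symm

/-- Concavity step (d). -/
lemma entropyM_bsOutM_truncM (hη : 0 ≤ η) (hη1 : η ≤ 1)
    (ha0 : ∀ k, 0 ≤ a k) (haa : Antitone a) (hsa : HasSum a 1)
    (hb0 : ∀ k, 0 ≤ b k) (hba : Antitone b) (hsb : HasSum b 1)
    (hsum : Summable (fun k => Real.negMulLog (bsOutM η a b k))) (L : ℕ) :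
    Zm a L * Zm b L * entropyM (bsOutM η (truncM a L) (truncM b L)) ≤ entropyM (bsOutM η a b) := by
  have hZp := Zm_pos ha0 haa hsa L
  have hZq := Zm_pos hb0 hba hsb L
  have hZp1 := Zm_le_one ha0 hsa L
  have hZq1 := Zm_le_one hb0 hsb L
  set θ := Zm a L * Zm b L with hθ
  have hθ0 : 0 < θ := mul_pos hZp hZq
  have hθ1 : θ ≤ 1 := by nlinarith
  have hP := truncM_finPassive ha0 haa hsa L
  have hQ := truncM_finPassive hb0 hba hsb L
  have hPs := truncM_hasSum ha0 haa hsa (Zm_pos ha0 haa hsa) L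
  have hQs := truncM_hasSum hb0 hba hsb (Zm_pos hb0 hba hsb) L
  set P := truncM a L with hPdef
  set Q := truncM b L with hQdef
  set C := bsOutM η P Q with hCdef
  set c := bsOutM η a b with hcdef
  have hC0 : ∀ k, 0 ≤ C k := bsOutM_nonneg hη hη1 hP.nonneg hQ.nonneg
  have hc0 : ∀ k, 0 ≤ c k := bsOutM_nonneg hη hη1 ha0 hb0
  have hCs : HasSum C 1 := bsOutM_hasSum hη hη1 hP.nonneg hQ.nonneg hPs hQs
  have hcs : HasSum c 1 := bsOutM_hasSum hη hη1 ha0 hb0 hsa hsb
  -- the pointwise comparison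
  have hle : ∀ k, θ * C k ≤ c k := by
    intro k
    have hA := summable_term hη hη1 ha0 hb0 hsa.summable hsb.summable k
    have hB := summable_term hη hη1 hP.nonneg hQ.nonneg hPs.summable hQs.summable k
    simp only [hCdef, hcdef]
    unfold bsOutM
    rw [← tsum_mul_left]
    refine hB.mul_left θ |>.tsum_le_tsum (fun x => ?_) hA
    have hBk := kerM_nonneg (η := η) k x.1 x.2
    have hpq : θ * (P x.1 * Q x.2) ≤ a x.1 * b x.2 := by
      simp only [hPdef, hQdef, hθ]
      unfold truncM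
      split_ifs with h1 h2 h2
      · apply le_of_eq
        field_simp
      · simpa using mul_nonneg (ha0 x.1) (hb0 x.2)
      · simpa using mul_nonneg (ha0 x.1) (hb0 x.2)
      · simpa using mul_nonneg (ha0 x.1) (hb0 x.2)
    calc θ * (P x.1 * Q x.2 * kerM η k x.1 x.2) = θ * (P x.1 * Q x.2) * kerM η k x.1 x.2 := by ring
      _ ≤ a x.1 * b x.2 * kerM η k x.1 x.2 := mul_le_mul_of_nonneg_right hpq hBk
  -- the remainder has small total mass
  have hR : HasSum (fun k => c k - θ * C k) (1 - θ) := by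
    have := hcs.sub (hCs.mul_left θ)
    simpa only [mul_one] using this
  have hRle : ∀ k, c k - θ * C k ≤ 1 - θ := fun k =>
    le_hasSum hR k (fun j _ => sub_nonneg.2 (hle j))
  -- pointwise concavity
  have hconc : ∀ k, θ * Real.negMulLog (C k) ≤ Real.negMulLog (c k) := by
    intro k
    have hCK := hC0 k
    have hR0 := sub_nonneg.2 (hle k)
    rcases hθ1.eq_or_lt with h1 | h1
    · have h2 := hRle k
      have : c k = C k := by
        rw [h1] at h2 hR0
        nlinarith
      rw [this, h1, one_mul]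
    · have hd : 0 < 1 - θ := by linarith
      set R := (c k - θ * C k) / (1 - θ) with hRdef
      have hR00 : 0 ≤ R := div_nonneg hR0 hd.le
      have hR1 : R ≤ 1 := (div_le_one hd).2 (hRle k)
      have hcomb : θ • C k + (1 - θ) • R = c k := by
        simp only [smul_eq_mul, hRdef]
        field_simp
        ring
      have h3 := Real.concaveOn_negMulLog.2 (x := C k) (y := R) (Set.mem_Ici.2 hCK)
        (Set.mem_Ici.2 hR00) hθ0.le hd.le (by ring)
      rw [hcomb] at h3
      simp only [smul_eq_mul] at h3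
      have h4 := Real.negMulLog_nonneg hR00 hR1
      nlinarith [mul_nonneg hd.le h4]
  -- finite support of the truncated output
  have hsupp : ∀ k, k ∉ boxF (ι := ι) (2 * L) → C k = 0 := by
    intro k hk
    simp only [hCdef]
    unfold bsOutM
    rw [show (fun x : (ι → ℕ) × (ι → ℕ) => P x.1 * Q x.2 * kerM η k x.1 x.2) = fun _ => 0 from ?_,
      tsum_zero]
    funext x
    rw [mem_boxF] at hk
    simp only [not_forall, not_le] at hk
    obtain ⟨j, hj⟩ := hk
    by_cases h1 : x.1 ∈ boxF (ι := ι) L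
    · by_cases h2 : x.2 ∈ boxF (ι := ι) L
      · have h3 := mem_boxF.mp h1 j
        have h4 := mem_boxF.mp h2 j
        rw [kerM_eq_zero j (by omega), mul_zero]
      · rw [hQ.support x.2 h2]
        simp
    · rw [hP.support x.1 h1]
      simp
  have hsumC : Summable (fun k => θ * Real.negMulLog (C k)) := by
    refine summable_of_ne_finset_zero (s := boxF (2 * L)) (fun k hk => ?_)
    rw [hsupp k hk]
    simp
  unfold entropyM
  rw [← tsum_mul_left]
  exact hsumC.tsum_le_tsum hconc hsum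

end

end Vale.Agent.Lib.P369
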